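import Mathlib

namespace Vale.Agent.P075

open Finset

abbrev G (N : ℕ) : Type := Fin N → ZMod 2

def Low {N : ℕ} (j : ℕ) (t : G N) : Prop := ∀ i : Fin N, (i : ℕ) < j → t i = 0

instance {N : ℕ} (j : ℕ) (t : G N) : Decidable (Low j t) := by
  unfold Low; infer_instance

def sg {N : ℕ} (j : ℕ) (t : G N) : ℝ :=
  if h : j < N then (if t ⟨j, h⟩ = 0 then 1 else -1) else 1

noncomputable def kj {N : ℕ} (j : ℕ) (t : G N) : ℝ :=
  if Low j t then sg j t / 2 ^ (N - j) else 0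

noncomputable def Lam {N : ℕ} (j : ℕ) (F₀ F₁ F₂ : G N → G N → ℝ) : ℝ :=
  ∑ x, ∑ y, ∑ z, kj j (x + y + z) * F₀ x y * F₁ y z * F₂ z x

noncomputable def l2 {N : ℕ} (F : G N → G N → ℝ) : ℝ := Real.sqrt (∑ x, ∑ y, F x y ^ 2)

end Vale.Agent.P075
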