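import Vale.Agent.P075.Basic

namespace Vale.Agent.P075

open Finset

variable {N : ℕ}

theorem add_self_G (x : G N) : x + x = 0 := by
  funext i
  simp only [Pi.add_apply, Pi.zero_apply]
  exact CharTwo.add_self_eq_zero (x i)

theorem neg_G (x : G N) : -x = x := by
  rw [neg_eq_iff_add_eq_zero]; exact add_self_G x

theorem add_add_self_G (x y : G N) : x + (x + y) = y := by
  rw [← add_assoc, add_self_G, zero_add]

theorem add_self_add_G (x y : G N) : x + y + y = x := by
  rw [add_assoc, add_self_G, add_zero]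

theorem Low_zero (t : G N) : Low 0 t := fun _ hi => absurd hi (Nat.not_lt_zero _)

theorem Low_of_zero (j : ℕ) : Low j (0 : G N) := fun _ _ => rfl

theorem Low_add {j : ℕ} {s t : G N} (hs : Low j s) (ht : Low j t) : Low j (s + t) := by
  intro i hi
  simp only [Pi.add_apply, hs i hi, ht i hi, add_zero]

theorem Low_mono {j k : ℕ} (hjk : j ≤ k) {t : G N} (ht : Low k t) : Low j t :=
  fun i hi => ht i (lt_of_lt_of_le hi hjk)

theorem Low_add_iff {j : ℕ} {s t : G N} (hs : Low j s) : Low j (s + t) ↔ Low j t := by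
  constructor
  · intro h
    have := Low_add hs h
    rwa [add_add_self_G] at this
  · exact fun h => Low_add hs h

theorem Low_ge_iff {j : ℕ} (hj : N ≤ j) (t : G N) : Low j t ↔ t = 0 := by
  constructor
  · intro h; funext i; exact h i (lt_of_lt_of_le i.2 hj)
  · rintro rfl; exact Low_of_zero j

theorem Low_comm {j : ℕ} {s t : G N} : Low j (s + t) ↔ Low j (t + s) := by rw [add_comm]

/-- translation bijection -/
theorem sum_translate {M : Type*} [AddCommMonoid M] (f : G N → M) (a : G N) :
    ∑ t, f (t + a) = ∑ t, f t :=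
  Equiv.sum_comp (Equiv.addRight a) f

theorem card_Low {j : ℕ} (hj : j ≤ N) :
    (univ.filter (fun t : G N => Low j t)).card = 2 ^ (N - j) := by
  classical
  have h1 : (univ.filter (fun t : G N => Low j t)) =
      Fintype.piFinset (fun i : Fin N => if (i : ℕ) < j then ({0} : Finset (ZMod 2)) else univ) := by
    ext t
    simp only [mem_filter, mem_univ, true_and, Fintype.mem_piFinset]
    constructor
    · intro h i
      by_cases hi : (i : ℕ) < j
      · simp [hi, h i hi]
      · simp [hi]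
    · intro h i hi
      have := h i
      simpa [hi] using this
  rw [h1, Fintype.card_piFinset]
  have h2 : ∀ i : Fin N, (if (i : ℕ) < j then ({0} : Finset (ZMod 2)) else univ).card =
      if (i : ℕ) < j then 1 else 2 := by
    intro i
    split_ifs <;> simp [ZMod.card]
  simp only [h2]
  rw [Finset.prod_ite]
  simp only [prod_const_one, prod_const, one_mul]
  congr 1
  have h3 : (univ.filter (fun i : Fin N => ¬ (i : ℕ) < j)).card = N - j := by
    have h4 : (univ.filter (fun i : Fin N => (i : ℕ) < j)).card = j := by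
      have : (univ.filter (fun i : Fin N => (i : ℕ) < j)) =
          (univ : Finset (Fin j)).map (Fin.castLEEmb hj) := by
        ext i
        simp only [mem_filter, mem_univ, true_and, mem_map, Fin.castLEEmb_apply]
        constructor
        · intro h
          exact ⟨⟨i, h⟩, Fin.ext rfl⟩
        · rintro ⟨a, rfl⟩
          exact a.2
      rw [this, card_map, card_univ, Fintype.card_fin]
    have h5 := Finset.card_filter_add_card_filter_not (s := (univ : Finset (Fin N)))
      (fun i : Fin N => (i : ℕ) < j)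
    rw [h4, card_univ, Fintype.card_fin] at h5
    omega
  exact h3

theorem card_coset {j : ℕ} (hj : j ≤ N) (x : G N) :
    (univ.filter (fun t : G N => Low j (t + x))).card = 2 ^ (N - j) := by
  classical
  rw [← card_Low hj]
  refine Finset.card_bij (fun t _ => t + x) ?_ ?_ ?_
  · intro t ht
    simpa using ht
  · intro s _ t _ h
    exact add_right_cancel h
  · intro t ht
    refine ⟨t + x, ?_, ?_⟩
    · simp only [mem_filter, mem_univ, true_and] at ht ⊢
      rwa [add_self_add_G]
    · exact add_self_add_G t x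

theorem card_coset' {j : ℕ} (hj : j ≤ N) (x : G N) :
    (univ.filter (fun t : G N => Low j (x + t))).card = 2 ^ (N - j) := by
  rw [← card_coset hj x]
  congr 1
  ext t
  simp only [mem_filter, mem_univ, true_and]
  rw [add_comm]

theorem zmod2_cases (u : ZMod 2) : u = 0 ∨ u = 1 := by
  revert u; decide

theorem sg_add (j : ℕ) (s t : G N) : sg j (s + t) = sg j s * sg j t := by
  have key : ∀ u v : ZMod 2, (if u + v = 0 then (1 : ℝ) else -1) =
      (if u = 0 then 1 else -1) * (if v = 0 then 1 else -1) := by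
    intro u v
    rcases zmod2_cases u with hs | hs <;> rcases zmod2_cases v with ht | ht <;> subst hs <;> subst ht
    · norm_num
    · norm_num
    · norm_num
    · have h2 : (1 : ZMod 2) + 1 = 0 := by decide
      rw [if_pos h2]; norm_num
  unfold sg
  by_cases h1 : j < N
  · simp only [h1, dif_pos]
    exact key _ _
  · simp [h1]

theorem sg_sq (j : ℕ) (t : G N) : sg j t * sg j t = 1 := by
  unfold sg; split_ifs <;> norm_num

theorem abs_sg (j : ℕ) (t : G N) : |sg j t| = 1 := by
  unfold sg; split_ifs <;> norm_num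

theorem abs_kj_le (j : ℕ) (t : G N) : |kj j t| ≤ 1 / 2 ^ (N - j) := by
  unfold kj
  split_ifs
  · rw [abs_div, abs_sg, abs_of_pos (by positivity : (0 : ℝ) < 2 ^ (N - j))]
  · simp

theorem abs_kj (j : ℕ) (t : G N) : |kj j t| = if Low j t then 1 / 2 ^ (N - j) else 0 := by
  unfold kj
  split_ifs
  · rw [abs_div, abs_sg, abs_of_pos (by positivity : (0 : ℝ) < 2 ^ (N - j))]
  · simp

/-- total mass of the kernel -/
theorem sum_abs_kj {j : ℕ} (hj : j ≤ N) (a : G N) : ∑ t : G N, |kj j (t + a)| = 1 := by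
  rw [sum_translate (fun t => |kj j t|) a]
  simp only [abs_kj]
  rw [← Finset.sum_filter, Finset.sum_const, card_Low hj, nsmul_eq_mul]
  push_cast
  field_simp

theorem Lam_cyc (j : ℕ) (F₀ F₁ F₂ : G N → G N → ℝ) : Lam j F₀ F₁ F₂ = Lam j F₁ F₂ F₀ := by
  unfold Lam
  rw [Finset.sum_comm]
  refine Finset.sum_congr rfl fun y _ => ?_
  rw [Finset.sum_comm]
  refine Finset.sum_congr rfl fun z _ => ?_
  refine Finset.sum_congr rfl fun x _ => ?_
  have : x + y + z = y + z + x := by abel
  rw [this]; ring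

theorem Lam_swap (j : ℕ) (F₀ F₁ F₂ : G N → G N → ℝ) :
    Lam j F₀ F₁ F₂ = Lam j (fun x z => F₂ z x) (fun z y => F₁ y z) (fun y x => F₀ x y) := by
  unfold Lam
  refine Finset.sum_congr rfl fun x _ => ?_
  rw [Finset.sum_comm]
  refine Finset.sum_congr rfl fun z _ => ?_
  refine Finset.sum_congr rfl fun y _ => ?_
  have : x + y + z = x + z + y := by abel
  rw [this]; ring

theorem Lam_add₀ (j : ℕ) (F F' F₁ F₂ : G N → G N → ℝ) :
    Lam j (fun x y => F x y + F' x y) F₁ F₂ = Lam j F F₁ F₂ + Lam j F' F₁ F₂ := by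
  unfold Lam
  simp only [← Finset.sum_add_distrib]
  refine Finset.sum_congr rfl fun x _ => Finset.sum_congr rfl fun y _ =>
    Finset.sum_congr rfl fun z _ => by ring

theorem Lam_sub₀ (j : ℕ) (F F' F₁ F₂ : G N → G N → ℝ) :
    Lam j (fun x y => F x y - F' x y) F₁ F₂ = Lam j F F₁ F₂ - Lam j F' F₁ F₂ := by
  unfold Lam
  simp only [← Finset.sum_sub_distrib]
  refine Finset.sum_congr rfl fun x _ => Finset.sum_congr rfl fun y _ =>
    Finset.sum_congr rfl fun z _ => by ring

theorem Lam_sub₂ (j : ℕ) (F₀ F₁ F F' : G N → G N → ℝ) :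
    Lam j F₀ F₁ (fun x y => F x y - F' x y) = Lam j F₀ F₁ F - Lam j F₀ F₁ F' := by
  rw [Lam_cyc j F₀ F₁ F, Lam_cyc j F₀ F₁ F', Lam_cyc, Lam_cyc j F₁ F F₀, Lam_cyc j F₁ F' F₀,
    Lam_cyc j F₁, Lam_sub₀]

theorem Lam_add₂ (j : ℕ) (F₀ F₁ F F' : G N → G N → ℝ) :
    Lam j F₀ F₁ (fun x y => F x y + F' x y) = Lam j F₀ F₁ F + Lam j F₀ F₁ F' := by
  rw [Lam_cyc j F₀ F₁ F, Lam_cyc j F₀ F₁ F', Lam_cyc, Lam_cyc j F₁ F F₀, Lam_cyc j F₁ F' F₀,
    Lam_cyc j F₁, Lam_add₀]

theorem Lam_sum₀ {τ : Type*} (s : Finset τ) (j : ℕ) (F : τ → G N → G N → ℝ)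
    (F₁ F₂ : G N → G N → ℝ) :
    Lam j (fun x y => ∑ i ∈ s, F i x y) F₁ F₂ = ∑ i ∈ s, Lam j (F i) F₁ F₂ := by
  classical
  induction s using Finset.induction_on with
  | empty => simp [Lam]
  | insert a s ha ih =>
    rw [Finset.sum_insert ha, ← ih, ← Lam_add₀]
    congr 1
    funext x y
    rw [Finset.sum_insert ha]

theorem Lam_sum₂ {τ : Type*} (s : Finset τ) (j : ℕ) (F : τ → G N → G N → ℝ)
    (F₀ F₁ : G N → G N → ℝ) :
    Lam j F₀ F₁ (fun x y => ∑ i ∈ s, F i x y) = ∑ i ∈ s, Lam j F₀ F₁ (F i) := by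
  classical
  induction s using Finset.induction_on with
  | empty => simp [Lam]
  | insert a s ha ih =>
    rw [Finset.sum_insert ha, ← ih, ← Lam_add₂]
    congr 1
    funext x y
    rw [Finset.sum_insert ha]

theorem l2_nonneg (F : G N → G N → ℝ) : 0 ≤ l2 F := Real.sqrt_nonneg _

theorem l2_sq (F : G N → G N → ℝ) : l2 F ^ 2 = ∑ x, ∑ y, F x y ^ 2 := by
  unfold l2
  rw [Real.sq_sqrt]
  exact Finset.sum_nonneg fun x _ => Finset.sum_nonneg fun y _ => sq_nonneg _

theorem l2_swap (F : G N → G N → ℝ) : l2 (fun x y => F y x) = l2 F := by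
  unfold l2
  rw [Finset.sum_comm]

end Vale.Agent.P075
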