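import Mathlib

namespace Vale.Agent.P075

open MeasureTheory

/-- The dyadic interval `[n 2^k, (n+1) 2^k)` of index `n`. -/
def dyI (k : ℤ) (n : ℕ) : Set ℝ := Set.Ico ((n : ℝ) * 2 ^ k) (((n : ℝ) + 1) * 2 ^ k)

/-- The function `h_I = 1_{left half} - 1_{right half}` of the interval `I = dyI k n`. -/
noncomputable def haarI (k : ℤ) (n : ℕ) (x : ℝ) : ℝ :=
  (Set.Ico ((n : ℝ) * 2 ^ k) (((n : ℝ) + 1 / 2) * 2 ^ k)).indicator 1 x -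
    (Set.Ico (((n : ℝ) + 1 / 2) * 2 ^ k) (((n : ℝ) + 1) * 2 ^ k)).indicator 1 x

/-- The local form `L_I` of the triple of dyadic intervals of indices `a, b, c` at scale `k`. -/
noncomputable def LI (k : ℤ) (a b c : ℕ) (F₀ F₁ F₂ : ℝ × ℝ → ℝ) : ℝ :=
  2 ^ (-k) * ∫ p : ℝ × ℝ × ℝ in dyI k a ×ˢ dyI k b ×ˢ dyI k c,
    F₀ (p.1, p.2.1) * F₁ (p.2.1, p.2.2) * F₂ (p.2.2, p.1) *
      (haarI k a p.1 * haarI k b p.2.1 * haarI k c p.2.2)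

/-- Triples of indices whose bitwise exclusive or vanishes. -/
def Tri : Type := {n : ℕ × ℕ × ℕ // (n.1 ^^^ n.2.1) ^^^ n.2.2 = 0}

/-- The dyadic triangular Hilbert form with the finite set `S` of scales and coefficients `ε`. -/
noncomputable def LamD (S : Finset ℤ) (ε : ℤ → ℝ) (F₀ F₁ F₂ : ℝ × ℝ → ℝ) : ℝ :=
  ∑ k ∈ S, ε k * ∑' n : Tri, LI k n.1.1 n.1.2.1 n.1.2.2 F₀ F₁ F₂

/-- The `L^3` norm on the quadrant `[0, ∞)^2`. -/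
noncomputable def L3q (F : ℝ × ℝ → ℝ) : ℝ :=
  (∫ p in Set.Ici (0 : ℝ) ×ˢ Set.Ici (0 : ℝ), |F p| ^ 3) ^ ((1 : ℝ) / 3)

end Vale.Agent.P075
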