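import Vale.Agent.P075.BasicLemmas

namespace Vale.Agent.P075

open Finset

variable {N : ℕ}

def cell (F : G (N + 1) → G (N + 1) → ℝ) (α β : ZMod 2) : G N → G N → ℝ :=
  fun x y => F (Fin.cons α x) (Fin.cons β y)

theorem sum_cons {M : Type*} [AddCommMonoid M] (f : G (N + 1) → M) :
    ∑ t, f t = ∑ α : ZMod 2, ∑ x : G N, f (Fin.cons α x) := by
  rw [← Fintype.sum_prod_type' (f := fun (α : ZMod 2) (x : G N) => f (Fin.cons α x))]
  exact (Equiv.sum_comp (Fin.consEquiv (fun _ : Fin (N + 1) => ZMod 2)) f).symm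

theorem cons_add_G (α β : ZMod 2) (x y : G N) :
    (Fin.cons α x : G (N + 1)) + (Fin.cons β y : G (N + 1)) = Fin.cons (α + β) (x + y) := by
  funext i
  refine Fin.cases ?_ (fun i => ?_) i
  · simp
  · simp

theorem Low_cons (j : ℕ) (α : ZMod 2) (x : G N) :
    Low (j + 1) (Fin.cons α x : G (N + 1)) ↔ α = 0 ∧ Low j x := by
  constructor
  · intro h
    refine ⟨by simpa using h 0 (Nat.succ_pos _), fun i hi => ?_⟩
    have := h i.succ (by simpa using hi)
    simpa using this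
  · rintro ⟨h0, h⟩ i
    refine Fin.cases ?_ (fun i => ?_) i
    · intro _
      simpa using h0
    · intro hi
      simpa using h i (by simpa using hi)

theorem sg_cons (j : ℕ) (α : ZMod 2) (x : G N) :
    sg (j + 1) (Fin.cons α x : G (N + 1)) = sg j x := by
  unfold sg
  by_cases h : j < N
  · have h' : j + 1 < N + 1 := by omega
    rw [dif_pos h, dif_pos h']
    have : (Fin.cons α x : G (N + 1)) ⟨j + 1, h'⟩ = x ⟨j, h⟩ := rfl
    rw [this]
  · rw [dif_neg h, dif_neg (by omega)]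

theorem kj_cons (j : ℕ) (α : ZMod 2) (x : G N) :
    kj (j + 1) (Fin.cons α x : G (N + 1)) = if α = 0 then kj j x else 0 := by
  unfold kj
  rw [sg_cons, show N + 1 - (j + 1) = N - j by omega]
  by_cases h0 : α = 0
  · by_cases hl : Low j x
    · rw [if_pos ((Low_cons j α x).2 ⟨h0, hl⟩), if_pos h0, if_pos hl]
    · rw [if_neg (fun h => hl ((Low_cons j α x).1 h).2), if_pos h0, if_neg hl]
  · rw [if_neg (fun h => h0 ((Low_cons j α x).1 h).1), if_neg h0]

theorem zmod2_add_eq_zero (α β γ : ZMod 2) : α + β + γ = 0 ↔ γ = α + β := by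
  revert α β γ; decide

theorem Lam_cons (j : ℕ) (F₀ F₁ F₂ : G (N + 1) → G (N + 1) → ℝ) :
    Lam (j + 1) F₀ F₁ F₂ = ∑ α : ZMod 2, ∑ β : ZMod 2,
      Lam j (cell F₀ α β) (cell F₁ β (α + β)) (cell F₂ (α + β) α) := by
  unfold Lam
  rw [sum_cons]
  refine Finset.sum_congr rfl fun α _ => ?_
  conv_rhs => rw [Finset.sum_comm]
  refine Finset.sum_congr rfl fun x _ => ?_
  rw [sum_cons]
  refine Finset.sum_congr rfl fun β _ => ?_
  refine Finset.sum_congr rfl fun y _ => ?_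
  rw [sum_cons, Finset.sum_eq_single (α + β)]
  · refine Finset.sum_congr rfl fun z _ => ?_
    rw [cons_add_G, cons_add_G, kj_cons, if_pos ((zmod2_add_eq_zero _ _ _).2 rfl)]
    rfl
  · intro γ _ hγ
    refine Finset.sum_eq_zero fun z _ => ?_
    rw [cons_add_G, cons_add_G, kj_cons, if_neg (fun h => hγ ((zmod2_add_eq_zero _ _ _).1 h))]
    ring
  · intro h
    exact absurd (Finset.mem_univ _) h

theorem sum2_cons {M : Type*} [AddCommMonoid M] (f : G (N + 1) → G (N + 1) → M) :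
    ∑ x, ∑ y, f x y = ∑ α : ZMod 2, ∑ β : ZMod 2, ∑ x : G N, ∑ y : G N,
      f (Fin.cons α x) (Fin.cons β y) := by
  rw [sum_cons]
  refine Finset.sum_congr rfl fun α _ => ?_
  conv_rhs => rw [Finset.sum_comm]
  refine Finset.sum_congr rfl fun x _ => ?_
  rw [sum_cons]

theorem sum_split_succ (S : Finset ℕ) (hS : ∀ i ∈ S, i < N + 1) (f : ℕ → ℝ) :
    ∑ j ∈ S, f j = (∑ j ∈ (range N).filter (fun j => j + 1 ∈ S), f (j + 1)) +
      (if 0 ∈ S then f 0 else 0) := by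
  have h1 : S = (range (N + 1)).filter (fun j => j ∈ S) := by
    ext j
    simp only [mem_filter, mem_range]
    exact ⟨fun h => ⟨hS j h, h⟩, fun h => h.2⟩
  conv_lhs => rw [h1]
  rw [Finset.sum_filter, Finset.sum_range_succ', Finset.sum_filter]

theorem holder3 {ι : Type*} (s : Finset ι) (a b c : ι → ℝ) (ha : ∀ i ∈ s, 0 ≤ a i)
    (hb : ∀ i ∈ s, 0 ≤ b i) (hc : ∀ i ∈ s, 0 ≤ c i) (p q r : ℝ) (hp : 0 < p) (hq : 0 < q)
    (hr : 0 < r) (hpqr : p + q + r = 1) :
    ∑ i ∈ s, a i ^ p * b i ^ q * c i ^ r ≤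
      (∑ i ∈ s, a i) ^ p * (∑ i ∈ s, b i) ^ q * (∑ i ∈ s, c i) ^ r := by
  have hA : 0 ≤ ∑ i ∈ s, a i := Finset.sum_nonneg ha
  have hB : 0 ≤ ∑ i ∈ s, b i := Finset.sum_nonneg hb
  have hC : 0 ≤ ∑ i ∈ s, c i := Finset.sum_nonneg hc
  rcases hA.eq_or_lt with hA0 | hA0
  · have h0 : ∀ i ∈ s, a i = 0 := (Finset.sum_eq_zero_iff_of_nonneg ha).1 hA0.symm
    have h1 : ∑ i ∈ s, a i ^ p * b i ^ q * c i ^ r = 0 := by
      refine Finset.sum_eq_zero fun i hi => ?_
      rw [h0 i hi, Real.zero_rpow hp.ne']; ring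
    rw [h1]; positivity
  rcases hB.eq_or_lt with hB0 | hB0
  · have h0 : ∀ i ∈ s, b i = 0 := (Finset.sum_eq_zero_iff_of_nonneg hb).1 hB0.symm
    have h1 : ∑ i ∈ s, a i ^ p * b i ^ q * c i ^ r = 0 := by
      refine Finset.sum_eq_zero fun i hi => ?_
      rw [h0 i hi, Real.zero_rpow hq.ne']; ring
    rw [h1]; positivity
  rcases hC.eq_or_lt with hC0 | hC0
  · have h0 : ∀ i ∈ s, c i = 0 := (Finset.sum_eq_zero_iff_of_nonneg hc).1 hC0.symm
    have h1 : ∑ i ∈ s, a i ^ p * b i ^ q * c i ^ r = 0 := by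
      refine Finset.sum_eq_zero fun i hi => ?_
      rw [h0 i hi, Real.zero_rpow hr.ne']; ring
    rw [h1]; positivity
  set A := ∑ i ∈ s, a i with hAd
  set B := ∑ i ∈ s, b i with hBd
  set C := ∑ i ∈ s, c i with hCd
  have key : ∀ i ∈ s, a i ^ p * b i ^ q * c i ^ r ≤
      (A ^ p * B ^ q * C ^ r) * (p * (a i / A) + q * (b i / B) + r * (c i / C)) := by
    intro i hi
    have h1 := Real.geom_mean_le_arith_mean3_weighted hp.le hq.le hr.le
      (div_nonneg (ha i hi) hA) (div_nonneg (hb i hi) hB) (div_nonneg (hc i hi) hC) hpqr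
    rw [Real.div_rpow (ha i hi) hA, Real.div_rpow (hb i hi) hB, Real.div_rpow (hc i hi) hC] at h1
    have hAp : 0 < A ^ p := Real.rpow_pos_of_pos hA0 p
    have hBp : 0 < B ^ q := Real.rpow_pos_of_pos hB0 q
    have hCp : 0 < C ^ r := Real.rpow_pos_of_pos hC0 r
    have h2 := mul_le_mul_of_nonneg_left h1 (by positivity : 0 ≤ A ^ p * B ^ q * C ^ r)
    have h3 : A ^ p * B ^ q * C ^ r * (a i ^ p / A ^ p * (b i ^ q / B ^ q) * (c i ^ r / C ^ r)) =
        a i ^ p * b i ^ q * c i ^ r := by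
      field_simp
    rw [h3] at h2
    exact h2
  refine (Finset.sum_le_sum key).trans ?_
  rw [← Finset.mul_sum, Finset.sum_add_distrib, Finset.sum_add_distrib, ← Finset.mul_sum,
    ← Finset.mul_sum, ← Finset.mul_sum, ← Finset.sum_div, ← Finset.sum_div, ← Finset.sum_div,
    ← hAd, ← hBd, ← hCd, div_self hA0.ne', div_self hB0.ne', div_self hC0.ne', mul_one, mul_one,
    mul_one, hpqr, mul_one]

theorem loomis (f g h : G N → G N → ℝ) :
    (∑ x, ∑ y, ∑ z, f x y * g y z * h z x) ^ 2 ≤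
      (∑ x, ∑ y, f x y ^ 2) * (∑ x, ∑ y, g x y ^ 2) * (∑ x, ∑ y, h x y ^ 2) := by
  have h1 : (∑ x, ∑ y, ∑ z, f x y * g y z * h z x) =
      ∑ p : G N × G N, f p.1 p.2 * ∑ z, g p.2 z * h z p.1 := by
    rw [Fintype.sum_prod_type]
    refine Finset.sum_congr rfl fun x _ => Finset.sum_congr rfl fun y _ => ?_
    rw [Finset.mul_sum]
    refine Finset.sum_congr rfl fun z _ => by ring
  rw [h1]
  refine (Finset.sum_mul_sq_le_sq_mul_sq _ _ _).trans ?_
  rw [mul_assoc, Fintype.sum_prod_type]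
  refine mul_le_mul_of_nonneg_left ?_ (Finset.sum_nonneg fun x _ =>
    Finset.sum_nonneg fun y _ => sq_nonneg _)
  have h2 : ∀ p : G N × G N, (∑ z, g p.2 z * h z p.1) ^ 2 ≤
      (∑ z, g p.2 z ^ 2) * (∑ z, h z p.1 ^ 2) := fun p => Finset.sum_mul_sq_le_sq_mul_sq _ _ _
  refine (Finset.sum_le_sum fun p _ => h2 p).trans ?_
  rw [Fintype.sum_prod_type_right]
  simp only
  rw [Finset.sum_mul]
  refine le_of_eq (Finset.sum_congr rfl fun y _ => ?_)
  rw [← Finset.mul_sum]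
  congr 1
  rw [Finset.sum_comm]

end Vale.Agent.P075
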