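import Vale.Agent.P075.Local
import Vale.Agent.P075.HeavyAux

namespace Vale.Agent.P075

open Finset Matrix

noncomputable def nz {N : ℕ} (F : G N → G N → ℝ) : ℝ :=
  ∑ x, ∑ y, (if F x y = 0 then 0 else 1)

theorem nz_nonneg {N : ℕ} (F : G N → G N → ℝ) : 0 ≤ nz F := by
  unfold nz
  exact Finset.sum_nonneg fun x _ => Finset.sum_nonneg fun y _ => by split_ifs <;> norm_num

theorem nz_le {N : ℕ} (F : G N → G N → ℝ) : nz F ≤ 4 ^ N := by
  unfold nz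
  calc ∑ x, ∑ y, (if F x y = 0 then (0 : ℝ) else 1) ≤ ∑ _x : G N, ∑ _y : G N, (1 : ℝ) :=
        Finset.sum_le_sum fun x _ => Finset.sum_le_sum fun y _ => by split_ifs <;> norm_num
    _ = 4 ^ N := by
        simp only [Finset.sum_const, Finset.card_univ, Fintype.card_fun, ZMod.card,
          Fintype.card_fin, nsmul_eq_mul, mul_one]
        push_cast
        rw [← mul_pow]
        norm_num

theorem l2_sq_le_nz {N : ℕ} (F : G N → G N → ℝ) (hF : ∀ x y, |F x y| ≤ 1) :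
    l2 F ^ 2 ≤ nz F := by
  rw [l2_sq]
  unfold nz
  refine Finset.sum_le_sum fun x _ => Finset.sum_le_sum fun y _ => ?_
  split_ifs with h
  · rw [h]; norm_num
  · rw [← sq_abs]
    have h1 := hF x y
    have h2 := abs_nonneg (F x y)
    nlinarith

theorem nz_cons {N : ℕ} (F : G (N + 1) → G (N + 1) → ℝ) :
    nz F = ∑ α : ZMod 2, ∑ β : ZMod 2, nz (cell F α β) := by
  unfold nz
  rw [sum2_cons]
  rfl

theorem nz_cons' {N : ℕ} (F : G (N + 1) → G (N + 1) → ℝ) :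
    nz F = ∑ α : ZMod 2, ∑ β : ZMod 2, nz (cell F β (α + β)) := by
  rw [nz_cons]
  conv_rhs => rw [Finset.sum_comm]
  refine Finset.sum_congr rfl fun β _ => ?_
  exact (Equiv.sum_comp (Equiv.addRight β) (fun γ => nz (cell F β γ))).symm

theorem nz_cons'' {N : ℕ} (F : G (N + 1) → G (N + 1) → ℝ) :
    nz F = ∑ α : ZMod 2, ∑ β : ZMod 2, nz (cell F (α + β) α) := by
  rw [nz_cons, Finset.sum_comm]
  refine Finset.sum_congr rfl fun α _ => ?_
  exact (Equiv.sum_comp (Equiv.addLeft α) (fun γ => nz (cell F γ α))).symm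

theorem Lam_zero_sq_le {N : ℕ} (F₀ F₁ F₂ : G N → G N → ℝ)
    (h₀ : ∀ x y, |F₀ x y| ≤ 1) (h₁ : ∀ x y, |F₁ x y| ≤ 1) (h₂ : ∀ x y, |F₂ x y| ≤ 1) :
    |Lam 0 F₀ F₁ F₂| ^ 2 ≤ (1 / 2 ^ N) ^ 2 * (nz F₀ * nz F₁ * nz F₂) := by
  have hb : |Lam 0 F₀ F₁ F₂| ≤
      (1 / 2 ^ N) * ∑ x, ∑ y, ∑ z, |F₀ x y| * |F₁ y z| * |F₂ z x| := by
    unfold Lam
    rw [Finset.mul_sum]
    refine (Finset.abs_sum_le_sum_abs _ _).trans (Finset.sum_le_sum fun x _ => ?_)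
    rw [Finset.mul_sum]
    refine (Finset.abs_sum_le_sum_abs _ _).trans (Finset.sum_le_sum fun y _ => ?_)
    rw [Finset.mul_sum]
    refine (Finset.abs_sum_le_sum_abs _ _).trans (Finset.sum_le_sum fun z _ => ?_)
    rw [abs_mul, abs_mul, abs_mul, mul_assoc, mul_assoc]
    have := abs_kj_le 0 (x + y + z)
    rw [Nat.sub_zero] at this
    rw [mul_assoc |F₀ x y|]
    exact mul_le_mul_of_nonneg_right this (by positivity)
  have h1 := pow_le_pow_left₀ (abs_nonneg _) hb 2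
  refine h1.trans ?_
  rw [mul_pow]
  refine mul_le_mul_of_nonneg_left ?_ (by positivity)
  refine (loomis (fun x y => |F₀ x y|) (fun x y => |F₁ x y|) (fun x y => |F₂ x y|)).trans ?_
  have h2 : ∀ F : G N → G N → ℝ, (∀ x y, |F x y| ≤ 1) → ∑ x, ∑ y, |F x y| ^ 2 ≤ nz F := by
    intro F hF
    have := l2_sq_le_nz F hF
    rw [l2_sq] at this
    simpa only [sq_abs] using this
  have e : ∀ F : G N → G N → ℝ, 0 ≤ ∑ x, ∑ y, |F x y| ^ 2 := fun F => by positivity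
  exact mul_le_mul (mul_le_mul (h2 _ h₀) (h2 _ h₁) (e _) (nz_nonneg _)) (h2 _ h₂) (e _)
    (mul_nonneg (nz_nonneg _) (nz_nonneg _))

theorem light_num {a b c T τ s M : ℝ} (ha : 0 ≤ a) (hb : 0 ≤ b) (hc : 0 ≤ c) (hT : 0 < T)
    (hM : 1 ≤ M) (haT : a ≤ T) (hbT : b ≤ T) (hcT : c ≤ T) (hτ : τ = T / M ^ 12)
    (hlight : a ≤ τ ∨ b ≤ τ ∨ c ≤ τ) (hs2 : s ^ 2 ≤ (1 / T) * (a * b * c)) :
    s ≤ (a * c) ^ ((5 : ℝ) / 12) * b ^ ((1 : ℝ) / 6) / M := by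
  have hM0 : 0 < M := by linarith
  have hR : 0 ≤ (a * c) ^ ((5 : ℝ) / 12) * b ^ ((1 : ℝ) / 6) / M := by positivity
  have hτ0 : 0 ≤ τ := by rw [hτ]; positivity
  have hτT : τ ≤ T := by
    rw [hτ]
    exact div_le_self hT.le (one_le_pow₀ hM)
  refine le_of_pow_le_pow_left₀ (n := 12) (by norm_num) hR ?_
  have e1 : ((a * c) ^ ((5 : ℝ) / 12) * b ^ ((1 : ℝ) / 6) / M) ^ 12 =
      (a * c) ^ 5 * b ^ 2 / M ^ 12 := by
    rw [div_pow, mul_pow, ← Real.rpow_natCast ((a * c) ^ ((5 : ℝ) / 12)) 12,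
      ← Real.rpow_natCast (b ^ ((1 : ℝ) / 6)) 12, ← Real.rpow_mul (mul_nonneg ha hc),
      ← Real.rpow_mul hb]
    norm_num
  rw [e1]
  have e2 : s ^ 12 ≤ ((1 / T) * (a * b * c)) ^ 6 := by
    calc s ^ 12 = (s ^ 2) ^ 6 := by ring
      _ ≤ _ := pow_le_pow_left₀ (by positivity) hs2 6
  refine e2.trans ?_
  have e3 : a * c * b ^ 4 ≤ T ^ 5 * τ := by
    rcases hlight with h | h | h
    · calc a * c * b ^ 4 ≤ τ * T * T ^ 4 := by gcongr
        _ = T ^ 5 * τ := by ring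
    · calc a * c * b ^ 4 = a * c * b ^ 3 * b := by ring
        _ ≤ T * T * T ^ 3 * τ := by gcongr
        _ = T ^ 5 * τ := by ring
    · calc a * c * b ^ 4 ≤ T * τ * T ^ 4 := by gcongr
        _ = T ^ 5 * τ := by ring
  have e4 : (1 / T * (a * b * c)) ^ 6 = (a * c) ^ 5 * b ^ 2 * ((a * c * b ^ 4) / T ^ 6) := by
    field_simp
  rw [e4]
  have e5 : a * c * b ^ 4 / T ^ 6 ≤ 1 / M ^ 12 := by
    rw [div_le_div_iff₀ (by positivity) (by positivity)]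
    calc a * c * b ^ 4 * M ^ 12 ≤ (T ^ 5 * τ) * M ^ 12 := by gcongr
      _ = 1 * T ^ 6 := by rw [hτ]; field_simp
  calc (a * c) ^ 5 * b ^ 2 * (a * c * b ^ 4 / T ^ 6) ≤ (a * c) ^ 5 * b ^ 2 * (1 / M ^ 12) := by
        gcongr
    _ = _ := by ring

theorem heavy_num {a b c p q r τ : ℝ} (ha : 0 ≤ a) (hb : 0 ≤ b) (hc : 0 ≤ c) (hp : 0 ≤ p)
    (hr : 0 ≤ r) (hpa : p ^ 2 ≤ a) (hqb : q ^ 2 ≤ b) (hrc : r ^ 2 ≤ c)
    (hτ : 0 ≤ τ) (hτa : τ ≤ a) (hτb : τ ≤ b) (hτc : τ ≤ c) :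
    p * r + τ ≤ 2 * ((a * c) ^ ((5 : ℝ) / 12) * b ^ ((1 : ℝ) / 6)) ∨
    q * p + τ ≤ 2 * ((a * c) ^ ((5 : ℝ) / 12) * b ^ ((1 : ℝ) / 6)) ∨
    r * q + τ ≤ 2 * ((a * c) ^ ((5 : ℝ) / 12) * b ^ ((1 : ℝ) / 6)) := by
  set R := (a * c) ^ ((5 : ℝ) / 12) * b ^ ((1 : ℝ) / 6) with hRd
  have hR : 0 ≤ R := by positivity
  have e1 : R ^ 12 = (a * c) ^ 5 * b ^ 2 := by
    rw [hRd, mul_pow, ← Real.rpow_natCast ((a * c) ^ ((5 : ℝ) / 12)) 12,
      ← Real.rpow_natCast (b ^ ((1 : ℝ) / 6)) 12, ← Real.rpow_mul (mul_nonneg ha hc),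
      ← Real.rpow_mul hb]
    norm_num
  have hτR : τ ≤ R := by
    refine le_of_pow_le_pow_left₀ (n := 12) (by norm_num) hR ?_
    rw [e1]
    calc τ ^ 12 = (τ * τ) ^ 5 * τ ^ 2 := by ring
      _ ≤ (a * c) ^ 5 * b ^ 2 := by gcongr
  by_cases h1 : a * c ≤ b ^ 2
  · left
    have : p * r ≤ R := by
      refine le_of_pow_le_pow_left₀ (n := 12) (by norm_num) hR ?_
      rw [e1]
      calc (p * r) ^ 12 = (p ^ 2 * r ^ 2) ^ 5 * (p ^ 2 * r ^ 2) := by ring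
        _ ≤ (a * c) ^ 5 * (a * c) := by gcongr
        _ ≤ (a * c) ^ 5 * b ^ 2 := by gcongr
    linarith
  · rw [not_le] at h1
    right
    have key : ∀ u v : ℝ, 0 ≤ u → 0 ≤ v → u ≤ v → u * v = a * c → ∀ t : ℝ, 0 ≤ t → t ^ 2 ≤ u →
        t * q ≤ R := by
      intro u v hu hv huv huvac t ht htu
      refine le_of_pow_le_pow_left₀ (n := 12) (by norm_num) hR ?_
      rw [e1, ← huvac]
      have h2 : b ^ 2 ≤ u * v := by rw [huvac]; exact h1.le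
      calc (t * q) ^ 12 = (t ^ 2) ^ 6 * (q ^ 2) ^ 6 := by ring
        _ ≤ u ^ 6 * b ^ 6 := by gcongr
        _ = u ^ 6 * b ^ 2 * (b ^ 2) ^ 2 := by ring
        _ ≤ u ^ 6 * b ^ 2 * (u * v) ^ 2 := by gcongr
        _ = (u ^ 5 * b ^ 2) * (u ^ 3 * v ^ 2) := by ring
        _ ≤ (u ^ 5 * b ^ 2) * (v ^ 3 * v ^ 2) := by gcongr
        _ = (u * v) ^ 5 * b ^ 2 := by ring
    rcases le_total a c with hac | hac
    · left
      have := key a c ha hc hac rfl p hp hpa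
      linarith [mul_comm p q]
    · right
      have := key c a hc ha hac (mul_comm c a) r hr hrc
      linarith

theorem restricted_aux {C : ℝ} {m : ℕ} (hm : 2 ≤ m)
    (hloc : ∀ (N : ℕ) (S : Finset ℕ), S.card ≤ m → (∀ i ∈ S, i < N) →
      ∀ F₀ F₁ F₂ : G N → G N → ℝ,
      (∀ x y, |F₀ x y| ≤ 1) → (∀ x y, |F₁ x y| ≤ 1) → (∀ x y, |F₂ x y| ≤ 1) →
      ∑ j ∈ S, |Lam j F₀ F₁ F₂| ≤ C * (l2 F₀ * l2 F₂ + 4 ^ N / (m : ℝ) ^ 12)) (hC : 0 < C) :
    ∀ (N : ℕ) (S : Finset ℕ), S.card ≤ m → (∀ i ∈ S, i < N) →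
      ∀ F₀ F₁ F₂ : G N → G N → ℝ,
      (∀ x y, |F₀ x y| ≤ 1) → (∀ x y, |F₁ x y| ≤ 1) → (∀ x y, |F₂ x y| ≤ 1) →
      ∑ j ∈ S, |Lam j F₀ F₁ F₂| ≤ (2 * C + S.card / m) *
        ((nz F₀ * nz F₂) ^ ((5 : ℝ) / 12) * (nz F₁) ^ ((1 : ℝ) / 6)) := by
  have hm1 : (1 : ℝ) ≤ m := by exact_mod_cast (by omega : 1 ≤ m)
  have hm0 : (0 : ℝ) < m := by linarith
  intro N
  induction N with
  | zero =>
    intro S _ hS F₀ F₁ F₂ _ _ _
    have hS0 : S = ∅ := Finset.eq_empty_of_forall_notMem fun i hi => absurd (hS i hi) (by omega)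
    rw [hS0, Finset.sum_empty]
    have := nz_nonneg F₀
    have := nz_nonneg F₁
    have := nz_nonneg F₂
    positivity
  | succ N ih =>
    intro S hcard hS F₀ F₁ F₂ h₀ h₁ h₂
    have n₀ := nz_nonneg F₀
    have n₁ := nz_nonneg F₁
    have n₂ := nz_nonneg F₂
    set R := (nz F₀ * nz F₂) ^ ((5 : ℝ) / 12) * (nz F₁) ^ ((1 : ℝ) / 6) with hR
    have hR0 : 0 ≤ R := by positivity
    have hτ0 : (0 : ℝ) ≤ 4 ^ (N + 1) / (m : ℝ) ^ 12 := by positivity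
    by_cases hheavy : 4 ^ (N + 1) / (m : ℝ) ^ 12 ≤ nz F₀ ∧ 4 ^ (N + 1) / (m : ℝ) ^ 12 ≤ nz F₁ ∧
        4 ^ (N + 1) / (m : ℝ) ^ 12 ≤ nz F₂
    · obtain ⟨t₀, t₁, t₂⟩ := hheavy
      have hfin : ∀ X : ℝ, X ≤ 2 * R → ∑ j ∈ S, |Lam j F₀ F₁ F₂| ≤ C * X →
          ∑ j ∈ S, |Lam j F₀ F₁ F₂| ≤ (2 * C + S.card / m) * R := by
        intro X hX hle
        have e1 : C * X ≤ C * (2 * R) := mul_le_mul_of_nonneg_left hX hC.le
        have e2 : (0 : ℝ) ≤ S.card / m * R := by positivity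
        linarith
      rcases heavy_num n₀ n₁ n₂ (l2_nonneg F₀) (l2_nonneg F₂)
        (l2_sq_le_nz F₀ h₀) (l2_sq_le_nz F₁ h₁) (l2_sq_le_nz F₂ h₂) hτ0 t₀ t₁ t₂ with h | h | h
      · exact hfin _ h (hloc (N + 1) S hcard hS F₀ F₁ F₂ h₀ h₁ h₂)
      · refine hfin _ h ?_
        have := hloc (N + 1) S hcard hS F₁ F₂ F₀ h₁ h₂ h₀
        simpa only [← Lam_cyc] using this
      · refine hfin _ h ?_
        have := hloc (N + 1) S hcard hS F₂ F₀ F₁ h₂ h₀ h₁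
        simpa only [Lam_cyc _ F₂ F₀ F₁] using this
    · have hlight : nz F₀ ≤ 4 ^ (N + 1) / (m : ℝ) ^ 12 ∨ nz F₁ ≤ 4 ^ (N + 1) / (m : ℝ) ^ 12 ∨
          nz F₂ ≤ 4 ^ (N + 1) / (m : ℝ) ^ 12 := by
        by_contra hcon
        rw [not_or, not_or, not_le, not_le, not_le] at hcon
        exact hheavy ⟨hcon.1.le, hcon.2.1.le, hcon.2.2.le⟩
      have hzero : |Lam 0 F₀ F₁ F₂| ≤ R / m := by
        refine light_num n₀ n₁ n₂ (by positivity : (0 : ℝ) < 4 ^ (N + 1)) hm1 (nz_le F₀) (nz_le F₁)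
          (nz_le F₂) rfl hlight ?_
        refine (Lam_zero_sq_le F₀ F₁ F₂ h₀ h₁ h₂).trans (le_of_eq ?_)
        rw [one_div, one_div, inv_pow, ← pow_mul, mul_comm (N + 1) 2, pow_mul]
        norm_num
      set S' := (range N).filter (fun j => j + 1 ∈ S) with hS'
      have hcardS : (S.card : ℝ) = S'.card + (if 0 ∈ S then 1 else 0) := by
        have := sum_split_succ S hS (fun _ => 1)
        simpa [← hS'] using this
      have hcard' : S'.card ≤ m := by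
        have h1 : (S'.card : ℝ) ≤ S.card := by
          rw [hcardS]
          split_ifs <;> simp
        exact (Nat.cast_le.1 h1).trans hcard
      have hS'lt : ∀ i ∈ S', i < N := fun i hi => Finset.mem_range.1 (Finset.mem_filter.1 hi).1
      rw [sum_split_succ S hS, ← hS']
      have hmain : ∑ j ∈ S', |Lam (j + 1) F₀ F₁ F₂| ≤ (2 * C + S'.card / m) * R := by
        have e1 : ∑ j ∈ S', |Lam (j + 1) F₀ F₁ F₂| ≤ ∑ α : ZMod 2, ∑ β : ZMod 2,
            ∑ j ∈ S', |Lam j (cell F₀ α β) (cell F₁ β (α + β)) (cell F₂ (α + β) α)| := by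
          have e2 : ∀ j ∈ S', |Lam (j + 1) F₀ F₁ F₂| ≤ ∑ α : ZMod 2, ∑ β : ZMod 2,
              |Lam j (cell F₀ α β) (cell F₁ β (α + β)) (cell F₂ (α + β) α)| := by
            intro j _
            rw [Lam_cons]
            exact (Finset.abs_sum_le_sum_abs _ _).trans
              (Finset.sum_le_sum fun α _ => Finset.abs_sum_le_sum_abs _ _)
          refine (Finset.sum_le_sum e2).trans (le_of_eq ?_)
          rw [Finset.sum_comm]
          refine Finset.sum_congr rfl fun α _ => ?_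
          rw [Finset.sum_comm]
        refine e1.trans ?_
        have e3 : ∀ α β : ZMod 2,
            ∑ j ∈ S', |Lam j (cell F₀ α β) (cell F₁ β (α + β)) (cell F₂ (α + β) α)| ≤
            (2 * C + S'.card / m) * ((nz (cell F₀ α β)) ^ ((5 : ℝ) / 12) *
              (nz (cell F₂ (α + β) α)) ^ ((5 : ℝ) / 12) *
              (nz (cell F₁ β (α + β))) ^ ((1 : ℝ) / 6)) := by
          intro α β
          have := ih S' hcard' hS'lt (cell F₀ α β) (cell F₁ β (α + β)) (cell F₂ (α + β) α)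
            (fun x y => h₀ _ _) (fun x y => h₁ _ _) (fun x y => h₂ _ _)
          rwa [Real.mul_rpow (nz_nonneg _) (nz_nonneg _)] at this
        refine (Finset.sum_le_sum fun α _ => Finset.sum_le_sum fun β _ => e3 α β).trans ?_
        simp only [← Finset.mul_sum]
        refine mul_le_mul_of_nonneg_left ?_ (by positivity)
        rw [hR, Real.mul_rpow n₀ n₂, nz_cons F₀, nz_cons' F₁, nz_cons'' F₂]
        have e4 := holder3 (univ : Finset (ZMod 2 × ZMod 2)) (fun p => nz (cell F₀ p.1 p.2))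
          (fun p => nz (cell F₂ (p.1 + p.2) p.1)) (fun p => nz (cell F₁ p.2 (p.1 + p.2)))
          (fun _ _ => nz_nonneg _) (fun _ _ => nz_nonneg _) (fun _ _ => nz_nonneg _)
          (5 / 12) (5 / 12) (1 / 6) (by norm_num) (by norm_num) (by norm_num) (by norm_num)
        simpa only [Fintype.sum_prod_type] using e4
      by_cases h0 : 0 ∈ S
      · rw [if_pos h0]
        rw [if_pos h0] at hcardS
        rw [hcardS, add_div]
        have : (2 * C + ((S'.card : ℝ) / m + 1 / m)) * R =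
            (2 * C + S'.card / m) * R + R / m := by ring
        rw [this]
        exact add_le_add hmain hzero
      · rw [if_neg h0]
        rw [if_neg h0] at hcardS
        rw [hcardS, add_zero, add_zero]
        exact hmain

theorem restricted : ∃ C : ℝ, 0 < C ∧ ∀ (N m : ℕ) (S : Finset ℕ), 2 ≤ m → S.card ≤ m →
    (∀ i ∈ S, i < N) → ∀ F₀ F₁ F₂ : G N → G N → ℝ,
    (∀ x y, |F₀ x y| ≤ 1) → (∀ x y, |F₁ x y| ≤ 1) → (∀ x y, |F₂ x y| ≤ 1) →
    ∑ j ∈ S, |Lam j F₀ F₁ F₂| ≤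
      C * (1 + Real.log m) ^ 3 *
        ((nz F₀ * nz F₂) ^ ((5 : ℝ) / 12) * (nz F₁) ^ ((1 : ℝ) / 6)) := by
  obtain ⟨C, hC, hloc⟩ := localThm 12
  refine ⟨2 * C + 1, by linarith, ?_⟩
  intro N m S hm hcard hS F₀ F₁ F₂ h₀ h₁ h₂
  have hm0 : (0 : ℝ) < m := by exact_mod_cast (by omega : 0 < m)
  have hlog : 0 ≤ Real.log m := Real.log_natCast_nonneg m
  have hL : 1 ≤ (1 + Real.log m) ^ 3 := one_le_pow₀ (by linarith)
  have hL0 : 0 < (1 + Real.log m) ^ 3 := by linarith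
  have key := restricted_aux (C := C * (1 + Real.log m) ^ 3) hm
    (fun N S a b F₀ F₁ F₂ c d e => hloc N m S hm a b F₀ F₁ F₂ c d e) (by positivity)
    N S hcard hS F₀ F₁ F₂ h₀ h₁ h₂
  refine key.trans (mul_le_mul_of_nonneg_right ?_ ?_)
  · have h1 : (S.card : ℝ) / m ≤ 1 := by
      rw [div_le_one hm0]
      exact_mod_cast hcard
    linarith
  · have := nz_nonneg F₀
    have := nz_nonneg F₁
    have := nz_nonneg F₂
    positivity

end Vale.Agent.P075
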