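import Vale.Agent.P075.BasicLemmas

namespace Vale.Agent.P075

open Finset Matrix

section psd

variable {ι : Type*} [Fintype ι] [DecidableEq ι]

open scoped MatrixOrder in
theorem psdU_factor {Φ : Matrix ι ι ℝ} (hΦ : Φ.PosSemidef) : ∃ Θ : Matrix ι ι ℝ, Φ = Θᵀ * Θ := by
  obtain ⟨B, hB⟩ := CStarAlgebra.nonneg_iff_eq_star_mul_self.mp hΦ.nonneg
  refine ⟨B, ?_⟩
  rw [hB, star_eq_conjTranspose, conjTranspose_eq_transpose_of_trivial]

theorem psdU_sq {C : Matrix ι ι ℝ} (hC : C.PosSemidef) (hC1 : (1 - C).PosSemidef) :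
    (C - C * C).PosSemidef := by
  have h1 : (C * (1 - C) * C).PosSemidef := by
    have := hC1.conjTranspose_mul_mul_same C
    rwa [hC.isHermitian.eq] at this
  have h2 : ((1 - C) * C * (1 - C)).PosSemidef := by
    have := hC.conjTranspose_mul_mul_same (1 - C)
    rwa [hC1.isHermitian.eq] at this
  have e : C - C * C = C * (1 - C) * C + (1 - C) * C * (1 - C) := by
    noncomm_ring
  rw [e]
  exact h1.add h2

theorem psdU_trace_pow (k : ℕ) : ∀ {C : Matrix ι ι ℝ}, C.PosSemidef → (1 - C).PosSemidef →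
    trace (C ^ (2 ^ k)) ≤ trace C := by
  induction k with
  | zero => intro C _ _; simp
  | succ k ih =>
    intro C hC hC1
    have h1 := psdU_sq hC hC1
    have h2 : (C * C).PosSemidef := by
      have := hC.pow 2
      rwa [sq] at this
    have h3 : (1 - C * C).PosSemidef := by
      have := hC1.add h1
      have e : 1 - C + (C - C * C) = 1 - C * C := by abel
      rwa [e] at this
    have h4 := ih h2 h3
    have h5 := h1.trace_nonneg
    rw [trace_sub] at h5
    rw [pow_succ', pow_mul, sq]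
    linarith

end psd

section

variable {N : ℕ}

def Dm (F : G N → G N → ℝ) (x : G N) : Matrix (G N) (G N) ℝ :=
  Matrix.of fun y z => if z = x + y then F y z else 0

theorem Dm_eq_iff (x y z : G N) : z = x + y ↔ y = x + z := by
  constructor
  · rintro rfl; rw [add_add_self_G]
  · rintro rfl; rw [add_add_self_G]

theorem Dm_mul_transpose (F : G N → G N → ℝ) (x : G N) :
    Dm F x * (Dm F x)ᵀ = diagonal (fun y => F y (x + y) ^ 2) := by
  ext y y'
  simp only [mul_apply, Dm, of_apply, transpose_apply, diagonal_apply]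
  rw [Finset.sum_eq_single (x + y)]
  · by_cases h : y = y'
    · subst h; simp [sq]
    · have h' : ¬ (x + y = x + y') := fun e => h (add_left_cancel e)
      simp [h, h']
  · intro z _ hz
    simp [hz]
  · intro h
    exact absurd (Finset.mem_univ _) h

theorem Dm_transpose_mul (F : G N → G N → ℝ) (x : G N) :
    (Dm F x)ᵀ * Dm F x = diagonal (fun z => F (x + z) z ^ 2) := by
  ext z z'
  simp only [mul_apply, Dm, of_apply, transpose_apply, diagonal_apply]
  rw [Finset.sum_eq_single (x + z)]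
  · by_cases h : z = z'
    · subst h; simp [sq, add_add_self_G]
    · have h' : ¬ (z' = x + (x + z)) := fun e => h (by rw [e, add_add_self_G])
      simp [h, h']
  · intro y _ hy
    have : ¬ (z = x + y) := fun e => hy ((Dm_eq_iff x y z).1 e)
    simp [this]
  · intro h
    exact absurd (Finset.mem_univ _) h

theorem Dm_trace (k : ℕ) (F : G N → G N → ℝ) (hF : ∀ y z, |F y z| ≤ 1)
    {Φ : Matrix (G N) (G N) ℝ} (hΦ : Φ.PosSemidef) (hΦ1 : (1 - Φ).PosSemidef) (x : G N) :
    trace (((Dm F x)ᵀ * Φ * Dm F x) ^ (2 ^ k)) ≤ trace Φ := by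
  have hF2 : ∀ y z, F y z ^ 2 ≤ 1 := fun y z => (sq_le_one_iff_abs_le_one _).2 (hF y z)
  have h1 : ((Dm F x)ᵀ * Φ * Dm F x).PosSemidef := by
    have := hΦ.conjTranspose_mul_mul_same (Dm F x)
    rwa [conjTranspose_eq_transpose_of_trivial] at this
  have h2 : (1 - (Dm F x)ᵀ * Φ * Dm F x).PosSemidef := by
    have e1 : ((Dm F x)ᵀ * (1 - Φ) * Dm F x).PosSemidef := by
      have := hΦ1.conjTranspose_mul_mul_same (Dm F x)
      rwa [conjTranspose_eq_transpose_of_trivial] at this
    have e2 : (1 - (Dm F x)ᵀ * Dm F x).PosSemidef := by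
      rw [Dm_transpose_mul, ← diagonal_one, diagonal_sub]
      refine PosSemidef.diagonal fun z => ?_
      simp only [Pi.zero_apply]
      linarith [hF2 (x + z) z]
    have e3 := e1.add e2
    have e4 : (Dm F x)ᵀ * (1 - Φ) * Dm F x + (1 - (Dm F x)ᵀ * Dm F x) =
        1 - (Dm F x)ᵀ * Φ * Dm F x := by
      rw [Matrix.mul_sub, Matrix.sub_mul, Matrix.mul_one]
      abel
    rwa [e4] at e3
  refine (psdU_trace_pow k h1 h2).trans ?_
  rw [Matrix.mul_assoc, trace_mul_comm, Matrix.mul_assoc, Dm_mul_transpose, trace, trace]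
  refine Finset.sum_le_sum fun y _ => ?_
  rw [diag_apply, diag_apply, mul_diagonal]
  exact mul_le_of_le_one_right hΦ.diag_nonneg (hF2 _ _)

end

end Vale.Agent.P075
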