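import Vale.Agent.P075.UMD
import Vale.Agent.P075.LemmaUAux

namespace Vale.Agent.P075

open Finset Matrix

noncomputable def Wm {N : ℕ} (σ : ℕ → ℝ) (F : G N → G N → ℝ) (x : G N) :
    Matrix (G N) (G N) ℝ :=
  Matrix.of fun y z => F y z * ∑ i ∈ range N, σ i * kj i (x + y + z)

theorem lemmaU_Tr {N : ℕ} {j : ℕ} {σ : ℕ → ℝ} (hσj : ∀ i < j, σ i = 0) (F : G N → G N → ℝ)
    (Θ : Matrix (G N) (G N) ℝ) (x₀ x : G N) :
    Tr σ (fun x => if Low j (x + x₀) then Θ * Dm F x else 0) x =
      if Low j (x + x₀) then Θ * Wm σ F x else 0 := by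
  have hK : ∀ t : G N, ¬ Low j t → ∑ i ∈ range N, σ i * kj i t = 0 := by
    intro t ht
    refine Finset.sum_eq_zero fun i _ => ?_
    by_cases hi : i < j
    · rw [hσj i hi, zero_mul]
    · unfold kj
      rw [if_neg (fun hl => ht (Low_mono (not_lt.1 hi) hl)), mul_zero]
  have e1 : Tr σ (fun x => if Low j (x + x₀) then Θ * Dm F x else 0) x =
      Θ * ∑ x', (if Low j (x' + x₀) then (∑ i ∈ range N, σ i * kj i (x + x')) else 0) •
        Dm F x' := by
    unfold Tr
    rw [Matrix.mul_sum]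
    refine Finset.sum_congr rfl fun x' _ => ?_
    rw [Matrix.mul_smul]
    by_cases h : Low j (x' + x₀)
    · simp only [if_pos h]
    · simp only [if_neg h, smul_zero, zero_smul]
  have e2 : ∑ x', (if Low j (x' + x₀) then (∑ i ∈ range N, σ i * kj i (x + x')) else 0) •
        Dm F x' = if Low j (x + x₀) then Wm σ F x else 0 := by
    ext y z
    rw [Matrix.sum_apply, Finset.sum_eq_single (y + z)]
    · rw [Matrix.smul_apply, Dm, of_apply,
        if_pos (by rw [add_comm y z, add_self_add_G] : z = y + z + y), smul_eq_mul]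
      have e3 : x + (y + z) = x + y + z := (add_assoc x y z).symm
      rw [e3]
      by_cases h : Low j (x + y + z)
      · have h4 : Low j (y + z + x₀) ↔ Low j (x + x₀) := by
          rw [← Low_add_iff h (t := x + x₀)]
          have : x + y + z + (x + x₀) = y + z + x₀ := by
            have : x + y + z + (x + x₀) = y + z + x₀ + (x + x) := by abel
            rw [this, add_self_G, add_zero]
          rw [this]
        by_cases h5 : Low j (x + x₀)
        · rw [if_pos (h4.2 h5), if_pos h5, Wm, of_apply, mul_comm]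
        · rw [if_neg (fun h6 => h5 (h4.1 h6)), if_neg h5]
          simp
      · rw [hK _ h]
        have : Wm σ F x y z = 0 := by
          rw [Wm, of_apply, hK _ h, mul_zero]
        split_ifs
        · rw [this]; simp
        · simp
        · rw [this]; simp
        · simp
    · intro x' _ hx'
      have h7 : ¬ (z = x' + y) := by
        intro h
        apply hx'
        rw [h, add_comm x' y, add_add_self_G]
      rw [Matrix.smul_apply, Dm, of_apply, if_neg h7, smul_zero]
    · intro h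
      exact absurd (Finset.mem_univ _) h
  rw [e1, e2]
  split_ifs
  · rfl
  · rw [Matrix.mul_zero]

theorem lemmaU {N : ℕ} (k j : ℕ) (hj : j ≤ N) (σ : ℕ → ℝ)
    (hσ : ∀ i, σ i = 0 ∨ σ i = 1 ∨ σ i = -1) (hσj : ∀ i < j, σ i = 0)
    (F : G N → G N → ℝ) (hF : ∀ y z, |F y z| ≤ 1)
    (Φ : Matrix (G N) (G N) ℝ) (hΦ : Φ.PosSemidef) (hΦ1 : (1 - Φ).PosSemidef) (x₀ : G N) :
    ∑ x ∈ univ.filter (fun x => Low j (x + x₀)),
        Matrix.trace (((Wm σ F x)ᵀ * Φ * (Wm σ F x)) ^ (2 ^ k)) ≤
      (Ck k) ^ (2 ^ (k + 1)) * 2 ^ (N - j) * Matrix.trace Φ := by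
  obtain ⟨Θ, hΘ⟩ := psdU_factor hΦ
  have hCk : 0 < Ck k := by unfold Ck; positivity
  have h2k : 2 ^ k ≠ 0 := by positivity
  have h1 := umd k σ hσ (fun x => if Low j (x + x₀) then Θ * Dm F x else 0)
  have hL : ∑ x, trace (((Tr σ (fun x => if Low j (x + x₀) then Θ * Dm F x else 0) x)ᵀ *
      Tr σ (fun x => if Low j (x + x₀) then Θ * Dm F x else 0) x) ^ (2 ^ k)) =
      ∑ x ∈ univ.filter (fun x => Low j (x + x₀)),
        Matrix.trace (((Wm σ F x)ᵀ * Φ * (Wm σ F x)) ^ (2 ^ k)) := by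
    rw [Finset.sum_filter]
    refine Finset.sum_congr rfl fun x _ => ?_
    rw [lemmaU_Tr hσj]
    split_ifs
    · rw [transpose_mul, hΘ]
      simp only [Matrix.mul_assoc]
    · rw [Matrix.mul_zero, zero_pow h2k, trace_zero]
  have hR : ∑ x, trace (((if Low j (x + x₀) then Θ * Dm F x else 0 : Matrix (G N) (G N) ℝ)ᵀ *
      (if Low j (x + x₀) then Θ * Dm F x else 0)) ^ (2 ^ k)) ≤ 2 ^ (N - j) * trace Φ := by
    have e1 : ∀ x, trace (((if Low j (x + x₀) then Θ * Dm F x else 0 : Matrix (G N) (G N) ℝ)ᵀ *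
      (if Low j (x + x₀) then Θ * Dm F x else 0)) ^ (2 ^ k)) ≤
        if Low j (x + x₀) then trace Φ else 0 := by
      intro x
      split_ifs
      · have : (Θ * Dm F x)ᵀ * (Θ * Dm F x) = (Dm F x)ᵀ * Φ * Dm F x := by
          rw [transpose_mul, hΘ]
          simp only [Matrix.mul_assoc]
        rw [this]
        exact Dm_trace k F hF hΦ hΦ1 x
      · rw [Matrix.mul_zero, zero_pow h2k, trace_zero]
    refine (Finset.sum_le_sum fun x _ => e1 x).trans (le_of_eq ?_)
    rw [← Finset.sum_filter, Finset.sum_const, card_coset hj, nsmul_eq_mul]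
    push_cast
    ring
  rw [hL] at h1
  refine h1.trans ?_
  rw [mul_assoc]
  exact mul_le_mul_of_nonneg_left hR (by positivity)

end Vale.Agent.P075
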