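import Vale.Agent.P075.Heavy

namespace Vale.Agent.P075

open Finset Matrix

noncomputable def l3 {N : ℕ} (F : G N → G N → ℝ) : ℝ :=
  (∑ x, ∑ y, |F x y| ^ 3) ^ ((1 : ℝ) / 3)

noncomputable def lv {N : ℕ} (F : G N → G N → ℝ) (k : ℤ) : G N → G N → ℝ :=
  fun x y => if Int.log 2 |F x y| = k then F x y else 0

noncomputable def rho : ℝ := (2 : ℝ) ^ (-(1 / 4) : ℝ)

theorem rho_pos : 0 < rho := by unfold rho; positivity

theorem rho_lt_one : rho < 1 := by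
  unfold rho
  exact Real.rpow_lt_one_of_one_lt_of_neg (by norm_num) (by norm_num)

noncomputable def wt (p q : ℤ) : ℝ := rho ^ (p - q).natAbs

theorem wt_nonneg (p q : ℤ) : 0 ≤ wt p q := pow_nonneg rho_pos.le _

theorem wt_comm (p q : ℤ) : wt p q = wt q p := by
  unfold wt
  rw [← Int.natAbs_neg, neg_sub]

theorem summable_rho : Summable (fun n : ℤ => rho ^ n.natAbs) := by
  have h : Summable (fun n : ℕ => rho ^ n) :=
    summable_geometric_of_lt_one rho_pos.le rho_lt_one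
  refine Summable.of_nat_of_neg ?_ ?_
  · simpa using h
  · simpa using h

noncomputable def Gc : ℝ := ∑' n : ℤ, rho ^ n.natAbs

theorem Gc_nonneg : 0 ≤ Gc := tsum_nonneg fun _ => pow_nonneg rho_pos.le _

theorem sum_wt_le (K : Finset ℤ) (q : ℤ) : ∑ p ∈ K, wt p q ≤ Gc := by
  have h1 : ∑ p ∈ K, wt p q = ∑ n ∈ K.image (fun p => p - q), rho ^ n.natAbs := by
    rw [Finset.sum_image (fun a _ b _ h => by simpa using h)]
    rfl
  rw [h1]
  exact summable_rho.sum_le_tsum _ fun n _ => pow_nonneg rho_pos.le _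

theorem sum_wt_le' (K : Finset ℤ) (q : ℤ) : ∑ p ∈ K, wt q p ≤ Gc := by
  simp_rw [wt_comm q]
  exact sum_wt_le K q

theorem sum_center (K : Finset ℤ) (A B C : ℤ → ℝ) (hA : ∀ k, 0 ≤ A k) (hB : ∀ k, 0 ≤ B k)
    (hC : ∀ k, 0 ≤ C k) :
    ∑ q ∈ K, ∑ p ∈ K, ∑ r ∈ K, wt p q * wt r q * (A p + B q + C r)
      ≤ Gc ^ 2 * (∑ p ∈ K, A p + ∑ q ∈ K, B q + ∑ r ∈ K, C r) := by
  have e1 : ∑ q ∈ K, ∑ p ∈ K, ∑ r ∈ K, wt p q * wt r q * A p ≤ Gc ^ 2 * ∑ p ∈ K, A p := by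
    rw [Finset.sum_comm, Finset.mul_sum]
    refine Finset.sum_le_sum fun p _ => ?_
    calc ∑ q ∈ K, ∑ r ∈ K, wt p q * wt r q * A p
        = ∑ q ∈ K, (wt p q * A p) * ∑ r ∈ K, wt r q := by
          refine Finset.sum_congr rfl fun q _ => ?_
          rw [Finset.mul_sum]
          exact Finset.sum_congr rfl fun r _ => by ring
      _ ≤ ∑ q ∈ K, (wt p q * A p) * Gc := by
          refine Finset.sum_le_sum fun q _ => ?_
          exact mul_le_mul_of_nonneg_left (sum_wt_le K q) (mul_nonneg (wt_nonneg _ _) (hA p))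
      _ = (∑ q ∈ K, wt p q) * (A p * Gc) := by
          rw [Finset.sum_mul]
          exact Finset.sum_congr rfl fun q _ => by ring
      _ ≤ Gc * (A p * Gc) :=
          mul_le_mul_of_nonneg_right (sum_wt_le' K p) (mul_nonneg (hA p) Gc_nonneg)
      _ = Gc ^ 2 * A p := by ring
  have e2 : ∑ q ∈ K, ∑ p ∈ K, ∑ r ∈ K, wt p q * wt r q * B q ≤ Gc ^ 2 * ∑ q ∈ K, B q := by
    rw [Finset.mul_sum]
    refine Finset.sum_le_sum fun q _ => ?_
    calc ∑ p ∈ K, ∑ r ∈ K, wt p q * wt r q * B q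
        = ∑ p ∈ K, (wt p q * B q) * ∑ r ∈ K, wt r q := by
          refine Finset.sum_congr rfl fun p _ => ?_
          rw [Finset.mul_sum]
          exact Finset.sum_congr rfl fun r _ => by ring
      _ ≤ ∑ p ∈ K, (wt p q * B q) * Gc := by
          refine Finset.sum_le_sum fun p _ => ?_
          exact mul_le_mul_of_nonneg_left (sum_wt_le K q) (mul_nonneg (wt_nonneg _ _) (hB q))
      _ = (∑ p ∈ K, wt p q) * (B q * Gc) := by
          rw [Finset.sum_mul]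
          exact Finset.sum_congr rfl fun p _ => by ring
      _ ≤ Gc * (B q * Gc) :=
          mul_le_mul_of_nonneg_right (sum_wt_le K q) (mul_nonneg (hB q) Gc_nonneg)
      _ = Gc ^ 2 * B q := by ring
  have e3 : ∑ q ∈ K, ∑ p ∈ K, ∑ r ∈ K, wt p q * wt r q * C r ≤ Gc ^ 2 * ∑ r ∈ K, C r := by
    have e4 : ∑ q ∈ K, ∑ p ∈ K, ∑ r ∈ K, wt p q * wt r q * C r
        = ∑ q ∈ K, ∑ r ∈ K, ∑ p ∈ K, wt p q * wt r q * C r :=
      Finset.sum_congr rfl fun q _ => Finset.sum_comm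
    rw [e4, Finset.sum_comm, Finset.mul_sum]
    refine Finset.sum_le_sum fun r _ => ?_
    calc ∑ q ∈ K, ∑ p ∈ K, wt p q * wt r q * C r
        = ∑ q ∈ K, (wt r q * C r) * ∑ p ∈ K, wt p q := by
          refine Finset.sum_congr rfl fun q _ => ?_
          rw [Finset.mul_sum]
          exact Finset.sum_congr rfl fun r _ => by ring
      _ ≤ ∑ q ∈ K, (wt r q * C r) * Gc := by
          refine Finset.sum_le_sum fun q _ => ?_
          exact mul_le_mul_of_nonneg_left (sum_wt_le K q) (mul_nonneg (wt_nonneg _ _) (hC r))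
      _ = (∑ q ∈ K, wt r q) * (C r * Gc) := by
          rw [Finset.sum_mul]
          exact Finset.sum_congr rfl fun q _ => by ring
      _ ≤ Gc * (C r * Gc) :=
          mul_le_mul_of_nonneg_right (sum_wt_le' K r) (mul_nonneg (hC r) Gc_nonneg)
      _ = Gc ^ 2 * C r := by ring
  have e5 : ∑ q ∈ K, ∑ p ∈ K, ∑ r ∈ K, wt p q * wt r q * (A p + B q + C r)
      = ∑ q ∈ K, ∑ p ∈ K, ∑ r ∈ K, wt p q * wt r q * A p
        + ∑ q ∈ K, ∑ p ∈ K, ∑ r ∈ K, wt p q * wt r q * B q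
        + ∑ q ∈ K, ∑ p ∈ K, ∑ r ∈ K, wt p q * wt r q * C r := by
    simp only [← Finset.sum_add_distrib]
    refine Finset.sum_congr rfl fun q _ => Finset.sum_congr rfl fun p _ =>
      Finset.sum_congr rfl fun r _ => by ring
  rw [e5]
  linarith

theorem wt_of_le {p q : ℤ} (h : q ≤ p) : wt p q = (2 : ℝ) ^ (-((p : ℝ) - q) / 4) := by
  unfold wt rho
  rw [← Real.rpow_natCast, ← Real.rpow_mul (by norm_num)]
  congr 1
  have h1 : ((p - q).natAbs : ℤ) = p - q := Int.natAbs_of_nonneg (by omega)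
  have h2 : (((p - q).natAbs : ℤ) : ℝ) = (p : ℝ) - q := by rw [h1]; push_cast; rfl
  rw [Int.cast_natCast] at h2
  rw [h2]
  ring

theorem tri_bound {p q r : ℤ} (hp : q ≤ p) (hr : q ≤ r) {a b c : ℝ} (ha : 0 ≤ a) (hb : 0 ≤ b)
    (hc : 0 ≤ c) :
    (2 : ℝ) ^ ((p : ℝ) + q + r) * ((a * c) ^ ((5 : ℝ) / 12) * b ^ ((1 : ℝ) / 6))
      ≤ wt p q * wt r q * ((2 : ℝ) ^ (3 * (p : ℝ)) * a + (2 : ℝ) ^ (3 * (q : ℝ)) * b
        + (2 : ℝ) ^ (3 * (r : ℝ)) * c) := by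
  have h2 : (0 : ℝ) < 2 := by norm_num
  have hA : 0 ≤ (2 : ℝ) ^ (3 * (p : ℝ)) * a := by positivity
  have hB : 0 ≤ (2 : ℝ) ^ (3 * (q : ℝ)) * b := by positivity
  have hC : 0 ≤ (2 : ℝ) ^ (3 * (r : ℝ)) * c := by positivity
  have hag := Real.geom_mean_le_arith_mean3_weighted (w₁ := 5 / 12) (w₂ := 1 / 6) (w₃ := 5 / 12)
    (by norm_num) (by norm_num) (by norm_num) hA hB hC (by norm_num)
  have hle : 5 / 12 * ((2 : ℝ) ^ (3 * (p : ℝ)) * a) + 1 / 6 * ((2 : ℝ) ^ (3 * (q : ℝ)) * b)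
      + 5 / 12 * ((2 : ℝ) ^ (3 * (r : ℝ)) * c) ≤ (2 : ℝ) ^ (3 * (p : ℝ)) * a
        + (2 : ℝ) ^ (3 * (q : ℝ)) * b + (2 : ℝ) ^ (3 * (r : ℝ)) * c := by linarith
  refine le_trans (le_of_eq ?_) (mul_le_mul_of_nonneg_left (hag.trans hle)
    (mul_nonneg (wt_nonneg p q) (wt_nonneg r q)))
  rw [wt_of_le hp, wt_of_le hr, Real.mul_rpow ha hc, Real.mul_rpow (by positivity) ha,
    Real.mul_rpow (by positivity) hb, Real.mul_rpow (by positivity) hc, ← Real.rpow_mul h2.le,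
    ← Real.rpow_mul h2.le, ← Real.rpow_mul h2.le]
  have e1 : (2 : ℝ) ^ ((p : ℝ) + q + r) = (2 : ℝ) ^ (-((p : ℝ) - q) / 4)
      * (2 : ℝ) ^ (-((r : ℝ) - q) / 4) * (2 : ℝ) ^ (3 * (p : ℝ) * (5 / 12))
      * (2 : ℝ) ^ (3 * (q : ℝ) * (1 / 6)) * (2 : ℝ) ^ (3 * (r : ℝ) * (5 / 12)) := by
    rw [← Real.rpow_add h2, ← Real.rpow_add h2, ← Real.rpow_add h2, ← Real.rpow_add h2]
    congr 1
    ring
  rw [e1]
  ring

theorem Lam_smul {N : ℕ} (j : ℕ) (a b c : ℝ) (F₀ F₁ F₂ : G N → G N → ℝ) :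
    Lam j (fun x y => a * F₀ x y) (fun x y => b * F₁ x y) (fun x y => c * F₂ x y)
      = a * b * c * Lam j F₀ F₁ F₂ := by
  unfold Lam
  simp only [Finset.mul_sum]
  refine Finset.sum_congr rfl fun x _ => Finset.sum_congr rfl fun y _ =>
    Finset.sum_congr rfl fun z _ => by ring

theorem lv_sum {N : ℕ} (F : G N → G N → ℝ) {K : Finset ℤ}
    (hK : ∀ x y, Int.log 2 |F x y| ∈ K) : (fun x y => ∑ k ∈ K, lv F k x y) = F := by
  funext x y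
  unfold lv
  rw [Finset.sum_ite_eq, if_pos (hK x y)]

theorem abs_lv_le {N : ℕ} (F : G N → G N → ℝ) (k : ℤ) (x y : G N) :
    |lv F k x y| ≤ (2 : ℝ) ^ ((k : ℝ) + 1) := by
  unfold lv
  split_ifs with h
  · have h1 := Int.lt_zpow_succ_log_self (b := 2) (by norm_num) |F x y|
    rw [h] at h1
    have h2 : (2 : ℝ) ^ ((k : ℝ) + 1) = (2 : ℝ) ^ (k + 1) := by
      rw [← Real.rpow_intCast]
      push_cast
      rfl
    rw [h2]
    exact_mod_cast h1.le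
  · simp only [abs_zero]
    positivity

theorem sum_nz_le {N : ℕ} (F : G N → G N → ℝ) (K : Finset ℤ) :
    ∑ k ∈ K, (2 : ℝ) ^ (3 * (k : ℝ)) * nz (lv F k) ≤ ∑ x, ∑ y, |F x y| ^ 3 := by
  unfold nz
  simp only [Finset.mul_sum]
  rw [Finset.sum_comm]
  refine Finset.sum_le_sum fun x _ => ?_
  rw [Finset.sum_comm]
  refine Finset.sum_le_sum fun y _ => ?_
  by_cases hF : F x y = 0
  · simp [lv, hF]
  · have h1 : ∀ k ∈ K, (2 : ℝ) ^ (3 * (k : ℝ)) * (if lv F k x y = 0 then 0 else 1)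
        = if Int.log 2 |F x y| = k then (2 : ℝ) ^ (3 * (k : ℝ)) else 0 := by
      intro k _
      unfold lv
      by_cases h : Int.log 2 |F x y| = k
      · simp [h, hF]
      · simp [h]
    rw [Finset.sum_congr rfl h1, Finset.sum_ite_eq]
    split_ifs
    · have h2 := Int.zpow_log_le_self (b := 2) (by norm_num) (abs_pos.2 hF)
      have h3 : (2 : ℝ) ^ (3 * ((Int.log 2 |F x y| : ℤ) : ℝ))
          = ((2 : ℝ) ^ (Int.log 2 |F x y|)) ^ 3 := by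
        rw [mul_comm, Real.rpow_mul (by norm_num), Real.rpow_intCast]
        norm_num
      rw [h3]
      have h4 : (2 : ℝ) ^ (Int.log 2 |F x y|) ≤ |F x y| := by exact_mod_cast h2
      exact pow_le_pow_left₀ (by positivity) h4 3
    · positivity

theorem nz_smul {N : ℕ} {a : ℝ} (ha : a ≠ 0) (F : G N → G N → ℝ) :
    nz (fun x y => a * F x y) = nz F := by
  unfold nz
  simp [ha]

theorem trip {N : ℕ} {S : Finset ℕ} {K0 : ℝ} (hK0 : 0 ≤ K0)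
    (hres : ∀ F₀ F₁ F₂ : G N → G N → ℝ,
      (∀ x y, |F₀ x y| ≤ 1) → (∀ x y, |F₁ x y| ≤ 1) → (∀ x y, |F₂ x y| ≤ 1) →
      ∑ j ∈ S, |Lam j F₀ F₁ F₂| ≤
        K0 * ((nz F₀ * nz F₂) ^ ((5 : ℝ) / 12) * (nz F₁) ^ ((1 : ℝ) / 6)))
    (F₀ F₁ F₂ : G N → G N → ℝ) {p q r : ℤ} (hp : q ≤ p) (hr : q ≤ r) :
    ∑ j ∈ S, |Lam j (lv F₀ p) (lv F₁ q) (lv F₂ r)| ≤
      8 * K0 * (wt p q * wt r q * ((2 : ℝ) ^ (3 * (p : ℝ)) * nz (lv F₀ p)
        + (2 : ℝ) ^ (3 * (q : ℝ)) * nz (lv F₁ q) + (2 : ℝ) ^ (3 * (r : ℝ)) * nz (lv F₂ r))) := by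
  have h2 : (0 : ℝ) < 2 := by norm_num
  set a : ℝ := (2 : ℝ) ^ (-((p : ℝ) + 1)) with ha
  set b : ℝ := (2 : ℝ) ^ (-((q : ℝ) + 1)) with hb
  set c : ℝ := (2 : ℝ) ^ (-((r : ℝ) + 1)) with hc
  have ha0 : 0 < a := by positivity
  have hb0 : 0 < b := by positivity
  have hc0 : 0 < c := by positivity
  have hsc : ∀ (F : G N → G N → ℝ) (k : ℤ) (x y : G N),
      |(2 : ℝ) ^ (-((k : ℝ) + 1)) * lv F k x y| ≤ 1 := by
    intro F k x y
    rw [abs_mul, abs_of_pos (Real.rpow_pos_of_pos h2 _)]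
    calc (2 : ℝ) ^ (-((k : ℝ) + 1)) * |lv F k x y|
        ≤ (2 : ℝ) ^ (-((k : ℝ) + 1)) * (2 : ℝ) ^ ((k : ℝ) + 1) :=
          mul_le_mul_of_nonneg_left (abs_lv_le F k x y) (by positivity)
      _ = 1 := by rw [← Real.rpow_add h2]; simp
  have h3 := hres (fun x y => a * lv F₀ p x y) (fun x y => b * lv F₁ q x y)
    (fun x y => c * lv F₂ r x y) (hsc F₀ p) (hsc F₁ q) (hsc F₂ r)
  rw [nz_smul ha0.ne', nz_smul hb0.ne', nz_smul hc0.ne'] at h3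
  have h4 : ∀ j ∈ S, |Lam j (lv F₀ p) (lv F₁ q) (lv F₂ r)| = (8 * (2 : ℝ) ^ ((p : ℝ) + q + r)) *
      |Lam j (fun x y => a * lv F₀ p x y) (fun x y => b * lv F₁ q x y)
        (fun x y => c * lv F₂ r x y)| := by
    intro j _
    rw [Lam_smul, abs_mul, abs_of_pos (mul_pos (mul_pos ha0 hb0) hc0), ← mul_assoc]
    have e1 : 8 * (2 : ℝ) ^ ((p : ℝ) + q + r) * (a * b * c) = 1 := by
      have e2 : (8 : ℝ) = (2 : ℝ) ^ (3 : ℝ) := by norm_num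
      rw [ha, hb, hc, e2, ← Real.rpow_add h2, ← Real.rpow_add h2, ← Real.rpow_add h2,
        ← Real.rpow_add h2]
      have e3 : (3 : ℝ) + ((p : ℝ) + q + r) + (-((p : ℝ) + 1) + -((q : ℝ) + 1) + -((r : ℝ) + 1))
          = 0 := by ring
      rw [e3, Real.rpow_zero]
    rw [e1, one_mul]
  rw [Finset.sum_congr rfl h4, ← Finset.mul_sum]
  calc 8 * (2 : ℝ) ^ ((p : ℝ) + q + r) * ∑ j ∈ S, |Lam j (fun x y => a * lv F₀ p x y)
        (fun x y => b * lv F₁ q x y) (fun x y => c * lv F₂ r x y)|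
      ≤ 8 * (2 : ℝ) ^ ((p : ℝ) + q + r) * (K0 * ((nz (lv F₀ p) * nz (lv F₂ r)) ^ ((5 : ℝ) / 12)
          * (nz (lv F₁ q)) ^ ((1 : ℝ) / 6))) := mul_le_mul_of_nonneg_left h3 (by positivity)
    _ = 8 * K0 * ((2 : ℝ) ^ ((p : ℝ) + q + r) * ((nz (lv F₀ p) * nz (lv F₂ r)) ^ ((5 : ℝ) / 12)
          * (nz (lv F₁ q)) ^ ((1 : ℝ) / 6))) := by ring
    _ ≤ _ := mul_le_mul_of_nonneg_left (tri_bound hp hr (nz_nonneg _) (nz_nonneg _)
          (nz_nonneg _)) (by positivity)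

theorem unnormalized {N : ℕ} {S : Finset ℕ} {K0 : ℝ} (hK0 : 0 ≤ K0)
    (hres : ∀ F₀ F₁ F₂ : G N → G N → ℝ,
      (∀ x y, |F₀ x y| ≤ 1) → (∀ x y, |F₁ x y| ≤ 1) → (∀ x y, |F₂ x y| ≤ 1) →
      ∑ j ∈ S, |Lam j F₀ F₁ F₂| ≤
        K0 * ((nz F₀ * nz F₂) ^ ((5 : ℝ) / 12) * (nz F₁) ^ ((1 : ℝ) / 6)))
    (F₀ F₁ F₂ : G N → G N → ℝ) :
    ∑ j ∈ S, |Lam j F₀ F₁ F₂| ≤ 24 * K0 * Gc ^ 2 *
      (∑ x, ∑ y, |F₀ x y| ^ 3 + ∑ x, ∑ y, |F₁ x y| ^ 3 + ∑ x, ∑ y, |F₂ x y| ^ 3) := by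
  classical
  let lg : (G N → G N → ℝ) → Finset ℤ := fun F =>
    (Finset.univ : Finset (G N × G N)).image fun z => Int.log 2 |F z.1 z.2|
  have hlg : ∀ (F : G N → G N → ℝ) (x y : G N), Int.log 2 |F x y| ∈ lg F := by
    intro F x y
    exact Finset.mem_image.2 ⟨(x, y), Finset.mem_univ _, rfl⟩
  set K : Finset ℤ := lg F₀ ∪ lg F₁ ∪ lg F₂ with hK
  have hK₀ : ∀ x y, Int.log 2 |F₀ x y| ∈ K := fun x y =>
    Finset.mem_union_left _ (Finset.mem_union_left _ (hlg F₀ x y))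
  have hK₁ : ∀ x y, Int.log 2 |F₁ x y| ∈ K := fun x y =>
    Finset.mem_union_left _ (Finset.mem_union_right _ (hlg F₁ x y))
  have hK₂ : ∀ x y, Int.log 2 |F₂ x y| ∈ K := fun x y =>
    Finset.mem_union_right _ (hlg F₂ x y)
  have hdec : ∀ j, Lam j F₀ F₁ F₂ = ∑ q ∈ K, ∑ p ∈ K, ∑ r ∈ K,
      Lam j (lv F₀ p) (lv F₁ q) (lv F₂ r) := by
    intro j
    have e0 : Lam j F₀ F₁ F₂ = Lam j (fun x y => ∑ k ∈ K, lv F₀ k x y)
        (fun x y => ∑ k ∈ K, lv F₁ k x y) (fun x y => ∑ k ∈ K, lv F₂ k x y) := by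
      rw [lv_sum F₀ hK₀, lv_sum F₁ hK₁, lv_sum F₂ hK₂]
    rw [e0, Lam_cyc, Lam_sum₀]
    refine Finset.sum_congr rfl fun q _ => ?_
    rw [← Lam_cyc, Lam_sum₀]
    refine Finset.sum_congr rfl fun p _ => ?_
    rw [Lam_sum₂]
  set A0 : ℤ → ℝ := fun p => (2 : ℝ) ^ (3 * (p : ℝ)) * nz (lv F₀ p) with hA0
  set A1 : ℤ → ℝ := fun p => (2 : ℝ) ^ (3 * (p : ℝ)) * nz (lv F₁ p) with hA1
  set A2 : ℤ → ℝ := fun p => (2 : ℝ) ^ (3 * (p : ℝ)) * nz (lv F₂ p) with hA2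
  have nA0 : ∀ k, 0 ≤ A0 k := fun k => mul_nonneg (by positivity) (nz_nonneg _)
  have nA1 : ∀ k, 0 ≤ A1 k := fun k => mul_nonneg (by positivity) (nz_nonneg _)
  have nA2 : ∀ k, 0 ≤ A2 k := fun k => mul_nonneg (by positivity) (nz_nonneg _)
  have hT : ∀ p q r : ℤ, ∑ j ∈ S, |Lam j (lv F₀ p) (lv F₁ q) (lv F₂ r)| ≤
      8 * K0 * (wt p q * wt r q * (A0 p + A1 q + A2 r) + wt q r * wt p r * (A1 q + A2 r + A0 p)
        + wt r p * wt q p * (A2 r + A0 p + A1 q)) := by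
    intro p q r
    have w1 : 0 ≤ wt p q * wt r q * (A0 p + A1 q + A2 r) :=
      mul_nonneg (mul_nonneg (wt_nonneg _ _) (wt_nonneg _ _))
        (add_nonneg (add_nonneg (nA0 _) (nA1 _)) (nA2 _))
    have w2 : 0 ≤ wt q r * wt p r * (A1 q + A2 r + A0 p) :=
      mul_nonneg (mul_nonneg (wt_nonneg _ _) (wt_nonneg _ _))
        (add_nonneg (add_nonneg (nA1 _) (nA2 _)) (nA0 _))
    have w3 : 0 ≤ wt r p * wt q p * (A2 r + A0 p + A1 q) :=
      mul_nonneg (mul_nonneg (wt_nonneg _ _) (wt_nonneg _ _))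
        (add_nonneg (add_nonneg (nA2 _) (nA0 _)) (nA1 _))
    have h8 : 0 ≤ 8 * K0 := by positivity
    by_cases c1 : q ≤ p ∧ q ≤ r
    · refine (trip hK0 hres F₀ F₁ F₂ c1.1 c1.2).trans (mul_le_mul_of_nonneg_left ?_ h8)
      linarith
    · by_cases c2 : r ≤ q ∧ r ≤ p
      · have h5 := trip hK0 hres F₁ F₂ F₀ c2.1 c2.2
        have h6 : ∑ j ∈ S, |Lam j (lv F₀ p) (lv F₁ q) (lv F₂ r)|
            = ∑ j ∈ S, |Lam j (lv F₁ q) (lv F₂ r) (lv F₀ p)| :=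
          Finset.sum_congr rfl fun j _ => by rw [Lam_cyc]
        rw [h6]
        refine h5.trans (mul_le_mul_of_nonneg_left ?_ h8)
        linarith
      · have c3 : p ≤ r ∧ p ≤ q := by
          constructor
          · by_contra h; push Not at h c1 c2
            rcases le_or_gt q p with h' | h'
            · have := c1 h'
              exact absurd (c2 this.le) (by omega)
            · have := c2 (by omega)
              omega
          · by_contra h; push Not at h c1 c2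
            have := c1 (by omega)
            exact absurd (c2 this.le) (by omega)
        have h5 := trip hK0 hres F₂ F₀ F₁ c3.1 c3.2
        have h6 : ∑ j ∈ S, |Lam j (lv F₀ p) (lv F₁ q) (lv F₂ r)|
            = ∑ j ∈ S, |Lam j (lv F₂ r) (lv F₀ p) (lv F₁ q)| :=
          Finset.sum_congr rfl fun j _ => by rw [Lam_cyc, Lam_cyc]
        rw [h6]
        refine h5.trans (mul_le_mul_of_nonneg_left ?_ h8)
        linarith
  have hsum : ∑ j ∈ S, |Lam j F₀ F₁ F₂| ≤ ∑ q ∈ K, ∑ p ∈ K, ∑ r ∈ K,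
      ∑ j ∈ S, |Lam j (lv F₀ p) (lv F₁ q) (lv F₂ r)| := by
    calc ∑ j ∈ S, |Lam j F₀ F₁ F₂|
        ≤ ∑ j ∈ S, ∑ q ∈ K, ∑ p ∈ K, ∑ r ∈ K, |Lam j (lv F₀ p) (lv F₁ q) (lv F₂ r)| := by
          refine Finset.sum_le_sum fun j _ => ?_
          rw [hdec j]
          refine (Finset.abs_sum_le_sum_abs _ _).trans (Finset.sum_le_sum fun q _ => ?_)
          refine (Finset.abs_sum_le_sum_abs _ _).trans (Finset.sum_le_sum fun p _ => ?_)
          exact Finset.abs_sum_le_sum_abs _ _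
      _ = _ := by
          rw [Finset.sum_comm]
          refine Finset.sum_congr rfl fun q _ => ?_
          rw [Finset.sum_comm]
          refine Finset.sum_congr rfl fun p _ => ?_
          rw [Finset.sum_comm]
  have s1 := sum_center K A0 A1 A2 nA0 nA1 nA2
  have s2 := sum_center K A1 A2 A0 nA1 nA2 nA0
  have s3 := sum_center K A2 A0 A1 nA2 nA0 nA1
  have s2' : ∑ q ∈ K, ∑ p ∈ K, ∑ r ∈ K, wt q r * wt p r * (A1 q + A2 r + A0 p)
      = ∑ r ∈ K, ∑ q ∈ K, ∑ p ∈ K, wt q r * wt p r * (A1 q + A2 r + A0 p) := by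
    rw [Finset.sum_comm]
    have : ∀ p ∈ K, ∑ q ∈ K, ∑ r ∈ K, wt q r * wt p r * (A1 q + A2 r + A0 p)
        = ∑ r ∈ K, ∑ q ∈ K, wt q r * wt p r * (A1 q + A2 r + A0 p) := fun p _ => Finset.sum_comm
    rw [Finset.sum_congr rfl this, Finset.sum_comm]
    exact Finset.sum_congr rfl fun r _ => Finset.sum_comm
  have s3' : ∑ q ∈ K, ∑ p ∈ K, ∑ r ∈ K, wt r p * wt q p * (A2 r + A0 p + A1 q)
      = ∑ p ∈ K, ∑ r ∈ K, ∑ q ∈ K, wt r p * wt q p * (A2 r + A0 p + A1 q) := by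
    rw [Finset.sum_comm]
    exact Finset.sum_congr rfl fun p _ => Finset.sum_comm
  have hbig : ∑ q ∈ K, ∑ p ∈ K, ∑ r ∈ K,
      ∑ j ∈ S, |Lam j (lv F₀ p) (lv F₁ q) (lv F₂ r)| ≤ 8 * K0 * (3 * (Gc ^ 2 *
        (∑ p ∈ K, A0 p + ∑ p ∈ K, A1 p + ∑ p ∈ K, A2 p))) := by
    calc _ ≤ ∑ q ∈ K, ∑ p ∈ K, ∑ r ∈ K, 8 * K0 * (wt p q * wt r q * (A0 p + A1 q + A2 r)
              + wt q r * wt p r * (A1 q + A2 r + A0 p)
              + wt r p * wt q p * (A2 r + A0 p + A1 q)) :=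
          Finset.sum_le_sum fun q _ => Finset.sum_le_sum fun p _ =>
            Finset.sum_le_sum fun r _ => hT p q r
      _ = 8 * K0 * (∑ q ∈ K, ∑ p ∈ K, ∑ r ∈ K, wt p q * wt r q * (A0 p + A1 q + A2 r)
              + ∑ q ∈ K, ∑ p ∈ K, ∑ r ∈ K, wt q r * wt p r * (A1 q + A2 r + A0 p)
              + ∑ q ∈ K, ∑ p ∈ K, ∑ r ∈ K, wt r p * wt q p * (A2 r + A0 p + A1 q)) := by
          simp only [← Finset.sum_add_distrib, Finset.mul_sum]
      _ ≤ _ := by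
          refine mul_le_mul_of_nonneg_left ?_ (by positivity)
          rw [s2', s3']
          nlinarith [s1, s2, s3]
  have n0 := sum_nz_le F₀ K
  have n1 := sum_nz_le F₁ K
  have n2 := sum_nz_le F₂ K
  have hG2 : 0 ≤ Gc ^ 2 := sq_nonneg _
  calc ∑ j ∈ S, |Lam j F₀ F₁ F₂| ≤ _ := hsum
    _ ≤ _ := hbig
    _ = 24 * K0 * Gc ^ 2 * (∑ p ∈ K, A0 p + ∑ p ∈ K, A1 p + ∑ p ∈ K, A2 p) := by ring
    _ ≤ _ := mul_le_mul_of_nonneg_left (by linarith) (by positivity)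

theorem l3_nonneg {N : ℕ} (F : G N → G N → ℝ) : 0 ≤ l3 F := by
  unfold l3; positivity

theorem l3_cube {N : ℕ} (F : G N → G N → ℝ) : l3 F ^ 3 = ∑ x, ∑ y, |F x y| ^ 3 := by
  unfold l3
  rw [← Real.rpow_natCast, ← Real.rpow_mul (by positivity)]
  norm_num

theorem l3_eq_zero {N : ℕ} {F : G N → G N → ℝ} (h : l3 F = 0) : F = fun _ _ => 0 := by
  have h1 := l3_cube F
  rw [h] at h1
  funext x y
  have h2 : ∑ x, ∑ y, |F x y| ^ 3 = 0 := by rw [← h1]; norm_num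
  have h3 := (Finset.sum_eq_zero_iff_of_nonneg (fun x _ => by positivity)).1 h2 x (Finset.mem_univ x)
  have h4 := (Finset.sum_eq_zero_iff_of_nonneg (fun y _ => by positivity)).1 h3 y (Finset.mem_univ y)
  simpa using h4

/-- level set decomposition of the three functions and `restricted` (used in its three cyclic forms) -/
theorem finiteThm : ∃ C : ℝ, 0 < C ∧ ∀ (N m : ℕ) (S : Finset ℕ), 2 ≤ m → S.card ≤ m →
    (∀ i ∈ S, i < N) → ∀ F₀ F₁ F₂ : G N → G N → ℝ,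
    ∑ j ∈ S, |Lam j F₀ F₁ F₂| ≤
      C * (1 + Real.log m) ^ 3 * (l3 F₀ * l3 F₁ * l3 F₂) := by
  obtain ⟨C, hC, hres⟩ := restricted
  refine ⟨72 * C * Gc ^ 2 + 1, by positivity, ?_⟩
  intro N m S hm hS hSN F₀ F₁ F₂
  have hlog : 0 ≤ Real.log m := Real.log_natCast_nonneg m
  have hK0 : 0 ≤ C * (1 + Real.log m) ^ 3 := by positivity
  have hun := unnormalized hK0 (hres N m S hm hS hSN)
  have l0 := l3_nonneg F₀
  have l1 := l3_nonneg F₁
  have l2' := l3_nonneg F₂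
  rcases l0.eq_or_lt with h0 | h0
  · have : ∀ j, Lam j F₀ F₁ F₂ = 0 := by
      intro j
      rw [l3_eq_zero h0.symm]
      simp [Lam]
    simp only [this, abs_zero, Finset.sum_const_zero]
    positivity
  rcases l1.eq_or_lt with h1 | h1
  · have : ∀ j, Lam j F₀ F₁ F₂ = 0 := by
      intro j
      rw [l3_eq_zero h1.symm]
      simp [Lam]
    simp only [this, abs_zero, Finset.sum_const_zero]
    positivity
  rcases l2'.eq_or_lt with h2 | h2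
  · have : ∀ j, Lam j F₀ F₁ F₂ = 0 := by
      intro j
      rw [l3_eq_zero h2.symm]
      simp [Lam]
    simp only [this, abs_zero, Finset.sum_const_zero]
    positivity
  have hnorm : ∀ F : G N → G N → ℝ, 0 < l3 F → ∑ x, ∑ y, |(l3 F)⁻¹ * F x y| ^ 3 = 1 := by
    intro F hF
    simp only [abs_mul, mul_pow, ← Finset.mul_sum]
    rw [← l3_cube F, abs_of_pos (inv_pos.2 hF), ← mul_pow, inv_mul_cancel₀ hF.ne', one_pow]
  have h3 := hun (fun x y => (l3 F₀)⁻¹ * F₀ x y) (fun x y => (l3 F₁)⁻¹ * F₁ x y)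
    (fun x y => (l3 F₂)⁻¹ * F₂ x y)
  rw [hnorm F₀ h0, hnorm F₁ h1, hnorm F₂ h2] at h3
  have h4 : ∀ j ∈ S, |Lam j F₀ F₁ F₂| = (l3 F₀ * l3 F₁ * l3 F₂) *
      |Lam j (fun x y => (l3 F₀)⁻¹ * F₀ x y) (fun x y => (l3 F₁)⁻¹ * F₁ x y)
        (fun x y => (l3 F₂)⁻¹ * F₂ x y)| := by
    intro j _
    rw [Lam_smul, abs_mul,
      abs_of_pos (show 0 < (l3 F₀)⁻¹ * (l3 F₁)⁻¹ * (l3 F₂)⁻¹ by positivity)]
    field_simp
  rw [Finset.sum_congr rfl h4, ← Finset.mul_sum]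
  have hp : 0 < l3 F₀ * l3 F₁ * l3 F₂ := by positivity
  calc l3 F₀ * l3 F₁ * l3 F₂ * ∑ j ∈ S, |Lam j (fun x y => (l3 F₀)⁻¹ * F₀ x y)
        (fun x y => (l3 F₁)⁻¹ * F₁ x y) (fun x y => (l3 F₂)⁻¹ * F₂ x y)|
      ≤ l3 F₀ * l3 F₁ * l3 F₂ * (24 * (C * (1 + Real.log m) ^ 3) * Gc ^ 2 * (1 + 1 + 1)) :=
        mul_le_mul_of_nonneg_left h3 hp.le
    _ = (72 * C * Gc ^ 2) * (1 + Real.log m) ^ 3 * (l3 F₀ * l3 F₁ * l3 F₂) := by ring
    _ ≤ (72 * C * Gc ^ 2 + 1) * (1 + Real.log m) ^ 3 * (l3 F₀ * l3 F₁ * l3 F₂) := by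
        have : 0 ≤ (1 + Real.log m) ^ 3 * (l3 F₀ * l3 F₁ * l3 F₂) := by positivity
        nlinarith

end Vale.Agent.P075
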