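import Vale.Agent.P075.LocalW

namespace Vale.Agent.P075

open Finset Matrix

/-- enumeration of a finite set of scales, extended by N -/
noncomputable def enumS (N : ℕ) (S : Finset ℕ) (a : ℕ) : ℕ :=
  if h : a < S.card then S.orderEmbOfFin rfl ⟨a, h⟩ else N

theorem enumS_mem {N : ℕ} {S : Finset ℕ} {a : ℕ} (h : a < S.card) : enumS N S a ∈ S := by
  unfold enumS
  rw [dif_pos h]
  exact Finset.orderEmbOfFin_mem S rfl _

theorem enumS_mono {N : ℕ} {S : Finset ℕ} (hS : ∀ i ∈ S, i < N) : Monotone (enumS N S) := by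
  intro a b hab
  by_cases hb : b < S.card
  · have ha : a < S.card := lt_of_le_of_lt hab hb
    unfold enumS
    rw [dif_pos ha, dif_pos hb]
    exact (S.orderEmbOfFin rfl).monotone (by exact hab)
  · by_cases ha : a < S.card
    · have h1 := hS _ (enumS_mem (N := N) ha)
      have h2 : enumS N S b = N := by unfold enumS; rw [dif_neg hb]
      rw [h2]; exact h1.le
    · unfold enumS
      rw [dif_neg ha, dif_neg hb]

theorem enumS_le {N : ℕ} {S : Finset ℕ} (hS : ∀ i ∈ S, i < N) (a : ℕ) : enumS N S a ≤ N := by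
  by_cases ha : a < S.card
  · exact (hS _ (enumS_mem (N := N) ha)).le
  · unfold enumS
    rw [dif_neg ha]

theorem enumS_inj {N : ℕ} {S : Finset ℕ} : Set.InjOn (enumS N S) (Set.Iio S.card) := by
  intro a ha b hb hab
  have ha' : a < S.card := ha
  have hb' : b < S.card := hb
  unfold enumS at hab
  rw [dif_pos ha', dif_pos hb'] at hab
  have := (S.orderEmbOfFin rfl).injective hab
  simpa using this

theorem enumS_sum {N : ℕ} (S : Finset ℕ) (g : ℕ → ℝ) :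
    ∑ i ∈ S, g i = ∑ a ∈ range S.card, g (enumS N S a) := by
  have h1 : S = (range S.card).image (enumS N S) := by
    have h2 : (range S.card).image (enumS N S) ⊆ S := by
      intro i hi
      obtain ⟨a, ha, rfl⟩ := Finset.mem_image.1 hi
      exact enumS_mem (mem_range.1 ha)
    symm
    apply Finset.eq_of_subset_of_card_le h2
    rw [Finset.card_image_of_injOn, Finset.card_range]
    intro a ha b hb hab
    exact enumS_inj (by simpa using ha) (by simpa using hb) hab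
  conv_lhs => rw [h1]
  rw [Finset.sum_image]
  intro a ha b hb hab
  exact enumS_inj (by simpa using ha) (by simpa using hb) hab

theorem clog_le_log (m : ℕ) (hm : 2 ≤ m) : (Nat.clog 2 m : ℝ) ≤ 2 * (1 + Real.log m) := by
  have h1 : 2 ^ (Nat.clog 2 m - 1) < m := by
    have h2 : (Nat.clog 2 m).pred < Nat.clog 2 m := by
      apply Nat.pred_lt
      have := Nat.clog_pos (b := 2) (by norm_num) hm
      omega
    exact Nat.pow_pred_clog_lt_self (by norm_num) (by omega)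
  have h3 : (2 : ℝ) ^ (Nat.clog 2 m - 1) < m := by exact_mod_cast h1
  have h4 : (2 : ℝ) ^ (Nat.clog 2 m - 1) ≤ m := h3.le
  have h5 := Real.log_le_log (by positivity) h4
  rw [Real.log_pow] at h5
  have h6 : (Nat.clog 2 m : ℝ) ≤ ((Nat.clog 2 m - 1 : ℕ) : ℝ) + 1 := by
    have : Nat.clog 2 m ≤ (Nat.clog 2 m - 1) + 1 := by omega
    exact_mod_cast this
  have h7 := Real.log_two_gt_d9
  have h8 : (0 : ℝ) ≤ ((Nat.clog 2 m - 1 : ℕ) : ℝ) := Nat.cast_nonneg _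
  nlinarith

theorem localThm (K : ℕ) : ∃ C : ℝ, 0 < C ∧ ∀ (N m : ℕ) (S : Finset ℕ), 2 ≤ m → S.card ≤ m →
    (∀ i ∈ S, i < N) → ∀ F₀ F₁ F₂ : G N → G N → ℝ,
    (∀ x y, |F₀ x y| ≤ 1) → (∀ x y, |F₁ x y| ≤ 1) → (∀ x y, |F₂ x y| ≤ 1) →
    ∑ j ∈ S, |Lam j F₀ F₁ F₂| ≤
      C * (1 + Real.log m) ^ 3 * (l2 F₀ * l2 F₂ + 4 ^ N / (m : ℝ) ^ K) := by
  set P : ℕ := 7 * K + 17 with hP
  refine ⟨1024 * P ^ 2 + 780, by positivity, ?_⟩
  intro N m S hm hSm hSN F₀ F₁ F₂ hF₀ hF₁ hF₂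
  set l : ℕ := Nat.clog 2 m with hl
  have hl1 : 1 ≤ l := Nat.clog_pos (by norm_num) hm
  have hml : m ≤ 2 ^ l := Nat.le_pow_clog (by norm_num) m
  have hlm : 2 ^ l ≤ 2 * m := by
    have h1 : 2 ^ (l - 1) < m := Nat.pow_pred_clog_lt_self (by norm_num) (by omega)
    have h2 : 2 ^ l = 2 * 2 ^ (l - 1) := by
      obtain ⟨l', hl'⟩ : ∃ l', l = l' + 1 := ⟨l - 1, by omega⟩
      rw [hl', Nat.add_sub_cancel]
      ring
    omega
  set k : ℕ := Nat.clog 2 (P * l) with hk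
  have hPl : 2 ≤ P * l := by nlinarith
  have hk1 : P * l ≤ 2 ^ k := Nat.le_pow_clog (by norm_num) _
  have hk2 : 2 ^ k ≤ 2 * (P * l) := by
    have h0 : 0 < k := Nat.clog_pos (by norm_num) hPl
    have h1 : 2 ^ (k - 1) < P * l := Nat.pow_pred_clog_lt_self (by norm_num) (by omega)
    have h2 : 2 ^ k = 2 * 2 ^ (k - 1) := by
      obtain ⟨l', hl'⟩ : ∃ l', k = l' + 1 := ⟨k - 1, by omega⟩
      rw [hl', Nat.add_sub_cancel]
      ring
    omega
  have hmR : (2 : ℝ) ≤ m := by exact_mod_cast hm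
  have hm0 : (0 : ℝ) < m := by linarith
  set s : ℝ := 1 / (m : ℝ) ^ (K + 2) with hs
  have hs0 : 0 < s := by positivity
  let c : Ctx N :=
    { lam := s ^ 2
      j := enumS N S
      k := k
      m₀ := S.card
      M := 2 ^ l
      e := fun i => if 0 ≤ Lam i F₀ F₁ F₂ then 1 else -1
      F₀ := F₀
      F₁ := F₁
      F₂ := F₂
      hlam := by positivity
      hj := enumS_mono hSN
      hjN := enumS_le hSN
      hm₀M := le_trans hSm hml
      hinj := enumS_inj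
      hlt := fun a ha => hSN _ (enumS_mem ha)
      he := fun i => by
        by_cases h : 0 ≤ Lam i F₀ F₁ F₂
        · left; simp [h]
        · right; simp [h]
      hF₀ := hF₀
      hF₁ := hF₁
      hF₂ := hF₂ }
  have hmain := c.total_bound l rfl
  have hsum : ∑ i ∈ S, |Lam i F₀ F₁ F₂| =
      ∑ a ∈ range c.m₀, c.e (c.j a) * Lam (c.j a) c.F₀ c.F₁ c.F₂ := by
    rw [enumS_sum (N := N) S]
    refine Finset.sum_congr rfl fun a _ => ?_
    change |Lam (enumS N S a) F₀ F₁ F₂| =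
      (if 0 ≤ Lam (enumS N S a) F₀ F₁ F₂ then (1 : ℝ) else -1) * Lam (enumS N S a) F₀ F₁ F₂
    split_ifs with h
    · rw [abs_of_nonneg h, one_mul]
    · rw [abs_of_neg (not_le.1 h)]; ring
  rw [hsum]
  refine le_trans (le_abs_self _) (le_trans hmain ?_)
  -- bound for the constants
  have hlog : (l : ℝ) ≤ 2 * (1 + Real.log m) := clog_le_log m hm
  have hL : (1 : ℝ) ≤ 1 + Real.log m := by
    have := Real.log_nonneg (by linarith : (1 : ℝ) ≤ m)
    linarith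
  have hl1R : (1 : ℝ) ≤ l := by exact_mod_cast hl1
  have hCk : Ck k ≤ 32 * (P : ℝ) ^ 2 * l ^ 2 := by
    have h1 : (2 : ℝ) ^ k ≤ 2 * (P * l) := by exact_mod_cast hk2
    have h2 : ((2 : ℝ) ^ k) ^ 2 ≤ (2 * (P * l)) ^ 2 := by gcongr
    have h3 : ((2 : ℝ) ^ k) ^ 2 = 4 ^ k := by rw [← pow_mul, mul_comm, pow_mul]; norm_num
    unfold Ck
    rw [pow_succ, ← h3]
    nlinarith
  have hLp : (l : ℝ) ^ 3 ≤ 8 * (1 + Real.log m) ^ 3 := by
    have : (l : ℝ) ^ 3 ≤ (2 * (1 + Real.log m)) ^ 3 := by gcongr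
    calc (l : ℝ) ^ 3 ≤ (2 * (1 + Real.log m)) ^ 3 := this
      _ = _ := by ring
  have hmainC : ((l : ℝ) + 1) * (2 * Ck k) ≤ 1024 * (P : ℝ) ^ 2 * (1 + Real.log m) ^ 3 := by
    have h1 : ((l : ℝ) + 1) * (2 * Ck k) ≤ (2 * l) * (2 * (32 * (P : ℝ) ^ 2 * l ^ 2)) := by
      have h0 : 0 ≤ Ck k := by unfold Ck; positivity
      gcongr
      linarith
    have h2 : (2 * (l : ℝ)) * (2 * (32 * (P : ℝ) ^ 2 * l ^ 2)) = 128 * (P : ℝ) ^ 2 * l ^ 3 := by
      ring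
    rw [h2] at h1
    have h3 := mul_le_mul_of_nonneg_left hLp (by positivity : 0 ≤ 128 * (P : ℝ) ^ 2)
    linarith
  have hE1 : 3 * (c.M : ℝ) * c.E1 ≤ 780 * (4 ^ N / (m : ℝ) ^ K) := by
    have hMle : (c.M : ℝ) ≤ 2 * m := by exact_mod_cast hlm
    have hM0 : (0 : ℝ) ≤ (c.M : ℝ) := Nat.cast_nonneg _
    have hm0le : (c.m₀ : ℝ) ≤ m := by exact_mod_cast hSm
    have hlamsq : Real.sqrt c.lam = s := Real.sqrt_sq hs0.le
    -- first error
    have hfirst : 3 * (c.M : ℝ) * (c.M * Real.sqrt c.lam * 4 ^ N) ≤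
        12 * (4 ^ N / (m : ℝ) ^ K) := by
      rw [hlamsq, hs]
      have h1 : 3 * (c.M : ℝ) * (c.M * (1 / (m : ℝ) ^ (K + 2)) * 4 ^ N) ≤
          3 * (2 * m) * ((2 * m) * (1 / (m : ℝ) ^ (K + 2)) * 4 ^ N) := by gcongr
      refine le_trans h1 (le_of_eq ?_)
      have h2 : (m : ℝ) ^ (K + 2) = m ^ K * m ^ 2 := pow_add _ _ _
      rw [h2]
      field_simp
      ring
    -- second error
    have hbig : (m : ℝ) ^ P ≤ 4 ^ (2 ^ k) := by
      have h1 : (m : ℝ) ^ P ≤ (2 ^ l) ^ P := by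
        have : (m : ℝ) ≤ 2 ^ l := by exact_mod_cast hml
        gcongr
      have h2 : ((2 : ℝ) ^ l) ^ P = 2 ^ (P * l) := by rw [← pow_mul, mul_comm]
      have h3 : (2 : ℝ) ^ (P * l) ≤ 2 ^ (2 ^ k) := pow_le_pow_right₀ (by norm_num) hk1
      have h4 : (2 : ℝ) ^ (2 ^ k) ≤ 4 ^ (2 ^ k) := by gcongr; norm_num
      linarith
    have hsecond : 3 * (c.M : ℝ) * c.Err ≤ 768 * (4 ^ N / (m : ℝ) ^ K) := by
      unfold Ctx.Err
      have hlam : c.lam = s ^ 2 := rfl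
      have hkk : c.k = k := rfl
      rw [hlam, hkk]
      have hM1 : (c.M : ℝ) + 1 ≤ 4 * m := by linarith
      have h1 : 3 * (c.M : ℝ) * (c.m₀ * (2 * c.M / s ^ 2) ^ 2 * ((c.M + 1) / s ^ 2) * 4 ^ N /
          4 ^ (2 ^ k)) ≤
          3 * (2 * m) * (m * (2 * (2 * m) / s ^ 2) ^ 2 * ((4 * m) / s ^ 2) * 4 ^ N /
          (m : ℝ) ^ P) := by gcongr
      refine le_trans h1 ?_
      have h2 : (m : ℝ) ^ P = m ^ K * (m ^ (K + 2)) ^ 6 * m ^ 5 := by
        rw [hP]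
        ring
      have h3 : 3 * (2 * (m : ℝ)) * (m * (2 * (2 * m) / s ^ 2) ^ 2 * ((4 * m) / s ^ 2) * 4 ^ N /
          (m : ℝ) ^ P) = 384 * (4 ^ N / (m : ℝ) ^ K) := by
        rw [h2, hs]
        field_simp
        ring
      rw [h3]
      have : 0 ≤ 4 ^ N / (m : ℝ) ^ K := by positivity
      linarith
    have : 3 * (c.M : ℝ) * c.E1 = 3 * (c.M : ℝ) * c.Err +
        3 * (c.M : ℝ) * (c.M * Real.sqrt c.lam * 4 ^ N) := by
      unfold Ctx.E1
      ring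
    rw [this]
    linarith
  have hl2 : 0 ≤ l2 F₀ * l2 F₂ := mul_nonneg (l2_nonneg _) (l2_nonneg _)
  have hq : 0 ≤ 4 ^ N / (m : ℝ) ^ K := by positivity
  have hL3 : (1 : ℝ) ≤ (1 + Real.log m) ^ 3 := one_le_pow₀ hL
  have t1 := mul_le_mul_of_nonneg_right hmainC hl2
  have t2 : 780 * (4 ^ N / (m : ℝ) ^ K) ≤ 780 * (1 + Real.log m) ^ 3 * (4 ^ N / (m : ℝ) ^ K) := by
    nlinarith
  have t3 : 0 ≤ 1024 * (P : ℝ) ^ 2 * (1 + Real.log m) ^ 3 * (4 ^ N / (m : ℝ) ^ K) := by positivity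
  have t4 : 0 ≤ 780 * (1 + Real.log m) ^ 3 * (l2 F₀ * l2 F₂) := by positivity
  calc ((l : ℝ) + 1) * (2 * Ck c.k) * (l2 c.F₀ * l2 c.F₂) + 3 * c.M * c.E1
      ≤ 1024 * (P : ℝ) ^ 2 * (1 + Real.log m) ^ 3 * (l2 F₀ * l2 F₂) +
        780 * (1 + Real.log m) ^ 3 * (4 ^ N / (m : ℝ) ^ K) := by
          have : ((l : ℝ) + 1) * (2 * Ck c.k) * (l2 c.F₀ * l2 c.F₂) ≤
            1024 * (P : ℝ) ^ 2 * (1 + Real.log m) ^ 3 * (l2 F₀ * l2 F₂) := t1
          linarith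
    _ ≤ _ := by
      have : (1024 * (P : ℝ) ^ 2 + 780) * (1 + Real.log m) ^ 3 *
          (l2 F₀ * l2 F₂ + 4 ^ N / (m : ℝ) ^ K) =
          1024 * (P : ℝ) ^ 2 * (1 + Real.log m) ^ 3 * (l2 F₀ * l2 F₂) +
          780 * (1 + Real.log m) ^ 3 * (4 ^ N / (m : ℝ) ^ K) +
          1024 * (P : ℝ) ^ 2 * (1 + Real.log m) ^ 3 * (4 ^ N / (m : ℝ) ^ K) +
          780 * (1 + Real.log m) ^ 3 * (l2 F₀ * l2 F₂) := by ring
      rw [this]
      linarith

end Vale.Agent.P075
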