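import Mathlib

namespace Vale.Agent.P075

open Finset Matrix

section matrixfacts

variable {ι : Type*} [Fintype ι] [DecidableEq ι]

theorem psd_quad_nonneg {A : Matrix ι ι ℝ} (hA : A.PosSemidef) (v : ι → ℝ) :
    0 ≤ v ⬝ᵥ (A *ᵥ v) := by
  have := hA.dotProduct_mulVec_nonneg v
  simpa using this

theorem psd_of_quad {A : Matrix ι ι ℝ} (hA : A.IsHermitian) (h : ∀ v, 0 ≤ v ⬝ᵥ (A *ᵥ v)) :
    A.PosSemidef := by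
  refine PosSemidef.of_dotProduct_mulVec_nonneg hA fun v => ?_
  rw [star_trivial]
  exact h v

theorem psd_symm {A : Matrix ι ι ℝ} (hA : A.PosSemidef) : Aᵀ = A := by
  have := hA.isHermitian
  rw [Matrix.IsHermitian, conjTranspose_eq_transpose_of_trivial] at this
  exact this

theorem dot_symm_mulVec {D : Matrix ι ι ℝ} (hs : Dᵀ = D) (u w : ι → ℝ) :
    u ⬝ᵥ (D *ᵥ w) = (D *ᵥ u) ⬝ᵥ w := by
  rw [dotProduct_mulVec, ← mulVec_transpose, hs]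

/-- if 0 ≤ D ≤ 1 then |D v|^2 ≤ v . D v -/
theorem psd_contr_sq {D : Matrix ι ι ℝ} (hD : D.PosSemidef) (hD1 : (1 - D).PosSemidef)
    (v : ι → ℝ) : (D *ᵥ v) ⬝ᵥ (D *ᵥ v) ≤ v ⬝ᵥ (D *ᵥ v) := by
  have hs := psd_symm hD
  -- D - D^2 = D (1-D) D + (1-D) D (1-D)
  have h1 : 0 ≤ (D *ᵥ v) ⬝ᵥ ((1 - D) *ᵥ (D *ᵥ v)) := psd_quad_nonneg hD1 _
  have h2 : 0 ≤ ((1 - D) *ᵥ v) ⬝ᵥ (D *ᵥ ((1 - D) *ᵥ v)) := psd_quad_nonneg hD _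
  have e1 : (D *ᵥ v) ⬝ᵥ ((1 - D) *ᵥ (D *ᵥ v)) =
      (D *ᵥ v) ⬝ᵥ (D *ᵥ v) - (D *ᵥ v) ⬝ᵥ (D *ᵥ (D *ᵥ v)) := by
    rw [sub_mulVec, one_mulVec, dotProduct_sub]
  have e3 : ∀ u w : ι → ℝ, u ⬝ᵥ (D *ᵥ w) = (D *ᵥ u) ⬝ᵥ w := dot_symm_mulVec hs
  have e2 : ((1 - D) *ᵥ v) ⬝ᵥ (D *ᵥ ((1 - D) *ᵥ v)) =
      v ⬝ᵥ (D *ᵥ v) - 2 * ((D *ᵥ v) ⬝ᵥ (D *ᵥ v)) + (D *ᵥ v) ⬝ᵥ (D *ᵥ (D *ᵥ v)) := by
    rw [sub_mulVec, one_mulVec, mulVec_sub, sub_dotProduct, dotProduct_sub, dotProduct_sub]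
    rw [e3 v (D *ᵥ v)]
    ring
  linarith

theorem psd_contr_sq' {D : Matrix ι ι ℝ} (hD : D.PosSemidef) (hD1 : (1 - D).PosSemidef)
    (v : ι → ℝ) : (D *ᵥ v) ⬝ᵥ (D *ᵥ v) ≤ v ⬝ᵥ v := by
  have h1 := psd_contr_sq hD hD1 v
  have h2 := psd_quad_nonneg hD1 v
  rw [sub_mulVec, one_mulVec, dotProduct_sub] at h2
  linarith

theorem dot_self_nonneg (v : ι → ℝ) : 0 ≤ v ⬝ᵥ v := by
  simp only [dotProduct]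
  exact Finset.sum_nonneg fun i _ => mul_self_nonneg _

end matrixfacts

end Vale.Agent.P075
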