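import Vale.Agent.P075.RidgeB

namespace Vale.Agent.P075

open Finset Matrix

section
variable {N : ℕ} {lam : ℝ} {f : G N → G N → ℝ} {j : ℕ → ℕ}

/-- lower bound for Qf of a function supported on one coarse cell -/
theorem Qf_lower {i k : ℕ} (hik : i ≤ k) (hk : k ≤ N) (y₀ : G N) (w : G N → ℝ)
    (hw : ∀ y, ¬ Low i (y + y₀) → w y = 0) :
    (∑ y, w y) ^ 2 ≤ 2 ^ (N - i) * Qf k w := by
  classical
  have hi : i ≤ N := le_trans hik hk
  refine le_trans ?_ (mul_le_mul_of_nonneg_left (Qf_mono hik hk w) (by positivity))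
  have h2 : ∀ y₁ ∈ univ.filter (fun y₁ : G N => Low i (y₁ + y₀)),
      (∑ y ∈ univ.filter (fun y => Low i (y + y₁)), w y) ^ 2 = (∑ y, w y) ^ 2 := by
    intro y₁ hy₁
    simp only [mem_filter, mem_univ, true_and] at hy₁
    congr 1
    rw [Finset.sum_filter]
    refine Finset.sum_congr rfl fun y _ => ?_
    split_ifs with h3
    · rfl
    · rw [hw y]
      intro h5
      apply h3
      have h6 := Low_add h5 hy₁
      have h7 : y + y₀ + (y₁ + y₀) = y + y₁ := by
        have := add_self_G y₀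
        calc y + y₀ + (y₁ + y₀) = (y₀ + y₀) + (y + y₁) := by abel
          _ = y + y₁ := by rw [this, zero_add]
      rwa [h7] at h6
  have h3 : (2 : ℝ) ^ (N - i) * (∑ y, w y) ^ 2 ≤
      ∑ y₁, (∑ y ∈ univ.filter (fun y => Low i (y + y₁)), w y) ^ 2 := by
    refine le_trans (le_of_eq ?_) (Finset.sum_le_sum_of_subset_of_nonneg
      (Finset.subset_univ (univ.filter (fun y₁ : G N => Low i (y₁ + y₀))))
      fun y₁ _ _ => sq_nonneg _)
    rw [Finset.sum_congr rfl h2, Finset.sum_const, card_coset hi, nsmul_eq_mul]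
    push_cast
    rfl
  unfold Qf
  have h4 : (4 : ℝ) ^ (N - i) = 2 ^ (N - i) * 2 ^ (N - i) := by
    rw [← mul_pow]; norm_num
  rw [h4, mul_div_assoc', le_div_iff₀ (by positivity)]
  calc (∑ y, w y) ^ 2 * (2 ^ (N - i) * 2 ^ (N - i)) =
      2 ^ (N - i) * (2 ^ (N - i) * (∑ y, w y) ^ 2) := by ring
    _ ≤ _ := mul_le_mul_of_nonneg_left h3 (by positivity)

theorem Smat_dom' (hj : Monotone j) (hjN : ∀ a, j a ≤ N) {a b : ℕ} (hab : a ≤ b) (x y₀ : G N)
    (v : G N → ℝ) (hv : ∀ y, ¬ Low (j a) (y + y₀) → v y = 0) :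
    ∑ x' ∈ univ.filter (fun x' => Low (j b) (x + x')), (∑ y, f x' y * v y) ^ 2 ≤
      2 ^ (N - j a) * 2 ^ (N - j b) * (v ⬝ᵥ (Smat f j b x *ᵥ v)) := by
  classical
  rw [Smat_quad hjN]
  have h1 : (∑ x' ∈ univ.filter (fun x' => Low (j b) (x + x')),
      Qf (j b) (fun y => f x' y * v y)) / 2 ^ (N - j b) ≤ ∑ c ∈ range (b + 1),
      (∑ x' ∈ univ.filter (fun x' => Low (j c) (x + x')), Qf (j b) (fun y => f x' y * v y)) /
        2 ^ (N - j c) := by
    refine Finset.single_le_sum (f := fun c => (∑ x' ∈ univ.filter (fun x' =>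
      Low (j c) (x + x')), Qf (j b) (fun y => f x' y * v y)) / 2 ^ (N - j c)) (fun b _ => ?_)
      (mem_range.2 (Nat.lt_succ_self b))
    exact div_nonneg (Finset.sum_nonneg fun x' _ => Qf_nonneg _ _) (by positivity)
  refine le_trans ?_ (mul_le_mul_of_nonneg_left h1 (by positivity))
  rw [Finset.sum_div, Finset.mul_sum]
  refine Finset.sum_le_sum fun x' _ => ?_
  have h2 := Qf_lower (hj hab) (hjN b) y₀ (fun y => f x' y * v y)
    (fun y hy => by rw [hv y hy, mul_zero])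
  refine le_trans h2 (le_of_eq ?_)
  field_simp

/-- square function of the remainder on a level j b cell -/
theorem cell_fine (hlam : 0 < lam) (hj : Monotone j) (hjN : ∀ a, j a ≤ N) {a b : ℕ}
    (hab : a ≤ b) (x₁ y₀ : G N) (be : G N → ℝ) (hbe : ∀ y, ¬ Low (j a) (y + y₀) → be y = 0) :
    ∑ x ∈ univ.filter (fun x => Low (j b) (x₁ + x)),
      (∑ y, (Rm lam f j b x *ᵥ f x) y * be y) ^ 2 ≤
      2 ^ (N - j a) * 2 ^ (N - j b) * (lam / 4 * (be ⬝ᵥ be)) := by
  classical
  set v := Rm lam f j b x₁ *ᵥ be with hv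
  have hvs : ∀ y, ¬ Low (j a) (y + y₀) → v y = 0 := by
    intro y hy
    rw [hv]
    simp only [mulVec, dotProduct]
    refine Finset.sum_eq_zero fun z _ => ?_
    by_cases hz : Low (j b) (y + z)
    · have h1 : ¬ Low (j a) (z + y₀) := by
        intro h2
        apply hy
        have h5 := Low_add (Low_mono (hj hab) hz) h2
        have h6 : y + z + (z + y₀) = y + y₀ := by
          have := add_self_G z
          calc y + z + (z + y₀) = (z + z) + (y + y₀) := by abel
            _ = y + y₀ := by rw [this, zero_add]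
        rwa [h6] at h5
      rw [hbe z h1, mul_zero]
    · rw [Rm_block hlam hj hjN b x₁ y z hz, zero_mul]
  have h1 : ∀ x ∈ univ.filter (fun x => Low (j b) (x₁ + x)),
      (∑ y, (Rm lam f j b x *ᵥ f x) y * be y) ^ 2 = (∑ y, f x y * v y) ^ 2 := by
    intro x hx
    simp only [mem_filter, mem_univ, true_and] at hx
    congr 1
    have h2 : Rm lam f j b x = Rm lam f j b x₁ := (Rm_coset hj b x₁ x hx).symm
    rw [h2]
    have hs : (Rm lam f j b x₁)ᵀ = Rm lam f j b x₁ :=
      psd_symm (Rm_posSemidef hlam hj hjN b x₁)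
    have h3 := dot_symm_mulVec hs (f x) be
    simp only [dotProduct] at h3
    rw [← h3, hv]
  rw [Finset.sum_congr rfl h1]
  refine le_trans (Smat_dom' hj hjN hab x₁ y₀ v hvs) ?_
  exact mul_le_mul_of_nonneg_left (Rm_quad hlam hj hjN b x₁ be) (by positivity)

/-- square function of the remainder on a level j a cell -/
theorem cell_coarse (hlam : 0 < lam) (hj : Monotone j) (hjN : ∀ a, j a ≤ N) {a b : ℕ}
    (hab : a ≤ b) (x₀ y₀ : G N) (be : G N → ℝ) (hbe : ∀ y, ¬ Low (j a) (y + y₀) → be y = 0) :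
    ∑ x ∈ univ.filter (fun x => Low (j a) (x + x₀)),
      (∑ y, (Rm lam f j b x *ᵥ f x) y * be y) ^ 2 ≤
      4 ^ (N - j a) * (lam / 4 * (be ⬝ᵥ be)) := by
  classical
  set rho : G N → ℝ := fun x => (∑ y, (Rm lam f j b x *ᵥ f x) y * be y) ^ 2 with hrho
  have h1 : ∑ x₁ ∈ univ.filter (fun x => Low (j a) (x + x₀)),
      ∑ x ∈ univ.filter (fun x => Low (j b) (x₁ + x)), rho x =
      2 ^ (N - j b) * ∑ x ∈ univ.filter (fun x => Low (j a) (x + x₀)), rho x := by
    have h2 : ∀ x₁ ∈ univ.filter (fun x => Low (j a) (x + x₀)),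
        ∑ x ∈ univ.filter (fun x => Low (j b) (x₁ + x)), rho x =
        ∑ x ∈ univ.filter (fun x => Low (j a) (x + x₀)), if Low (j b) (x₁ + x) then rho x else 0 := by
      intro x₁ hx₁
      simp only [mem_filter, mem_univ, true_and] at hx₁
      rw [← Finset.sum_filter, Finset.filter_filter]
      refine Finset.sum_congr ?_ fun _ _ => rfl
      ext x
      simp only [mem_filter, mem_univ, true_and]
      constructor
      · intro h
        refine ⟨?_, h⟩
        have h5 := Low_add (Low_mono (hj hab) h) hx₁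
        have h6 : x₁ + x + (x₁ + x₀) = x + x₀ := by
          have := add_self_G x₁
          calc x₁ + x + (x₁ + x₀) = (x₁ + x₁) + (x + x₀) := by abel
            _ = x + x₀ := by rw [this, zero_add]
        rwa [h6] at h5
      · exact fun h => h.2
    rw [Finset.sum_congr rfl h2, Finset.sum_comm, Finset.mul_sum]
    refine Finset.sum_congr rfl fun x hx => ?_
    simp only [mem_filter, mem_univ, true_and] at hx
    rw [← Finset.sum_filter, Finset.filter_filter, Finset.sum_const, nsmul_eq_mul]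
    have h3 : (univ.filter (fun x₁ : G N => Low (j a) (x₁ + x₀) ∧ Low (j b) (x₁ + x))) =
        univ.filter (fun x₁ : G N => Low (j b) (x₁ + x)) := by
      ext x₁
      simp only [mem_filter, mem_univ, true_and]
      constructor
      · exact fun h => h.2
      · intro h
        refine ⟨?_, h⟩
        have h5 := Low_add (Low_mono (hj hab) h) hx
        have h6 : x₁ + x + (x + x₀) = x₁ + x₀ := by
          have := add_self_G x
          calc x₁ + x + (x + x₀) = (x + x) + (x₁ + x₀) := by abel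
            _ = x₁ + x₀ := by rw [this, zero_add]
        rwa [h6] at h5
    rw [h3, card_coset (hjN b)]
    push_cast
    ring
  have h4 : ∑ x₁ ∈ univ.filter (fun x => Low (j a) (x + x₀)),
      ∑ x ∈ univ.filter (fun x => Low (j b) (x₁ + x)), rho x ≤
      2 ^ (N - j a) * (2 ^ (N - j a) * 2 ^ (N - j b) * (lam / 4 * (be ⬝ᵥ be))) := by
    refine le_trans (Finset.sum_le_card_nsmul _ _ _ fun x₁ _ =>
      cell_fine hlam hj hjN hab x₁ y₀ be hbe) ?_
    rw [card_coset (hjN a), nsmul_eq_mul]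
    push_cast
    exact le_refl _
  rw [h1] at h4
  have h5 : (4 : ℝ) ^ (N - j a) = 2 ^ (N - j a) * 2 ^ (N - j a) := by
    rw [← mul_pow]; norm_num
  have h6 : (0 : ℝ) < 2 ^ (N - j b) := by positivity
  have h7 : (2 : ℝ) ^ (N - j b) * ∑ x ∈ univ.filter (fun x => Low (j a) (x + x₀)), rho x ≤
      2 ^ (N - j b) * (4 ^ (N - j a) * (lam / 4 * (be ⬝ᵥ be))) := by
    refine le_trans h4 (le_of_eq ?_)
    rw [h5]
    ring
  exact le_of_mul_le_mul_left h7 h6

theorem cell_sum_F₂ {i : ℕ} (hiN : i ≤ N) (F : G N → G N → ℝ) :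
    ∑ p : G N × G N, (∑ x ∈ univ.filter (fun x => Low i (x + (p.2 + p.1))), F p.1 x ^ 2) =
      2 ^ (N - i) * l2 F ^ 2 := by
  rw [Fintype.sum_prod_type, l2_sq, Finset.mul_sum]
  refine Finset.sum_congr rfl fun z _ => ?_
  simp_rw [Finset.sum_filter]
  rw [Finset.sum_comm, Finset.mul_sum]
  refine Finset.sum_congr rfl fun x _ => ?_
  rw [← Finset.sum_filter, Finset.sum_const, nsmul_eq_mul]
  have h1 : (univ.filter (fun y₀ : G N => Low i (x + (y₀ + z)))) =
      univ.filter (fun y₀ : G N => Low i (y₀ + (x + z))) := by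
    ext y₀
    simp only [mem_filter, mem_univ, true_and]
    rw [show x + (y₀ + z) = y₀ + (x + z) by abel]
  rw [h1, card_coset hiN]
  push_cast
  rfl

theorem cell_sum_F₁ {i : ℕ} (hiN : i ≤ N) (F : G N → G N → ℝ) :
    ∑ p : G N × G N, (∑ y ∈ univ.filter (fun y => Low i (y + p.2)), F y p.1 ^ 2) =
      2 ^ (N - i) * l2 F ^ 2 := by
  rw [Fintype.sum_prod_type, l2_sq, Finset.sum_comm (f := fun x y => F x y ^ 2), Finset.mul_sum]
  refine Finset.sum_congr rfl fun z _ => ?_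
  simp_rw [Finset.sum_filter]
  rw [Finset.sum_comm, Finset.mul_sum]
  refine Finset.sum_congr rfl fun y _ => ?_
  rw [← Finset.sum_filter, Finset.sum_const, nsmul_eq_mul, card_coset' hiN]
  push_cast
  rfl

/-- bilinear cell sum with first cell x + y₀ + z low, second cell y + y₀ low -/
noncomputable def Tc (i : ℕ) (r F₁ F₂ : G N → G N → ℝ) (z y₀ : G N) : ℝ :=
  ∑ x ∈ univ.filter (fun x => Low i (x + (y₀ + z))), (sg i x * F₂ z x) *
    ∑ y, r x y * (if Low i (y + y₀) then sg i y * F₁ y z else 0)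

theorem Tc_sum {i : ℕ} (hiN : i ≤ N) (r F₁ F₂ : G N → G N → ℝ) (z : G N) :
    ∑ y₀, Tc i r F₁ F₂ z y₀ = 2 ^ (N - i) * ∑ x, ∑ y, if Low i (x + y + z) then
        sg i x * sg i y * r x y * F₁ y z * F₂ z x else 0 := by
  classical
  have h5 : ∀ y₀, Tc i r F₁ F₂ z y₀ = ∑ x, ∑ y, if Low i (x + (y₀ + z)) ∧ Low i (y + y₀) then
      sg i x * sg i y * r x y * F₁ y z * F₂ z x else 0 := by
    intro y₀
    unfold Tc
    rw [Finset.sum_filter]
    refine Finset.sum_congr rfl fun x _ => ?_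
    by_cases h : Low i (x + (y₀ + z))
    · rw [if_pos h, Finset.mul_sum]
      refine Finset.sum_congr rfl fun y _ => ?_
      by_cases h' : Low i (y + y₀)
      · rw [if_pos h', if_pos ⟨h, h'⟩]; ring
      · rw [if_neg h', if_neg (fun h6 => h' h6.2)]; ring
    · rw [if_neg h]
      symm
      refine Finset.sum_eq_zero fun y _ => ?_
      rw [if_neg (fun h6 => h h6.1)]
  simp_rw [h5]
  rw [Finset.sum_comm, Finset.mul_sum]
  refine Finset.sum_congr rfl fun x _ => ?_
  rw [Finset.sum_comm, Finset.mul_sum]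
  refine Finset.sum_congr rfl fun y _ => ?_
  have h6 : ∀ y₀, (Low i (x + (y₀ + z)) ∧ Low i (y + y₀)) ↔
      (Low i (x + y + z) ∧ Low i (y + y₀)) := by
    intro y₀
    constructor
    · rintro ⟨h7, h8⟩
      refine ⟨?_, h8⟩
      have h9 := Low_add h7 h8
      have h10 : x + (y₀ + z) + (y + y₀) = x + y + z := by
        have := add_self_G y₀
        calc x + (y₀ + z) + (y + y₀) = (y₀ + y₀) + (x + y + z) := by abel
          _ = x + y + z := by rw [this, zero_add]
      rwa [h10] at h9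
    · rintro ⟨h7, h8⟩
      refine ⟨?_, h8⟩
      have h9 := Low_add h7 h8
      have h10 : x + y + z + (y + y₀) = x + (y₀ + z) := by
        have := add_self_G y
        calc x + y + z + (y + y₀) = (y + y) + (x + (y₀ + z)) := by abel
          _ = x + (y₀ + z) := by rw [this, zero_add]
      rwa [h10] at h9
  simp_rw [h6]
  by_cases h7 : Low i (x + y + z)
  · simp only [h7, true_and, if_true]
    rw [← Finset.sum_filter, Finset.sum_const, card_coset' hiN, nsmul_eq_mul]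
    push_cast
    rfl
  · simp [h7]

theorem Lam_eq_Tc {i : ℕ} (hiN : i ≤ N) (r F₁ F₂ : G N → G N → ℝ) :
    Lam i r F₁ F₂ = (∑ z, ∑ y₀, sg i z * Tc i r F₁ F₂ z y₀) / 4 ^ (N - i) := by
  have h4 : (4 : ℝ) ^ (N - i) = 2 ^ (N - i) * 2 ^ (N - i) := by
    rw [← mul_pow]; norm_num
  have h6 : ∑ z, ∑ y₀, sg i z * Tc i r F₁ F₂ z y₀ = ∑ z, sg i z * (2 ^ (N - i) * ∑ x, ∑ y,
      if Low i (x + y + z) then sg i x * sg i y * r x y * F₁ y z * F₂ z x else 0) := by
    refine Finset.sum_congr rfl fun z _ => ?_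
    rw [← Finset.mul_sum, Tc_sum hiN]
  rw [h6, h4, ← Lam_cyc]
  unfold Lam
  rw [Finset.sum_div]
  refine Finset.sum_congr rfl fun z _ => ?_
  rw [Finset.mul_sum, Finset.mul_sum, Finset.sum_div]
  refine Finset.sum_congr rfl fun x _ => ?_
  rw [Finset.mul_sum, Finset.mul_sum, Finset.sum_div]
  refine Finset.sum_congr rfl fun y _ => ?_
  have h8 : z + x + y = x + y + z := by abel
  unfold kj
  rw [h8]
  split_ifs with h9
  · rw [sg_add, sg_add]
    field_simp
  · simp

theorem Tc_bound (hlam : 0 < lam) (hj : Monotone j) (hjN : ∀ a, j a ≤ N) {a b : ℕ}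
    (hab : a ≤ b) (F₁ F₂ : G N → G N → ℝ) (z y₀ : G N) :
    |Tc (j a) (fun x y => (Rm lam f j b x *ᵥ f x) y) F₁ F₂ z y₀| ≤
      2 ^ (N - j a) * (Real.sqrt lam / 2) *
      (Real.sqrt (∑ x ∈ univ.filter (fun x => Low (j a) (x + (y₀ + z))), F₂ z x ^ 2) *
        Real.sqrt (∑ y ∈ univ.filter (fun y => Low (j a) (y + y₀)), F₁ y z ^ 2)) := by
  classical
  set A : ℝ := ∑ x ∈ univ.filter (fun x => Low (j a) (x + (y₀ + z))), F₂ z x ^ 2 with hA
  set B : ℝ := ∑ y ∈ univ.filter (fun y => Low (j a) (y + y₀)), F₁ y z ^ 2 with hB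
  set be : G N → ℝ := fun y => if Low (j a) (y + y₀) then sg (j a) y * F₁ y z else 0 with hbe
  have hAnn : 0 ≤ A := Finset.sum_nonneg fun _ _ => sq_nonneg _
  have hBnn : 0 ≤ B := Finset.sum_nonneg fun _ _ => sq_nonneg _
  have h1 : (Tc (j a) (fun x y => (Rm lam f j b x *ᵥ f x) y) F₁ F₂ z y₀) ^ 2 ≤
      A * (4 ^ (N - j a) * (lam / 4 * B)) := by
    have h2 := Finset.sum_mul_sq_le_sq_mul_sq (univ.filter (fun x => Low (j a) (x + (y₀ + z))))
      (fun x => sg (j a) x * F₂ z x) (fun x => ∑ y, (Rm lam f j b x *ᵥ f x) y * be y)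
    have h3 : ∑ x ∈ univ.filter (fun x => Low (j a) (x + (y₀ + z))), (sg (j a) x * F₂ z x) ^ 2 =
        A := by
      refine Finset.sum_congr rfl fun x _ => ?_
      have := sg_sq (j a) x
      calc (sg (j a) x * F₂ z x) ^ 2 = (sg (j a) x * sg (j a) x) * F₂ z x ^ 2 := by ring
        _ = F₂ z x ^ 2 := by rw [this, one_mul]
    rw [h3] at h2
    refine le_trans h2 (mul_le_mul_of_nonneg_left ?_ hAnn)
    have h4 := cell_coarse (f := f) hlam hj hjN hab (y₀ + z) y₀ be
      (fun y hy => by simp only [hbe]; rw [if_neg hy])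
    refine le_trans h4 (le_of_eq ?_)
    have h5 : be ⬝ᵥ be = B := by
      simp only [dotProduct, hbe, hB]
      rw [Finset.sum_filter]
      refine Finset.sum_congr rfl fun y _ => ?_
      split_ifs with h
      · have := sg_sq (j a) y
        calc sg (j a) y * F₁ y z * (sg (j a) y * F₁ y z) =
            (sg (j a) y * sg (j a) y) * F₁ y z ^ 2 := by ring
          _ = F₁ y z ^ 2 := by rw [this, one_mul]
      · ring
    rw [h5]
  rw [← Real.sqrt_sq_eq_abs]
  refine le_trans (Real.sqrt_le_sqrt h1) (le_of_eq ?_)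
  have h5 : A * (4 ^ (N - j a) * (lam / 4 * B)) =
      (2 ^ (N - j a) * (Real.sqrt lam / 2) * (Real.sqrt A * Real.sqrt B)) ^ 2 := by
    have e1 := Real.sq_sqrt hAnn
    have e2 := Real.sq_sqrt hBnn
    have e3 := Real.sq_sqrt hlam.le
    have e4 : (4 : ℝ) ^ (N - j a) = (2 ^ (N - j a)) ^ 2 := by
      rw [← pow_mul, mul_comm, pow_mul]; norm_num
    rw [e4]
    calc A * ((2 ^ (N - j a)) ^ 2 * (lam / 4 * B)) =
        (2 ^ (N - j a)) ^ 2 * (lam / 4) * (A * B) := by ring
      _ = (2 ^ (N - j a)) ^ 2 * (Real.sqrt lam ^ 2 / 4) * (Real.sqrt A ^ 2 *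
          Real.sqrt B ^ 2) := by rw [e1, e2, e3]
      _ = _ := by ring
  rw [h5, Real.sqrt_sq (by positivity)]

/-- The remainder R_b f is small at scale j a for every a ≤ b.
Cell estimate: for x₀, y₀ and alpha on X = x₀ + V_{j a}, beta on Y = y₀ + V_{j a}:
∑_{x ∈ X, y ∈ Y} (R_b f)(x,y) alpha x beta y ≤ (sqrt lam / 2) 2^(N - j a) |alpha| |beta|. -/
theorem Rm_small (hlam : 0 < lam)
    (hj : Monotone j) (hjN : ∀ a, j a ≤ N) {a b : ℕ} (hab : a ≤ b)
    (F₁ F₂ : G N → G N → ℝ) :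
    |Lam (j a) (fun x y => (Rm lam f j b x *ᵥ f x) y) F₁ F₂| ≤
      Real.sqrt lam / 2 * l2 F₁ * l2 F₂ := by
  classical
  rw [Lam_eq_Tc (hjN a), abs_div, abs_of_pos (by positivity : (0 : ℝ) < 4 ^ (N - j a)),
    div_le_iff₀ (by positivity)]
  have hT1 : |∑ z, ∑ y₀, sg (j a) z *
      Tc (j a) (fun x y => (Rm lam f j b x *ᵥ f x) y) F₁ F₂ z y₀| ≤
      ∑ p : G N × G N, 2 ^ (N - j a) * (Real.sqrt lam / 2) *
      (Real.sqrt (∑ x ∈ univ.filter (fun x => Low (j a) (x + (p.2 + p.1))), F₂ p.1 x ^ 2) *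
        Real.sqrt (∑ y ∈ univ.filter (fun y => Low (j a) (y + p.2)), F₁ y p.1 ^ 2)) := by
    rw [← Fintype.sum_prod_type' (f := fun z y₀ => sg (j a) z *
      Tc (j a) (fun x y => (Rm lam f j b x *ᵥ f x) y) F₁ F₂ z y₀)]
    refine le_trans (Finset.abs_sum_le_sum_abs _ _) (Finset.sum_le_sum fun p _ => ?_)
    rw [abs_mul, abs_sg, one_mul]
    exact Tc_bound hlam hj hjN hab F₁ F₂ p.1 p.2
  refine le_trans hT1 ?_
  rw [← Finset.mul_sum]
  have hcs := Real.sum_sqrt_mul_sqrt_le (univ : Finset (G N × G N))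
    (f := fun p => ∑ x ∈ univ.filter (fun x => Low (j a) (x + (p.2 + p.1))), F₂ p.1 x ^ 2)
    (g := fun p => ∑ y ∈ univ.filter (fun y => Low (j a) (y + p.2)), F₁ y p.1 ^ 2)
    (fun p => Finset.sum_nonneg fun _ _ => sq_nonneg _)
    (fun p => Finset.sum_nonneg fun _ _ => sq_nonneg _)
  rw [cell_sum_F₂ (hjN a), cell_sum_F₁ (hjN a)] at hcs
  have h4 : (4 : ℝ) ^ (N - j a) = 2 ^ (N - j a) * 2 ^ (N - j a) := by
    rw [← mul_pow]; norm_num
  have hl1 := l2_nonneg F₁
  have hl2 := l2_nonneg F₂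
  have h5 : Real.sqrt (2 ^ (N - j a) * l2 F₂ ^ 2) * Real.sqrt (2 ^ (N - j a) * l2 F₁ ^ 2) =
      2 ^ (N - j a) * (l2 F₁ * l2 F₂) := by
    rw [← Real.sqrt_mul (by positivity)]
    have h6 : 2 ^ (N - j a) * l2 F₂ ^ 2 * (2 ^ (N - j a) * l2 F₁ ^ 2) =
        (2 ^ (N - j a) * (l2 F₁ * l2 F₂)) ^ 2 := by ring
    rw [h6, Real.sqrt_sq (by positivity)]
  rw [h5] at hcs
  refine le_trans (mul_le_mul_of_nonneg_left hcs (by positivity)) (le_of_eq ?_)
  rw [h4]
  ring

end

end Vale.Agent.P075
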