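import Vale.Agent.P075.PropA
import Vale.Agent.P075.RidgeC
import Vale.Agent.P075.BasicLemmas
import Vale.Agent.P075.MatAux

namespace Vale.Agent.P075

open Finset Matrix

section
variable {N : ℕ}

noncomputable def Qm (lam : ℝ) (f : G N → G N → ℝ) (j : ℕ → ℕ) (i : ℕ) (x : G N) :
    Matrix (G N) (G N) ℝ :=
  match i with
  | 0 => 0
  | a + 1 => Phi lam f j a x

noncomputable def Af (lam : ℝ) (f : G N → G N → ℝ) (j : ℕ → ℕ) (i : ℕ) : G N → G N → ℝ :=
  fun x y => (Qm lam f j i x *ᵥ f x) y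

/-- transposed kernel -/
def tp (F : G N → G N → ℝ) : G N → G N → ℝ := fun x y => F y x

theorem l2_tp (F : G N → G N → ℝ) : l2 (tp F) = l2 F := l2_swap F

theorem Lam_tp (j : ℕ) (F₀ F₁ F₂ : G N → G N → ℝ) :
    Lam j F₀ F₁ F₂ = Lam j (tp F₂) (tp F₁) (tp F₀) := Lam_swap j F₀ F₁ F₂

variable {lam : ℝ} {f : G N → G N → ℝ} {j : ℕ → ℕ}

theorem Qm_psd (hlam : 0 < lam) (hj : Monotone j) (hjN : ∀ a, j a ≤ N) (i : ℕ) (x : G N) :
    (Qm lam f j i x).PosSemidef := by
  cases i with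
  | zero => exact PosSemidef.zero
  | succ a => exact Phi_posSemidef hlam hj hjN a x

theorem Qm_one_sub (hlam : 0 < lam) (hj : Monotone j) (hjN : ∀ a, j a ≤ N) (i : ℕ) (x : G N) :
    (1 - Qm lam f j i x).PosSemidef := by
  cases i with
  | zero => simpa [Qm] using (PosSemidef.one : (1 : Matrix (G N) (G N) ℝ).PosSemidef)
  | succ a =>
    have := Rm_posSemidef (f := f) hlam hj hjN a x
    simpa [Qm, Phi] using this

theorem Qm_mono (hlam : 0 < lam) (hj : Monotone j) (hjN : ∀ a, j a ≤ N) {i i' : ℕ} (h : i ≤ i')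
    (x : G N) : (Qm lam f j i' x - Qm lam f j i x).PosSemidef := by
  cases i with
  | zero => simpa [Qm] using Qm_psd (f := f) hlam hj hjN i' x
  | succ a =>
    cases i' with
    | zero => omega
    | succ b => exact Phi_mono hlam hj hjN (Nat.le_of_succ_le_succ h) x

noncomputable def en (lam : ℝ) (f : G N → G N → ℝ) (j : ℕ → ℕ) (i : ℕ) : ℝ :=
  ∑ x, f x ⬝ᵥ (Qm lam f j i x *ᵥ f x)

theorem en_sub (p q : ℕ) : en lam f j q - en lam f j p =
    ∑ x, f x ⬝ᵥ ((Qm lam f j q x - Qm lam f j p x) *ᵥ f x) := by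
  unfold en
  rw [← Finset.sum_sub_distrib]
  refine Finset.sum_congr rfl fun x _ => ?_
  rw [sub_mulVec, dotProduct_sub]

theorem en_mono (hlam : 0 < lam) (hj : Monotone j) (hjN : ∀ a, j a ≤ N) {p q : ℕ} (h : p ≤ q) :
    en lam f j p ≤ en lam f j q := by
  have : 0 ≤ en lam f j q - en lam f j p := by
    rw [en_sub]
    exact Finset.sum_nonneg fun x _ => psd_quad_nonneg (Qm_mono hlam hj hjN h x) _
  linarith

theorem en_zero : en lam f j 0 = 0 := by
  unfold en
  simp [Qm]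

theorem en_le (hlam : 0 < lam) (hj : Monotone j) (hjN : ∀ a, j a ≤ N) (i : ℕ) :
    en lam f j i ≤ l2 f ^ 2 := by
  rw [l2_sq]
  unfold en
  refine Finset.sum_le_sum fun x _ => ?_
  have h := psd_quad_nonneg (Qm_one_sub (f := f) hlam hj hjN i x) (f x)
  rw [sub_mulVec, one_mulVec, dotProduct_sub] at h
  have h2 : f x ⬝ᵥ f x = ∑ y, f x y ^ 2 := by
    simp [dotProduct, sq]
  linarith

/-- increments of the structured parts are controlled by the energies -/
theorem l2_Af_sub_sq (hlam : 0 < lam) (hj : Monotone j) (hjN : ∀ a, j a ≤ N) {p q : ℕ}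
    (h : p ≤ q) :
    l2 (fun x y => Af lam f j q x y - Af lam f j p x y) ^ 2 ≤ en lam f j q - en lam f j p := by
  rw [l2_sq, en_sub]
  refine Finset.sum_le_sum fun x _ => ?_
  have hD := Qm_mono (f := f) hlam hj hjN h x
  have hD1 : (1 - (Qm lam f j q x - Qm lam f j p x)).PosSemidef := by
    have h1 := Qm_one_sub (f := f) hlam hj hjN q x
    have h2 := Qm_psd (f := f) hlam hj hjN p x
    have := h1.add h2
    have e : (1 - (Qm lam f j q x - Qm lam f j p x)) =
      1 - Qm lam f j q x + Qm lam f j p x := by abel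
    rw [e]; exact this
  have h3 := psd_contr_sq hD hD1 (f x)
  refine le_trans (le_of_eq ?_) h3
  simp only [dotProduct, Af, sub_mulVec, Pi.sub_apply]
  refine Finset.sum_congr rfl fun y _ => ?_
  ring

theorem l2_Af_sub (hlam : 0 < lam) (hj : Monotone j) (hjN : ∀ a, j a ≤ N) {p q : ℕ}
    (h : p ≤ q) :
    l2 (fun x y => Af lam f j q x y - Af lam f j p x y) ≤
      Real.sqrt (en lam f j q - en lam f j p) :=
  Real.le_sqrt_of_sq_le (l2_Af_sub_sq hlam hj hjN h)

theorem l2_Af_sub_le (hlam : 0 < lam) (hj : Monotone j) (hjN : ∀ a, j a ≤ N) {p q : ℕ}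
    (h : p ≤ q) :
    l2 (fun x y => Af lam f j q x y - Af lam f j p x y) ≤ l2 f := by
  have h1 := l2_Af_sub_sq (f := f) hlam hj hjN h
  have h2 := en_le (f := f) hlam hj hjN q
  have h3 : 0 ≤ en lam f j p := by
    have := en_mono (f := f) hlam hj hjN (Nat.zero_le p)
    rwa [en_zero] at this
  exact (pow_le_pow_iff_left₀ (l2_nonneg _) (l2_nonneg _) two_ne_zero).1 (by linarith)

theorem Af_bound (hlam : 0 < lam) (hj : Monotone j) (hjN : ∀ a, j a ≤ N)
    (hf : ∀ x y, |f x y| ≤ 1) (i : ℕ) (x y : G N) : |Af lam f j i x y| ≤ i / lam := by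
  cases i with
  | zero => simp [Af, Qm]
  | succ a =>
    have := Phi_point (f := f) hlam hj hjN hf a x y
    simpa [Af, Qm] using this

theorem Af_sub_bound (hlam : 0 < lam) (hj : Monotone j) (hjN : ∀ a, j a ≤ N)
    (hf : ∀ x y, |f x y| ≤ 1) {i i' M : ℕ} (hi : i ≤ M) (hi' : i' ≤ M) (x y : G N) :
    |Af lam f j i x y - Af lam f j i' x y| ≤ 2 * M / lam := by
  have h1 := Af_bound (f := f) hlam hj hjN hf i x y
  have h2 := Af_bound (f := f) hlam hj hjN hf i' x y
  have h3 : (i : ℝ) / lam ≤ M / lam := by gcongr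
  have h4 : (i' : ℝ) / lam ≤ M / lam := by gcongr
  have h5 := abs_sub (Af lam f j i x y) (Af lam f j i' x y)
  have h6 : 2 * (M : ℝ) / lam = M / lam + M / lam := by ring
  linarith

theorem sub_Af (a : ℕ) (x y : G N) :
    f x y - Af lam f j (a + 1) x y = (Rm lam f j a x *ᵥ f x) y := by
  simp [Af, Qm, Phi, sub_mulVec]

/-- the remainder after index b + 1 is small at every scale j a with a ≤ b -/
theorem small_rem (hlam : 0 < lam) (hj : Monotone j) (hjN : ∀ a, j a ≤ N) {a b : ℕ}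
    (hab : a ≤ b) (F₁ F₂ : G N → G N → ℝ) :
    |Lam (j a) (fun x y => f x y - Af lam f j (b + 1) x y) F₁ F₂| ≤
      Real.sqrt lam / 2 * l2 F₁ * l2 F₂ := by
  have := Rm_small (f := f) hlam hj hjN hab F₁ F₂
  simpa only [← sub_Af] using this

theorem small_diff (hlam : 0 < lam) (hj : Monotone j) (hjN : ∀ a, j a ≤ N) {a b : ℕ}
    (hab : a ≤ b) (F₁ F₂ : G N → G N → ℝ) :
    |Lam (j a) (fun x y => Af lam f j (b + 1) x y - Af lam f j (a + 1) x y) F₁ F₂| ≤
      Real.sqrt lam * l2 F₁ * l2 F₂ := by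
  have h1 := small_rem (f := f) hlam hj hjN hab F₁ F₂
  have h2 := small_rem (f := f) hlam hj hjN (le_refl a) F₁ F₂
  have e : Lam (j a) (fun x y => Af lam f j (b + 1) x y - Af lam f j (a + 1) x y) F₁ F₂ =
      Lam (j a) (fun x y => f x y - Af lam f j (a + 1) x y) F₁ F₂ -
      Lam (j a) (fun x y => f x y - Af lam f j (b + 1) x y) F₁ F₂ := by
    rw [← Lam_sub₀]
    congr 1
    funext x y
    ring
  rw [e]
  have h5 := abs_sub (Lam (j a) (fun x y => f x y - Af lam f j (a + 1) x y) F₁ F₂)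
    (Lam (j a) (fun x y => f x y - Af lam f j (b + 1) x y) F₁ F₂)
  linarith

/-- application of Prop A -/
theorem propA_app (hlam : 0 < lam) (hj : Monotone j) (hjN : ∀ a, j a ≤ N) (k m₀ : ℕ)
    (hinj : Set.InjOn j (Set.Iio m₀)) (hlt : ∀ a < m₀, j a < N)
    (e : ℕ → ℝ) (he : ∀ i, e i = 1 ∨ e i = -1)
    (hf : ∀ x y, |f x y| ≤ 1) (F₁ : G N → G N → ℝ) (hF₁ : ∀ x y, |F₁ x y| ≤ 1)
    {p q c M : ℕ} (hpq : p ≤ q) (hqc : q ≤ c + 1) (hqM : q ≤ M) (hcM : c ≤ M)
    (h : G N → G N → ℝ) (hh : ∀ x y, |h x y| ≤ 2 * M / lam) :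
    |∑ a ∈ range m₀, if c ≤ a then e (j a) * Lam (j a)
        (fun x y => Af lam f j q x y - Af lam f j p x y) F₁ h else 0| ≤
      2 * Ck k * Real.sqrt (en lam f j q - en lam f j p) * l2 h +
        m₀ * (2 * M / lam) ^ 2 * ((M + 1) / lam) * 4 ^ N / 4 ^ (2 ^ k) := by
  classical
  set T : Finset ℕ := ((range m₀).filter (fun a => c ≤ a)).image j with hT
  have hTcard : (T.card : ℝ) ≤ m₀ := by
    have h1 : T.card ≤ m₀ := by
      refine le_trans Finset.card_image_le ?_
      refine le_trans (Finset.card_filter_le _ _) ?_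
      simp
    exact_mod_cast h1
  have hsum : (∑ a ∈ range m₀, if c ≤ a then e (j a) * Lam (j a)
        (fun x y => Af lam f j q x y - Af lam f j p x y) F₁ h else 0) =
      ∑ i ∈ T, e i * Lam i (fun x y => ((Qm lam f j q x - Qm lam f j p x) *ᵥ f x) y) F₁ h := by
    rw [← Finset.sum_filter, hT, Finset.sum_image]
    · refine Finset.sum_congr rfl fun a _ => ?_
      congr 2
      funext x y
      simp [Af, sub_mulVec]
    · intro a ha b hb hab
      simp only [coe_filter, mem_range, Set.mem_setOf_eq] at ha hb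
      exact hinj ha.1 hb.1 hab
  have hTmem : ∀ i ∈ T, j c ≤ i ∧ i < N := by
    intro i hi
    rw [hT, Finset.mem_image] at hi
    obtain ⟨a, ha, rfl⟩ := hi
    simp only [mem_filter, mem_range] at ha
    exact ⟨hj ha.2, hlt a ha.1⟩
  have hM0 : (0 : ℝ) ≤ 2 * M / lam := by positivity
  have hmain := propA k (j c) (hjN c) T hTmem e he F₁ hF₁ (fun x => Phi lam f j c x)
    (fun x => Qm lam f j q x - Qm lam f j p x)
    (fun x => Phi_posSemidef hlam hj hjN c x)
    (fun x => by simpa [Qm] using Qm_one_sub (f := f) hlam hj hjN (c + 1) x)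
    (fun x y y' hy => Phi_block hlam hj hjN c x y y' hy)
    (fun x x' hx => Phi_coset hj c x x' hx)
    ((M + 1) / lam)
    (fun x y₀ => le_trans (Phi_trace_block hlam hj hjN hf c x y₀) (by gcongr))
    (fun x => Qm_mono hlam hj hjN hpq x)
    (fun x => by
      have h1 := Qm_mono (f := f) hlam hj hjN hqc x
      have h2 := Qm_psd (f := f) hlam hj hjN p x
      have h3 := h1.add h2
      have e1 : Phi lam f j c x - (Qm lam f j q x - Qm lam f j p x) =
          Qm lam f j (c + 1) x - Qm lam f j q x + Qm lam f j p x := by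
        simp only [Qm]; abel
      rw [e1]; exact h3)
    f h (2 * M / lam) hM0
    (fun x y => by
      have := Af_sub_bound (f := f) hlam hj hjN hf hqM (le_trans hpq hqM) x y
      simpa [Af, sub_mulVec] using this)
    hh
  rw [hsum, en_sub]
  refine le_trans hmain ?_
  gcongr

end

end Vale.Agent.P075
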