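import Vale.Agent.P075.LocalAux

namespace Vale.Agent.P075

open Finset Matrix

/-- the data of the local estimate -/
structure Ctx (N : ℕ) where
  lam : ℝ
  j : ℕ → ℕ
  k : ℕ
  m₀ : ℕ
  M : ℕ
  e : ℕ → ℝ
  F₀ : G N → G N → ℝ
  F₁ : G N → G N → ℝ
  F₂ : G N → G N → ℝ
  hlam : 0 < lam
  hj : Monotone j
  hjN : ∀ a, j a ≤ N
  hm₀M : m₀ ≤ M
  hinj : Set.InjOn j (Set.Iio m₀)
  hlt : ∀ a < m₀, j a < N
  he : ∀ i, e i = 1 ∨ e i = -1
  hF₀ : ∀ x y, |F₀ x y| ≤ 1
  hF₁ : ∀ x y, |F₁ x y| ≤ 1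
  hF₂ : ∀ x y, |F₂ x y| ≤ 1

namespace Ctx

variable {N : ℕ} (c : Ctx N)

noncomputable def A (i : ℕ) : G N → G N → ℝ := Af c.lam c.F₀ c.j i
noncomputable def B (i : ℕ) : G N → G N → ℝ := tp (Af c.lam (tp c.F₂) c.j i)
noncomputable def dA (p q : ℕ) : G N → G N → ℝ := fun x y => c.A q x y - c.A p x y
noncomputable def dB (p q : ℕ) : G N → G N → ℝ := fun x y => c.B q x y - c.B p x y

def swap : Ctx N :=
  { c with
    F₀ := tp c.F₂
    F₁ := tp c.F₁
    F₂ := tp c.F₀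
    hF₀ := fun x y => c.hF₂ y x
    hF₁ := fun x y => c.hF₁ y x
    hF₂ := fun x y => c.hF₀ y x }

theorem swap_A (i : ℕ) : c.swap.A i = tp (c.B i) := rfl
theorem swap_B (i : ℕ) : c.swap.B i = tp (c.A i) := rfl
theorem swap_dA (p q : ℕ) : c.swap.dA p q = tp (c.dB p q) := rfl
theorem swap_dB (p q : ℕ) : c.swap.dB p q = tp (c.dA p q) := rfl

noncomputable def W (p r : ℕ) : ℝ := ∑ a ∈ range c.m₀, if p ≤ a then
  c.e (c.j a) * Lam (c.j a) (c.dA p (min (a + 1) r)) c.F₁ (c.dB p (min (a + 1) r)) else 0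

noncomputable def U (p q r : ℕ) : ℝ := ∑ a ∈ range c.m₀, if q ≤ a then
  c.e (c.j a) * Lam (c.j a) (c.dA p q) c.F₁ (c.dB q (min (a + 1) r)) else 0

noncomputable def U' (p q r : ℕ) : ℝ := ∑ a ∈ range c.m₀, if q ≤ a then
  c.e (c.j a) * Lam (c.j a) (c.dA q (min (a + 1) r)) c.F₁ (c.dB p q) else 0

theorem U'_eq (p q r : ℕ) : c.U' p q r = c.swap.U p q r := by
  unfold U' U
  refine Finset.sum_congr rfl fun a _ => ?_
  split_ifs with h
  · rw [Lam_tp]
    rfl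
  · rfl

theorem dA_add (p q r : ℕ) : c.dA p r = fun x y => c.dA p q x y + c.dA q r x y := by
  funext x y
  simp only [dA]
  ring

theorem dB_add (p q r : ℕ) : c.dB p r = fun x y => c.dB p q x y + c.dB q r x y := by
  funext x y
  simp only [dB]
  ring

theorem W_split {p q r : ℕ} (hpq : p ≤ q) (hqr : q ≤ r) :
    c.W p r = c.W p q + c.W q r + c.U p q r + c.U' p q r := by
  unfold W U U'
  rw [← Finset.sum_add_distrib, ← Finset.sum_add_distrib, ← Finset.sum_add_distrib]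
  refine Finset.sum_congr rfl fun a _ => ?_
  by_cases hqa : q ≤ a
  · have hpa : p ≤ a := le_trans hpq hqa
    rw [if_pos hpa, if_pos hpa, if_pos hqa, if_pos hqa, if_pos hqa]
    have h1 : min (a + 1) q = q := by omega
    rw [h1, c.dA_add p q (min (a + 1) r), c.dB_add p q (min (a + 1) r)]
    rw [Lam_add₀, Lam_add₂, Lam_add₂]
    ring
  · rw [if_neg hqa, if_neg hqa, if_neg hqa]
    by_cases hpa : p ≤ a
    · rw [if_pos hpa, if_pos hpa]
      have h1 : min (a + 1) q = a + 1 := by omega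
      have h2 : min (a + 1) r = a + 1 := by omega
      rw [h1, h2]
      ring
    · rw [if_neg hpa, if_neg hpa]
      ring

noncomputable def E0 (i : ℕ) : ℝ := en c.lam c.F₀ c.j i
noncomputable def E2 (i : ℕ) : ℝ := en c.lam (tp c.F₂) c.j i

theorem swap_E0 (i : ℕ) : c.swap.E0 i = c.E2 i := rfl
theorem swap_E2 (i : ℕ) : c.swap.E2 i = c.E0 i := rfl

noncomputable def Err : ℝ :=
  c.m₀ * (2 * c.M / c.lam) ^ 2 * ((c.M + 1) / c.lam) * 4 ^ N / 4 ^ (2 ^ c.k)

noncomputable def E1 : ℝ := c.Err + c.M * Real.sqrt c.lam * 4 ^ N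

theorem swap_Err : c.swap.Err = c.Err := rfl
theorem swap_E1 : c.swap.E1 = c.E1 := rfl

theorem Err_nonneg : 0 ≤ c.Err := by
  have := c.hlam
  unfold Err
  positivity

theorem E1_nonneg : 0 ≤ c.E1 := by
  have := c.Err_nonneg
  have h2 := c.hlam
  unfold E1
  positivity

theorem E0_mono {p q : ℕ} (h : p ≤ q) : c.E0 p ≤ c.E0 q := en_mono c.hlam c.hj c.hjN h
theorem E2_mono {p q : ℕ} (h : p ≤ q) : c.E2 p ≤ c.E2 q := en_mono c.hlam c.hj c.hjN h

/-- crude l2 bound -/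
theorem l2_le_of_abs_le {F : G N → G N → ℝ} (hF : ∀ x y, |F x y| ≤ 1) : l2 F ≤ 2 ^ N := by
  have h1 : l2 F ^ 2 ≤ (2 ^ N) ^ 2 := by
    rw [l2_sq]
    have h2 : ∀ x y, F x y ^ 2 ≤ 1 := by
      intro x y
      have := hF x y
      rw [← sq_abs]
      have h0 := abs_nonneg (F x y)
      nlinarith
    calc ∑ x, ∑ y, F x y ^ 2 ≤ ∑ _x : G N, ∑ _y : G N, (1 : ℝ) :=
          Finset.sum_le_sum fun x _ => Finset.sum_le_sum fun y _ => h2 x y
      _ = (2 ^ N) ^ 2 := by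
          simp [Fintype.card_pi, ZMod.card, sq]
  exact (pow_le_pow_iff_left₀ (l2_nonneg _) (by positivity) two_ne_zero).1 h1

theorem l2_dA_le {p q : ℕ} (h : p ≤ q) : l2 (c.dA p q) ≤ Real.sqrt (c.E0 q - c.E0 p) :=
  l2_Af_sub c.hlam c.hj c.hjN h

theorem l2_dB_le {p q : ℕ} (h : p ≤ q) : l2 (c.dB p q) ≤ Real.sqrt (c.E2 q - c.E2 p) := by
  have : l2 (c.dB p q) = l2 (tp (c.dB p q)) := (l2_tp _).symm
  rw [this]
  exact l2_Af_sub c.hlam c.hj c.hjN h

theorem l2_dA_le' {p q : ℕ} (h : p ≤ q) : l2 (c.dA p q) ≤ 2 ^ N :=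
  le_trans (l2_Af_sub_le c.hlam c.hj c.hjN h) (l2_le_of_abs_le c.hF₀)

theorem dB_bound {p q : ℕ} (hp : p ≤ c.M) (hq : q ≤ c.M) (x y : G N) :
    |c.dB p q x y| ≤ 2 * c.M / c.lam :=
  Af_sub_bound c.hlam c.hj c.hjN (fun x y => c.hF₂ y x) hq hp y x

/-- application of Prop A for the dA p q pieces -/
theorem propA_dA {p q s : ℕ} (hpq : p ≤ q) (hqs : q ≤ s + 1) (hq : q ≤ c.M) (hs : s ≤ c.M)
    {u v : ℕ} (hu : u ≤ c.M) (hv : v ≤ c.M) (huv : u ≤ v) :
    |∑ a ∈ range c.m₀, if s ≤ a then c.e (c.j a) * Lam (c.j a) (c.dA p q) c.F₁ (c.dB u v) else 0| ≤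
      2 * Ck c.k * Real.sqrt (c.E0 q - c.E0 p) * Real.sqrt (c.E2 v - c.E2 u) + c.Err := by
  have h1 := propA_app c.hlam c.hj c.hjN c.k c.m₀ c.hinj c.hlt c.e c.he c.hF₀ c.F₁ c.hF₁ hpq hqs
    hq hs (c.dB u v) (c.dB_bound hu hv)
  have h2 := c.l2_dB_le huv
  have h3 : 0 ≤ 2 * Ck c.k * Real.sqrt (c.E0 q - c.E0 p) := by
    unfold Ck; positivity
  refine le_trans h1 ?_
  have h4 := mul_le_mul_of_nonneg_left h2 h3
  have h5 : c.Err = c.m₀ * (2 * c.M / c.lam) ^ 2 * ((c.M + 1) / c.lam) * 4 ^ N / 4 ^ (2 ^ c.k) :=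
    rfl
  rw [← h5]
  unfold E0 at h4 ⊢
  linarith

theorem U_bound {p q r : ℕ} (hpq : p ≤ q) (hqr : q ≤ r) (hr : r ≤ c.M) :
    |c.U p q r| ≤
      2 * Ck c.k * Real.sqrt (c.E0 q - c.E0 p) * Real.sqrt (c.E2 r - c.E2 q) + c.E1 := by
  have hmain := c.propA_dA hpq (Nat.le_succ q) (le_trans hqr hr) (le_trans hqr hr)
    (le_trans hqr hr) hr hqr
  have hlam := c.hlam
  -- the difference
  have hdiff : c.U p q r = (∑ a ∈ range c.m₀, if q ≤ a then
      c.e (c.j a) * Lam (c.j a) (c.dA p q) c.F₁ (c.dB q r) else 0) -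
      ∑ a ∈ range c.m₀, if q ≤ a then
        c.e (c.j a) * Lam (c.j a) (c.dA p q) c.F₁ (c.dB (min (a + 1) r) r) else 0 := by
    unfold U
    rw [← Finset.sum_sub_distrib]
    refine Finset.sum_congr rfl fun a _ => ?_
    split_ifs with h
    · rw [c.dB_add q (min (a + 1) r) r, Lam_add₂]
      ring
    · ring
  have hsecond : |∑ a ∈ range c.m₀, if q ≤ a then
        c.e (c.j a) * Lam (c.j a) (c.dA p q) c.F₁ (c.dB (min (a + 1) r) r) else 0| ≤
      c.M * Real.sqrt c.lam * 4 ^ N := by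
    have hterm : ∀ a ∈ range c.m₀, |(if q ≤ a then
        c.e (c.j a) * Lam (c.j a) (c.dA p q) c.F₁ (c.dB (min (a + 1) r) r) else 0)| ≤
        Real.sqrt c.lam * 4 ^ N := by
      intro a _
      have hnn : 0 ≤ Real.sqrt c.lam * 4 ^ N := by positivity
      split_ifs with h
      · rw [abs_mul]
        have he : |c.e (c.j a)| = 1 := by
          rcases c.he (c.j a) with h | h <;> rw [h] <;> simp
        rw [he, one_mul]
        by_cases har : a + 1 ≤ r
        · have h1 : min (a + 1) r = a + 1 := by omega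
          rw [h1, Lam_tp]
          obtain ⟨b, rfl⟩ : ∃ b, r = b + 1 := ⟨r - 1, by omega⟩
          have hab : a ≤ b := by omega
          have h2 := small_diff (f := tp c.F₂) c.hlam c.hj c.hjN hab (tp c.F₁) (tp (c.dA p q))
          have h3 : l2 (tp c.F₁) ≤ 2 ^ N := by
            rw [l2_tp]; exact l2_le_of_abs_le c.hF₁
          have h4 : l2 (tp (c.dA p q)) ≤ 2 ^ N := by
            rw [l2_tp]; exact c.l2_dA_le' hpq
          refine le_trans h2 ?_
          have h5 : l2 (tp c.F₁) * l2 (tp (c.dA p q)) ≤ 2 ^ N * 2 ^ N :=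
            mul_le_mul h3 h4 (l2_nonneg _) (by positivity)
          have h6 : (2 : ℝ) ^ N * 2 ^ N = 4 ^ N := by
            rw [← mul_pow]; norm_num
          rw [h6] at h5
          have h7 := mul_le_mul_of_nonneg_left h5 (Real.sqrt_nonneg c.lam)
          linarith
        · have h1 : min (a + 1) r = r := by omega
          rw [h1]
          have h2 : c.dB r r = fun _ _ => 0 := by
            funext x y
            simp [dB]
          rw [h2]
          have h3 : Lam (c.j a) (c.dA p q) c.F₁ (fun _ _ => 0) = 0 := by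
            simp [Lam]
          rw [h3, abs_zero]
          exact hnn
      · rw [abs_zero]; exact hnn
    refine le_trans (Finset.abs_sum_le_sum_abs _ _) ?_
    refine le_trans (Finset.sum_le_sum hterm) ?_
    rw [Finset.sum_const, Finset.card_range, nsmul_eq_mul]
    have h1 : (c.m₀ : ℝ) ≤ c.M := by exact_mod_cast c.hm₀M
    have h2 : 0 ≤ Real.sqrt c.lam * 4 ^ N := by positivity
    have := mul_le_mul_of_nonneg_right h1 h2
    linarith
  rw [hdiff]
  refine le_trans (abs_sub _ _) ?_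
  unfold E1
  linarith

theorem U'_bound {p q r : ℕ} (hpq : p ≤ q) (hqr : q ≤ r) (hr : r ≤ c.M) :
    |c.U' p q r| ≤
      2 * Ck c.k * Real.sqrt (c.E0 r - c.E0 q) * Real.sqrt (c.E2 q - c.E2 p) + c.E1 := by
  rw [U'_eq]
  have := c.swap.U_bound hpq hqr hr
  rw [swap_E0, swap_E0, swap_E2, swap_E2, swap_E1] at this
  have hk : c.swap.k = c.k := rfl
  rw [hk] at this
  linarith

theorem W_base {p : ℕ} (hp : p + 1 ≤ c.M) :
    |c.W p (p + 1)| ≤
      2 * Ck c.k * Real.sqrt (c.E0 (p + 1) - c.E0 p) * Real.sqrt (c.E2 (p + 1) - c.E2 p) +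
        c.E1 := by
  have hlam := c.hlam
  have h1 : c.W p (p + 1) = ∑ a ∈ range c.m₀, if p ≤ a then
      c.e (c.j a) * Lam (c.j a) (c.dA p (p + 1)) c.F₁ (c.dB p (p + 1)) else 0 := by
    unfold W
    refine Finset.sum_congr rfl fun a _ => ?_
    split_ifs with h
    · have h2 : min (a + 1) (p + 1) = p + 1 := by omega
      rw [h2]
    · rfl
  rw [h1]
  have h2 := c.propA_dA (Nat.le_succ p) (le_refl (p + 1)) hp (by omega : p ≤ c.M)
    (by omega : p ≤ c.M) hp (Nat.le_succ p)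
  refine le_trans h2 ?_
  have h3 : 0 ≤ c.M * Real.sqrt c.lam * 4 ^ N := by positivity
  unfold E1
  linarith

theorem cs_sqrt {a b a' b' : ℝ} (ha : 0 ≤ a) (hb : 0 ≤ b) (ha' : 0 ≤ a') (hb' : 0 ≤ b') :
    Real.sqrt a * Real.sqrt a' + Real.sqrt b * Real.sqrt b' ≤
      Real.sqrt (a + b) * Real.sqrt (a' + b') := by
  have h0 : Real.sqrt (a + b) * Real.sqrt (a' + b') = Real.sqrt ((a + b) * (a' + b')) :=
    (Real.sqrt_mul (by positivity) _).symm
  rw [h0]
  apply Real.le_sqrt_of_sq_le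
  have h1 := Real.sq_sqrt ha
  have h2 := Real.sq_sqrt hb
  have h3 := Real.sq_sqrt ha'
  have h4 := Real.sq_sqrt hb'
  have h5 := sq_nonneg (Real.sqrt a * Real.sqrt b' - Real.sqrt b * Real.sqrt a')
  nlinarith [h5, h1, h2, h3, h4]

theorem W_bound (l : ℕ) : ∀ p : ℕ, p + 2 ^ l ≤ c.M →
    |c.W p (p + 2 ^ l)| ≤
      ((l : ℝ) + 1) * (2 * Ck c.k) * (Real.sqrt (c.E0 (p + 2 ^ l) - c.E0 p) *
        Real.sqrt (c.E2 (p + 2 ^ l) - c.E2 p)) + (3 * 2 ^ l - 2) * c.E1 := by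
  induction l with
  | zero =>
    intro p hp
    simp only [pow_zero] at hp ⊢
    have := c.W_base hp
    push_cast
    linarith
  | succ l ih =>
    intro p hp
    have hpow : (2 : ℕ) ^ (l + 1) = 2 ^ l + 2 ^ l := by ring
    rw [hpow] at hp ⊢
    rw [← add_assoc] at hp ⊢
    set q := p + 2 ^ l with hq
    set r := q + 2 ^ l with hr
    have hpq : p ≤ q := Nat.le_add_right _ _
    have hqr : q ≤ r := Nat.le_add_right _ _
    have hqM : q ≤ c.M := le_trans hqr hp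
    have h1 := ih p hqM
    have h2 := ih q hp
    have h3 := c.U_bound hpq hqr hp
    have h4 := c.U'_bound hpq hqr hp
    rw [← hq] at h1
    rw [← hr] at h2
    have hA0 : 0 ≤ c.E0 q - c.E0 p := sub_nonneg.2 (c.E0_mono hpq)
    have hB0 : 0 ≤ c.E0 r - c.E0 q := sub_nonneg.2 (c.E0_mono hqr)
    have hA2 : 0 ≤ c.E2 q - c.E2 p := sub_nonneg.2 (c.E2_mono hpq)
    have hB2 : 0 ≤ c.E2 r - c.E2 q := sub_nonneg.2 (c.E2_mono hqr)
    have c1 := cs_sqrt hA0 hB0 hA2 hB2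
    have c2 := cs_sqrt hA0 hB0 hB2 hA2
    have e1 : c.E0 q - c.E0 p + (c.E0 r - c.E0 q) = c.E0 r - c.E0 p := by ring
    have e2 : c.E2 q - c.E2 p + (c.E2 r - c.E2 q) = c.E2 r - c.E2 p := by ring
    have e3 : c.E2 r - c.E2 q + (c.E2 q - c.E2 p) = c.E2 r - c.E2 p := by ring
    rw [e1, e2] at c1
    rw [e1, e3] at c2
    rw [c.W_split hpq hqr]
    have hCk : 0 ≤ 2 * Ck c.k := by unfold Ck; positivity
    have t1 : |c.W p q + c.W q r + c.U p q r + c.U' p q r| ≤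
        |c.W p q| + |c.W q r| + |c.U p q r| + |c.U' p q r| := by
      have a1 := abs_add_le (c.W p q + c.W q r + c.U p q r) (c.U' p q r)
      have a2 := abs_add_le (c.W p q + c.W q r) (c.U p q r)
      have a3 := abs_add_le (c.W p q) (c.W q r)
      linarith
    have hl : (0 : ℝ) ≤ (l : ℝ) + 1 := by positivity
    have m1 := mul_le_mul_of_nonneg_left c1 (mul_nonneg hl hCk)
    have m2 := mul_le_mul_of_nonneg_left c2 hCk
    have hE := c.E1_nonneg
    refine le_trans t1 ?_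
    have hfin : ((((l + 1 : ℕ) : ℝ) + 1) * (2 * Ck c.k) * (Real.sqrt (c.E0 r - c.E0 p) *
        Real.sqrt (c.E2 r - c.E2 p)) + (3 * 2 ^ (l + 1) - 2) * c.E1) =
        ((l : ℝ) + 1) * (2 * Ck c.k) * (Real.sqrt (c.E0 r - c.E0 p) *
          Real.sqrt (c.E2 r - c.E2 p)) + (2 * Ck c.k) * (Real.sqrt (c.E0 r - c.E0 p) *
          Real.sqrt (c.E2 r - c.E2 p)) + 2 * ((3 * 2 ^ l - 2) * c.E1) + 2 * c.E1 := by
      push_cast
      ring
    rw [hfin]
    linarith

/-- the sum over all scales is W up to a small error -/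
theorem total_bound (l : ℕ) (hM : c.M = 2 ^ l) :
    |∑ a ∈ range c.m₀, c.e (c.j a) * Lam (c.j a) c.F₀ c.F₁ c.F₂| ≤
      ((l : ℝ) + 1) * (2 * Ck c.k) * (l2 c.F₀ * l2 c.F₂) + 3 * c.M * c.E1 := by
  have hlam := c.hlam
  have hW := c.W_bound l 0 (by rw [hM]; omega)
  rw [zero_add, ← hM] at hW
  have hA0 : c.A 0 = fun _ _ => 0 := by
    funext x y
    simp [A, Af, Qm]
  have hB0 : c.B 0 = fun _ _ => 0 := by
    funext x y
    simp [B, tp, Af, Qm]
  have hdA : ∀ i, c.dA 0 i = c.A i := by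
    intro i
    funext x y
    simp [dA, hA0]
  have hdB : ∀ i, c.dB 0 i = c.B i := by
    intro i
    funext x y
    simp [dB, hB0]
  have hWeq : c.W 0 c.M = ∑ a ∈ range c.m₀, c.e (c.j a) *
      Lam (c.j a) (c.A (a + 1)) c.F₁ (c.B (a + 1)) := by
    unfold W
    refine Finset.sum_congr rfl fun a ha => ?_
    rw [if_pos (Nat.zero_le a), hdA, hdB]
    have h1 := c.hm₀M
    have h2 := mem_range.1 ha
    have h3 : min (a + 1) c.M = a + 1 := by omega
    rw [h3]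
  have hdiff : |(∑ a ∈ range c.m₀, c.e (c.j a) * Lam (c.j a) c.F₀ c.F₁ c.F₂) - c.W 0 c.M| ≤
      c.M * Real.sqrt c.lam * 4 ^ N := by
    rw [hWeq, ← Finset.sum_sub_distrib]
    refine le_trans (Finset.abs_sum_le_sum_abs _ _) ?_
    have hterm : ∀ a ∈ range c.m₀, |c.e (c.j a) * Lam (c.j a) c.F₀ c.F₁ c.F₂ -
        c.e (c.j a) * Lam (c.j a) (c.A (a + 1)) c.F₁ (c.B (a + 1))| ≤
        Real.sqrt c.lam * 4 ^ N := by
      intro a _
      have he : |c.e (c.j a)| = 1 := by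
        rcases c.he (c.j a) with h | h <;> rw [h] <;> simp
      have hF1 := l2_le_of_abs_le c.hF₁
      have hF2 := l2_le_of_abs_le c.hF₂
      have hA := c.l2_dA_le' (Nat.zero_le (a + 1))
      rw [hdA] at hA
      have h4 : (2 : ℝ) ^ N * 2 ^ N = 4 ^ N := by
        rw [← mul_pow]; norm_num
      have h1 : |Lam (c.j a) (fun x y => c.F₀ x y - c.A (a + 1) x y) c.F₁ c.F₂| ≤
          Real.sqrt c.lam / 2 * 4 ^ N := by
        refine le_trans (small_rem (f := c.F₀) c.hlam c.hj c.hjN (le_refl a) c.F₁ c.F₂) ?_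
        rw [mul_assoc, ← h4]
        exact mul_le_mul_of_nonneg_left (mul_le_mul hF1 hF2 (l2_nonneg _) (by positivity))
          (by positivity)
      have h2 : |Lam (c.j a) (c.A (a + 1)) c.F₁ (fun x y => c.F₂ x y - c.B (a + 1) x y)| ≤
          Real.sqrt c.lam / 2 * 4 ^ N := by
        rw [Lam_tp]
        refine le_trans (small_rem (f := tp c.F₂) c.hlam c.hj c.hjN (le_refl a) (tp c.F₁)
          (tp (c.A (a + 1)))) ?_
        rw [l2_tp, l2_tp, mul_assoc, ← h4]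
        exact mul_le_mul_of_nonneg_left (mul_le_mul hF1 hA (l2_nonneg _) (by positivity))
          (by positivity)
      have h3 : c.e (c.j a) * Lam (c.j a) c.F₀ c.F₁ c.F₂ -
          c.e (c.j a) * Lam (c.j a) (c.A (a + 1)) c.F₁ (c.B (a + 1)) =
          c.e (c.j a) * (Lam (c.j a) (fun x y => c.F₀ x y - c.A (a + 1) x y) c.F₁ c.F₂ +
            Lam (c.j a) (c.A (a + 1)) c.F₁ (fun x y => c.F₂ x y - c.B (a + 1) x y)) := by
        rw [Lam_sub₀, Lam_sub₂]
        ring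
      rw [h3, abs_mul, he, one_mul]
      have h5 := abs_add_le (Lam (c.j a) (fun x y => c.F₀ x y - c.A (a + 1) x y) c.F₁ c.F₂)
        (Lam (c.j a) (c.A (a + 1)) c.F₁ (fun x y => c.F₂ x y - c.B (a + 1) x y))
      linarith
    refine le_trans (Finset.sum_le_sum hterm) ?_
    rw [Finset.sum_const, Finset.card_range, nsmul_eq_mul]
    have h1 : (c.m₀ : ℝ) ≤ c.M := by exact_mod_cast c.hm₀M
    have h2 : 0 ≤ Real.sqrt c.lam * 4 ^ N := by positivity
    have := mul_le_mul_of_nonneg_right h1 h2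
    linarith
  have hs0 : Real.sqrt (c.E0 c.M - c.E0 0) ≤ l2 c.F₀ := by
    apply Real.sqrt_le_iff.2 ⟨l2_nonneg _, ?_⟩
    have h1 : c.E0 0 = 0 := en_zero
    rw [h1, sub_zero]
    exact en_le c.hlam c.hj c.hjN c.M
  have hs2 : Real.sqrt (c.E2 c.M - c.E2 0) ≤ l2 c.F₂ := by
    apply Real.sqrt_le_iff.2 ⟨l2_nonneg _, ?_⟩
    have h1 : c.E2 0 = 0 := en_zero
    rw [h1, sub_zero, ← l2_tp c.F₂]
    exact en_le c.hlam c.hj c.hjN c.M
  have hCk : 0 ≤ 2 * Ck c.k := by unfold Ck; positivity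
  have hl : (0 : ℝ) ≤ (l : ℝ) + 1 := by positivity
  have m1 := mul_le_mul_of_nonneg_left
    (mul_le_mul hs0 hs2 (Real.sqrt_nonneg _) (l2_nonneg _)) (mul_nonneg hl hCk)
  have hEM : c.M * Real.sqrt c.lam * 4 ^ N ≤ c.E1 := by
    have := c.Err_nonneg
    unfold E1
    linarith
  have hE := c.E1_nonneg
  have hMr : (c.M : ℝ) = 2 ^ l := by rw [hM]; push_cast; rfl
  rw [← hMr] at hW
  have t1 : |∑ a ∈ range c.m₀, c.e (c.j a) * Lam (c.j a) c.F₀ c.F₁ c.F₂| ≤
      |(∑ a ∈ range c.m₀, c.e (c.j a) * Lam (c.j a) c.F₀ c.F₁ c.F₂) - c.W 0 c.M| +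
        |c.W 0 c.M| := by
    have := abs_add_le ((∑ a ∈ range c.m₀, c.e (c.j a) * Lam (c.j a) c.F₀ c.F₁ c.F₂) - c.W 0 c.M)
      (c.W 0 c.M)
    rwa [sub_add_cancel] at this
  have e1 : (3 * (c.M : ℝ) - 2) * c.E1 = 3 * c.M * c.E1 - 2 * c.E1 := by ring
  rw [e1] at hW
  linarith

end Ctx

end Vale.Agent.P075
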