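import Vale.Agent.P075.BasicLemmas

namespace Vale.Agent.P075

open Finset Matrix

section psd

set_option linter.unusedSectionVars false

variable {ι : Type*} [Fintype ι] [DecidableEq ι]

theorem psdA_nonneg {D : Matrix ι ι ℝ} (hD : D.PosSemidef) (u : ι → ℝ) :
    0 ≤ u ⬝ᵥ (D *ᵥ u) := by
  have := hD.dotProduct_mulVec_nonneg u
  simpa using this

theorem psdA_symm {D : Matrix ι ι ℝ} (hD : D.PosSemidef) : Dᵀ = D := by
  have := hD.isHermitian
  rwa [Matrix.IsHermitian, conjTranspose_eq_transpose_of_trivial] at this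

theorem symm_dot {D : Matrix ι ι ℝ} (hD : Dᵀ = D) (u v : ι → ℝ) :
    (D *ᵥ u) ⬝ᵥ v = u ⬝ᵥ (D *ᵥ v) := by
  rw [dotProduct_comm, dotProduct_mulVec, ← mulVec_transpose, hD, dotProduct_comm]

theorem psdA_cs {D : Matrix ι ι ℝ} (hD : D.PosSemidef) (u v : ι → ℝ) :
    (u ⬝ᵥ (D *ᵥ v)) ^ 2 ≤ (u ⬝ᵥ (D *ᵥ u)) * (v ⬝ᵥ (D *ᵥ v)) := by
  have hs : v ⬝ᵥ (D *ᵥ u) = u ⬝ᵥ (D *ᵥ v) := by
    rw [← symm_dot (psdA_symm hD), dotProduct_comm]
  have h : ∀ t : ℝ, 0 ≤ (v ⬝ᵥ (D *ᵥ v)) * (t * t) + (2 * (u ⬝ᵥ (D *ᵥ v))) * t +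
      (u ⬝ᵥ (D *ᵥ u)) := by
    intro t
    have h1 := psdA_nonneg hD (u + t • v)
    rw [mulVec_add, mulVec_smul, add_dotProduct, dotProduct_add, dotProduct_add,
      smul_dotProduct, smul_dotProduct, dotProduct_smul, dotProduct_smul, hs] at h1
    simp only [smul_eq_mul] at h1
    linarith
  have := discrim_le_zero h
  unfold discrim at this
  nlinarith

theorem quad_trace {C : Matrix ι ι ℝ} (hC : C.PosSemidef) (h : ι → ℝ) :
    h ⬝ᵥ (C *ᵥ h) ≤ (h ⬝ᵥ h) * trace C := by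
  have hent : ∀ i j, |C i j| ≤ Real.sqrt (C i i) * Real.sqrt (C j j) := by
    intro i j
    have h1 := psdA_cs hC (Pi.single i 1) (Pi.single j 1)
    simp only [single_one_dotProduct, mulVec_single_one, col_apply] at h1
    rw [← Real.sqrt_mul hC.diag_nonneg]
    exact Real.abs_le_sqrt h1
  have h1 : h ⬝ᵥ (C *ᵥ h) ≤ (∑ i, |h i| * Real.sqrt (C i i)) ^ 2 := by
    rw [sq, Finset.sum_mul_sum]
    simp only [dotProduct, mulVec, Finset.mul_sum]
    refine Finset.sum_le_sum fun i _ => Finset.sum_le_sum fun j _ => ?_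
    refine (le_abs_self _).trans ?_
    rw [abs_mul, abs_mul]
    calc |h i| * (|C i j| * |h j|) ≤ |h i| * ((Real.sqrt (C i i) * Real.sqrt (C j j)) * |h j|) := by
          gcongr
          exact hent i j
      _ = _ := by ring
  refine h1.trans ((Finset.sum_mul_sq_le_sq_mul_sq _ _ _).trans (le_of_eq ?_))
  congr 1
  · simp only [dotProduct, sq_abs]
    exact Finset.sum_congr rfl fun i _ => by ring
  · simp only [trace, diag_apply]
    exact Finset.sum_congr rfl fun i _ => Real.sq_sqrt hC.diag_nonneg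

theorem quad_pow (k : ℕ) (h : ι → ℝ) : ∀ {C : Matrix ι ι ℝ}, C.PosSemidef →
    (h ⬝ᵥ (C *ᵥ h)) ^ (2 ^ k) ≤ (h ⬝ᵥ h) ^ (2 ^ k) * trace (C ^ (2 ^ k)) := by
  induction k with
  | zero =>
    intro C hC
    simpa using quad_trace hC h
  | succ k ih =>
    intro C hC
    have hs := psdA_symm hC
    have h1 : (h ⬝ᵥ (C *ᵥ h)) ^ 2 ≤ (h ⬝ᵥ h) * (h ⬝ᵥ ((C * C) *ᵥ h)) := by
      have e1 : h ⬝ᵥ ((C * C) *ᵥ h) = (C *ᵥ h) ⬝ᵥ (C *ᵥ h) := by
        rw [symm_dot hs, mulVec_mulVec]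
      rw [e1]
      simp only [dotProduct]
      refine (Finset.sum_mul_sq_le_sq_mul_sq _ _ _).trans (le_of_eq ?_)
      congr 1
      · exact Finset.sum_congr rfl fun i _ => by ring
      · exact Finset.sum_congr rfl fun i _ => by ring
    have hCC : (C * C).PosSemidef := by
      have := hC.pow 2
      rwa [sq] at this
    have h0 : 0 ≤ h ⬝ᵥ h := by
      simp only [dotProduct]
      exact Finset.sum_nonneg fun i _ => mul_self_nonneg _
    calc (h ⬝ᵥ (C *ᵥ h)) ^ (2 ^ (k + 1)) = ((h ⬝ᵥ (C *ᵥ h)) ^ 2) ^ (2 ^ k) := by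
          rw [← pow_mul, pow_succ, mul_comm]
      _ ≤ ((h ⬝ᵥ h) * (h ⬝ᵥ ((C * C) *ᵥ h))) ^ (2 ^ k) := pow_le_pow_left₀ (sq_nonneg _) h1 _
      _ = (h ⬝ᵥ h) ^ (2 ^ k) * (h ⬝ᵥ ((C * C) *ᵥ h)) ^ (2 ^ k) := mul_pow _ _ _
      _ ≤ (h ⬝ᵥ h) ^ (2 ^ k) * ((h ⬝ᵥ h) ^ (2 ^ k) * trace ((C * C) ^ (2 ^ k))) :=
          mul_le_mul_of_nonneg_left (ih hCC) (pow_nonneg h0 _)
      _ = _ := by
          rw [← mul_assoc, ← pow_add, ← sq, ← pow_mul, ← two_mul, pow_succ, mul_comm (2 ^ k) 2]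

end psd

section blocks

variable {N : ℕ}

def blk (j : ℕ) (Φ : Matrix (G N) (G N) ℝ) (y₀ : G N) : Matrix (G N) (G N) ℝ :=
  Matrix.of fun y y' => if Low j (y + y₀) then (if Low j (y' + y₀) then Φ y y' else 0) else 0

theorem blk_eq (j : ℕ) (Φ : Matrix (G N) (G N) ℝ) (y₀ : G N) :
    blk j Φ y₀ = diagonal (fun y => if Low j (y + y₀) then (1 : ℝ) else 0) * Φ *
      (diagonal (fun y => if Low j (y + y₀) then (1 : ℝ) else 0))ᴴ := by
  ext y y'
  rw [diagonal_conjTranspose, mul_diagonal, diagonal_mul]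
  simp only [blk, of_apply]
  split_ifs <;> simp [*]

theorem blk_psd (j : ℕ) {Φ : Matrix (G N) (G N) ℝ} (hΦ : Φ.PosSemidef) (y₀ : G N) :
    (blk j Φ y₀).PosSemidef := by
  rw [blk_eq]
  exact hΦ.mul_mul_conjTranspose_same _

theorem one_sub_blk_psd (j : ℕ) {Φ : Matrix (G N) (G N) ℝ} (hΦ : (1 - Φ).PosSemidef) (y₀ : G N) :
    (1 - blk j Φ y₀).PosSemidef := by
  have e : 1 - blk j Φ y₀ = blk j (1 - Φ) y₀ +
      diagonal (fun y => if Low j (y + y₀) then (0 : ℝ) else 1) := by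
    ext y y'
    simp only [blk, Matrix.sub_apply, Matrix.add_apply, of_apply, diagonal_apply, Matrix.one_apply]
    by_cases hyy : y = y'
    · subst hyy
      split_ifs <;> simp
    · split_ifs <;> simp
  rw [e]
  refine (blk_psd j hΦ y₀).add (PosSemidef.diagonal fun y => ?_)
  simp only [Pi.zero_apply]
  split_ifs <;> norm_num

theorem Low_shift {j : ℕ} {a b : G N} (hab : Low j (a + b)) (c : G N) :
    Low j (c + a) ↔ Low j (c + b) := by
  constructor
  · intro h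
    have := Low_add h hab
    have e : c + a + (a + b) = c + b := by
      rw [← add_assoc, add_self_add_G]
    rwa [e] at this
  · intro h
    have := Low_add h hab
    have e : c + b + (a + b) = c + a := by
      rw [add_comm a b, ← add_assoc, add_self_add_G]
    rwa [e] at this

theorem blk_congr (j : ℕ) (Φ : Matrix (G N) (G N) ℝ) {y₀ y₁ : G N} (h : Low j (y₀ + y₁)) :
    blk j Φ y₀ = blk j Φ y₁ := by
  ext y y'
  simp only [blk, of_apply]
  simp only [Low_shift h y, Low_shift h y']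

theorem trace_blk (j : ℕ) (Φ : Matrix (G N) (G N) ℝ) (y₀ : G N) :
    trace (blk j Φ y₀) = ∑ y ∈ univ.filter (fun y => Low j (y + y₀)), Φ y y := by
  rw [Finset.sum_filter]
  simp only [trace, diag_apply, blk, of_apply]
  exact Finset.sum_congr rfl fun y _ => by split_ifs <;> rfl

theorem sum_cells {j : ℕ} (hj : j ≤ N) (g : G N → ℝ) :
    ∑ x₀, ∑ x ∈ univ.filter (fun x : G N => Low j (x + x₀)), g x = 2 ^ (N - j) * ∑ x, g x := by
  simp only [Finset.sum_filter]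
  rw [Finset.sum_comm, Finset.mul_sum]
  refine Finset.sum_congr rfl fun x _ => ?_
  rw [← Finset.sum_filter, Finset.sum_const, card_coset' hj, nsmul_eq_mul]
  push_cast
  ring

end blocks

end Vale.Agent.P075
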