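import Vale.Agent.P075.LemmaU
import Vale.Agent.P075.PropAAux

namespace Vale.Agent.P075

open Finset Matrix

theorem Ck_pos' (k : ℕ) : 0 < Ck k := by
  unfold Ck
  positivity

section

variable {N : ℕ}

theorem Wm_zero {j : ℕ} {σ : ℕ → ℝ} (hσj : ∀ i < j, σ i = 0) (F : G N → G N → ℝ)
    {x y z : G N} (h : ¬ Low j (x + y + z)) : Wm σ F x y z = 0 := by
  simp only [Wm, of_apply]
  rw [Finset.sum_eq_zero, mul_zero]
  intro i _
  by_cases hi : i < j
  · rw [hσj i hi, zero_mul]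
  · have : kj i (x + y + z) = 0 := by
      unfold kj
      rw [if_neg (fun hl => h (Low_mono (not_lt.1 hi) hl))]
    rw [this, mul_zero]

theorem blk_dot_congr {j : ℕ} (Φ : Matrix (G N) (G N) ℝ) (y₀ : G N) {u v : G N → ℝ}
    (h : ∀ y, Low j (y + y₀) → u y = v y) :
    u ⬝ᵥ (blk j Φ y₀ *ᵥ u) = v ⬝ᵥ (blk j Φ y₀ *ᵥ v) := by
  simp only [dotProduct, mulVec, blk, of_apply]
  refine Finset.sum_congr rfl fun y _ => ?_
  by_cases hy : Low j (y + y₀)
  · rw [h y hy]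
    congr 1
    refine Finset.sum_congr rfl fun y' _ => ?_
    by_cases hy' : Low j (y' + y₀)
    · rw [h y' hy']
    · rw [if_neg hy', if_pos hy]; ring
  · simp [hy]

theorem cell_quad {j : ℕ} {σ : ℕ → ℝ} (hσj : ∀ i < j, σ i = 0) (F : G N → G N → ℝ)
    (Φ : Matrix (G N) (G N) ℝ) (x y₀ : G N) (h : G N → ℝ) :
    (Wm σ F x *ᵥ h) ⬝ᵥ (blk j Φ y₀ *ᵥ (Wm σ F x *ᵥ h)) =
      (fun z => if Low j (x + y₀ + z) then h z else 0) ⬝ᵥ
        (((Wm σ F x)ᵀ * blk j Φ y₀ * (Wm σ F x)) *ᵥ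
          (fun z => if Low j (x + y₀ + z) then h z else 0)) := by
  set h' : G N → ℝ := fun z => if Low j (x + y₀ + z) then h z else 0 with hh'
  have e1 : (Wm σ F x *ᵥ h) ⬝ᵥ (blk j Φ y₀ *ᵥ (Wm σ F x *ᵥ h)) =
      (Wm σ F x *ᵥ h') ⬝ᵥ (blk j Φ y₀ *ᵥ (Wm σ F x *ᵥ h')) := by
    refine blk_dot_congr Φ y₀ fun y hy => ?_
    simp only [mulVec, dotProduct]
    refine Finset.sum_congr rfl fun z _ => ?_
    by_cases hz : Low j (x + y + z)
    · have : Low j (x + y₀ + z) := by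
        have h1 := Low_add hz hy
        have e : x + y + z + (y + y₀) = x + y₀ + z := by
          have : x + y + z + (y + y₀) = x + y₀ + z + (y + y) := by abel
          rw [this, add_self_G, add_zero]
        rwa [e] at h1
      rw [hh']
      simp only [this, if_true]
    · rw [Wm_zero hσj F hz]; ring
  rw [e1, ← mulVec_mulVec, ← mulVec_mulVec, mulVec_transpose, dotProduct_comm h',
    ← dotProduct_mulVec, dotProduct_comm]

theorem good_quad {j : ℕ} (k : ℕ) {σ : ℕ → ℝ} (hσj : ∀ i < j, σ i = 0) (F : G N → G N → ℝ)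
    {Φ : Matrix (G N) (G N) ℝ} (hΦ : Φ.PosSemidef) (x y₀ : G N) (h : G N → ℝ)
    (hW : trace (((Wm σ F x)ᵀ * blk j Φ y₀ * (Wm σ F x)) ^ (2 ^ k)) ≤
      (2 * Ck k) ^ (2 ^ (k + 1))) :
    (Wm σ F x *ᵥ h) ⬝ᵥ (blk j Φ y₀ *ᵥ (Wm σ F x *ᵥ h)) ≤
      (2 * Ck k) ^ 2 * ∑ z ∈ univ.filter (fun z => Low j (z + (x + y₀))), h z ^ 2 := by
  have hC := Ck_pos' k
  have hpsd : ((Wm σ F x)ᵀ * blk j Φ y₀ * (Wm σ F x)).PosSemidef := by
    have := (blk_psd j hΦ y₀).conjTranspose_mul_mul_same (Wm σ F x)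
    rwa [conjTranspose_eq_transpose_of_trivial] at this
  have hsum : (fun z => if Low j (x + y₀ + z) then h z else 0) ⬝ᵥ
      (fun z => if Low j (x + y₀ + z) then h z else 0) =
      ∑ z ∈ univ.filter (fun z => Low j (z + (x + y₀))), h z ^ 2 := by
    rw [Finset.sum_filter]
    simp only [dotProduct]
    refine Finset.sum_congr rfl fun z _ => ?_
    rw [add_comm z]
    split_ifs <;> ring
  rw [cell_quad hσj]
  have h0 : 0 ≤ ∑ z ∈ univ.filter (fun z => Low j (z + (x + y₀))), h z ^ 2 :=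
    Finset.sum_nonneg fun _ _ => sq_nonneg _
  refine le_of_pow_le_pow_left₀ (n := 2 ^ k) (by positivity) (by positivity) ?_
  refine (quad_pow k _ hpsd).trans ?_
  rw [hsum]
  refine (mul_le_mul_of_nonneg_left hW (pow_nonneg h0 _)).trans (le_of_eq ?_)
  rw [mul_pow ((2 * Ck k) ^ 2), ← pow_mul, ← pow_succ', mul_comm]

theorem sum_blk {j : ℕ} (hj : j ≤ N) {Φ : Matrix (G N) (G N) ℝ}
    (hblock : ∀ y y', ¬ Low j (y + y') → Φ y y' = 0) (y y' : G N) :
    ∑ y₀, blk j Φ y₀ y y' = 2 ^ (N - j) * Φ y y' := by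
  simp only [blk, of_apply]
  by_cases h : Low j (y + y')
  · have e : ∀ y₀ : G N, (if Low j (y + y₀) then (if Low j (y' + y₀) then Φ y y' else 0) else 0) =
        if Low j (y + y₀) then Φ y y' else 0 := by
      intro y₀
      by_cases h1 : Low j (y + y₀)
      · have h2 : Low j (y' + y₀) := by
          rw [add_comm y' y₀, ← Low_shift h y₀, add_comm]
          exact h1
        simp [h1, h2]
      · simp [h1]
    simp only [e]
    rw [← Finset.sum_filter, Finset.sum_const, card_coset' hj, nsmul_eq_mul]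
    push_cast
    ring
  · rw [hblock y y' h, mul_zero]
    exact Finset.sum_eq_zero fun y₀ _ => by split_ifs <;> rfl

theorem wg_bound {j : ℕ} (hj : j ≤ N) {Φ : Matrix (G N) (G N) ℝ}
    (hblock : ∀ y y', ¬ Low j (y + y') → Φ y y' = 0) (P : G N → Prop) [DecidablePred P]
    (hP : ∀ y y', Low j (y + y') → (P y ↔ P y')) (w h : G N → ℝ) (x : G N) (c : ℝ) (hc : 0 ≤ c)
    (hb : ∀ y₀, P y₀ → w ⬝ᵥ (blk j Φ y₀ *ᵥ w) ≤
      c * ∑ z ∈ univ.filter (fun z => Low j (z + (x + y₀))), h z ^ 2) :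
    (fun y => if P y then w y else 0) ⬝ᵥ (Φ *ᵥ (fun y => if P y then w y else 0)) ≤
      c * ∑ z, h z ^ 2 := by
  set g : G N → ℝ := fun y => if P y then w y else 0 with hg
  have hpos : (0 : ℝ) < 2 ^ (N - j) := by positivity
  refine le_of_mul_le_mul_left ?_ hpos
  have e1 : 2 ^ (N - j) * (g ⬝ᵥ (Φ *ᵥ g)) = ∑ y₀, g ⬝ᵥ (blk j Φ y₀ *ᵥ g) := by
    simp only [dotProduct, mulVec]
    rw [Finset.sum_comm, Finset.mul_sum]
    refine Finset.sum_congr rfl fun y _ => ?_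
    rw [← Finset.mul_sum, Finset.sum_comm, mul_left_comm, Finset.mul_sum]
    congr 1
    refine Finset.sum_congr rfl fun y' _ => ?_
    rw [← Finset.sum_mul, sum_blk hj hblock]
    ring
  rw [e1]
  have e2 : ∀ y₀, g ⬝ᵥ (blk j Φ y₀ *ᵥ g) ≤
      c * ∑ z ∈ univ.filter (fun z => Low j (z + (x + y₀))), h z ^ 2 := by
    intro y₀
    by_cases hy : P y₀
    · have : g ⬝ᵥ (blk j Φ y₀ *ᵥ g) = w ⬝ᵥ (blk j Φ y₀ *ᵥ w) := by
        refine blk_dot_congr Φ y₀ fun y hyy => ?_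
        rw [hg]
        simp only
        rw [if_pos ((hP y y₀ hyy).2 hy)]
      rw [this]
      exact hb y₀ hy
    · have : g ⬝ᵥ (blk j Φ y₀ *ᵥ g) = (fun _ => (0 : ℝ)) ⬝ᵥ (blk j Φ y₀ *ᵥ (fun _ => 0)) := by
        refine blk_dot_congr Φ y₀ fun y hyy => ?_
        rw [hg]
        simp only
        rw [if_neg (fun h' => hy ((hP y y₀ hyy).1 h'))]
      rw [this]
      have h0 : (fun _ : G N => (0 : ℝ)) ⬝ᵥ (blk j Φ y₀ *ᵥ (fun _ => 0)) = 0 := by
        simp [dotProduct]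
      rw [h0]
      exact mul_nonneg hc (Finset.sum_nonneg fun _ _ => sq_nonneg _)
  refine (Finset.sum_le_sum fun y₀ _ => e2 y₀).trans (le_of_eq ?_)
  rw [← Finset.mul_sum]
  have e3 : ∑ y₀, ∑ z ∈ univ.filter (fun z : G N => Low j (z + (x + y₀))), h z ^ 2 =
      2 ^ (N - j) * ∑ z, h z ^ 2 := by
    rw [← sum_cells hj]
    have := sum_translate (fun t => ∑ z ∈ univ.filter (fun z : G N => Low j (z + t)), h z ^ 2) x
    rw [← this]
    refine Finset.sum_congr rfl fun y₀ _ => ?_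
    rw [add_comm y₀ x]
  rw [e3]
  ring

theorem bad_count {j : ℕ} (hj : j ≤ N) (t : G N → G N → ℝ) (ht : ∀ x y, 0 ≤ t x y)
    (thr A n : ℝ) (hthr : 0 < thr)
    (hsum : ∀ x₀ y, ∑ x ∈ univ.filter (fun x => Low j (x + x₀)), t x y ≤ A * 2 ^ (N - j) * n) :
    ∑ x, ∑ y, (if thr < t x y then (1 : ℝ) else 0) ≤ 4 ^ N * n * (A / thr) := by
  have hpos : (0 : ℝ) < 2 ^ (N - j) := by positivity
  have h1 : ∀ y, ∑ x, (if thr < t x y then (1 : ℝ) else 0) ≤ 2 ^ N * n * (A / thr) := by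
    intro y
    have e1 : thr * ∑ x, (if thr < t x y then (1 : ℝ) else 0) ≤ ∑ x, t x y := by
      rw [Finset.mul_sum]
      refine Finset.sum_le_sum fun x _ => ?_
      split_ifs with h
      · rw [mul_one]; exact h.le
      · rw [mul_zero]; exact ht x y
    have e2 : 2 ^ (N - j) * ∑ x, t x y ≤ 2 ^ (N - j) * (2 ^ N * (A * n)) := by
      rw [← sum_cells hj (fun x => t x y)]
      refine (Finset.sum_le_sum fun x₀ _ => hsum x₀ y).trans (le_of_eq ?_)
      simp only [Finset.sum_const, Finset.card_univ, Fintype.card_fun, ZMod.card,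
        Fintype.card_fin, nsmul_eq_mul]
      push_cast
      ring
    have e3 := le_of_mul_le_mul_left e2 hpos
    have e4 := e1.trans e3
    have e5 : 2 ^ N * n * (A / thr) = 2 ^ N * (A * n) / thr := by ring
    rw [e5, le_div_iff₀ hthr, mul_comm]
    exact e4
  rw [Finset.sum_comm]
  refine (Finset.sum_le_sum fun y _ => h1 y).trans (le_of_eq ?_)
  simp only [Finset.sum_const, Finset.card_univ, Fintype.card_fun, ZMod.card,
    Fintype.card_fin, nsmul_eq_mul]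
  push_cast
  rw [show (4 : ℝ) = 2 * 2 by norm_num, mul_pow]
  ring

theorem sum_sigma {T : Finset ℕ} (hT : ∀ i ∈ T, i < N) (ε : ℕ → ℝ) (g : ℕ → ℝ) :
    ∑ i ∈ range N, (if i ∈ T then ε i else 0) * g i = ∑ i ∈ T, ε i * g i := by
  have h1 : ∑ i ∈ T, ε i * g i = ∑ i ∈ T, (if i ∈ T then ε i else 0) * g i :=
    Finset.sum_congr rfl fun i hi => by rw [if_pos hi]
  rw [h1]
  symm
  refine Finset.sum_subset (fun i hi => Finset.mem_range.2 (hT i hi)) ?_
  intro i _ hi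
  rw [if_neg hi, zero_mul]

theorem Lam_Wm {T : Finset ℕ} (hT : ∀ i ∈ T, i < N) (ε : ℕ → ℝ) (g F h : G N → G N → ℝ) :
    ∑ i ∈ T, ε i * Lam i g F h =
      ∑ x, (g x) ⬝ᵥ (Wm (fun i => if i ∈ T then ε i else 0) F x *ᵥ (fun z => h z x)) := by
  have e : ∀ x y z : G N, Wm (fun i => if i ∈ T then ε i else 0) F x y z =
      F y z * ∑ i ∈ T, ε i * kj i (x + y + z) := by
    intro x y z
    simp only [Wm, of_apply]
    rw [sum_sigma hT ε (fun i => kj i (x + y + z))]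
  simp only [dotProduct, mulVec, e]
  unfold Lam
  simp only [Finset.mul_sum, Finset.sum_mul]
  rw [Finset.sum_comm]
  refine Finset.sum_congr rfl fun x _ => ?_
  rw [Finset.sum_comm]
  refine Finset.sum_congr rfl fun y _ => ?_
  rw [Finset.sum_comm]
  refine Finset.sum_congr rfl fun z _ => ?_
  refine Finset.sum_congr rfl fun i _ => ?_
  ring

theorem w_bound {T : Finset ℕ} (hT : ∀ i ∈ T, i < N) (ε : ℕ → ℝ) (hε : ∀ i, ε i = 1 ∨ ε i = -1)
    (F h : G N → G N → ℝ) (hF : ∀ y z, |F y z| ≤ 1) (B : ℝ) (hh : ∀ z x, |h z x| ≤ B)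
    (x y : G N) :
    |(Wm (fun i => if i ∈ T then ε i else 0) F x *ᵥ (fun z => h z x)) y| ≤ T.card * B := by
  have hB : 0 ≤ B := (abs_nonneg _).trans (hh x x)
  have e : ∀ z : G N, Wm (fun i => if i ∈ T then ε i else 0) F x y z =
      F y z * ∑ i ∈ T, ε i * kj i (x + y + z) := by
    intro z
    simp only [Wm, of_apply]
    rw [sum_sigma hT ε (fun i => kj i (x + y + z))]
  simp only [mulVec, dotProduct, e]
  have e1 : ∀ z, |F y z * (∑ i ∈ T, ε i * kj i (x + y + z)) * h z x| ≤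
      ∑ i ∈ T, |kj i (z + (x + y))| * B := by
    intro z
    rw [abs_mul, abs_mul, ← Finset.sum_mul]
    have h2 : |∑ i ∈ T, ε i * kj i (x + y + z)| ≤ ∑ i ∈ T, |kj i (z + (x + y))| := by
      refine (Finset.abs_sum_le_sum_abs _ _).trans (le_of_eq ?_)
      refine Finset.sum_congr rfl fun i _ => ?_
      have : |ε i| = 1 := by
        rcases hε i with h | h <;> rw [h] <;> simp
      rw [abs_mul, this, one_mul, add_comm z]
    have h3 : |F y z| * |∑ i ∈ T, ε i * kj i (x + y + z)| ≤ ∑ i ∈ T, |kj i (z + (x + y))| := by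
      calc |F y z| * |∑ i ∈ T, ε i * kj i (x + y + z)| ≤
          1 * ∑ i ∈ T, |kj i (z + (x + y))| :=
            mul_le_mul (hF y z) h2 (abs_nonneg _) zero_le_one
        _ = _ := one_mul _
    exact mul_le_mul h3 (hh z x) (abs_nonneg _) (Finset.sum_nonneg fun _ _ => abs_nonneg _)
  refine (Finset.abs_sum_le_sum_abs _ _).trans ((Finset.sum_le_sum fun z _ => e1 z).trans ?_)
  rw [Finset.sum_comm]
  have e2 : ∀ i ∈ T, ∑ z, |kj i (z + (x + y))| * B = B := by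
    intro i hi
    rw [← Finset.sum_mul, sum_abs_kj (hT i hi).le, one_mul]
  rw [Finset.sum_congr rfl e2, Finset.sum_const, nsmul_eq_mul]

end

theorem propA {N : ℕ} (k j : ℕ) (hj : j ≤ N) (T : Finset ℕ) (hT : ∀ i ∈ T, j ≤ i ∧ i < N)
    (ε : ℕ → ℝ) (hε : ∀ i, ε i = 1 ∨ ε i = -1)
    (F : G N → G N → ℝ) (hF : ∀ y z, |F y z| ≤ 1)
    (Φ D : G N → Matrix (G N) (G N) ℝ)
    (hΦ : ∀ x, (Φ x).PosSemidef) (hΦ1 : ∀ x, (1 - Φ x).PosSemidef)
    (hblock : ∀ x y y', ¬ Low j (y + y') → Φ x y y' = 0)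
    (hcoset : ∀ x x', Low j (x + x') → Φ x = Φ x')
    (n : ℝ) (htr : ∀ x y₀, ∑ y ∈ univ.filter (fun y => Low j (y + y₀)), Φ x y y ≤ n)
    (hD : ∀ x, (D x).PosSemidef) (hDΦ : ∀ x, (Φ x - D x).PosSemidef)
    (f h : G N → G N → ℝ) (B : ℝ) (hB : 0 ≤ B) (hg : ∀ x y, |(D x *ᵥ f x) y| ≤ B)
    (hh : ∀ z x, |h z x| ≤ B) :
    |∑ i ∈ T, ε i * Lam i (fun x y => (D x *ᵥ f x) y) F h| ≤
      2 * Ck k * Real.sqrt (∑ x, (f x ⬝ᵥ (D x *ᵥ f x))) * l2 h +
        T.card * B ^ 2 * n * 4 ^ N / 4 ^ (2 ^ k) := by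
  classical
  have hT' : ∀ i ∈ T, i < N := fun i hi => (hT i hi).2
  set σ : ℕ → ℝ := fun i => if i ∈ T then ε i else 0 with hσ
  have hσj : ∀ i < j, σ i = 0 := by
    intro i hi
    rw [hσ]
    simp only
    rw [if_neg (fun h => absurd (hT i h).1 (not_le.2 hi))]
  have hσ1 : ∀ i, σ i = 0 ∨ σ i = 1 ∨ σ i = -1 := by
    intro i
    rw [hσ]
    simp only
    by_cases hi : i ∈ T
    · rw [if_pos hi]; exact Or.inr (hε i)
    · rw [if_neg hi]; exact Or.inl rfl
  have hCk := Ck_pos' k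
  set t : G N → G N → ℝ := fun x y =>
    trace (((Wm σ F x)ᵀ * blk j (Φ x) y * (Wm σ F x)) ^ (2 ^ k)) with ht
  set thr : ℝ := (2 * Ck k) ^ (2 ^ (k + 1)) with hthr
  have hthr0 : 0 < thr := by positivity
  have ht0 : ∀ x y, 0 ≤ t x y := by
    intro x y
    have := (blk_psd j (hΦ x) y).conjTranspose_mul_mul_same (Wm σ F x)
    rw [conjTranspose_eq_transpose_of_trivial] at this
    exact (this.pow _).trace_nonneg
  have htsum : ∀ x₀ y, ∑ x ∈ univ.filter (fun x => Low j (x + x₀)), t x y ≤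
      (Ck k) ^ (2 ^ (k + 1)) * 2 ^ (N - j) * n := by
    intro x₀ y
    have h1 := lemmaU k j hj σ hσ1 hσj F hF (blk j (Φ x₀) y) (blk_psd j (hΦ x₀) y)
      (one_sub_blk_psd j (hΦ1 x₀) y) x₀
    have h2 : ∑ x ∈ univ.filter (fun x => Low j (x + x₀)), t x y =
        ∑ x ∈ univ.filter (fun x => Low j (x + x₀)),
          trace (((Wm σ F x)ᵀ * blk j (Φ x₀) y * (Wm σ F x)) ^ (2 ^ k)) := by
      refine Finset.sum_congr rfl fun x hx => ?_
      rw [ht]
      simp only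
      rw [hcoset x x₀ (Finset.mem_filter.1 hx).2]
    rw [h2]
    refine h1.trans ?_
    refine mul_le_mul_of_nonneg_left ?_ (by positivity)
    rw [trace_blk]
    exact htr x₀ y
  have hbad := bad_count hj t ht0 thr ((Ck k) ^ (2 ^ (k + 1))) n hthr0 htsum
  have hratio : (Ck k) ^ (2 ^ (k + 1)) / thr = 1 / 4 ^ (2 ^ k) := by
    rw [hthr, mul_pow, pow_succ' 2 k, pow_mul 2 2 (2 ^ k)]
    norm_num
    field_simp
  rw [hratio] at hbad
  set w : G N → G N → ℝ := fun x y => (Wm σ F x *ᵥ (fun z => h z x)) y with hw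
  have hwB : ∀ x y, |w x y| ≤ T.card * B := fun x y => w_bound hT' ε hε F h hF B hh x y
  set wg : G N → G N → ℝ := fun x y => if t x y ≤ thr then w x y else 0 with hwg
  have hmain : ∑ i ∈ T, ε i * Lam i (fun x y => (D x *ᵥ f x) y) F h =
      ∑ x, (D x *ᵥ f x) ⬝ᵥ w x := Lam_Wm hT' ε _ F h
  have hsplit : ∑ x, (D x *ᵥ f x) ⬝ᵥ w x =
      ∑ x, (D x *ᵥ f x) ⬝ᵥ wg x + ∑ x, ∑ y, (D x *ᵥ f x) y * (if thr < t x y then w x y else 0) := by
    rw [← Finset.sum_add_distrib]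
    refine Finset.sum_congr rfl fun x _ => ?_
    simp only [dotProduct]
    rw [← Finset.sum_add_distrib]
    refine Finset.sum_congr rfl fun y _ => ?_
    rw [hwg]
    simp only
    by_cases hxy : t x y ≤ thr
    · rw [if_pos hxy, if_neg (not_lt.2 hxy)]; ring
    · rw [if_neg hxy, if_pos (not_le.1 hxy)]; ring
  have hbadsum : |∑ x, ∑ y, (D x *ᵥ f x) y * (if thr < t x y then w x y else 0)| ≤
      T.card * B ^ 2 * n * 4 ^ N / 4 ^ (2 ^ k) := by
    have e1 : |∑ x, ∑ y, (D x *ᵥ f x) y * (if thr < t x y then w x y else 0)| ≤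
        ∑ x, ∑ y, (T.card * B ^ 2) * (if thr < t x y then (1 : ℝ) else 0) := by
      refine (Finset.abs_sum_le_sum_abs _ _).trans (Finset.sum_le_sum fun x _ => ?_)
      refine (Finset.abs_sum_le_sum_abs _ _).trans (Finset.sum_le_sum fun y _ => ?_)
      rw [abs_mul]
      split_ifs
      · calc |(D x *ᵥ f x) y| * |w x y| ≤ B * (T.card * B) :=
              mul_le_mul (hg x y) (hwB x y) (abs_nonneg _) hB
          _ = T.card * B ^ 2 * 1 := by ring
      · simp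
    refine e1.trans ?_
    simp only [← Finset.mul_sum]
    refine (mul_le_mul_of_nonneg_left hbad (by positivity)).trans (le_of_eq ?_)
    ring
  have hgood : |∑ x, (D x *ᵥ f x) ⬝ᵥ wg x| ≤
      2 * Ck k * Real.sqrt (∑ x, (f x ⬝ᵥ (D x *ᵥ f x))) * l2 h := by
    have e1 : ∀ x, |(D x *ᵥ f x) ⬝ᵥ wg x| ≤
        Real.sqrt (f x ⬝ᵥ (D x *ᵥ f x)) * Real.sqrt ((2 * Ck k) ^ 2 * ∑ z, h z x ^ 2) := by
      intro x
      rw [symm_dot (psdA_symm (hD x)), ← Real.sqrt_mul (psdA_nonneg (hD x) (f x))]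
      refine Real.abs_le_sqrt ?_
      refine (psdA_cs (hD x) (f x) (wg x)).trans ?_
      refine mul_le_mul_of_nonneg_left ?_ (psdA_nonneg (hD x) (f x))
      have e2 : wg x ⬝ᵥ (D x *ᵥ wg x) ≤ wg x ⬝ᵥ (Φ x *ᵥ wg x) := by
        have := psdA_nonneg (hDΦ x) (wg x)
        rw [sub_mulVec, dotProduct_sub] at this
        linarith
      refine e2.trans ?_
      have hP : ∀ y y', Low j (y + y') → (t x y ≤ thr ↔ t x y' ≤ thr) := by
        intro y y' hyy
        rw [ht]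
        simp only
        rw [blk_congr j (Φ x) hyy]
      exact wg_bound hj (hblock x) (fun y => t x y ≤ thr) hP (w x) (fun z => h z x) x
        ((2 * Ck k) ^ 2) (by positivity)
        (fun y₀ hy₀ => good_quad k hσj F (hΦ x) x y₀ (fun z => h z x) hy₀)
    refine (Finset.abs_sum_le_sum_abs _ _).trans ((Finset.sum_le_sum fun x _ => e1 x).trans ?_)
    refine (Real.sum_sqrt_mul_sqrt_le _ (fun x => psdA_nonneg (hD x) (f x))
      (fun x => by positivity)).trans (le_of_eq ?_)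
    rw [← Finset.mul_sum, Real.sqrt_mul (by positivity), Real.sqrt_sq (by positivity)]
    unfold l2
    rw [Finset.sum_comm (f := fun x z => h z x ^ 2)]
    ring
  rw [hmain, hsplit]
  exact (abs_add_le _ _).trans (add_le_add hgood hbadsum)

end Vale.Agent.P075
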