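import Vale.Agent.P075.RidgeDefs
import Vale.Agent.P075.BasicLemmas

namespace Vale.Agent.P075

open Finset Matrix

section
variable {N : ℕ} {f : G N → G N → ℝ} {j : ℕ → ℕ}

/-- average energy of cell sums at level i -/
noncomputable def Qf (i : ℕ) (w : G N → ℝ) : ℝ :=
  (∑ y₀, (∑ y ∈ univ.filter (fun y => Low i (y + y₀)), w y) ^ 2) / 4 ^ (N - i)

theorem Qf_nonneg (i : ℕ) (w : G N → ℝ) : 0 ≤ Qf i w := by
  unfold Qf
  positivity

theorem Qf_eq {i : ℕ} (hi : i ≤ N) (w : G N → ℝ) :
    ∑ y, ∑ y', (if Low i (y + y') then w y * w y' / 2 ^ (N - i) else 0) = Qf i w := by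
  classical
  unfold Qf
  have h1 : ∀ y₀ : G N, (∑ y ∈ univ.filter (fun y => Low i (y + y₀)), w y) ^ 2 =
      ∑ y, ∑ y', (if Low i (y + y₀) ∧ Low i (y' + y₀) then w y * w y' else 0) := by
    intro y₀
    rw [Finset.sum_filter, sq, Finset.sum_mul_sum]
    refine Finset.sum_congr rfl fun y _ => Finset.sum_congr rfl fun y' _ => ?_
    by_cases h : Low i (y + y₀) <;> by_cases h' : Low i (y' + y₀) <;> simp [h, h']
  simp_rw [h1]
  have h0 : (∑ y₀ : G N, ∑ y, ∑ y', (if Low i (y + y₀) ∧ Low i (y' + y₀) then w y * w y' else 0)) =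
      ∑ y, ∑ y', ∑ y₀ : G N, (if Low i (y + y₀) ∧ Low i (y' + y₀) then w y * w y' else 0) := by
    rw [Finset.sum_comm]
    refine Finset.sum_congr rfl fun y _ => ?_
    rw [Finset.sum_comm]
  rw [h0, Finset.sum_div]
  refine Finset.sum_congr rfl fun y _ => ?_
  rw [Finset.sum_div]
  refine Finset.sum_congr rfl fun y' _ => ?_
  by_cases h : Low i (y + y')
  · rw [if_pos h]
    have h2 : ∀ y₀ : G N, (if Low i (y + y₀) ∧ Low i (y' + y₀) then w y * w y' else 0) =
        if Low i (y + y₀) then w y * w y' else 0 := by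
      intro y₀
      have h3 : (Low i (y + y₀) ∧ Low i (y' + y₀)) ↔ Low i (y + y₀) := by
        constructor
        · exact fun h => h.1
        · intro h4
          refine ⟨h4, ?_⟩
          have h5 := Low_add h h4
          have h6 : y + y' + (y + y₀) = y' + y₀ := by
            have := add_self_G y
            calc y + y' + (y + y₀) = (y + y) + (y' + y₀) := by abel
              _ = y' + y₀ := by rw [this, zero_add]
          rwa [h6] at h5
      by_cases h4 : Low i (y + y₀)
      · rw [if_pos h4, if_pos (h3.2 h4)]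
      · rw [if_neg h4, if_neg (fun h5 => h4 (h3.1 h5))]
    simp_rw [h2]
    rw [← Finset.sum_filter, Finset.sum_const, card_coset' hi, nsmul_eq_mul]
    have h4 : (4 : ℝ) ^ (N - i) = 2 ^ (N - i) * 2 ^ (N - i) := by
      rw [← mul_pow]; norm_num
    rw [h4]
    push_cast
    field_simp
  · rw [if_neg h]
    symm
    rw [div_eq_zero_iff]
    left
    refine Finset.sum_eq_zero fun y₀ _ => ?_
    rw [if_neg]
    rintro ⟨h1, h2⟩
    apply h
    have h5 := Low_add h1 h2
    have h6 : y + y₀ + (y' + y₀) = y + y' := by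
      have := add_self_G y₀
      calc y + y₀ + (y' + y₀) = (y₀ + y₀) + (y + y') := by abel
        _ = y + y' := by rw [this, zero_add]
    rwa [h6] at h5

theorem Qf_mono {i k : ℕ} (hik : i ≤ k) (hk : k ≤ N) (w : G N → ℝ) : Qf i w ≤ Qf k w := by
  classical
  have hi : i ≤ N := le_trans hik hk
  unfold Qf
  set T : ℕ → G N → ℝ := fun i y₀ => ∑ y ∈ univ.filter (fun y => Low i (y + y₀)), w y with hT
  have h1 : ∀ y₀, (2 : ℝ) ^ (N - k) * T i y₀ =
      ∑ y₁ ∈ univ.filter (fun y₁ => Low i (y₁ + y₀)), T k y₁ := by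
    intro y₀
    simp only [hT]
    have h2 : ∀ y₁ ∈ univ.filter (fun y₁ : G N => Low i (y₁ + y₀)),
        ∑ y ∈ univ.filter (fun y => Low k (y + y₁)), w y =
        ∑ y ∈ univ.filter (fun y => Low i (y + y₀)), if Low k (y + y₁) then w y else 0 := by
      intro y₁ hy₁
      simp only [mem_filter, mem_univ, true_and] at hy₁
      rw [← Finset.sum_filter, Finset.filter_filter]
      refine Finset.sum_congr ?_ fun _ _ => rfl
      ext y
      simp only [mem_filter, mem_univ, true_and]
      constructor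
      · intro h
        refine ⟨?_, h⟩
        have h5 := Low_add (Low_mono hik h) hy₁
        have h6 : y + y₁ + (y₁ + y₀) = y + y₀ := by
          have := add_self_G y₁
          calc y + y₁ + (y₁ + y₀) = (y₁ + y₁) + (y + y₀) := by abel
            _ = y + y₀ := by rw [this, zero_add]
        rwa [h6] at h5
      · exact fun h => h.2
    rw [Finset.sum_congr rfl h2, Finset.sum_comm, Finset.mul_sum]
    refine Finset.sum_congr rfl fun y hy => ?_
    simp only [mem_filter, mem_univ, true_and] at hy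
    rw [← Finset.sum_filter, Finset.filter_filter, Finset.sum_const, nsmul_eq_mul]
    have h3 : (univ.filter (fun y₁ : G N => Low i (y₁ + y₀) ∧ Low k (y + y₁))) =
        univ.filter (fun y₁ : G N => Low k (y + y₁)) := by
      ext y₁
      simp only [mem_filter, mem_univ, true_and]
      constructor
      · exact fun h => h.2
      · intro h
        refine ⟨?_, h⟩
        have h5 := Low_add (Low_mono hik h) hy
        have h6 : y + y₁ + (y + y₀) = y₁ + y₀ := by
          have := add_self_G y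
          calc y + y₁ + (y + y₀) = (y + y) + (y₁ + y₀) := by abel
            _ = y₁ + y₀ := by rw [this, zero_add]
        rwa [h6] at h5
    rw [h3, card_coset' hk]
    push_cast
    ring
  have h2 : ∀ y₀, ((2 : ℝ) ^ (N - k) * T i y₀) ^ 2 ≤
      2 ^ (N - i) * ∑ y₁ ∈ univ.filter (fun y₁ => Low i (y₁ + y₀)), T k y₁ ^ 2 := by
    intro y₀
    rw [h1]
    have h3 := sq_sum_le_card_mul_sum_sq (s := univ.filter (fun y₁ => Low i (y₁ + y₀)))
      (f := fun y₁ => T k y₁)
    rw [card_coset hi] at h3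
    push_cast at h3
    exact h3
  have h3 : ∑ y₀, ((2 : ℝ) ^ (N - k) * T i y₀) ^ 2 ≤
      2 ^ (N - i) * (2 ^ (N - i) * ∑ y₁, T k y₁ ^ 2) := by
    refine le_trans (Finset.sum_le_sum fun y₀ _ => h2 y₀) ?_
    rw [← Finset.mul_sum]
    refine mul_le_mul_of_nonneg_left (le_of_eq ?_) (by positivity)
    simp_rw [Finset.sum_filter]
    rw [Finset.sum_comm, Finset.mul_sum]
    refine Finset.sum_congr rfl fun y₁ _ => ?_
    rw [← Finset.sum_filter, Finset.sum_const, card_coset' hi, nsmul_eq_mul]
    push_cast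
    ring
  have h4 : ∑ y₀, ((2 : ℝ) ^ (N - k) * T i y₀) ^ 2 = 4 ^ (N - k) * ∑ y₀, T i y₀ ^ 2 := by
    rw [Finset.mul_sum]
    refine Finset.sum_congr rfl fun y₀ _ => ?_
    rw [mul_pow, ← pow_mul, mul_comm (N - k) 2, pow_mul]
    norm_num
  rw [h4] at h3
  have h5 : (2 : ℝ) ^ (N - i) * (2 ^ (N - i) * ∑ y₁, T k y₁ ^ 2) =
      4 ^ (N - i) * ∑ y₁, T k y₁ ^ 2 := by
    rw [← mul_assoc, ← mul_pow]
    norm_num
  rw [h5] at h3
  rw [div_le_div_iff₀ (by positivity) (by positivity)]
  linarith

theorem Smat_quad (hjN : ∀ a, j a ≤ N) (a : ℕ) (x : G N) (v : G N → ℝ) :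
    v ⬝ᵥ (Smat f j a x *ᵥ v) = ∑ b ∈ range (a + 1),
      (∑ x' ∈ univ.filter (fun x' => Low (j b) (x + x')), Qf (j a) (fun y => f x' y * v y)) /
        2 ^ (N - j b) := by
  classical
  have h1 : ∀ b ∈ range (a + 1),
      (∑ x' ∈ univ.filter (fun x' => Low (j b) (x + x')), Qf (j a) (fun y => f x' y * v y)) /
        2 ^ (N - j b) = ∑ y, ∑ y', if Low (j a) (y + y') then
          v y * ((∑ x' ∈ univ.filter (fun x' => Low (j b) (x + x')), f x' y * f x' y') /
            2 ^ (N - j b) / 2 ^ (N - j a)) * v y' else 0 := by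
    intro b _
    simp_rw [← Qf_eq (hjN a)]
    rw [Finset.sum_comm, Finset.sum_div]
    refine Finset.sum_congr rfl fun y _ => ?_
    rw [Finset.sum_comm, Finset.sum_div]
    refine Finset.sum_congr rfl fun y' _ => ?_
    split_ifs with h
    · simp_rw [Finset.sum_div, Finset.mul_sum, Finset.sum_mul]
      refine Finset.sum_congr rfl fun x' _ => ?_
      ring
    · simp
  rw [Finset.sum_congr rfl h1, Finset.sum_comm]
  simp only [dotProduct, mulVec]
  refine Finset.sum_congr rfl fun y _ => ?_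
  rw [Finset.sum_comm, Finset.mul_sum]
  refine Finset.sum_congr rfl fun y' _ => ?_
  simp only [Smat, Matrix.of_apply]
  split_ifs with h
  · rw [Finset.sum_div, Finset.sum_mul, Finset.mul_sum]
    refine Finset.sum_congr rfl fun b _ => ?_
    ring
  · simp

theorem Smat_symm (a : ℕ) (x : G N) : (Smat f j a x).IsHermitian := by
  ext y y'
  simp only [conjTranspose_apply, star_trivial, Smat, Matrix.of_apply]
  rw [add_comm y' y]
  split_ifs with h
  · congr 1
    refine Finset.sum_congr rfl fun b _ => ?_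
    congr 1
    refine Finset.sum_congr rfl fun x' _ => ?_
    ring
  · rfl

theorem Smat_posSemidef (hj : Monotone j) (hjN : ∀ a, j a ≤ N) (a : ℕ) (x : G N) :
    (Smat f j a x).PosSemidef := by
  refine PosSemidef.of_dotProduct_mulVec_nonneg (Smat_symm a x) fun v => ?_
  rw [star_trivial, Smat_quad hjN]
  refine Finset.sum_nonneg fun b _ => ?_
  have := Finset.sum_nonneg fun x' (_ : x' ∈ univ.filter (fun x' => Low (j b) (x + x'))) =>
    Qf_nonneg (j a) (fun y => f x' y * v y)
  positivity

theorem Smat_mono (hj : Monotone j) (hjN : ∀ a, j a ≤ N) {a b : ℕ} (hab : a ≤ b) (x : G N) :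
    (Smat f j b x - Smat f j a x).PosSemidef := by
  refine PosSemidef.of_dotProduct_mulVec_nonneg ((Smat_symm b x).sub (Smat_symm a x)) fun v => ?_
  rw [star_trivial, sub_mulVec, dotProduct_sub, Smat_quad hjN, Smat_quad hjN, sub_nonneg]
  have hsub : range (a + 1) ⊆ range (b + 1) := by
    intro i hi
    rw [mem_range] at hi ⊢
    omega
  refine le_trans (Finset.sum_le_sum fun c _ => ?_)
    (Finset.sum_le_sum_of_subset_of_nonneg hsub fun c _ _ => ?_)
  · refine div_le_div_of_nonneg_right (Finset.sum_le_sum fun x' _ => ?_) (by positivity)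
    exact Qf_mono (hj hab) (hjN b) _
  · exact div_nonneg (Finset.sum_nonneg fun x' _ => Qf_nonneg _ _) (by positivity)

theorem Smat_block (a : ℕ) (x y y' : G N) (h : ¬ Low (j a) (y + y')) :
    Smat f j a x y y' = 0 := by
  simp only [Smat, Matrix.of_apply]
  rw [if_neg h]

theorem Smat_coset (hj : Monotone j) (a : ℕ) (x x' : G N) (h : Low (j a) (x + x')) :
    Smat f j a x = Smat f j a x' := by
  ext y y'
  simp only [Smat, Matrix.of_apply]
  split_ifs with h1
  · congr 1
    refine Finset.sum_congr rfl fun b hb => ?_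
    congr 1
    have hba : j b ≤ j a := hj (by rw [mem_range] at hb; omega)
    have h2 : Low (j b) (x + x') := Low_mono hba h
    refine Finset.sum_congr ?_ fun _ _ => rfl
    ext t
    simp only [mem_filter, mem_univ, true_and]
    constructor
    · intro h3
      have h5 := Low_add h2 h3
      have h6 : x + x' + (x + t) = x' + t := by
        have := add_self_G x
        calc x + x' + (x + t) = (x + x) + (x' + t) := by abel
          _ = x' + t := by rw [this, zero_add]
      rwa [h6] at h5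
    · intro h3
      have h5 := Low_add h2 h3
      have h6 : x + x' + (x' + t) = x + t := by
        have := add_self_G x'
        calc x + x' + (x' + t) = (x' + x') + (x + t) := by abel
          _ = x + t := by rw [this, zero_add]
      rwa [h6] at h5
  · rfl

theorem Smat_entry (hj : Monotone j) (hjN : ∀ a, j a ≤ N) (hf : ∀ x y, |f x y| ≤ 1)
    (a : ℕ) (x y y' : G N) : |Smat f j a x y y'| ≤ (a + 1) / 2 ^ (N - j a) := by
  simp only [Smat, Matrix.of_apply]
  split_ifs with h
  · rw [abs_div, abs_of_pos (by positivity : (0 : ℝ) < 2 ^ (N - j a))]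
    refine div_le_div_of_nonneg_right ?_ (by positivity)
    refine le_trans (Finset.abs_sum_le_sum_abs _ _) ?_
    have h1 : ∀ b ∈ range (a + 1), |(∑ x' ∈ univ.filter (fun x' => Low (j b) (x + x')),
        f x' y * f x' y') / 2 ^ (N - j b)| ≤ 1 := by
      intro b _
      rw [abs_div, abs_of_pos (by positivity : (0 : ℝ) < 2 ^ (N - j b)),
        div_le_one (by positivity)]
      refine le_trans (Finset.abs_sum_le_sum_abs _ _) ?_
      have h2 : ∀ x' ∈ univ.filter (fun x' : G N => Low (j b) (x + x')),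
          |f x' y * f x' y'| ≤ 1 := by
        intro x' _
        rw [abs_mul]
        exact mul_le_one₀ (hf _ _) (abs_nonneg _) (hf _ _)
      refine le_trans (Finset.sum_le_card_nsmul _ _ _ h2) ?_
      rw [card_coset' (hjN b)]
      simp
    refine le_trans (Finset.sum_le_card_nsmul _ _ _ h1) ?_
    simp
  · rw [abs_zero]
    positivity

theorem Smat_trace_block (hj : Monotone j) (hjN : ∀ a, j a ≤ N) (hf : ∀ x y, |f x y| ≤ 1)
    (a : ℕ) (x y₀ : G N) :
    ∑ y ∈ univ.filter (fun y => Low (j a) (y + y₀)), Smat f j a x y y ≤ a + 1 := by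
  have h1 : ∀ y ∈ univ.filter (fun y => Low (j a) (y + y₀)),
      Smat f j a x y y ≤ ((a : ℝ) + 1) / 2 ^ (N - j a) := fun y _ =>
    le_trans (le_abs_self _) (Smat_entry hj hjN hf a x y y)
  refine le_trans (Finset.sum_le_card_nsmul _ _ _ h1) ?_
  rw [card_coset (hjN a), nsmul_eq_mul]
  push_cast
  rw [mul_div_cancel₀]
  positivity

/-- domination of the own term b = a -/
theorem Smat_dom (hj : Monotone j) (hjN : ∀ a, j a ≤ N) (a : ℕ) (x y₀ : G N) (v : G N → ℝ)
    (hv : ∀ y, ¬ Low (j a) (y + y₀) → v y = 0) :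
    ∑ x' ∈ univ.filter (fun x' => Low (j a) (x + x')), (∑ y, f x' y * v y) ^ 2 ≤
      4 ^ (N - j a) * (v ⬝ᵥ (Smat f j a x *ᵥ v)) := by
  classical
  rw [Smat_quad hjN]
  have h1 : (∑ x' ∈ univ.filter (fun x' => Low (j a) (x + x')),
      Qf (j a) (fun y => f x' y * v y)) / 2 ^ (N - j a) ≤ ∑ b ∈ range (a + 1),
      (∑ x' ∈ univ.filter (fun x' => Low (j b) (x + x')), Qf (j a) (fun y => f x' y * v y)) /
        2 ^ (N - j b) := by
    refine Finset.single_le_sum (f := fun b => (∑ x' ∈ univ.filter (fun x' =>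
      Low (j b) (x + x')), Qf (j a) (fun y => f x' y * v y)) / 2 ^ (N - j b)) (fun b _ => ?_)
      (mem_range.2 (Nat.lt_succ_self a))
    exact div_nonneg (Finset.sum_nonneg fun x' _ => Qf_nonneg _ _) (by positivity)
  refine le_trans ?_ (mul_le_mul_of_nonneg_left h1 (by positivity))
  have h4 : (4 : ℝ) ^ (N - j a) = 2 ^ (N - j a) * 2 ^ (N - j a) := by
    rw [← mul_pow]; norm_num
  rw [Finset.sum_div, Finset.mul_sum]
  refine Finset.sum_le_sum fun x' _ => ?_
  -- Qf of a function supported on one cell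
  have h2 : ∀ y₁ ∈ univ.filter (fun y₁ : G N => Low (j a) (y₁ + y₀)),
      (∑ y ∈ univ.filter (fun y => Low (j a) (y + y₁)), f x' y * v y) = ∑ y, f x' y * v y := by
    intro y₁ hy₁
    simp only [mem_filter, mem_univ, true_and] at hy₁
    rw [Finset.sum_filter]
    refine Finset.sum_congr rfl fun y _ => ?_
    split_ifs with h3
    · rfl
    · rw [hv y, mul_zero]
      intro h5
      apply h3
      have h6 := Low_add h5 hy₁
      have h7 : y + y₀ + (y₁ + y₀) = y + y₁ := by
        have := add_self_G y₀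
        calc y + y₀ + (y₁ + y₀) = (y₀ + y₀) + (y + y₁) := by abel
          _ = y + y₁ := by rw [this, zero_add]
      rwa [h7] at h6
  have h3 : (2 : ℝ) ^ (N - j a) * (∑ y, f x' y * v y) ^ 2 ≤
      ∑ y₁, (∑ y ∈ univ.filter (fun y => Low (j a) (y + y₁)), f x' y * v y) ^ 2 := by
    refine le_trans (le_of_eq ?_) (Finset.sum_le_sum_of_subset_of_nonneg
      (Finset.subset_univ (univ.filter (fun y₁ : G N => Low (j a) (y₁ + y₀))))
      fun y₁ _ _ => sq_nonneg _)
    have h5 : ∀ y₁ ∈ univ.filter (fun y₁ : G N => Low (j a) (y₁ + y₀)),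
        (∑ y ∈ univ.filter (fun y => Low (j a) (y + y₁)), f x' y * v y) ^ 2 =
          (∑ y, f x' y * v y) ^ 2 := fun y₁ hy₁ => by rw [h2 y₁ hy₁]
    rw [Finset.sum_congr rfl h5, Finset.sum_const, card_coset (hjN a), nsmul_eq_mul]
    push_cast
    rfl
  unfold Qf
  rw [div_div, mul_div_assoc', le_div_iff₀ (by positivity)]
  calc (∑ y, f x' y * v y) ^ 2 * (4 ^ (N - j a) * 2 ^ (N - j a)) =
      4 ^ (N - j a) * (2 ^ (N - j a) * (∑ y, f x' y * v y) ^ 2) := by ring
    _ ≤ _ := mul_le_mul_of_nonneg_left h3 (by positivity)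

end

end Vale.Agent.P075
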