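import Vale.Agent.P075.RidgeA
import Vale.Agent.P075.MatAux

namespace Vale.Agent.P075

open Finset Matrix

section
variable {N : ℕ} {lam : ℝ} {f : G N → G N → ℝ} {j : ℕ → ℕ}

theorem Bm_posDef (hlam : 0 < lam) (hj : Monotone j) (hjN : ∀ a, j a ≤ N) (a : ℕ) (x : G N) :
    (Smat f j a x + lam • (1 : Matrix (G N) (G N) ℝ)).PosDef :=
  PosDef.posSemidef_add (Smat_posSemidef hj hjN a x) (PosDef.one.smul hlam)

theorem Bm_unit (hlam : 0 < lam) (hj : Monotone j) (hjN : ∀ a, j a ≤ N) (a : ℕ) (x : G N) :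
    IsUnit (Smat f j a x + lam • (1 : Matrix (G N) (G N) ℝ)).det :=
  (Matrix.isUnit_iff_isUnit_det _).1 (Bm_posDef hlam hj hjN a x).isUnit

theorem Rm_posSemidef (hlam : 0 < lam) (hj : Monotone j) (hjN : ∀ a, j a ≤ N) (a : ℕ) (x : G N) :
    (Rm lam f j a x).PosSemidef :=
  ((Bm_posDef hlam hj hjN a x).inv.posSemidef).smul hlam.le

/-- resolvent equation: S (R v) + lam R v = lam v -/
theorem Rm_eq (hlam : 0 < lam) (hj : Monotone j) (hjN : ∀ a, j a ≤ N) (a : ℕ) (x : G N)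
    (v : G N → ℝ) :
    Smat f j a x *ᵥ (Rm lam f j a x *ᵥ v) + lam • (Rm lam f j a x *ᵥ v) = lam • v := by
  have h1 := Matrix.mul_nonsing_inv _ (Bm_unit (f := f) hlam hj hjN a x)
  have h2 : (Smat f j a x + lam • (1 : Matrix (G N) (G N) ℝ)) *ᵥ (Rm lam f j a x *ᵥ v) =
      lam • v := by
    unfold Rm
    rw [smul_mulVec, mulVec_smul, mulVec_mulVec, h1, one_mulVec]
  rw [← h2, add_mulVec, smul_mulVec, one_mulVec]

theorem Phi_mulVec (hlam : 0 < lam) (hj : Monotone j) (hjN : ∀ a, j a ≤ N) (a : ℕ) (x : G N)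
    (v : G N → ℝ) :
    Smat f j a x *ᵥ (Rm lam f j a x *ᵥ v) = lam • (Phi lam f j a x *ᵥ v) := by
  have h1 := Rm_eq (f := f) hlam hj hjN a x v
  unfold Phi
  rw [sub_mulVec, one_mulVec, smul_sub, ← h1]
  abel

theorem Phi_herm (hlam : 0 < lam) (hj : Monotone j) (hjN : ∀ a, j a ≤ N) (a : ℕ) (x : G N) :
    (Phi lam f j a x).IsHermitian :=
  isHermitian_one.sub (Rm_posSemidef hlam hj hjN a x).isHermitian

theorem Phi_posSemidef (hlam : 0 < lam) (hj : Monotone j) (hjN : ∀ a, j a ≤ N) (a : ℕ) (x : G N) :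
    (Phi lam f j a x).PosSemidef := by
  refine psd_of_quad (Phi_herm hlam hj hjN a x) fun v => ?_
  set u := Rm lam f j a x *ᵥ v with hu
  have h1 : Smat f j a x *ᵥ u = lam • (Phi lam f j a x *ᵥ v) := Phi_mulVec hlam hj hjN a x v
  have h2 : Smat f j a x *ᵥ u + lam • u = lam • v := Rm_eq hlam hj hjN a x v
  have h3 : lam ^ 2 * (v ⬝ᵥ (Phi lam f j a x *ᵥ v)) =
      (Smat f j a x *ᵥ u) ⬝ᵥ (Smat f j a x *ᵥ u) + lam * (u ⬝ᵥ (Smat f j a x *ᵥ u)) := by
    calc lam ^ 2 * (v ⬝ᵥ (Phi lam f j a x *ᵥ v)) =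
        (lam • v) ⬝ᵥ (lam • (Phi lam f j a x *ᵥ v)) := by
          rw [dotProduct_smul, smul_dotProduct, smul_eq_mul, smul_eq_mul]; ring
      _ = _ := by
          rw [← h1, ← h2, add_dotProduct, smul_dotProduct, smul_eq_mul]
  have h4 : 0 ≤ u ⬝ᵥ (Smat f j a x *ᵥ u) := psd_quad_nonneg (Smat_posSemidef hj hjN a x) u
  have h5 := dot_self_nonneg (Smat f j a x *ᵥ u)
  have h6 : 0 ≤ lam ^ 2 * (v ⬝ᵥ (Phi lam f j a x *ᵥ v)) := by
    rw [h3]; positivity
  exact nonneg_of_mul_nonneg_right h6 (by positivity)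

theorem Phi_mono (hlam : 0 < lam) (hj : Monotone j) (hjN : ∀ a, j a ≤ N) {a b : ℕ} (hab : a ≤ b)
    (x : G N) : (Phi lam f j b x - Phi lam f j a x).PosSemidef := by
  refine psd_of_quad ((Phi_herm hlam hj hjN b x).sub (Phi_herm hlam hj hjN a x)) fun v => ?_
  -- with w = R_b v and u = R_a v
  set u := Rm lam f j a x *ᵥ v with hu
  set w := Rm lam f j b x *ᵥ v with hw
  set Sa := Smat f j a x with hSa
  set Sb := Smat f j b x with hSb
  have ha : Sa *ᵥ u + lam • u = lam • v := Rm_eq hlam hj hjN a x v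
  have hb : Sb *ᵥ w + lam • w = lam • v := Rm_eq hlam hj hjN b x v
  have hsa : Saᵀ = Sa := psd_symm (Smat_posSemidef hj hjN a x)
  have h1 : v ⬝ᵥ ((Phi lam f j b x - Phi lam f j a x) *ᵥ v) = v ⬝ᵥ u - v ⬝ᵥ w := by
    unfold Phi
    rw [sub_mulVec, sub_mulVec, sub_mulVec, one_mulVec, ← hu, ← hw, dotProduct_sub,
      dotProduct_sub, dotProduct_sub]
    ring
  rw [h1]
  -- (u - w) . (Sa + lam)(u - w) ≥ 0 and w . (Sb - Sa) w ≥ 0
  have h2 : 0 ≤ (u - w) ⬝ᵥ (Sa *ᵥ (u - w)) := psd_quad_nonneg (Smat_posSemidef hj hjN a x) _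
  have h3 : 0 ≤ (u - w) ⬝ᵥ (u - w) := dot_self_nonneg _
  have h4 : 0 ≤ w ⬝ᵥ ((Sb - Sa) *ᵥ w) := psd_quad_nonneg (Smat_mono hj hjN hab x) _
  have h5 : u ⬝ᵥ (Sa *ᵥ w) = w ⬝ᵥ (Sa *ᵥ u) := by
    rw [dot_symm_mulVec hsa u w, dotProduct_comm]
  have e1 : (u - w) ⬝ᵥ (Sa *ᵥ (u - w)) =
      u ⬝ᵥ (Sa *ᵥ u) - 2 * (w ⬝ᵥ (Sa *ᵥ u)) + w ⬝ᵥ (Sa *ᵥ w) := by
    rw [mulVec_sub, sub_dotProduct, dotProduct_sub, dotProduct_sub, h5]
    ring
  have e2 : (u - w) ⬝ᵥ (u - w) = u ⬝ᵥ u - 2 * (w ⬝ᵥ u) + w ⬝ᵥ w := by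
    rw [sub_dotProduct, dotProduct_sub, dotProduct_sub, dotProduct_comm u w]
    ring
  have e3 : w ⬝ᵥ ((Sb - Sa) *ᵥ w) = w ⬝ᵥ (Sb *ᵥ w) - w ⬝ᵥ (Sa *ᵥ w) := by
    rw [sub_mulVec, dotProduct_sub]
  have ha' : Sa *ᵥ u = lam • v - lam • u := by rw [← ha]; abel
  have hb' : Sb *ᵥ w = lam • v - lam • w := by rw [← hb]; abel
  have g1 : u ⬝ᵥ (Sa *ᵥ u) = lam * (v ⬝ᵥ u) - lam * (u ⬝ᵥ u) := by
    rw [ha', dotProduct_sub, dotProduct_smul, dotProduct_smul, smul_eq_mul, smul_eq_mul,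
      dotProduct_comm u v]
  have g2 : w ⬝ᵥ (Sa *ᵥ u) = lam * (v ⬝ᵥ w) - lam * (w ⬝ᵥ u) := by
    rw [ha', dotProduct_sub, dotProduct_smul, dotProduct_smul, smul_eq_mul, smul_eq_mul,
      dotProduct_comm w v]
  have g3 : w ⬝ᵥ (Sb *ᵥ w) = lam * (v ⬝ᵥ w) - lam * (w ⬝ᵥ w) := by
    rw [hb', dotProduct_sub, dotProduct_smul, dotProduct_smul, smul_eq_mul, smul_eq_mul,
      dotProduct_comm w v]
  have h6 : 0 ≤ lam * (v ⬝ᵥ u - v ⬝ᵥ w) := by
    rw [e1, g1, g2] at h2
    rw [e2] at h3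
    rw [e3, g3] at h4
    have h7 := mul_nonneg hlam.le h3
    linarith
  exact nonneg_of_mul_nonneg_right h6 hlam

theorem Rm_block (hlam : 0 < lam) (hj : Monotone j) (hjN : ∀ a, j a ≤ N) (a : ℕ)
    (x y y' : G N) (h : ¬ Low (j a) (y + y')) : Rm lam f j a x y y' = 0 := by
  classical
  set B := Smat f j a x + lam • (1 : Matrix (G N) (G N) ℝ) with hB
  have hu := Bm_unit (f := f) hlam hj hjN a x
  rw [← hB] at hu
  have hBblock : ∀ y z, ¬ Low (j a) (y + z) → B y z = 0 := by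
    intro y z hyz
    rw [hB, Matrix.add_apply, Smat_block a x y z hyz, Matrix.smul_apply, Matrix.one_apply]
    have hne : y ≠ z := by
      rintro rfl
      apply hyz
      rw [add_self_G]
      exact Low_of_zero _
    rw [if_neg hne]
    simp
  set X : Matrix (G N) (G N) ℝ := Matrix.of fun y y' => if Low (j a) (y + y') then B⁻¹ y y' else 0
    with hX
  have hBX : B * X = 1 := by
    ext y y'
    rw [Matrix.mul_apply]
    by_cases hyy : Low (j a) (y + y')
    · have h1 : ∀ z, B y z * X z y' = B y z * B⁻¹ z y' := by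
        intro z
        by_cases hz : Low (j a) (y + z)
        · have h5 := Low_add hz hyy
          have h6 : y + z + (y + y') = z + y' := by
            have := add_self_G y
            calc y + z + (y + y') = (y + y) + (z + y') := by abel
              _ = z + y' := by rw [this, zero_add]
          rw [h6] at h5
          rw [hX, Matrix.of_apply, if_pos h5]
        · rw [hBblock y z hz]; ring
      simp_rw [h1]
      rw [← Matrix.mul_apply, Matrix.mul_nonsing_inv _ hu]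
    · have hne : y ≠ y' := by
        rintro rfl
        apply hyy
        rw [add_self_G]
        exact Low_of_zero _
      rw [Matrix.one_apply_ne hne]
      refine Finset.sum_eq_zero fun z _ => ?_
      by_cases hz : Low (j a) (y + z)
      · have h5 : ¬ Low (j a) (z + y') := by
          intro h6
          apply hyy
          have h7 := Low_add hz h6
          have h8 : y + z + (z + y') = y + y' := by
            have := add_self_G z
            calc y + z + (z + y') = (z + z) + (y + y') := by abel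
              _ = y + y' := by rw [this, zero_add]
          rwa [h8] at h7
        rw [hX, Matrix.of_apply, if_neg h5, mul_zero]
      · rw [hBblock y z hz, zero_mul]
  have hXB : B⁻¹ = X := Matrix.inv_eq_right_inv hBX
  unfold Rm
  rw [← hB, hXB, Matrix.smul_apply, hX, Matrix.of_apply, if_neg h, smul_zero]

theorem Phi_block (hlam : 0 < lam) (hj : Monotone j) (hjN : ∀ a, j a ≤ N) (a : ℕ)
    (x y y' : G N) (h : ¬ Low (j a) (y + y')) : Phi lam f j a x y y' = 0 := by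
  unfold Phi
  have hne : y ≠ y' := by
    rintro rfl
    apply h
    rw [add_self_G]
    exact Low_of_zero _
  rw [Matrix.sub_apply, Rm_block hlam hj hjN a x y y' h, Matrix.one_apply_ne hne, sub_zero]

theorem Rm_coset (hj : Monotone j) (a : ℕ) (x x' : G N) (h : Low (j a) (x + x')) :
    Rm lam f j a x = Rm lam f j a x' := by
  unfold Rm
  rw [Smat_coset hj a x x' h]

theorem Phi_coset (hj : Monotone j) (a : ℕ) (x x' : G N) (h : Low (j a) (x + x')) :
    Phi lam f j a x = Phi lam f j a x' := by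
  unfold Phi
  rw [Rm_coset hj a x x' h]

theorem Phi_diag_le (hlam : 0 < lam) (hj : Monotone j) (hjN : ∀ a, j a ≤ N) (a : ℕ) (x y : G N) :
    Phi lam f j a x y y ≤ Smat f j a x y y / lam := by
  set v : G N → ℝ := Pi.single y 1 with hv
  have hdiag : ∀ A : Matrix (G N) (G N) ℝ, v ⬝ᵥ (A *ᵥ v) = A y y := by
    intro A
    rw [hv]
    simp
  set u := Rm lam f j a x *ᵥ v with hu
  set S := Smat f j a x with hS
  set P := Phi lam f j a x with hP
  have h1 : S *ᵥ u = lam • (P *ᵥ v) := Phi_mulVec hlam hj hjN a x v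
  have h2 : S *ᵥ u + lam • u = lam • v := Rm_eq hlam hj hjN a x v
  have hSp := Smat_posSemidef (f := f) hj hjN a x
  rw [← hS] at hSp
  have hs : Sᵀ = S := psd_symm hSp
  -- lam^2 v.Sv = (Su + lam u) . S (Su + lam u)
  have h3 : lam ^ 2 * (v ⬝ᵥ (S *ᵥ v)) = (S *ᵥ u) ⬝ᵥ (S *ᵥ (S *ᵥ u)) +
      2 * lam * ((S *ᵥ u) ⬝ᵥ (S *ᵥ u)) + lam ^ 2 * (u ⬝ᵥ (S *ᵥ u)) := by
    calc lam ^ 2 * (v ⬝ᵥ (S *ᵥ v)) = (lam • v) ⬝ᵥ (S *ᵥ (lam • v)) := by
          rw [mulVec_smul, dotProduct_smul, smul_dotProduct, smul_eq_mul, smul_eq_mul]; ring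
      _ = _ := by
          rw [← h2, mulVec_add, mulVec_smul, add_dotProduct, dotProduct_add, dotProduct_add,
            smul_dotProduct, smul_dotProduct, dotProduct_smul, dotProduct_smul,
            dot_symm_mulVec hs u (S *ᵥ u)]
          simp only [smul_eq_mul]
          ring
  have h4 : lam ^ 2 * (v ⬝ᵥ (P *ᵥ v)) = (S *ᵥ u) ⬝ᵥ (S *ᵥ u) + lam * (u ⬝ᵥ (S *ᵥ u)) := by
    calc lam ^ 2 * (v ⬝ᵥ (P *ᵥ v)) =
        (lam • v) ⬝ᵥ (lam • (P *ᵥ v)) := by
          rw [dotProduct_smul, smul_dotProduct, smul_eq_mul, smul_eq_mul]; ring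
      _ = _ := by
          rw [← h1, ← h2, add_dotProduct, smul_dotProduct, smul_eq_mul]
  have h5 : 0 ≤ (S *ᵥ u) ⬝ᵥ (S *ᵥ (S *ᵥ u)) := psd_quad_nonneg hSp _
  have h6 := dot_self_nonneg (S *ᵥ u)
  rw [hdiag] at h3 h4
  rw [le_div_iff₀ hlam]
  have h7 : lam ^ 2 * (P y y * lam) ≤ lam ^ 2 * S y y := by
    have h8 : lam ^ 2 * (P y y * lam) = lam * (lam ^ 2 * P y y) := by ring
    rw [h8, h4, h3]
    have h9 := mul_nonneg hlam.le h6
    nlinarith
  exact le_of_mul_le_mul_left h7 (by positivity)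

theorem Phi_trace_block (hlam : 0 < lam) (hj : Monotone j) (hjN : ∀ a, j a ≤ N)
    (hf : ∀ x y, |f x y| ≤ 1) (a : ℕ) (x y₀ : G N) :
    ∑ y ∈ univ.filter (fun y => Low (j a) (y + y₀)), Phi lam f j a x y y ≤ (a + 1) / lam := by
  refine le_trans (Finset.sum_le_sum fun y _ => Phi_diag_le hlam hj hjN a x y) ?_
  rw [← Finset.sum_div]
  exact div_le_div_of_nonneg_right (Smat_trace_block hj hjN hf a x y₀) hlam.le

theorem Rm_contr_cell (hlam : 0 < lam) (hj : Monotone j) (hjN : ∀ a, j a ≤ N)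
    (a : ℕ) (x y : G N) (v : G N → ℝ) :
    ∑ y' ∈ univ.filter (fun y' => Low (j a) (y + y')), (Rm lam f j a x *ᵥ v) y' ^ 2 ≤
      ∑ y' ∈ univ.filter (fun y' => Low (j a) (y + y')), v y' ^ 2 := by
  classical
  set u : G N → ℝ := fun y' => if Low (j a) (y + y') then v y' else 0 with hu
  have h1 : ∀ y', Low (j a) (y + y') → (Rm lam f j a x *ᵥ v) y' = (Rm lam f j a x *ᵥ u) y' := by
    intro y' hy'
    simp only [mulVec, dotProduct]
    refine Finset.sum_congr rfl fun z _ => ?_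
    by_cases hz : Low (j a) (y' + z)
    · have h5 := Low_add hy' hz
      have h6 : y + y' + (y' + z) = y + z := by
        have := add_self_G y'
        calc y + y' + (y' + z) = (y' + y') + (y + z) := by abel
          _ = y + z := by rw [this, zero_add]
      rw [h6] at h5
      simp only [hu]
      rw [if_pos h5]
    · rw [Rm_block hlam hj hjN a x y' z hz]; ring
  have h2 := psd_contr_sq' (Rm_posSemidef (f := f) hlam hj hjN a x)
    (Phi_posSemidef (f := f) hlam hj hjN a x) u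
  have h3 : ∑ y' ∈ univ.filter (fun y' => Low (j a) (y + y')), (Rm lam f j a x *ᵥ v) y' ^ 2 ≤
      (Rm lam f j a x *ᵥ u) ⬝ᵥ (Rm lam f j a x *ᵥ u) := by
    have h4 : ∑ y' ∈ univ.filter (fun y' => Low (j a) (y + y')), (Rm lam f j a x *ᵥ v) y' ^ 2 =
        ∑ y' ∈ univ.filter (fun y' => Low (j a) (y + y')), (Rm lam f j a x *ᵥ u) y' ^ 2 := by
      refine Finset.sum_congr rfl fun y' hy' => ?_
      rw [h1 y' (by simpa using hy')]
    rw [h4]
    simp only [dotProduct, ← sq]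
    exact Finset.sum_le_sum_of_subset_of_nonneg (Finset.subset_univ _) fun _ _ _ => sq_nonneg _
  have h5 : u ⬝ᵥ u = ∑ y' ∈ univ.filter (fun y' => Low (j a) (y + y')), v y' ^ 2 := by
    simp only [dotProduct, hu]
    rw [Finset.sum_filter]
    refine Finset.sum_congr rfl fun y' _ => ?_
    split_ifs <;> ring
  rw [← h5]
  exact le_trans h3 h2

theorem Phi_point (hlam : 0 < lam) (hj : Monotone j) (hjN : ∀ a, j a ≤ N)
    (hf : ∀ x y, |f x y| ≤ 1) (a : ℕ) (x y : G N) :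
    |(Phi lam f j a x *ᵥ f x) y| ≤ (a + 1) / lam := by
  classical
  have h1 : lam * (Phi lam f j a x *ᵥ f x) y =
      (Smat f j a x *ᵥ (Rm lam f j a x *ᵥ f x)) y := by
    rw [Phi_mulVec hlam hj hjN a x (f x)]
    rfl
  set u := Rm lam f j a x *ᵥ f x with hu
  have h2 : |(Smat f j a x *ᵥ u) y| ≤ a + 1 := by
    have h3 : (Smat f j a x *ᵥ u) y =
        ∑ y' ∈ univ.filter (fun y' => Low (j a) (y + y')), Smat f j a x y y' * u y' := by
      simp only [mulVec, dotProduct]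
      rw [Finset.sum_filter]
      refine Finset.sum_congr rfl fun y' _ => ?_
      split_ifs with h
      · rfl
      · rw [Smat_block a x y y' h, zero_mul]
    rw [h3]
    have h4 : ∑ y' ∈ univ.filter (fun y' => Low (j a) (y + y')), |u y'| ≤ 2 ^ (N - j a) := by
      have h5 := sq_sum_le_card_mul_sum_sq (s := univ.filter (fun y' => Low (j a) (y + y')))
        (f := fun y' => |u y'|)
      rw [card_coset' (hjN a)] at h5
      simp only [sq_abs] at h5
      have h6 := Rm_contr_cell (f := f) hlam hj hjN a x y (f x)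
      have h7 : ∑ y' ∈ univ.filter (fun y' => Low (j a) (y + y')), f x y' ^ 2 ≤
          2 ^ (N - j a) := by
        have h8 : ∀ y' ∈ univ.filter (fun y' => Low (j a) (y + y')), f x y' ^ 2 ≤ 1 := by
          intro y' _
          have := hf x y'
          rw [← sq_abs]
          have h0 := abs_nonneg (f x y')
          nlinarith
        refine le_trans (Finset.sum_le_card_nsmul _ _ _ h8) ?_
        rw [card_coset' (hjN a)]
        simp
      have h9 : (∑ y' ∈ univ.filter (fun y' => Low (j a) (y + y')), |u y'|) ^ 2 ≤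
          (2 ^ (N - j a)) ^ 2 := by
        refine le_trans h5 ?_
        push_cast
        rw [sq]
        exact mul_le_mul_of_nonneg_left (le_trans h6 h7) (by positivity)
      exact (pow_le_pow_iff_left₀ (Finset.sum_nonneg fun _ _ => abs_nonneg _) (by positivity)
        two_ne_zero).1 h9
    calc |∑ y' ∈ univ.filter (fun y' => Low (j a) (y + y')), Smat f j a x y y' * u y'|
        ≤ ∑ y' ∈ univ.filter (fun y' => Low (j a) (y + y')),
          ((a : ℝ) + 1) / 2 ^ (N - j a) * |u y'| := by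
          refine le_trans (Finset.abs_sum_le_sum_abs _ _) (Finset.sum_le_sum fun y' _ => ?_)
          rw [abs_mul]
          exact mul_le_mul_of_nonneg_right (Smat_entry hj hjN hf a x y y') (abs_nonneg _)
      _ = ((a : ℝ) + 1) / 2 ^ (N - j a) *
          ∑ y' ∈ univ.filter (fun y' => Low (j a) (y + y')), |u y'| := by
          rw [Finset.mul_sum]
      _ ≤ ((a : ℝ) + 1) / 2 ^ (N - j a) * 2 ^ (N - j a) :=
          mul_le_mul_of_nonneg_left h4 (by positivity)
      _ = a + 1 := by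
          rw [div_mul_cancel₀]; positivity
  rw [← h1, abs_mul, abs_of_pos hlam] at h2
  rw [le_div_iff₀ hlam]
  linarith

theorem Rm_quad (hlam : 0 < lam) (hj : Monotone j) (hjN : ∀ a, j a ≤ N) (a : ℕ) (x : G N)
    (w : G N → ℝ) :
    (Rm lam f j a x *ᵥ w) ⬝ᵥ (Smat f j a x *ᵥ (Rm lam f j a x *ᵥ w)) ≤ lam / 4 * (w ⬝ᵥ w) := by
  set u := Rm lam f j a x *ᵥ w with hu
  have h2 : Smat f j a x *ᵥ u + lam • u = lam • w := Rm_eq hlam hj hjN a x w
  have h3 : Smat f j a x *ᵥ u = lam • w - lam • u := by rw [← h2]; abel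
  rw [h3, dotProduct_sub, dotProduct_smul, dotProduct_smul, smul_eq_mul, smul_eq_mul]
  have h4 := dot_self_nonneg (w - (2 : ℝ) • u)
  have h5 : (w - (2 : ℝ) • u) ⬝ᵥ (w - (2 : ℝ) • u) = w ⬝ᵥ w - 4 * (u ⬝ᵥ w) + 4 * (u ⬝ᵥ u) := by
    rw [sub_dotProduct, dotProduct_sub, dotProduct_sub, dotProduct_smul, dotProduct_smul,
      smul_dotProduct, smul_dotProduct, dotProduct_comm w u]
    simp only [smul_eq_mul]
    ring
  rw [h5] at h4
  have h6 := mul_nonneg hlam.le h4
  linarith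

end

end Vale.Agent.P075
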