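import Vale.Agent.P075.Basic

namespace Vale.Agent.P075

open Finset Matrix

/-- accumulated Gram matrix with index a (levels j 0 ≤ j 1 ≤ ...), at the point x -/
noncomputable def Smat {N : ℕ} (f : G N → G N → ℝ) (j : ℕ → ℕ) (a : ℕ) (x : G N) :
    Matrix (G N) (G N) ℝ :=
  Matrix.of fun y y' => if Low (j a) (y + y') then
    (∑ b ∈ range (a + 1), (∑ x' ∈ univ.filter (fun x' => Low (j b) (x + x')),
        f x' y * f x' y') / 2 ^ (N - j b)) / 2 ^ (N - j a)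
  else 0

noncomputable def Rm {N : ℕ} (lam : ℝ) (f : G N → G N → ℝ) (j : ℕ → ℕ) (a : ℕ) (x : G N) :
    Matrix (G N) (G N) ℝ :=
  lam • (Smat f j a x + lam • (1 : Matrix (G N) (G N) ℝ))⁻¹

noncomputable def Phi {N : ℕ} (lam : ℝ) (f : G N → G N → ℝ) (j : ℕ → ℕ) (a : ℕ) (x : G N) :
    Matrix (G N) (G N) ℝ := 1 - Rm lam f j a x

end Vale.Agent.P075
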