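import Vale.Agent.P075.Basic

namespace Vale.Agent.P075

open Finset Matrix

variable {ι : Type*} [Fintype ι] [DecidableEq ι]

/-- Schatten 2^(k+1) norm of a square real matrix. -/
noncomputable def Nk (k : ℕ) (A : Matrix ι ι ℝ) : ℝ :=
  (Matrix.trace ((Aᵀ * A) ^ (2 ^ k))) ^ ((1 : ℝ) / 2 ^ (k + 1))

omit [DecidableEq ι] in
theorem trace_tmul_self (A : Matrix ι ι ℝ) : Matrix.trace (Aᵀ * A) = ∑ i, ∑ j, A i j ^ 2 := by
  rw [Matrix.trace, Finset.sum_comm]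
  refine Finset.sum_congr rfl fun j _ => ?_
  simp only [Matrix.diag_apply, Matrix.mul_apply, Matrix.transpose_apply]
  exact Finset.sum_congr rfl fun i _ => by ring

theorem trace_pow_comm (A B : Matrix ι ι ℝ) (q : ℕ) :
    Matrix.trace ((A * B) ^ q) = Matrix.trace ((B * A) ^ q) := by
  rcases q with _ | q
  · simp
  · have h : ∀ n : ℕ, (A * B) ^ n * A = A * (B * A) ^ n := by
      intro n
      induction n with
      | zero => simp
      | succ n ih =>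
        rw [pow_succ', pow_succ', mul_assoc (A * B), ih]
        simp only [mul_assoc]
    rw [pow_succ, ← mul_assoc, h q, mul_assoc, Matrix.trace_mul_comm A, mul_assoc, ← pow_succ]

theorem trace_pow_nonneg (k : ℕ) (A : Matrix ι ι ℝ) :
    0 ≤ Matrix.trace ((Aᵀ * A) ^ (2 ^ k)) := by
  rcases k with _ | k
  · rw [pow_zero, pow_one, trace_tmul_self]
    positivity
  · have h : (Aᵀ * A) ^ (2 ^ (k + 1)) = ((Aᵀ * A) ^ (2 ^ k))ᵀ * (Aᵀ * A) ^ (2 ^ k) := by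
      rw [Matrix.transpose_pow, Matrix.transpose_mul, Matrix.transpose_transpose, ← pow_add]
      congr 1
      ring
    rw [h, trace_tmul_self]
    positivity

theorem Nk_nonneg (k : ℕ) (A : Matrix ι ι ℝ) : 0 ≤ Nk k A :=
  Real.rpow_nonneg (trace_pow_nonneg k A) _

theorem Nk_pow (k : ℕ) (A : Matrix ι ι ℝ) :
    (Nk k A) ^ (2 ^ (k + 1)) = Matrix.trace ((Aᵀ * A) ^ (2 ^ k)) := by
  rw [Nk, ← Real.rpow_natCast, ← Real.rpow_mul (trace_pow_nonneg k A)]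
  have : (1 : ℝ) / 2 ^ (k + 1) * ((2 ^ (k + 1) : ℕ) : ℝ) = 1 := by
    push_cast
    field_simp
  rw [this, Real.rpow_one]

theorem Nk_zero_sq (A : Matrix ι ι ℝ) : (Nk 0 A) ^ 2 = ∑ i, ∑ j, A i j ^ 2 := by
  have := Nk_pow 0 A
  rw [zero_add, pow_one, pow_zero, pow_one, trace_tmul_self] at this
  exact this

theorem Nk_unique (k : ℕ) (A : Matrix ι ι ℝ) {x : ℝ} (hx : 0 ≤ x)
    (h : x ^ (2 ^ (k + 1)) = Matrix.trace ((Aᵀ * A) ^ (2 ^ k))) : Nk k A = x := by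
  rw [← Nk_pow] at h
  exact ((pow_left_inj₀ hx (Nk_nonneg k A) (by positivity)).1 h).symm

theorem Nk_transpose (k : ℕ) (A : Matrix ι ι ℝ) : Nk k Aᵀ = Nk k A := by
  refine Nk_unique k _ (Nk_nonneg k A) ?_
  rw [Nk_pow, Matrix.transpose_transpose, trace_pow_comm]

theorem Nk_succ_sq (k : ℕ) (A : Matrix ι ι ℝ) : (Nk (k + 1) A) ^ 2 = Nk k (Aᵀ * A) := by
  refine (Nk_unique k _ (by positivity) ?_).symm
  rw [← pow_mul, ← pow_succ', Nk_pow, Matrix.transpose_mul, Matrix.transpose_transpose, ← sq,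
    ← pow_mul, ← pow_succ']

theorem trace_mul_le (A B : Matrix ι ι ℝ) : |Matrix.trace (A * B)| ≤ Nk 0 A * Nk 0 B := by
  have h1 : (Matrix.trace (A * B)) ^ 2 ≤ (Nk 0 A * Nk 0 B) ^ 2 := by
    rw [mul_pow, Nk_zero_sq, ← Nk_transpose 0 B, Nk_zero_sq]
    have e : Matrix.trace (A * B) = ∑ p : ι × ι, A p.1 p.2 * Bᵀ p.1 p.2 := by
      rw [Fintype.sum_prod_type]
      simp only [Matrix.trace, Matrix.diag_apply, Matrix.mul_apply, Matrix.transpose_apply]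
    rw [e, ← Fintype.sum_prod_type' (f := fun i j => A i j ^ 2),
      ← Fintype.sum_prod_type' (f := fun i j => Bᵀ i j ^ 2)]
    exact Finset.sum_mul_sq_le_sq_mul_sq _ _ _
  exact abs_le_of_sq_le_sq h1 (mul_nonneg (Nk_nonneg 0 A) (Nk_nonneg 0 B))

theorem Nk_holder_aux (k : ℕ) :
    (∀ A B : Matrix ι ι ℝ, Nk k (A * B) ≤ Nk (k + 1) A * Nk (k + 1) B) ∧
    (∀ C : Matrix ι ι ℝ, Matrix.trace (C ^ (2 ^ (k + 1))) ≤ (Nk k C) ^ (2 ^ (k + 1))) := by
  have conj : ∀ (k : ℕ) (A B : Matrix ι ι ℝ), (Nk k (A * B)) ^ (2 ^ (k + 1)) =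
      Matrix.trace (((Aᵀ * A) * (B * Bᵀ)) ^ (2 ^ k)) := by
    intro k A B
    rw [Nk_pow, Matrix.transpose_mul]
    have : Bᵀ * Aᵀ * (A * B) = Bᵀ * (Aᵀ * A * B) := by simp only [mul_assoc]
    rw [this, trace_pow_comm]
    simp only [mul_assoc]
  have sqB : ∀ (k : ℕ) (B : Matrix ι ι ℝ), Nk k (B * Bᵀ) = (Nk (k + 1) B) ^ 2 := by
    intro k B
    rw [← Nk_transpose (k + 1) B, Nk_succ_sq, Matrix.transpose_transpose]
  induction k with
  | zero =>
    refine ⟨fun A B => ?_, fun C => ?_⟩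
    · have h1 := conj 0 A B
      rw [zero_add, pow_one, pow_zero, pow_one] at h1
      have h2 : (Nk 0 (A * B)) ^ 2 ≤ (Nk 1 A * Nk 1 B) ^ 2 := by
        rw [h1, mul_pow, ← sqB 0 B, show (1 : ℕ) = 0 + 1 from rfl, Nk_succ_sq]
        exact (le_abs_self _).trans (trace_mul_le _ _)
      exact le_of_sq_le_sq h2 (mul_nonneg (Nk_nonneg _ A) (Nk_nonneg _ B))
    · rw [zero_add, pow_one, sq, sq]
      exact (le_abs_self _).trans (trace_mul_le _ _)
  | succ k ih =>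
    obtain ⟨ihP, ihQ⟩ := ih
    refine ⟨fun A B => ?_, fun C => ?_⟩
    · have h1 := conj (k + 1) A B
      have h2 : (Nk (k + 1) (A * B)) ^ (2 ^ (k + 1 + 1)) ≤
          (Nk (k + 1 + 1) A * Nk (k + 1 + 1) B) ^ (2 ^ (k + 1 + 1)) := by
        rw [h1]
        refine (ihQ _).trans ?_
        have h3 : (Nk (k + 1 + 1) A * Nk (k + 1 + 1) B) ^ (2 ^ (k + 1 + 1)) =
            (Nk (k + 1) (Aᵀ * A) * Nk (k + 1) (B * Bᵀ)) ^ (2 ^ (k + 1)) := by
          rw [sqB, ← Nk_succ_sq, ← mul_pow, ← pow_mul, ← pow_succ']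
        rw [h3]
        exact pow_le_pow_left₀ (Nk_nonneg _ _) (ihP _ _) _
      exact le_of_pow_le_pow_left₀ (by positivity)
        (mul_nonneg (Nk_nonneg _ A) (Nk_nonneg _ B)) h2
    · have h3 : C ^ (2 ^ (k + 1 + 1)) = (C * C) ^ (2 ^ (k + 1)) := by
        rw [← sq, ← pow_mul, ← pow_succ']
      have h4 : (Nk (k + 1) C) ^ (2 ^ (k + 1 + 1)) =
          (Nk (k + 1) C * Nk (k + 1) C) ^ (2 ^ (k + 1)) := by
        rw [← sq, ← pow_mul, ← pow_succ']
      rw [h3, h4]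
      exact (ihQ _).trans (pow_le_pow_left₀ (Nk_nonneg _ _) (ihP _ _) _)

theorem Nk_mul_le (k : ℕ) (A B : Matrix ι ι ℝ) :
    Nk k (A * B) ≤ Nk (k + 1) A * Nk (k + 1) B := (Nk_holder_aux k).1 A B

theorem Nk_add_le (k : ℕ) (A B : Matrix ι ι ℝ) : Nk k (A + B) ≤ Nk k A + Nk k B := by
  induction k generalizing A B with
  | zero =>
    refine le_of_sq_le_sq ?_ (add_nonneg (Nk_nonneg 0 A) (Nk_nonneg 0 B))
    have h1 : (Nk 0 (A + B)) ^ 2 = (Nk 0 A) ^ 2 + 2 * Matrix.trace (A * Bᵀ) + (Nk 0 B) ^ 2 := by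
      have e : Matrix.trace (A * Bᵀ) = ∑ i, ∑ j, A i j * B i j := by
        simp only [Matrix.trace, Matrix.diag_apply, Matrix.mul_apply, Matrix.transpose_apply]
      rw [Nk_zero_sq, Nk_zero_sq, Nk_zero_sq, e]
      simp only [Finset.mul_sum, ← Finset.sum_add_distrib, Matrix.add_apply]
      exact Finset.sum_congr rfl fun i _ => Finset.sum_congr rfl fun j _ => by ring
    have h2 := (le_abs_self _).trans (trace_mul_le A Bᵀ)
    rw [Nk_transpose] at h2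
    rw [h1]
    nlinarith [h2]
  | succ k ih =>
    refine le_of_sq_le_sq ?_ (add_nonneg (Nk_nonneg _ A) (Nk_nonneg _ B))
    rw [Nk_succ_sq]
    have e : (A + B)ᵀ * (A + B) = (Aᵀ * A + Aᵀ * B) + (Bᵀ * A + Bᵀ * B) := by
      rw [Matrix.transpose_add, add_mul, mul_add, mul_add]
    rw [e]
    have h1 := ih (Aᵀ * A + Aᵀ * B) (Bᵀ * A + Bᵀ * B)
    have h2 := ih (Aᵀ * A) (Aᵀ * B)
    have h3 := ih (Bᵀ * A) (Bᵀ * B)
    have h4 := Nk_mul_le k Aᵀ B
    have h5 := Nk_mul_le k Bᵀ A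
    rw [Nk_transpose] at h4 h5
    have h6 := Nk_succ_sq k A
    have h7 := Nk_succ_sq k B
    nlinarith

theorem Nk_smul (k : ℕ) (c : ℝ) (A : Matrix ι ι ℝ) : Nk k (c • A) = |c| * Nk k A := by
  refine Nk_unique k _ (mul_nonneg (abs_nonneg c) (Nk_nonneg k A)) ?_
  rw [mul_pow, Nk_pow, Matrix.transpose_smul, Matrix.smul_mul, Matrix.mul_smul, smul_smul,
    smul_pow, Matrix.trace_smul, smul_eq_mul, pow_succ', pow_mul, sq_abs, sq]

theorem Nk_neg (k : ℕ) (A : Matrix ι ι ℝ) : Nk k (-A) = Nk k A := by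
  have := Nk_smul k (-1) A
  simpa using this

theorem Nk_zero (k : ℕ) : Nk k (0 : Matrix ι ι ℝ) = 0 := by
  have := Nk_smul k 0 (0 : Matrix ι ι ℝ)
  simpa using this

theorem Nk_sum_le {τ : Type*} (s : Finset τ) (k : ℕ) (A : τ → Matrix ι ι ℝ) :
    Nk k (∑ t ∈ s, A t) ≤ ∑ t ∈ s, Nk k (A t) := by
  classical
  induction s using Finset.induction_on with
  | empty => simp [Nk_zero]
  | insert a s ha ih =>
    rw [Finset.sum_insert ha, Finset.sum_insert ha]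
    exact (Nk_add_le k _ _).trans (by linarith)

end Vale.Agent.P075
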