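import Vale.Agent.P075.Defs

namespace Vale.Agent.P075

open MeasureTheory Finset

/-- The step function on `[0, 2 ^ M) ^ 2` which is constant on the dyadic squares of side
`2 ^ (-K)`, with value `f a b` on the square `(a, b)`, and zero elsewhere. -/
noncomputable def stepF (M K : ℕ) (f : ℕ → ℕ → ℝ) (p : ℝ × ℝ) : ℝ :=
  (Set.Ico (0 : ℝ) (2 ^ M) ×ˢ Set.Ico (0 : ℝ) (2 ^ M)).indicator
    (fun q => f ⌊q.1 * 2 ^ K⌋₊ ⌊q.2 * 2 ^ K⌋₊) p

end Vale.Agent.P075
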