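import Vale.Agent.P075.StepDefs
import Vale.Agent.P075.Levels

namespace Vale.Agent.P075

open MeasureTheory Finset

/-! ### finitely atomic measures -/

structure Atomic {α : Type*} [MeasurableSpace α] (ν : Measure α) (s : Finset α) (c : ℝ) : Prop where
  ae : ∀ᵐ a ∂ν, a ∈ s
  real : ∀ a ∈ s, ν.real {a} = c

theorem Atomic.integral {α : Type*} [MeasurableSpace α] [MeasurableSingletonClass α]
    {ν : Measure α} [IsFiniteMeasure ν] {s : Finset α} {c : ℝ} (h : Atomic ν s c) (f : α → ℝ) :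
    ∫ a, f a ∂ν = c * ∑ a ∈ s, f a := by
  have h1 : ν.restrict (s : Set α) = ν := Measure.restrict_eq_self_of_ae_mem h.ae
  have h2 : ∫ a, f a ∂ν = ∫ a in (s : Set α), f a ∂ν := by rw [h1]
  rw [h2, setIntegral_finset s IntegrableOn.finset, Finset.mul_sum]
  exact Finset.sum_congr rfl fun a ha => by rw [h.real a ha, smul_eq_mul]

theorem Atomic.prod {α β : Type*} [MeasurableSpace α] [MeasurableSpace β]
    {ν : Measure α} {ν' : Measure β} [IsFiniteMeasure ν] [IsFiniteMeasure ν'] {s : Finset α}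
    {s' : Finset β} {c c' : ℝ} (h : Atomic ν s c) (h' : Atomic ν' s' c') :
    Atomic (ν.prod ν') (s ×ˢ s') (c * c') := by
  refine ⟨?_, ?_⟩
  · have e1 := (Measure.quasiMeasurePreserving_fst (μ := ν) (ν := ν')).ae h.ae
    have e2 := (Measure.quasiMeasurePreserving_snd (μ := ν) (ν := ν')).ae h'.ae
    filter_upwards [e1, e2] with p hp1 hp2
    exact Finset.mem_product.2 ⟨hp1, hp2⟩
  · rintro ⟨a, b⟩ hab
    obtain ⟨ha, hb⟩ := Finset.mem_product.1 hab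
    rw [← Set.singleton_prod_singleton, measureReal_prod_prod, h.real a ha, h'.real b hb]

/-! ### the grid -/

noncomputable def gq (K : ℕ) (x : ℝ) : ℕ := ⌊x * 2 ^ K⌋₊

theorem measurable_gq (K : ℕ) : Measurable (gq K) :=
  Nat.measurable_floor.comp (by fun_prop)

noncomputable def boxm (M : ℕ) : Measure ℝ := volume.restrict (Set.Ico (0 : ℝ) (2 ^ M))

instance (M : ℕ) : IsFiniteMeasure (boxm M) := by
  unfold boxm
  infer_instance

theorem gq_lt {M K : ℕ} {x : ℝ} (hx : x ∈ Set.Ico (0 : ℝ) (2 ^ M)) : gq K x < 2 ^ (M + K) := by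
  have h0 : 0 ≤ x * 2 ^ K := mul_nonneg hx.1 (by positivity)
  rw [gq, Nat.floor_lt h0]
  push_cast
  rw [pow_add]
  exact mul_lt_mul_of_pos_right hx.2 (by positivity)

theorem atomic_map (M K : ℕ) :
    Atomic ((boxm M).map (gq K)) (Finset.range (2 ^ (M + K))) ((2 : ℝ) ^ K)⁻¹ := by
  refine ⟨?_, ?_⟩
  · rw [ae_map_iff (p := fun a => a ∈ Finset.range (2 ^ (M + K))) (measurable_gq K).aemeasurable
      (Finset.measurableSet (Finset.range (2 ^ (M + K))))]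
    refine (ae_restrict_iff' measurableSet_Ico).2 (Filter.Eventually.of_forall fun x hx => ?_)
    exact Finset.mem_range.2 (gq_lt hx)
  · intro a ha
    have ha' : a < 2 ^ (M + K) := Finset.mem_range.1 ha
    have h2K : (0 : ℝ) < 2 ^ K := by positivity
    rw [map_measureReal_apply (measurable_gq K) (measurableSet_singleton a), boxm,
      measureReal_restrict_apply ((measurable_gq K) (measurableSet_singleton a))]
    have e : gq K ⁻¹' {a} ∩ Set.Ico (0 : ℝ) (2 ^ M) =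
        Set.Ico ((a : ℝ) * (2 ^ K)⁻¹) (((a : ℝ) + 1) * (2 ^ K)⁻¹) := by
      ext x
      simp only [Set.mem_inter_iff, Set.mem_preimage, Set.mem_singleton_iff, Set.mem_Ico]
      rw [← div_eq_mul_inv, ← div_eq_mul_inv, div_le_iff₀ h2K, lt_div_iff₀ h2K]
      constructor
      · rintro ⟨h1, h2, h3⟩
        rw [gq, Nat.floor_eq_iff (mul_nonneg h2 h2K.le)] at h1
        exact h1
      · rintro ⟨h1, h2⟩
        have h0 : 0 ≤ x * 2 ^ K := (Nat.cast_nonneg a).trans h1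
        have hx0 : 0 ≤ x := nonneg_of_mul_nonneg_left h0 h2K
        refine ⟨?_, hx0, ?_⟩
        · rw [gq, Nat.floor_eq_iff h0]
          exact ⟨h1, h2⟩
        · have h3 : x * 2 ^ K < 2 ^ M * 2 ^ K := by
            refine h2.trans_le ?_
            rw [← pow_add]
            exact_mod_cast ha'
          exact lt_of_mul_lt_mul_right h3 h2K.le
    rw [e, Real.volume_real_Ico_of_le (by gcongr; linarith)]
    ring

theorem grid2 (M K : ℕ) (g : ℕ → ℕ → ℝ) :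
    ∫ p : ℝ × ℝ in Set.Ico (0 : ℝ) (2 ^ M) ×ˢ Set.Ico (0 : ℝ) (2 ^ M), g (gq K p.1) (gq K p.2) =
      (((2 : ℝ) ^ K)⁻¹ * ((2 : ℝ) ^ K)⁻¹) *
        ∑ r ∈ Finset.range (2 ^ (M + K)) ×ˢ Finset.range (2 ^ (M + K)), g r.1 r.2 := by
  have h1 : (volume : Measure (ℝ × ℝ)).restrict (Set.Ico (0 : ℝ) (2 ^ M) ×ˢ Set.Ico (0 : ℝ) (2 ^ M))
      = (boxm M).prod (boxm M) := by
    rw [boxm, Measure.prod_restrict, Measure.volume_eq_prod]
  rw [h1]
  have h2 := ((atomic_map M K).prod (atomic_map M K)).integral (fun r => g r.1 r.2)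
  rw [Measure.map_prod_map _ _ (measurable_gq K) (measurable_gq K),
    integral_map ((measurable_gq K).prodMap (measurable_gq K)).aemeasurable
      (measurable_of_countable _).aestronglyMeasurable] at h2
  exact h2

theorem grid3 (M K : ℕ) (g : ℕ → ℕ → ℕ → ℝ) :
    ∫ p : ℝ × ℝ × ℝ in Set.Ico (0 : ℝ) (2 ^ M) ×ˢ Set.Ico (0 : ℝ) (2 ^ M) ×ˢ
        Set.Ico (0 : ℝ) (2 ^ M), g (gq K p.1) (gq K p.2.1) (gq K p.2.2) =
      (((2 : ℝ) ^ K)⁻¹ * (((2 : ℝ) ^ K)⁻¹ * ((2 : ℝ) ^ K)⁻¹)) *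
        ∑ r ∈ Finset.range (2 ^ (M + K)) ×ˢ (Finset.range (2 ^ (M + K)) ×ˢ
          Finset.range (2 ^ (M + K))), g r.1 r.2.1 r.2.2 := by
  have h1 : (volume : Measure (ℝ × ℝ × ℝ)).restrict (Set.Ico (0 : ℝ) (2 ^ M) ×ˢ
      Set.Ico (0 : ℝ) (2 ^ M) ×ˢ Set.Ico (0 : ℝ) (2 ^ M))
      = (boxm M).prod ((boxm M).prod (boxm M)) := by
    rw [boxm, Measure.prod_restrict, Measure.prod_restrict, Measure.volume_eq_prod,
      Measure.volume_eq_prod]
  rw [h1]
  have h2 := ((atomic_map M K).prod ((atomic_map M K).prod (atomic_map M K))).integral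
    (fun r => g r.1 r.2.1 r.2.2)
  rw [Measure.map_prod_map _ _ (measurable_gq K) (measurable_gq K),
    Measure.map_prod_map _ _ (measurable_gq K) ((measurable_gq K).prodMap (measurable_gq K)),
    integral_map ((measurable_gq K).prodMap
      ((measurable_gq K).prodMap (measurable_gq K))).aemeasurable
      (measurable_of_countable _).aestronglyMeasurable] at h2
  exact h2

/-! ### Haar functions on the grid -/

def sgb (L a : ℕ) : ℝ := if (a / 2 ^ (L - 1)) % 2 = 0 then 1 else -1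

def csg (L n a : ℕ) : ℝ := if a / 2 ^ L = n then sgb L a else 0

theorem mem_Ico_grid {k : ℤ} {K L : ℕ} (hk : k + K = L) {x : ℝ} (hx : 0 ≤ x) {α β : ℝ}
    {u v : ℕ} (hu : α * 2 ^ L = u) (hv : β * 2 ^ L = v) :
    x ∈ Set.Ico (α * (2 : ℝ) ^ k) (β * 2 ^ k) ↔ u ≤ gq K x ∧ gq K x < v := by
  have h2K : (0 : ℝ) < 2 ^ K := by positivity
  have hkk : (2 : ℝ) ^ k * 2 ^ K = 2 ^ L := by
    rw [← zpow_natCast (2 : ℝ) K, ← zpow_natCast (2 : ℝ) L, ← zpow_add₀ (by norm_num), hk]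
  have h0 : 0 ≤ x * 2 ^ K := mul_nonneg hx h2K.le
  rw [gq, Nat.le_floor_iff h0, Nat.floor_lt h0, Set.mem_Ico, ← hu, ← hv, ← hkk, ← mul_assoc,
    ← mul_assoc, mul_le_mul_iff_left₀ h2K, mul_lt_mul_iff_left₀ h2K]

theorem haarI_grid {k : ℤ} {K L : ℕ} (hL : 1 ≤ L) (hk : k + K = L) {x : ℝ} (hx : 0 ≤ x) (n : ℕ) :
    haarI k n x = csg L n (gq K x) := by
  obtain ⟨b, hb⟩ : ∃ b, b = 2 ^ (L - 1) := ⟨_, rfl⟩
  have hb0 : 0 < b := by rw [hb]; positivity
  have h2L : 2 ^ L = 2 * b := by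
    rw [hb, ← pow_succ']
    congr 1
    omega
  have h2Lr : (2 : ℝ) ^ L = 2 * b := by exact_mod_cast h2L
  have e1 := mem_Ico_grid (x := x) hk hx (α := (n : ℝ)) (β := (n : ℝ) + 1 / 2)
    (u := n * (2 * b)) (v := n * (2 * b) + b) (by rw [h2Lr]; push_cast; ring)
    (by rw [h2Lr]; push_cast; ring)
  have e2 := mem_Ico_grid (x := x) hk hx (α := (n : ℝ) + 1 / 2) (β := (n : ℝ) + 1)
    (u := n * (2 * b) + b) (v := n * (2 * b) + 2 * b) (by rw [h2Lr]; push_cast; ring)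
    (by rw [h2Lr]; push_cast; ring)
  obtain ⟨a, ha⟩ : ∃ a, a = gq K x := ⟨_, rfl⟩
  rw [← ha] at e1 e2 ⊢
  have d1 : (n * (2 * b) ≤ a ∧ a < n * (2 * b) + b) ↔ a / b = 2 * n := by
    rw [Nat.div_eq_iff hb0]
    constructor
    · rintro ⟨h1, h2⟩
      constructor
      · nlinarith
      · have : a < n * (2 * b) + b := h2
        have h3 : 2 * n * b = n * (2 * b) := by ring
        omega
    · rintro ⟨h1, h2⟩
      have h3 : 2 * n * b = n * (2 * b) := by ring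
      omega
  have d2 : (n * (2 * b) + b ≤ a ∧ a < n * (2 * b) + 2 * b) ↔ a / b = 2 * n + 1 := by
    rw [Nat.div_eq_iff hb0]
    have h3 : (2 * n + 1) * b = n * (2 * b) + b := by ring
    constructor
    · rintro ⟨h1, h2⟩
      omega
    · rintro ⟨h1, h2⟩
      omega
  have hdd : a / 2 ^ L = a / b / 2 := by
    rw [h2L, mul_comm, Nat.div_div_eq_div_mul]
  unfold haarI csg sgb
  rw [hdd, ← hb]
  rw [d1] at e1
  rw [d2] at e2
  simp only [Set.indicator, Pi.one_apply, e1, e2]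
  by_cases c1 : a / b = 2 * n
  · have c2 : ¬ a / b = 2 * n + 1 := by omega
    have c3 : a / b / 2 = n := by omega
    have c4 : a / b % 2 = 0 := by omega
    simp [c1]
  · by_cases c2 : a / b = 2 * n + 1
    · have c3 : a / b / 2 = n := by omega
      have c4 : ¬ a / b % 2 = 0 := by omega
      rw [if_neg c1, if_pos c2, if_pos c3, if_neg c4]
      norm_num
    · have c3 : ¬ a / b / 2 = n := by omega
      simp [c1, c2, c3]

theorem haarI_eq_zero {k : ℤ} {n : ℕ} {x : ℝ} (hx : x ∉ dyI k n) : haarI k n x = 0 := by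
  have h2 : (0 : ℝ) < 2 ^ k := by positivity
  unfold haarI
  rw [Set.indicator_of_notMem, Set.indicator_of_notMem, sub_zero]
  · intro h
    refine hx ⟨?_, h.2⟩
    exact le_trans (by nlinarith) h.1
  · intro h
    refine hx ⟨h.1, ?_⟩
    exact lt_of_lt_of_le h.2 (by nlinarith)

theorem stepF_of_mem {M K : ℕ} {f : ℕ → ℕ → ℝ} {x y : ℝ} (hx : x ∈ Set.Ico (0 : ℝ) (2 ^ M))
    (hy : y ∈ Set.Ico (0 : ℝ) (2 ^ M)) : stepF M K f (x, y) = f (gq K x) (gq K y) := by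
  unfold stepF
  rw [Set.indicator_of_mem (Set.mk_mem_prod hx hy)]
  rfl

theorem stepF_of_notMem_left {M K : ℕ} {f : ℕ → ℕ → ℝ} {x y : ℝ}
    (hx : x ∉ Set.Ico (0 : ℝ) (2 ^ M)) : stepF M K f (x, y) = 0 := by
  unfold stepF
  exact Set.indicator_of_notMem (fun h => hx h.1) _

theorem stepF_of_notMem_right {M K : ℕ} {f : ℕ → ℕ → ℝ} {x y : ℝ}
    (hy : y ∉ Set.Ico (0 : ℝ) (2 ^ M)) : stepF M K f (x, y) = 0 := by
  unfold stepF
  exact Set.indicator_of_notMem (fun h => hy h.2) _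

theorem LI_step {M K L : ℕ} {k : ℤ} (hL : 1 ≤ L) (hk : k + K = L) (n₁ n₂ n₃ : ℕ)
    (f₀ f₁ f₂ : ℕ → ℕ → ℝ) :
    LI k n₁ n₂ n₃ (stepF M K f₀) (stepF M K f₁) (stepF M K f₂) =
      2 ^ (-k) * ((((2 : ℝ) ^ K)⁻¹ * (((2 : ℝ) ^ K)⁻¹ * ((2 : ℝ) ^ K)⁻¹)) *
        ∑ r ∈ Finset.range (2 ^ (M + K)) ×ˢ (Finset.range (2 ^ (M + K)) ×ˢ
          Finset.range (2 ^ (M + K))), f₀ r.1 r.2.1 * f₁ r.2.1 r.2.2 * f₂ r.2.2 r.1 *
            (csg L n₁ r.1 * csg L n₂ r.2.1 * csg L n₃ r.2.2)) := by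
  unfold LI
  congr 1
  rw [← grid3 M K (fun a b c => f₀ a b * f₁ b c * f₂ c a * (csg L n₁ a * csg L n₂ b * csg L n₃ c))]
  rw [setIntegral_eq_integral_of_forall_compl_eq_zero,
    ← setIntegral_eq_integral_of_forall_compl_eq_zero
      (s := Set.Ico (0 : ℝ) (2 ^ M) ×ˢ Set.Ico (0 : ℝ) (2 ^ M) ×ˢ Set.Ico (0 : ℝ) (2 ^ M))]
  · refine setIntegral_congr_fun (measurableSet_Ico.prod (measurableSet_Ico.prod measurableSet_Ico))
      fun p hp => ?_
    obtain ⟨h1, h2, h3⟩ := hp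
    rw [stepF_of_mem h1 h2, stepF_of_mem h2 h3, stepF_of_mem h3 h1, haarI_grid hL hk h1.1,
      haarI_grid hL hk h2.1, haarI_grid hL hk h3.1]
  · intro p hp
    by_cases h1 : p.1 ∈ Set.Ico (0 : ℝ) (2 ^ M)
    · by_cases h2 : p.2.1 ∈ Set.Ico (0 : ℝ) (2 ^ M)
      · have h3 : p.2.2 ∉ Set.Ico (0 : ℝ) (2 ^ M) := fun h3 => hp ⟨h1, h2, h3⟩
        rw [stepF_of_notMem_right (f := f₁) h3]
        ring
      · rw [stepF_of_notMem_right (f := f₀) h2]
        ring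
    · rw [stepF_of_notMem_left (f := f₀) h1]
      ring
  · intro p hp
    by_cases h1 : p.1 ∈ dyI k n₁
    · by_cases h2 : p.2.1 ∈ dyI k n₂
      · have h3 : p.2.2 ∉ dyI k n₃ := fun h3 => hp ⟨h1, h2, h3⟩
        rw [haarI_eq_zero h3]
        ring
      · rw [haarI_eq_zero h2]
        ring
    · rw [haarI_eq_zero h1]
      ring

/-! ### the group and the naturals -/

def und {N : ℕ} (x : G N) : ℕ := Nat.ofBits (fun i : Fin N => decide (x i.rev = 1))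

theorem und_lt {N : ℕ} (x : G N) : und x < 2 ^ N := Nat.ofBits_lt_two_pow _

theorem testBit_und {N : ℕ} (x : G N) {i : ℕ} (hi : i < N) :
    (und x).testBit i = decide (x ⟨N - 1 - i, by omega⟩ = 1) := by
  unfold und
  rw [Nat.testBit_ofBits_lt _ _ hi]
  congr 2
  exact congrArg x (Fin.ext (by simp [Fin.rev]; omega))

theorem und_injective {N : ℕ} : Function.Injective (und (N := N)) := by
  intro x y h
  funext i
  have hi : N - 1 - (i : ℕ) < N := by have := i.2; omega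
  have h1 := testBit_und x hi
  have h2 := testBit_und y hi
  rw [h, h2] at h1
  have e : (⟨N - 1 - (N - 1 - (i : ℕ)), by omega⟩ : Fin N) = i := Fin.ext (by have := i.2; simp; omega)
  rw [e, decide_eq_decide] at h1
  have key : ∀ a b : ZMod 2, (b = 1 ↔ a = 1) → a = b := by decide
  exact key _ _ h1

theorem sum_und {N : ℕ} (φ : ℕ → ℝ) : ∑ x : G N, φ (und x) = ∑ a ∈ Finset.range (2 ^ N), φ a := by
  have himg : (univ : Finset (G N)).image und = Finset.range (2 ^ N) := by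
    refine Finset.eq_of_subset_of_card_le ?_ ?_
    · intro a ha
      obtain ⟨x, -, rfl⟩ := Finset.mem_image.1 ha
      exact Finset.mem_range.2 (und_lt x)
    · rw [Finset.card_image_of_injective _ und_injective, Finset.card_range, Finset.card_univ]
      simp [G]
  rw [← himg, Finset.sum_image fun a _ b _ h => und_injective h]

theorem xor3_testBit {N : ℕ} (x y z : G N) {i : ℕ} (hi : i < N) :
    (und x ^^^ und y ^^^ und z).testBit i = decide ((x + y + z) ⟨N - 1 - i, by omega⟩ = 1) := by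
  rw [Nat.testBit_xor, Nat.testBit_xor, testBit_und x hi, testBit_und y hi, testBit_und z hi]
  have key : ∀ a b c : ZMod 2, ((decide (a = 1)) ^^ (decide (b = 1)) ^^ (decide (c = 1))) =
      decide (a + b + c = 1) := by decide
  exact key _ _ _

theorem xor3_div {N j L : ℕ} (hL : L = N - j) (x y z : G N) :
    ((und x / 2 ^ L) ^^^ (und y / 2 ^ L)) ^^^ (und z / 2 ^ L) = 0 ↔ Low j (x + y + z) := by
  rw [← Nat.xor_div_two_pow, ← Nat.xor_div_two_pow]
  constructor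
  · intro h i hi
    have hi' : N - 1 - (i : ℕ) < N := by have := i.2; omega
    have h1 := xor3_testBit x y z hi'
    have e : (⟨N - 1 - (N - 1 - (i : ℕ)), by omega⟩ : Fin N) = i :=
      Fin.ext (by have := i.2; simp; omega)
    rw [e] at h1
    have h2 : N - 1 - (i : ℕ) = (N - 1 - (i : ℕ) - L) + L := by have := i.2; omega
    rw [h2, ← Nat.testBit_div_two_pow, h, Nat.zero_testBit] at h1
    have h3 : ¬ (x + y + z) i = 1 := by simpa using h1.symm
    have key : ∀ a : ZMod 2, ¬ a = 1 → a = 0 := by decide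
    exact key _ h3
  · intro h
    refine Nat.eq_of_testBit_eq fun i => ?_
    rw [Nat.zero_testBit, Nat.testBit_div_two_pow]
    by_cases hi : i + L < N
    · rw [xor3_testBit x y z hi, h _ (by simp; omega)]
      decide
    · have hlt : (und x ^^^ und y ^^^ und z) < 2 ^ N :=
        Nat.xor_lt_two_pow (Nat.xor_lt_two_pow (und_lt x) (und_lt y)) (und_lt z)
      exact Nat.testBit_lt_two_pow (hlt.trans_le (Nat.pow_le_pow_right (by norm_num) (by omega)))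

theorem sgb_und {N j L : ℕ} (hj : j < N) (hL : L = N - j) (x : G N) :
    sgb L (und x) = if x ⟨j, hj⟩ = 0 then 1 else -1 := by
  unfold sgb
  have hi : L - 1 < N := by omega
  have h1 := testBit_und x hi
  have e : (⟨N - 1 - (L - 1), by omega⟩ : Fin N) = ⟨j, hj⟩ := Fin.ext (by simp; omega)
  rw [e, Nat.testBit_eq_decide_div_mod_eq, decide_eq_decide] at h1
  have key : ∀ a : ZMod 2, a = 0 ↔ ¬ a = 1 := by decide
  by_cases h : x ⟨j, hj⟩ = 0
  · have : ¬ x ⟨j, hj⟩ = 1 := (key _).1 h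
    rw [if_pos h, if_pos]
    rw [← h1] at this
    omega
  · have h' : x ⟨j, hj⟩ = 1 := by
      by_contra hcon
      exact h ((key _).2 hcon)
    rw [if_neg h, if_neg]
    rw [h1.2 h']
    norm_num

theorem sgb3_und {N j L : ℕ} (hj : j < N) (hL : L = N - j) (x y z : G N) :
    sgb L (und x) * sgb L (und y) * sgb L (und z) = sg j (x + y + z) := by
  rw [sgb_und hj hL, sgb_und hj hL, sgb_und hj hL]
  unfold sg
  rw [dif_pos hj]
  have key : ∀ a b c : ZMod 2, (if a = 0 then (1 : ℤ) else -1) * (if b = 0 then 1 else -1) *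
      (if c = 0 then 1 else -1) = if a + b + c = 0 then 1 else -1 := by decide
  have h := key (x ⟨j, hj⟩) (y ⟨j, hj⟩) (z ⟨j, hj⟩)
  exact_mod_cast congrArg (fun t : ℤ => (t : ℝ)) h

/-! ### the form on step functions -/

theorem csg3_eq (L n₁ n₂ n₃ a b c : ℕ) :
    csg L n₁ a * csg L n₂ b * csg L n₃ c =
      if (n₁, n₂, n₃) = (a / 2 ^ L, b / 2 ^ L, c / 2 ^ L) then sgb L a * sgb L b * sgb L c
      else 0 := by
  unfold csg
  by_cases h1 : a / 2 ^ L = n₁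
  · by_cases h2 : b / 2 ^ L = n₂
    · by_cases h3 : c / 2 ^ L = n₃
      · rw [if_pos h1, if_pos h2, if_pos h3, if_pos (by rw [h1, h2, h3])]
      · rw [if_neg h3, mul_zero, if_neg]
        intro h
        simp only [Prod.mk.injEq] at h
        exact h3 h.2.2.symm
    · rw [if_neg h2, mul_zero, zero_mul, if_neg]
      intro h
      simp only [Prod.mk.injEq] at h
      exact h2 h.2.1.symm
  · rw [if_neg h1, zero_mul, zero_mul, if_neg]
    intro h
    simp only [Prod.mk.injEq] at h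
    exact h1 h.1.symm

abbrev TriS : Type := {n : ℕ × ℕ × ℕ // (n.1 ^^^ n.2.1) ^^^ n.2.2 = 0}

theorem tsum_csg (L a b c : ℕ) (t : ℝ) :
    Summable (fun n : TriS => t * (csg L n.1.1 a * csg L n.1.2.1 b * csg L n.1.2.2 c)) ∧
    ∑' n : TriS, t * (csg L n.1.1 a * csg L n.1.2.1 b * csg L n.1.2.2 c) =
      if (a / 2 ^ L ^^^ b / 2 ^ L) ^^^ c / 2 ^ L = 0 then
        t * (sgb L a * sgb L b * sgb L c) else 0 := by
  classical
  by_cases h : (a / 2 ^ L ^^^ b / 2 ^ L) ^^^ c / 2 ^ L = 0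
  · rw [if_pos h]
    have hz : ∀ n : TriS, n ≠ ⟨(a / 2 ^ L, b / 2 ^ L, c / 2 ^ L), h⟩ →
        t * (csg L n.1.1 a * csg L n.1.2.1 b * csg L n.1.2.2 c) = 0 := by
      intro n hn
      rw [csg3_eq, if_neg, mul_zero]
      intro h2
      exact hn (Subtype.ext h2)
    refine ⟨?_, ?_⟩
    · refine summable_of_ne_finset_zero (s := {(⟨(a / 2 ^ L, b / 2 ^ L, c / 2 ^ L), h⟩ : TriS)}) ?_
      intro n hn
      exact hz n (fun h3 => hn (Finset.mem_singleton.2 h3))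
    · rw [tsum_eq_single (⟨(a / 2 ^ L, b / 2 ^ L, c / 2 ^ L), h⟩ : TriS) hz, csg3_eq, if_pos rfl]
  · rw [if_neg h]
    have hz : ∀ n : TriS, t * (csg L n.1.1 a * csg L n.1.2.1 b * csg L n.1.2.2 c) = 0 := by
      intro n
      rw [csg3_eq, if_neg, mul_zero]
      intro h2
      simp only [Prod.mk.injEq] at h2
      have h3 := n.2
      rw [h2.1, h2.2.1, h2.2.2] at h3
      exact h h3
    simp only [hz]
    exact ⟨summable_zero, tsum_zero⟩

theorem sum_und3 {N : ℕ} (φ : ℕ → ℕ → ℕ → ℝ) :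
    ∑ r ∈ Finset.range (2 ^ N) ×ˢ (Finset.range (2 ^ N) ×ˢ Finset.range (2 ^ N)),
      φ r.1 r.2.1 r.2.2 = ∑ x : G N, ∑ y : G N, ∑ z : G N, φ (und x) (und y) (und z) := by
  rw [Finset.sum_product, ← sum_und (fun a => ∑ q ∈ Finset.range (2 ^ N) ×ˢ Finset.range (2 ^ N),
    φ a q.1 q.2)]
  refine Finset.sum_congr rfl fun x _ => ?_
  rw [Finset.sum_product, ← sum_und (fun b => ∑ c ∈ Finset.range (2 ^ N), φ (und x) b c)]
  refine Finset.sum_congr rfl fun y _ => ?_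
  rw [← sum_und (fun c => φ (und x) (und y) c)]

noncomputable def phiT (L : ℕ) (f₀ f₁ f₂ : ℕ → ℕ → ℝ) (a b c : ℕ) : ℝ :=
  if (a / 2 ^ L ^^^ b / 2 ^ L) ^^^ c / 2 ^ L = 0 then
    (f₀ a b * f₁ b c * f₂ c a) * (sgb L a * sgb L b * sgb L c) else 0

theorem kj_und {M K L j : ℕ} {k : ℤ} (hj : j < M + K) (hL : L = M + K - j)
    (hk : k + K = L) (x y z : G (M + K)) (f₀ f₁ f₂ : ℕ → ℕ → ℝ) :
    (2 : ℝ) ^ (-k) * (((2 : ℝ) ^ K)⁻¹ * (((2 : ℝ) ^ K)⁻¹ * ((2 : ℝ) ^ K)⁻¹)) *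
      phiT L f₀ f₁ f₂ (und x) (und y) (und z) =
      (((2 : ℝ) ^ K)⁻¹ * ((2 : ℝ) ^ K)⁻¹) *
        (kj j (x + y + z) * f₀ (und x) (und y) * f₁ (und y) (und z) * f₂ (und z) (und x)) := by
  unfold kj phiT
  have h2K : (2 : ℝ) ^ K ≠ 0 := by positivity
  have hkk : (2 : ℝ) ^ (-k) * ((2 : ℝ) ^ K)⁻¹ = ((2 : ℝ) ^ L)⁻¹ := by
    rw [zpow_neg, ← mul_inv, ← zpow_natCast (2 : ℝ) K, ← zpow_natCast (2 : ℝ) L,
      ← zpow_add₀ (by norm_num), hk]
  by_cases hlow : Low j (x + y + z)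
  · rw [if_pos hlow, if_pos ((xor3_div hL x y z).2 hlow), sgb3_und hj hL, ← hL, div_eq_mul_inv,
      ← hkk]
    ring
  · rw [if_neg hlow, if_neg (fun h => hlow ((xor3_div hL x y z).1 h))]
    ring

theorem tsum_LI_aux {M K L : ℕ} {k : ℤ} (hL1 : 1 ≤ L) (hk : k + K = L)
    (f₀ f₁ f₂ : ℕ → ℕ → ℝ) :
    ∑' n : TriS, LI k n.1.1 n.1.2.1 n.1.2.2 (stepF M K f₀) (stepF M K f₁) (stepF M K f₂) =
      (2 ^ (-k) * (((2 : ℝ) ^ K)⁻¹ * (((2 : ℝ) ^ K)⁻¹ * ((2 : ℝ) ^ K)⁻¹))) *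
        ∑ r ∈ Finset.range (2 ^ (M + K)) ×ˢ (Finset.range (2 ^ (M + K)) ×ˢ
          Finset.range (2 ^ (M + K))), phiT L f₀ f₁ f₂ r.1 r.2.1 r.2.2 := by
  have h1 : ∀ n : TriS, LI k n.1.1 n.1.2.1 n.1.2.2 (stepF M K f₀) (stepF M K f₁) (stepF M K f₂) =
      (2 ^ (-k) * (((2 : ℝ) ^ K)⁻¹ * (((2 : ℝ) ^ K)⁻¹ * ((2 : ℝ) ^ K)⁻¹))) *
        ∑ r ∈ Finset.range (2 ^ (M + K)) ×ˢ (Finset.range (2 ^ (M + K)) ×ˢ
          Finset.range (2 ^ (M + K))), (f₀ r.1 r.2.1 * f₁ r.2.1 r.2.2 * f₂ r.2.2 r.1) *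
            (csg L n.1.1 r.1 * csg L n.1.2.1 r.2.1 * csg L n.1.2.2 r.2.2) := by
    intro n
    rw [LI_step hL1 hk, ← mul_assoc]
  rw [tsum_congr h1, tsum_mul_left]
  have h2 := Summable.tsum_finsetSum (s := Finset.range (2 ^ (M + K)) ×ˢ
    (Finset.range (2 ^ (M + K)) ×ˢ Finset.range (2 ^ (M + K))))
    (f := fun (r : ℕ × ℕ × ℕ) (n : TriS) => (f₀ r.1 r.2.1 * f₁ r.2.1 r.2.2 * f₂ r.2.2 r.1) *
            (csg L n.1.1 r.1 * csg L n.1.2.1 r.2.1 * csg L n.1.2.2 r.2.2))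
    (fun r _ => (tsum_csg L r.1 r.2.1 r.2.2 _).1)
  rw [h2]
  refine congrArg (fun t => (2 ^ (-k) * (((2 : ℝ) ^ K)⁻¹ * (((2 : ℝ) ^ K)⁻¹ *
    ((2 : ℝ) ^ K)⁻¹))) * t) ?_
  refine Finset.sum_congr rfl fun r _ => ?_
  rw [(tsum_csg L r.1 r.2.1 r.2.2 (f₀ r.1 r.2.1 * f₁ r.2.1 r.2.2 * f₂ r.2.2 r.1)).2]
  rfl

theorem tsum_LI_step {M K L j : ℕ} {k : ℤ} (hj : j < M + K) (hL : L = M + K - j)
    (hk : k + K = L) (f₀ f₁ f₂ : ℕ → ℕ → ℝ) :
    ∑' n : TriS, LI k n.1.1 n.1.2.1 n.1.2.2 (stepF M K f₀) (stepF M K f₁) (stepF M K f₂) =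
      (((2 : ℝ) ^ K)⁻¹ * ((2 : ℝ) ^ K)⁻¹) *
        Lam j (fun x y : G (M + K) => f₀ (und x) (und y)) (fun x y => f₁ (und x) (und y))
          (fun x y => f₂ (und x) (und y)) := by
  rw [tsum_LI_aux (by omega) hk, sum_und3 (phiT L f₀ f₁ f₂)]
  unfold Lam
  simp only [Finset.mul_sum]
  exact Finset.sum_congr rfl fun x _ => Finset.sum_congr rfl fun y _ =>
    Finset.sum_congr rfl fun z _ => kj_und hj hL hk x y z f₀ f₁ f₂

theorem L3q_step {M K N : ℕ} (hN : N = M + K) (f : ℕ → ℕ → ℝ) :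
    L3q (stepF M K f) = ((((2 : ℝ) ^ K)⁻¹ * ((2 : ℝ) ^ K)⁻¹)) ^ ((1 : ℝ) / 3) *
      l3 (fun x y : G N => f (und x) (und y)) := by
  subst hN
  unfold L3q l3
  rw [← Real.mul_rpow (by positivity) (by positivity)]
  congr 1
  have h1 : ∑ x : G (M + K), ∑ y : G (M + K), |f (und x) (und y)| ^ 3 =
      ∑ r ∈ Finset.range (2 ^ (M + K)) ×ˢ Finset.range (2 ^ (M + K)), |f r.1 r.2| ^ 3 := by
    rw [Finset.sum_product, ← sum_und (N := M + K) (fun a => ∑ b ∈ Finset.range (2 ^ (M + K)),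
      |f a b| ^ 3)]
    refine Finset.sum_congr rfl fun x _ => ?_
    rw [← sum_und (N := M + K) (fun b => |f (und x) b| ^ 3)]
  rw [h1, ← grid2 M K (fun a b => |f a b| ^ 3), setIntegral_eq_integral_of_forall_compl_eq_zero,
    ← setIntegral_eq_integral_of_forall_compl_eq_zero
      (s := Set.Ico (0 : ℝ) (2 ^ M) ×ˢ Set.Ico (0 : ℝ) (2 ^ M))]
  · refine setIntegral_congr_fun (measurableSet_Ico.prod measurableSet_Ico) fun p hp => ?_
    have := stepF_of_mem (K := K) (f := f) hp.1 hp.2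
    simp only [Prod.mk.eta] at this
    simp only [this]
  · intro p hp
    unfold stepF
    rw [Set.indicator_of_notMem hp]
    simp
  · intro p hp
    unfold stepF
    rw [Set.indicator_of_notMem (fun h => hp ⟨h.1.1, h.2.1⟩)]
    simp

theorem transfer_step : ∃ C : ℝ, 0 < C ∧ ∀ (S : Finset ℤ) (ε : ℤ → ℝ), (∀ k, |ε k| ≤ 1) →
    ∀ M K : ℕ, (∀ k ∈ S, -(K : ℤ) < k ∧ k ≤ M) → ∀ f₀ f₁ f₂ : ℕ → ℕ → ℝ,
      |LamD S ε (stepF M K f₀) (stepF M K f₁) (stepF M K f₂)| ≤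
        C * (1 + Real.log S.card) ^ 3 *
          (L3q (stepF M K f₀) * L3q (stepF M K f₁) * L3q (stepF M K f₂)) := by
  obtain ⟨C, hC, hfin⟩ := finiteThm
  refine ⟨8 * C, by positivity, ?_⟩
  intro S ε hε M K hS f₀ f₁ f₂
  set N := M + K with hN
  set F₀ : G N → G N → ℝ := fun x y => f₀ (und x) (und y) with hF0
  set F₁ : G N → G N → ℝ := fun x y => f₁ (und x) (und y) with hF1
  set F₂ : G N → G N → ℝ := fun x y => f₂ (und x) (und y) with hF2
  set s : ℝ := ((2 : ℝ) ^ K)⁻¹ * ((2 : ℝ) ^ K)⁻¹ with hs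
  have hs0 : 0 ≤ s := by positivity
  have hl0 : ∀ F : G N → G N → ℝ, 0 ≤ l3 F := fun F => Real.rpow_nonneg (by positivity) _
  have hL : L3q (stepF M K f₀) * L3q (stepF M K f₁) * L3q (stepF M K f₂) =
      s * (l3 F₀ * l3 F₁ * l3 F₂) := by
    rw [L3q_step hN f₀, L3q_step hN f₁, L3q_step hN f₂, ← hs]
    have : (s ^ ((1 : ℝ) / 3)) * (s ^ ((1 : ℝ) / 3)) * (s ^ ((1 : ℝ) / 3)) = s := by
      rw [← Real.rpow_add_of_nonneg hs0 (by norm_num) (by norm_num),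
        ← Real.rpow_add_of_nonneg hs0 (by norm_num) (by norm_num)]
      norm_num
    calc _ = ((s ^ ((1 : ℝ) / 3)) * (s ^ ((1 : ℝ) / 3)) * (s ^ ((1 : ℝ) / 3))) *
        (l3 F₀ * l3 F₁ * l3 F₂) := by ring
      _ = _ := by rw [this]
  have hterm : ∀ k ∈ S, ∑' n : Tri, LI k n.1.1 n.1.2.1 n.1.2.2 (stepF M K f₀) (stepF M K f₁)
      (stepF M K f₂) = s * Lam ((M - k).toNat) F₀ F₁ F₂ := by
    intro k hk
    obtain ⟨h1, h2⟩ := hS k hk
    exact tsum_LI_step (L := (k + K).toNat) (by omega) (by omega) (by omega) f₀ f₁ f₂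
  have hinj : Set.InjOn (fun k : ℤ => ((M : ℤ) - k).toNat) S := by
    intro k hk l hl h
    have h1 := (hS k hk).2
    have h2 := (hS l hl).2
    simp only at h
    omega
  have hsum : |LamD S ε (stepF M K f₀) (stepF M K f₁) (stepF M K f₂)| ≤
      s * ∑ j ∈ S.image (fun k : ℤ => ((M : ℤ) - k).toNat), |Lam j F₀ F₁ F₂| := by
    unfold LamD
    rw [Finset.sum_image hinj, Finset.mul_sum]
    refine (Finset.abs_sum_le_sum_abs _ _).trans (Finset.sum_le_sum fun k hk => ?_)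
    rw [hterm k hk, abs_mul, abs_mul, abs_of_nonneg hs0]
    have := hε k
    have h3 : 0 ≤ s * |Lam ((M - k).toNat) F₀ F₁ F₂| := by positivity
    nlinarith
  have hm := hfin N (max 2 S.card) (S.image (fun k : ℤ => ((M : ℤ) - k).toNat)) (le_max_left _ _)
    (Finset.card_image_le.trans (le_max_right _ _)) (by
      intro i hi
      obtain ⟨k, hk, rfl⟩ := Finset.mem_image.1 hi
      have h1 := (hS k hk).1
      have h2 := (hS k hk).2
      omega) F₀ F₁ F₂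
  have hprod : 0 ≤ l3 F₀ * l3 F₁ * l3 F₂ :=
    mul_nonneg (mul_nonneg (hl0 _) (hl0 _)) (hl0 _)
  rw [hL]
  have hlog0 : 0 ≤ Real.log (S.card : ℝ) := Real.log_natCast_nonneg _
  have hlog : 1 + Real.log ((max 2 S.card : ℕ) : ℝ) ≤ 2 * (1 + Real.log (S.card : ℝ)) := by
    have hl2 : Real.log 2 ≤ 1 := by
      have := Real.log_two_lt_d9
      linarith
    rcases le_total S.card 2 with h | h
    · rw [max_eq_left h]
      push_cast
      linarith
    · rw [max_eq_right h]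
      linarith
  have hlogm : 0 ≤ 1 + Real.log ((max 2 S.card : ℕ) : ℝ) := by
    have := Real.log_natCast_nonneg (max 2 S.card)
    linarith
  have hpow : (1 + Real.log ((max 2 S.card : ℕ) : ℝ)) ^ 3 ≤ 8 * (1 + Real.log (S.card : ℝ)) ^ 3 := by
    calc _ ≤ (2 * (1 + Real.log (S.card : ℝ))) ^ 3 := pow_le_pow_left₀ hlogm hlog 3
      _ = _ := by ring
  calc |LamD S ε (stepF M K f₀) (stepF M K f₁) (stepF M K f₂)|
      ≤ s * ∑ j ∈ S.image (fun k : ℤ => ((M : ℤ) - k).toNat), |Lam j F₀ F₁ F₂| := hsum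
    _ ≤ s * (C * (1 + Real.log ((max 2 S.card : ℕ) : ℝ)) ^ 3 * (l3 F₀ * l3 F₁ * l3 F₂)) :=
        mul_le_mul_of_nonneg_left hm hs0
    _ ≤ s * (C * (8 * (1 + Real.log (S.card : ℝ)) ^ 3) * (l3 F₀ * l3 F₁ * l3 F₂)) := by
        gcongr
    _ = _ := by ring

end Vale.Agent.P075
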