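import Vale.Agent.P075.StepDefs

/-!
# Approximation by dyadic step functions
-/

namespace Vale.Agent.P075

open MeasureTheory Finset Filter Topology

/-- The side of the big square. -/
def bigI (M : ℕ) : Set ℝ := Set.Ico (0 : ℝ) (2 ^ M)

theorem measurableSet_bigI (M : ℕ) : MeasurableSet (bigI M) := measurableSet_Ico

/-- Lebesgue measure on the side of the big square. -/
noncomputable def lamI (M : ℕ) : Measure ℝ := volume.restrict (bigI M)

theorem lamI_univ (M : ℕ) : lamI M Set.univ = ENNReal.ofReal (2 ^ M) := by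
  simp [lamI, bigI]

instance instFiniteLamI (M : ℕ) : IsFiniteMeasure (lamI M) := by
  constructor
  rw [lamI_univ]
  exact ENNReal.ofReal_lt_top

theorem restrict_sq (M : ℕ) :
    (volume : Measure (ℝ × ℝ)).restrict (bigI M ×ˢ bigI M) = (lamI M).prod (lamI M) := by
  rw [lamI, Measure.prod_restrict, Measure.volume_eq_prod]

theorem restrict_cube (M : ℕ) :
    (volume : Measure (ℝ × ℝ × ℝ)).restrict (bigI M ×ˢ bigI M ×ˢ bigI M) =
      (lamI M).prod ((lamI M).prod (lamI M)) := by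
  rw [Measure.volume_eq_prod, Measure.volume_eq_prod, ← Measure.prod_restrict,
    ← Measure.prod_restrict]
  rfl

theorem map_xy (M : ℕ) :
    ((lamI M).prod ((lamI M).prod (lamI M))).map (fun p => (p.1, p.2.1)) =
      ENNReal.ofReal (2 ^ M) • (lamI M).prod (lamI M) := by
  have h : (fun p : ℝ × ℝ × ℝ => (p.1, p.2.1)) = Prod.map id Prod.fst := rfl
  rw [h, ← Measure.map_prod_map _ _ measurable_id measurable_fst, Measure.map_id,
    Measure.map_fst_prod, lamI_univ, Measure.prod_smul_right]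

theorem map_yz (M : ℕ) :
    ((lamI M).prod ((lamI M).prod (lamI M))).map (fun p => (p.2.1, p.2.2)) =
      ENNReal.ofReal (2 ^ M) • (lamI M).prod (lamI M) := by
  have h : (fun p : ℝ × ℝ × ℝ => (p.2.1, p.2.2)) = Prod.snd := rfl
  rw [h, Measure.map_snd_prod, lamI_univ]

theorem map_zx (M : ℕ) :
    ((lamI M).prod ((lamI M).prod (lamI M))).map (fun p => (p.2.2, p.1)) =
      ENNReal.ofReal (2 ^ M) • (lamI M).prod (lamI M) := by
  have h : (fun p : ℝ × ℝ × ℝ => (p.2.2, p.1)) = Prod.swap ∘ Prod.map id Prod.snd := rfl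
  rw [h, ← Measure.map_map measurable_swap (measurable_id.prodMap measurable_snd),
    ← Measure.map_prod_map _ _ measurable_id measurable_snd, Measure.map_id,
    Measure.map_snd_prod, lamI_univ, Measure.prod_smul_right, Measure.map_smul,
    Measure.prod_swap]

/-- The `L1` distance on the big square. -/
noncomputable def dist1 (M : ℕ) (F F' : ℝ × ℝ → ℝ) : ℝ :=
  ∫ p, |F p - F' p| ∂((lamI M).prod (lamI M))

theorem integral_cube_xy (M : ℕ) {h : ℝ × ℝ → ℝ} (hm : Measurable h) :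
    ∫ p : ℝ × ℝ × ℝ, h (p.1, p.2.1) ∂((lamI M).prod ((lamI M).prod (lamI M))) =
      2 ^ M * ∫ p, h p ∂((lamI M).prod (lamI M)) := by
  have h1 := integral_map (μ := (lamI M).prod ((lamI M).prod (lamI M)))
    (φ := fun p : ℝ × ℝ × ℝ => (p.1, p.2.1)) (f := h) (by fun_prop) hm.aestronglyMeasurable
  rw [map_xy, integral_smul_measure] at h1
  rw [← h1, ENNReal.toReal_ofReal (by positivity), smul_eq_mul]

theorem integral_cube_yz (M : ℕ) {h : ℝ × ℝ → ℝ} (hm : Measurable h) :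
    ∫ p : ℝ × ℝ × ℝ, h (p.2.1, p.2.2) ∂((lamI M).prod ((lamI M).prod (lamI M))) =
      2 ^ M * ∫ p, h p ∂((lamI M).prod (lamI M)) := by
  have h1 := integral_map (μ := (lamI M).prod ((lamI M).prod (lamI M)))
    (φ := fun p : ℝ × ℝ × ℝ => (p.2.1, p.2.2)) (f := h) (by fun_prop) hm.aestronglyMeasurable
  rw [map_yz, integral_smul_measure] at h1
  rw [← h1, ENNReal.toReal_ofReal (by positivity), smul_eq_mul]

theorem integral_cube_zx (M : ℕ) {h : ℝ × ℝ → ℝ} (hm : Measurable h) :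
    ∫ p : ℝ × ℝ × ℝ, h (p.2.2, p.1) ∂((lamI M).prod ((lamI M).prod (lamI M))) =
      2 ^ M * ∫ p, h p ∂((lamI M).prod (lamI M)) := by
  have h1 := integral_map (μ := (lamI M).prod ((lamI M).prod (lamI M)))
    (φ := fun p : ℝ × ℝ × ℝ => (p.2.2, p.1)) (f := h) (by fun_prop) hm.aestronglyMeasurable
  rw [map_zx, integral_smul_measure] at h1
  rw [← h1, ENNReal.toReal_ofReal (by positivity), smul_eq_mul]

/-- The trilinear product. -/
def tri (F₀ F₁ F₂ : ℝ × ℝ → ℝ) (p : ℝ × ℝ × ℝ) : ℝ :=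
  F₀ (p.1, p.2.1) * F₁ (p.2.1, p.2.2) * F₂ (p.2.2, p.1)

theorem measurable_tri {F₀ F₁ F₂ : ℝ × ℝ → ℝ} (h₀ : Measurable F₀) (h₁ : Measurable F₁)
    (h₂ : Measurable F₂) : Measurable (tri F₀ F₁ F₂) := by
  unfold tri
  exact ((h₀.comp (by fun_prop)).mul (h₁.comp (by fun_prop))).mul (h₂.comp (by fun_prop))

theorem abs_tri_le {F₀ F₁ F₂ : ℝ × ℝ → ℝ} {B : ℝ} (b₀ : ∀ p, |F₀ p| ≤ B) (b₁ : ∀ p, |F₁ p| ≤ B)
    (b₂ : ∀ p, |F₂ p| ≤ B) (p : ℝ × ℝ × ℝ) : |tri F₀ F₁ F₂ p| ≤ B ^ 3 := by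
  have hB : 0 ≤ B := (abs_nonneg _).trans (b₀ (0, 0))
  unfold tri
  rw [abs_mul, abs_mul]
  calc |F₀ (p.1, p.2.1)| * |F₁ (p.2.1, p.2.2)| * |F₂ (p.2.2, p.1)| ≤ B * B * B := by
        apply mul_le_mul _ (b₂ _) (abs_nonneg _) (by positivity)
        exact mul_le_mul (b₀ _) (b₁ _) (abs_nonneg _) hB
    _ = B ^ 3 := by ring

theorem abs_mul3_sub_le {a b c a' b' c' B : ℝ} (hb : |b| ≤ B) (hc : |c| ≤ B)
    (ha' : |a'| ≤ B) (hb' : |b'| ≤ B) :
    |a * b * c - a' * b' * c'| ≤ B ^ 2 * (|a - a'| + |b - b'| + |c - c'|) := by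
  have hB : 0 ≤ B := (abs_nonneg _).trans hb
  have h1 : a * b * c - a' * b' * c' =
      (a - a') * (b * c) + a' * c * (b - b') + a' * b' * (c - c') := by ring
  have h2 : |b * c| ≤ B ^ 2 := by
    rw [abs_mul, sq]; exact mul_le_mul hb hc (abs_nonneg _) hB
  have h3 : |a' * c| ≤ B ^ 2 := by
    rw [abs_mul, sq]; exact mul_le_mul ha' hc (abs_nonneg _) hB
  have h4 : |a' * b'| ≤ B ^ 2 := by
    rw [abs_mul, sq]; exact mul_le_mul ha' hb' (abs_nonneg _) hB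
  calc |a * b * c - a' * b' * c'|
      ≤ |(a - a') * (b * c)| + |a' * c * (b - b')| + |a' * b' * (c - c')| := by
        rw [h1]; exact (abs_add_le _ _).trans (add_le_add (abs_add_le _ _) le_rfl)
    _ = |a - a'| * |b * c| + |a' * c| * |b - b'| + |a' * b'| * |c - c'| := by
        rw [abs_mul (a - a'), abs_mul (a' * c), abs_mul (a' * b')]
    _ ≤ |a - a'| * B ^ 2 + B ^ 2 * |b - b'| + B ^ 2 * |c - c'| := by
        gcongr
    _ = B ^ 2 * (|a - a'| + |b - b'| + |c - c'|) := by ring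

theorem integral_tri_sub_le {M : ℕ} {B : ℝ} {F₀ F₁ F₂ F₀' F₁' F₂' : ℝ × ℝ → ℝ}
    (m₀ : Measurable F₀) (m₁ : Measurable F₁) (m₂ : Measurable F₂)
    (m₀' : Measurable F₀') (m₁' : Measurable F₁') (m₂' : Measurable F₂')
    (b₀ : ∀ p, |F₀ p| ≤ B) (b₁ : ∀ p, |F₁ p| ≤ B) (b₂ : ∀ p, |F₂ p| ≤ B)
    (b₀' : ∀ p, |F₀' p| ≤ B) (b₁' : ∀ p, |F₁' p| ≤ B) (b₂' : ∀ p, |F₂' p| ≤ B) :
    ∫ p, |tri F₀ F₁ F₂ p - tri F₀' F₁' F₂' p| ∂((lamI M).prod ((lamI M).prod (lamI M))) ≤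
      B ^ 2 * 2 ^ M * (dist1 M F₀ F₀' + dist1 M F₁ F₁' + dist1 M F₂ F₂') := by
  set ν := (lamI M).prod ((lamI M).prod (lamI M)) with hν
  have hd : ∀ {F F' : ℝ × ℝ → ℝ}, Measurable F → Measurable F' → (∀ p, |F p| ≤ B) →
      (∀ p, |F' p| ≤ B) → ∀ (φ : ℝ × ℝ × ℝ → ℝ × ℝ), Measurable φ →
      Integrable (fun p => |F (φ p) - F' (φ p)|) ν := by
    intro F F' hm hm' hb hb' φ hφ
    refine Integrable.of_bound (C := 2 * B)
      (((hm.comp hφ).sub (hm'.comp hφ)).abs).aestronglyMeasurable (ae_of_all _ fun p => ?_)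
    rw [Real.norm_eq_abs, abs_abs]
    calc |F (φ p) - F' (φ p)| ≤ |F (φ p)| + |F' (φ p)| := abs_sub _ _
      _ ≤ 2 * B := by linarith [hb (φ p), hb' (φ p)]
  have i0 := hd m₀ m₀' b₀ b₀' (fun p => (p.1, p.2.1)) (by fun_prop)
  have i1 := hd m₁ m₁' b₁ b₁' (fun p => (p.2.1, p.2.2)) (by fun_prop)
  have i2 := hd m₂ m₂' b₂ b₂' (fun p => (p.2.2, p.1)) (by fun_prop)
  have hint : Integrable (fun p => |tri F₀ F₁ F₂ p - tri F₀' F₁' F₂' p|) ν := by
    refine Integrable.of_bound (C := 2 * B ^ 3)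
      (((measurable_tri m₀ m₁ m₂).sub (measurable_tri m₀' m₁' m₂')).abs).aestronglyMeasurable
      (ae_of_all _ fun p => ?_)
    rw [Real.norm_eq_abs, abs_abs]
    calc |tri F₀ F₁ F₂ p - tri F₀' F₁' F₂' p| ≤ |tri F₀ F₁ F₂ p| + |tri F₀' F₁' F₂' p| :=
          abs_sub _ _
      _ ≤ 2 * B ^ 3 := by linarith [abs_tri_le b₀ b₁ b₂ p, abs_tri_le b₀' b₁' b₂' p]
  calc ∫ p, |tri F₀ F₁ F₂ p - tri F₀' F₁' F₂' p| ∂ν
      ≤ ∫ p, B ^ 2 * (|F₀ (p.1, p.2.1) - F₀' (p.1, p.2.1)| +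
          |F₁ (p.2.1, p.2.2) - F₁' (p.2.1, p.2.2)| +
          |F₂ (p.2.2, p.1) - F₂' (p.2.2, p.1)|) ∂ν := by
        apply integral_mono hint
        · exact ((i0.add i1).add i2).const_mul _
        · intro p
          exact abs_mul3_sub_le (b₁ _) (b₂ _) (b₀' _) (b₁' _)
    _ = B ^ 2 * (2 ^ M * dist1 M F₀ F₀' + 2 ^ M * dist1 M F₁ F₁' + 2 ^ M * dist1 M F₂ F₂') := by
        have i01 : Integrable (fun p : ℝ × ℝ × ℝ => |F₀ (p.1, p.2.1) - F₀' (p.1, p.2.1)| +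
          |F₁ (p.2.1, p.2.2) - F₁' (p.2.1, p.2.2)|) ν := i0.add i1
        rw [integral_const_mul, integral_add i01 i2, integral_add i0 i1]
        have e0 := integral_cube_xy M (h := fun q => |F₀ q - F₀' q|) (m₀.sub m₀').abs
        have e1 := integral_cube_yz M (h := fun q => |F₁ q - F₁' q|) (m₁.sub m₁').abs
        have e2 := integral_cube_zx M (h := fun q => |F₂ q - F₂' q|) (m₂.sub m₂').abs
        rw [e0, e1, e2]
        rfl
    _ = _ := by ring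

/-! ## The local forms -/

/-- The function vanishes as soon as a coordinate is at least `2 ^ M`. -/
def Vanish (M : ℕ) (F : ℝ × ℝ → ℝ) : Prop :=
  ∀ p : ℝ × ℝ, (2 : ℝ) ^ M ≤ p.1 ∨ (2 : ℝ) ^ M ≤ p.2 → F p = 0

theorem measurable_haarI (k : ℤ) (n : ℕ) : Measurable (haarI k n) := by
  unfold haarI
  exact (measurable_one.indicator measurableSet_Ico).sub
    (measurable_one.indicator measurableSet_Ico)

theorem abs_haarI_le (k : ℤ) (n : ℕ) (x : ℝ) : |haarI k n x| ≤ 1 := by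
  unfold haarI
  simp only [Set.indicator_apply, Pi.one_apply]
  split_ifs with h1 h2 h2
  · simp
  · simp
  · simp
  · simp

theorem measurableSet_dyI (k : ℤ) (n : ℕ) : MeasurableSet (dyI k n) := measurableSet_Ico

/-- The box of a triple. -/
def box (k : ℤ) (a b c : ℕ) : Set (ℝ × ℝ × ℝ) := dyI k a ×ˢ dyI k b ×ˢ dyI k c

theorem measurableSet_box (k : ℤ) (a b c : ℕ) : MeasurableSet (box k a b c) :=
  (measurableSet_dyI k a).prod ((measurableSet_dyI k b).prod (measurableSet_dyI k c))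

theorem volume_box_lt_top (k : ℤ) (a b c : ℕ) : volume (box k a b c) < ⊤ := by
  unfold box dyI
  rw [Measure.volume_eq_prod, Measure.prod_prod, Measure.volume_eq_prod, Measure.prod_prod]
  simp only [Real.volume_Ico]
  exact ENNReal.mul_lt_top ENNReal.ofReal_lt_top
    (ENNReal.mul_lt_top ENNReal.ofReal_lt_top ENNReal.ofReal_lt_top)

/-- The product of the three Haar functions. -/
noncomputable def haar3 (k : ℤ) (a b c : ℕ) (p : ℝ × ℝ × ℝ) : ℝ :=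
  haarI k a p.1 * haarI k b p.2.1 * haarI k c p.2.2

theorem measurable_haar3 (k : ℤ) (a b c : ℕ) : Measurable (haar3 k a b c) := by
  unfold haar3
  exact (((measurable_haarI k a).comp measurable_fst).mul
    ((measurable_haarI k b).comp (measurable_fst.comp measurable_snd))).mul
    ((measurable_haarI k c).comp (measurable_snd.comp measurable_snd))

theorem abs_haar3_le (k : ℤ) (a b c : ℕ) (p : ℝ × ℝ × ℝ) : |haar3 k a b c p| ≤ 1 := by
  unfold haar3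
  rw [abs_mul, abs_mul]
  calc |haarI k a p.1| * |haarI k b p.2.1| * |haarI k c p.2.2| ≤ 1 * 1 * 1 := by
        apply mul_le_mul _ (abs_haarI_le _ _ _) (abs_nonneg _) (by norm_num)
        exact mul_le_mul (abs_haarI_le _ _ _) (abs_haarI_le _ _ _) (abs_nonneg _) (by norm_num)
    _ = 1 := by norm_num

theorem LI_eq (k : ℤ) (a b c : ℕ) (F₀ F₁ F₂ : ℝ × ℝ → ℝ) :
    LI k a b c F₀ F₁ F₂ =
      2 ^ (-k) * ∫ p in box k a b c, tri F₀ F₁ F₂ p * haar3 k a b c p := rfl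

theorem tri_eq_zero {M : ℕ} {F₀ F₁ F₂ : ℝ × ℝ → ℝ} (v₀ : Vanish M F₀) (v₁ : Vanish M F₁)
    {p : ℝ × ℝ × ℝ} (hp : (2 : ℝ) ^ M ≤ p.1 ∨ (2 : ℝ) ^ M ≤ p.2.1 ∨ (2 : ℝ) ^ M ≤ p.2.2) :
    tri F₀ F₁ F₂ p = 0 := by
  unfold tri
  rcases hp with h | h | h
  · rw [v₀ (p.1, p.2.1) (Or.inl h)]; ring
  · rw [v₀ (p.1, p.2.1) (Or.inr h)]; ring
  · rw [v₁ (p.2.1, p.2.2) (Or.inr h)]; ring

theorem LI_eq_zero {M : ℕ} {k : ℤ} {A : ℕ} (hA : (2 : ℝ) ^ M ≤ A * 2 ^ k) {a b c : ℕ}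
    {F₀ F₁ F₂ : ℝ × ℝ → ℝ} (v₀ : Vanish M F₀) (v₁ : Vanish M F₁)
    (habc : A ≤ a ∨ A ≤ b ∨ A ≤ c) : LI k a b c F₀ F₁ F₂ = 0 := by
  have h2k : (0 : ℝ) < 2 ^ k := by positivity
  have key : ∀ (n : ℕ) (x : ℝ), A ≤ n → x ∈ dyI k n → (2 : ℝ) ^ M ≤ x := by
    intro n x hn hx
    have h1 : (A : ℝ) ≤ n := by exact_mod_cast hn
    have h2 : (A : ℝ) * 2 ^ k ≤ n * 2 ^ k := mul_le_mul_of_nonneg_right h1 h2k.le
    exact hA.trans (h2.trans hx.1)
  rw [LI_eq, setIntegral_eq_zero_of_forall_eq_zero, mul_zero]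
  intro p hp
  rw [tri_eq_zero v₀ v₁, zero_mul]
  obtain ⟨h1, h2, h3⟩ := hp
  rcases habc with h | h | h
  · exact Or.inl (key a _ h h1)
  · exact Or.inr (Or.inl (key b _ h h2))
  · exact Or.inr (Or.inr (key c _ h h3))

theorem LI_sub_le {M : ℕ} {B : ℝ} {k : ℤ} {a b c : ℕ} {F₀ F₁ F₂ F₀' F₁' F₂' : ℝ × ℝ → ℝ}
    (m₀ : Measurable F₀) (m₁ : Measurable F₁) (m₂ : Measurable F₂)
    (m₀' : Measurable F₀') (m₁' : Measurable F₁') (m₂' : Measurable F₂')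
    (b₀ : ∀ p, |F₀ p| ≤ B) (b₁ : ∀ p, |F₁ p| ≤ B) (b₂ : ∀ p, |F₂ p| ≤ B)
    (b₀' : ∀ p, |F₀' p| ≤ B) (b₁' : ∀ p, |F₁' p| ≤ B) (b₂' : ∀ p, |F₂' p| ≤ B)
    (v₀ : Vanish M F₀) (v₁ : Vanish M F₁) (v₀' : Vanish M F₀') (v₁' : Vanish M F₁') :
    |LI k a b c F₀ F₁ F₂ - LI k a b c F₀' F₁' F₂'| ≤
      2 ^ (-k) * (B ^ 2 * 2 ^ M * (dist1 M F₀ F₀' + dist1 M F₁ F₁' + dist1 M F₂ F₂')) := by
  have hfin := volume_box_lt_top k a b c
  have hint : ∀ {F₀ F₁ F₂ : ℝ × ℝ → ℝ}, Measurable F₀ → Measurable F₁ → Measurable F₂ →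
      (∀ p, |F₀ p| ≤ B) → (∀ p, |F₁ p| ≤ B) → (∀ p, |F₂ p| ≤ B) →
      IntegrableOn (fun p => tri F₀ F₁ F₂ p * haar3 k a b c p) (box k a b c) := by
    intro F₀ F₁ F₂ m₀ m₁ m₂ b₀ b₁ b₂
    refine Measure.integrableOn_of_bounded (M := B ^ 3) hfin.ne
      (((measurable_tri m₀ m₁ m₂).mul (measurable_haar3 k a b c)).aestronglyMeasurable)
      (ae_of_all _ fun p => ?_)
    rw [Real.norm_eq_abs, abs_mul]
    calc |tri F₀ F₁ F₂ p| * |haar3 k a b c p| ≤ |tri F₀ F₁ F₂ p| * 1 :=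
          mul_le_mul_of_nonneg_left (abs_haar3_le k a b c p) (abs_nonneg _)
      _ ≤ B ^ 3 := by rw [mul_one]; exact abs_tri_le b₀ b₁ b₂ p
  set g : ℝ × ℝ × ℝ → ℝ := fun p => |tri F₀ F₁ F₂ p - tri F₀' F₁' F₂' p| with hg
  have hgm : Measurable g := ((measurable_tri m₀ m₁ m₂).sub (measurable_tri m₀' m₁' m₂')).abs
  have hgb : ∀ p, |g p| ≤ 2 * B ^ 3 := by
    intro p
    rw [hg, abs_abs]
    calc |tri F₀ F₁ F₂ p - tri F₀' F₁' F₂' p| ≤ |tri F₀ F₁ F₂ p| + |tri F₀' F₁' F₂' p| :=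
          abs_sub _ _
      _ ≤ 2 * B ^ 3 := by linarith [abs_tri_le b₀ b₁ b₂ p, abs_tri_le b₀' b₁' b₂' p]
  have h2k : (0 : ℝ) < 2 ^ (-k) := by positivity
  have hcube : MeasurableSet (bigI M ×ˢ bigI M ×ˢ bigI M) :=
    (measurableSet_bigI M).prod ((measurableSet_bigI M).prod (measurableSet_bigI M))
  have hcubeint : IntegrableOn g (bigI M ×ˢ bigI M ×ˢ bigI M) := by
    rw [IntegrableOn, restrict_cube]
    exact Integrable.of_bound hgm.aestronglyMeasurable (2 * B ^ 3) (ae_of_all _ hgb)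
  have hboxint : IntegrableOn g (box k a b c) :=
    Measure.integrableOn_of_bounded (M := 2 * B ^ 3) hfin.ne hgm.aestronglyMeasurable
      (ae_of_all _ hgb)
  rw [LI_eq, LI_eq, ← mul_sub, abs_mul, abs_of_pos h2k]
  apply mul_le_mul_of_nonneg_left _ h2k.le
  rw [← integral_sub (hint m₀ m₁ m₂ b₀ b₁ b₂) (hint m₀' m₁' m₂' b₀' b₁' b₂')]
  calc |∫ p in box k a b c, (tri F₀ F₁ F₂ p * haar3 k a b c p -
          tri F₀' F₁' F₂' p * haar3 k a b c p)|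
      ≤ ∫ p in box k a b c, |tri F₀ F₁ F₂ p * haar3 k a b c p -
          tri F₀' F₁' F₂' p * haar3 k a b c p| := by
        simpa [Real.norm_eq_abs] using norm_integral_le_integral_norm
          (μ := volume.restrict (box k a b c)) (fun p => tri F₀ F₁ F₂ p * haar3 k a b c p -
          tri F₀' F₁' F₂' p * haar3 k a b c p)
    _ ≤ ∫ p in box k a b c, g p := by
        apply integral_mono_of_nonneg (ae_of_all _ fun p => abs_nonneg _) hboxint
        refine ae_of_all _ fun p => ?_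
        change |tri F₀ F₁ F₂ p * haar3 k a b c p - tri F₀' F₁' F₂' p * haar3 k a b c p| ≤ g p
        rw [← sub_mul, abs_mul]
        calc |tri F₀ F₁ F₂ p - tri F₀' F₁' F₂' p| * |haar3 k a b c p|
            ≤ |tri F₀ F₁ F₂ p - tri F₀' F₁' F₂' p| * 1 :=
              mul_le_mul_of_nonneg_left (abs_haar3_le k a b c p) (abs_nonneg _)
          _ = g p := by rw [mul_one]
    _ = ∫ p in box k a b c ∩ (bigI M ×ˢ bigI M ×ˢ bigI M), g p := by
        apply setIntegral_eq_of_subset_of_forall_sdiff_eq_zero (measurableSet_box k a b c)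
          Set.inter_subset_left
        intro p hp
        have hp1 := hp.1
        obtain ⟨h1, h2, h3⟩ := hp1
        have h2k' : (0 : ℝ) < 2 ^ k := by positivity
        have hpos : ∀ (n : ℕ) (x : ℝ), x ∈ dyI k n → 0 ≤ x := by
          intro n x hx
          exact le_trans (by positivity) hx.1
        have q1 := hpos _ _ h1
        have q2 := hpos _ _ h2
        have q3 := hpos _ _ h3
        have hout : (2 : ℝ) ^ M ≤ p.1 ∨ (2 : ℝ) ^ M ≤ p.2.1 ∨ (2 : ℝ) ^ M ≤ p.2.2 := by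
          by_contra hcon
          push Not at hcon
          apply hp.2
          exact ⟨hp.1, ⟨q1, hcon.1⟩, ⟨q2, hcon.2.1⟩, ⟨q3, hcon.2.2⟩⟩
        rw [hg]
        simp only
        rw [tri_eq_zero v₀ v₁ hout, tri_eq_zero v₀' v₁' hout]
        simp
    _ ≤ ∫ p in bigI M ×ˢ bigI M ×ˢ bigI M, g p := by
        apply setIntegral_mono_set hcubeint (ae_of_all _ fun p => abs_nonneg _)
        exact Set.inter_subset_right.eventuallyLE
    _ = ∫ p, g p ∂((lamI M).prod ((lamI M).prod (lamI M))) := by rw [restrict_cube]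
    _ ≤ _ := integral_tri_sub_le m₀ m₁ m₂ m₀' m₁' m₂' b₀ b₁ b₂ b₀' b₁' b₂'

/-! ## The full form -/

theorem finite_triBox (A : ℕ) : {n : Tri | n.1.1 < A ∧ n.1.2.1 < A ∧ n.1.2.2 < A}.Finite := by
  have h : (Set.Iio A ×ˢ Set.Iio A ×ˢ Set.Iio A : Set (ℕ × ℕ × ℕ)).Finite :=
    (Set.finite_Iio A).prod ((Set.finite_Iio A).prod (Set.finite_Iio A))
  refine Set.Finite.subset (h.preimage (f := (Subtype.val : Tri → ℕ × ℕ × ℕ))
    (Set.injOn_of_injective Subtype.val_injective)) ?_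
  intro n hn
  exact ⟨hn.1, hn.2.1, hn.2.2⟩

/-- A bound for the number of dyadic intervals of length `2 ^ k` below `2 ^ M`. -/
theorem exists_numCells (M : ℕ) (k : ℤ) : ∃ A : ℕ, (2 : ℝ) ^ M ≤ A * 2 ^ k := by
  have h2k : (0 : ℝ) < 2 ^ k := by positivity
  obtain ⟨A, hA⟩ := exists_nat_ge ((2 : ℝ) ^ M / 2 ^ k)
  exact ⟨A, by rwa [div_le_iff₀ h2k] at hA⟩

theorem LamD_sub_le (S : Finset ℤ) (ε : ℤ → ℝ) (hε : ∀ k, |ε k| ≤ 1) (M : ℕ) (B : ℝ) :
    ∃ C : ℝ, ∀ F₀ F₁ F₂ F₀' F₁' F₂' : ℝ × ℝ → ℝ,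
      Measurable F₀ → Measurable F₁ → Measurable F₂ →
      Measurable F₀' → Measurable F₁' → Measurable F₂' →
      (∀ p, |F₀ p| ≤ B) → (∀ p, |F₁ p| ≤ B) → (∀ p, |F₂ p| ≤ B) →
      (∀ p, |F₀' p| ≤ B) → (∀ p, |F₁' p| ≤ B) → (∀ p, |F₂' p| ≤ B) →
      Vanish M F₀ → Vanish M F₁ → Vanish M F₀' → Vanish M F₁' →
      |LamD S ε F₀ F₁ F₂ - LamD S ε F₀' F₁' F₂'| ≤
        C * (dist1 M F₀ F₀' + dist1 M F₁ F₁' + dist1 M F₂ F₂') := by
  classical
  choose A hA using exists_numCells M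
  set T : ℤ → Finset Tri := fun k => (finite_triBox (A k)).toFinset with hT
  refine ⟨∑ k ∈ S, (T k).card * (2 ^ (-k) * (B ^ 2 * 2 ^ M)), ?_⟩
  intro F₀ F₁ F₂ F₀' F₁' F₂' m₀ m₁ m₂ m₀' m₁' m₂' b₀ b₁ b₂ b₀' b₁' b₂' v₀ v₁ v₀' v₁'
  have hsum : ∀ {F₀ F₁ F₂ : ℝ × ℝ → ℝ}, Vanish M F₀ → Vanish M F₁ → ∀ k : ℤ,
      ∑' n : Tri, LI k n.1.1 n.1.2.1 n.1.2.2 F₀ F₁ F₂ =
        ∑ n ∈ T k, LI k n.1.1 n.1.2.1 n.1.2.2 F₀ F₁ F₂ := by
    intro F₀ F₁ F₂ v₀ v₁ k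
    apply tsum_eq_sum
    intro n hn
    apply LI_eq_zero (hA k) v₀ v₁
    by_contra hcon
    push Not at hcon
    apply hn
    rw [hT]
    simp only [Set.Finite.mem_toFinset]
    exact hcon
  set Dd := dist1 M F₀ F₀' + dist1 M F₁ F₁' + dist1 M F₂ F₂' with hDd
  unfold LamD
  simp_rw [hsum v₀ v₁, hsum v₀' v₁']
  rw [← Finset.sum_sub_distrib, Finset.sum_mul]
  refine (Finset.abs_sum_le_sum_abs _ _).trans (Finset.sum_le_sum fun k _ => ?_)
  rw [← mul_sub, abs_mul, ← Finset.sum_sub_distrib]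
  calc |ε k| * |∑ n ∈ T k, (LI k n.1.1 n.1.2.1 n.1.2.2 F₀ F₁ F₂ -
          LI k n.1.1 n.1.2.1 n.1.2.2 F₀' F₁' F₂')|
      ≤ 1 * ∑ n ∈ T k, (2 ^ (-k) * (B ^ 2 * 2 ^ M * Dd)) := by
        apply mul_le_mul (hε k) _ (abs_nonneg _) zero_le_one
        refine (Finset.abs_sum_le_sum_abs _ _).trans (Finset.sum_le_sum fun n _ => ?_)
        exact LI_sub_le m₀ m₁ m₂ m₀' m₁' m₂' b₀ b₁ b₂ b₀' b₁' b₂' v₀ v₁ v₀' v₁'
    _ = _ := by
        rw [Finset.sum_const, nsmul_eq_mul]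
        ring

/-! ## The cubes -/

theorem integral_cube_eq {M : ℕ} {F : ℝ × ℝ → ℝ} (v : Vanish M F) :
    ∫ p in Set.Ici (0 : ℝ) ×ˢ Set.Ici (0 : ℝ), |F p| ^ 3 =
      ∫ p, |F p| ^ 3 ∂((lamI M).prod (lamI M)) := by
  rw [← restrict_sq]
  apply setIntegral_eq_of_subset_of_forall_sdiff_eq_zero
  · exact measurableSet_Ici.prod measurableSet_Ici
  · intro p hp
    exact ⟨hp.1.1, hp.2.1⟩
  · intro p hp
    have hout : (2 : ℝ) ^ M ≤ p.1 ∨ (2 : ℝ) ^ M ≤ p.2 := by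
      by_contra hcon
      push Not at hcon
      exact hp.2 ⟨⟨hp.1.1, hcon.1⟩, ⟨hp.1.2, hcon.2⟩⟩
    rw [v p hout]
    norm_num

theorem abs_cube_sub_le {a b B : ℝ} (ha : |a| ≤ B) (hb : |b| ≤ B) :
    |(|a| ^ 3 - |b| ^ 3)| ≤ 3 * B ^ 2 * |a - b| := by
  have hB : 0 ≤ B := (abs_nonneg _).trans ha
  have h1 : |a| ^ 3 - |b| ^ 3 = (|a| - |b|) * (|a| ^ 2 + |a| * |b| + |b| ^ 2) := by ring
  have h2 : |(|a| - |b|)| ≤ |a - b| := abs_abs_sub_abs_le_abs_sub a b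
  have h3 : |a| ^ 2 + |a| * |b| + |b| ^ 2 ≤ 3 * B ^ 2 := by
    have e1 : |a| ^ 2 ≤ B ^ 2 := pow_le_pow_left₀ (abs_nonneg _) ha 2
    have e2 : |b| ^ 2 ≤ B ^ 2 := pow_le_pow_left₀ (abs_nonneg _) hb 2
    have e3 : |a| * |b| ≤ B ^ 2 := by
      rw [sq]; exact mul_le_mul ha hb (abs_nonneg _) hB
    linarith
  have h4 : 0 ≤ |a| ^ 2 + |a| * |b| + |b| ^ 2 := by positivity
  rw [h1, abs_mul, abs_of_nonneg h4]
  calc |(|a| - |b|)| * (|a| ^ 2 + |a| * |b| + |b| ^ 2) ≤ |a - b| * (3 * B ^ 2) :=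
        mul_le_mul h2 h3 h4 (abs_nonneg _)
    _ = 3 * B ^ 2 * |a - b| := by ring

theorem cube_sub_le {M : ℕ} {B : ℝ} {F F' : ℝ × ℝ → ℝ} (m : Measurable F) (m' : Measurable F')
    (b : ∀ p, |F p| ≤ B) (b' : ∀ p, |F' p| ≤ B) (v : Vanish M F) (v' : Vanish M F') :
    |(∫ p in Set.Ici (0 : ℝ) ×ˢ Set.Ici (0 : ℝ), |F p| ^ 3) -
      ∫ p in Set.Ici (0 : ℝ) ×ˢ Set.Ici (0 : ℝ), |F' p| ^ 3| ≤ 3 * B ^ 2 * dist1 M F F' := by
  rw [integral_cube_eq v, integral_cube_eq v']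
  have hc : ∀ {F : ℝ × ℝ → ℝ}, Measurable F → (∀ p, |F p| ≤ B) →
      Integrable (fun p => |F p| ^ 3) ((lamI M).prod (lamI M)) := by
    intro F m b
    refine Integrable.of_bound (C := B ^ 3) (m.abs.pow_const 3).aestronglyMeasurable
      (ae_of_all _ fun p => ?_)
    rw [Real.norm_eq_abs, abs_of_nonneg (by positivity)]
    exact pow_le_pow_left₀ (abs_nonneg _) (b p) 3
  have hd : Integrable (fun p => |F p - F' p|) ((lamI M).prod (lamI M)) := by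
    refine Integrable.of_bound (C := 2 * B) (m.sub m').abs.aestronglyMeasurable
      (ae_of_all _ fun p => ?_)
    rw [Real.norm_eq_abs, abs_abs]
    calc |F p - F' p| ≤ |F p| + |F' p| := abs_sub _ _
      _ ≤ 2 * B := by linarith [b p, b' p]
  rw [← integral_sub (hc m b) (hc m' b')]
  calc |∫ p, (|F p| ^ 3 - |F' p| ^ 3) ∂((lamI M).prod (lamI M))|
      ≤ ∫ p, |(|F p| ^ 3 - |F' p| ^ 3)| ∂((lamI M).prod (lamI M)) := by
        simpa [Real.norm_eq_abs] using norm_integral_le_integral_norm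
          (μ := (lamI M).prod (lamI M)) (fun p => |F p| ^ 3 - |F' p| ^ 3)
    _ ≤ ∫ p, 3 * B ^ 2 * |F p - F' p| ∂((lamI M).prod (lamI M)) := by
        apply integral_mono_of_nonneg (ae_of_all _ fun p => abs_nonneg _) (hd.const_mul _)
        exact ae_of_all _ fun p => abs_cube_sub_le (b p) (b' p)
    _ = 3 * B ^ 2 * dist1 M F F' := by rw [integral_const_mul]; rfl

/-! ## Step functions -/

theorem measurable_stepF (M K : ℕ) (f : ℕ → ℕ → ℝ) : Measurable (stepF M K f) := by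
  unfold stepF
  apply Measurable.indicator
  · have h1 : Measurable (fun q : ℝ × ℝ => (⌊q.1 * 2 ^ K⌋₊, ⌊q.2 * 2 ^ K⌋₊)) :=
      ((measurable_fst.mul_const _).nat_floor).prodMk ((measurable_snd.mul_const _).nat_floor)
    have h2 : Measurable (fun n : ℕ × ℕ => f n.1 n.2) := measurable_of_countable _
    exact h2.comp h1
  · exact measurableSet_Ico.prod measurableSet_Ico

theorem abs_stepF_le {M K : ℕ} {f : ℕ → ℕ → ℝ} {B : ℝ} (hB : 0 ≤ B) (hf : ∀ a b, |f a b| ≤ B)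
    (p : ℝ × ℝ) : |stepF M K f p| ≤ B := by
  unfold stepF
  rw [Set.indicator_apply]
  split_ifs
  · exact hf _ _
  · simpa using hB

theorem vanish_stepF (M K : ℕ) (f : ℕ → ℕ → ℝ) : Vanish M (stepF M K f) := by
  intro p hp
  unfold stepF
  rw [Set.indicator_of_notMem]
  rintro ⟨h1, h2⟩
  rcases hp with h | h
  · exact absurd h1.2 (not_lt.2 h)
  · exact absurd h2.2 (not_lt.2 h)

theorem floor_near {x : ℝ} (hx : 0 ≤ x) (K : ℕ) :
    |x - (⌊x * 2 ^ K⌋₊ : ℝ) / 2 ^ K| ≤ (1 / 2) ^ K := by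
  have h2 : (0 : ℝ) < 2 ^ K := by positivity
  have h1 := Nat.floor_le (a := x * 2 ^ K) (by positivity)
  have h3 := Nat.lt_floor_add_one (x * 2 ^ K)
  have e1 : x - (⌊x * 2 ^ K⌋₊ : ℝ) / 2 ^ K = (x * 2 ^ K - ⌊x * 2 ^ K⌋₊) / 2 ^ K := by
    field_simp
  rw [e1, abs_div, abs_of_pos h2, abs_of_nonneg (by linarith), one_div, inv_pow, div_le_iff₀ h2,
    inv_mul_cancel₀ h2.ne']
  linarith

theorem abs_sub_clamp_le {a b B : ℝ} (ha : |a| ≤ B) : |a - max (-B) (min B b)| ≤ |a - b| := by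
  rw [abs_le] at ha
  rcases le_total b (-B) with h | h
  · rw [min_eq_right (by linarith), max_eq_left h, abs_of_nonneg (by linarith),
      abs_of_nonneg (by linarith)]
    linarith
  · rcases le_total b B with h' | h'
    · rw [min_eq_right h', max_eq_right h]
    · rw [min_eq_left h', max_eq_right (by linarith), abs_of_nonpos (by linarith),
        abs_of_nonpos (by linarith)]
      linarith

theorem abs_clamp_le {b B : ℝ} (hB : 0 ≤ B) : |max (-B) (min B b)| ≤ B := by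
  rw [abs_le]
  exact ⟨le_max_left _ _, max_le (by linarith) (min_le_left _ _)⟩

theorem abs_clamp_sub_clamp_le (a b B : ℝ) :
    |max (-B) (min B a) - max (-B) (min B b)| ≤ |a - b| := by
  calc |max (-B) (min B a) - max (-B) (min B b)|
      ≤ max |(-B) - (-B)| |min B a - min B b| := abs_max_sub_max_le_max _ _ _ _
    _ = |min B a - min B b| := by simp
    _ ≤ max |B - B| |a - b| := abs_min_sub_min_le_max _ _ _ _
    _ = |a - b| := by simp

theorem exists_step (M : ℕ) {B : ℝ} {F : ℝ × ℝ → ℝ} (m : Measurable F)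
    (b : ∀ p, |F p| ≤ B) {δ : ℝ} (hδ : 0 < δ) :
    ∃ K₀ : ℕ, ∀ K, K₀ ≤ K → ∃ f : ℕ → ℕ → ℝ, (∀ i j, |f i j| ≤ B) ∧
      dist1 M F (stepF M K f) ≤ δ := by
  have hB : 0 ≤ B := (abs_nonneg _).trans (b (0, 0))
  have hFint : Integrable F ((lamI M).prod (lamI M)) :=
    Integrable.of_bound m.aestronglyMeasurable B (ae_of_all _ b)
  obtain ⟨g, hgc, hgd, hgcont, hgint⟩ :=
    hFint.exists_hasCompactSupport_integral_sub_le (half_pos hδ)
  have huc : UniformContinuous g := hgc.uniformContinuous_of_continuous hgcont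
  have hmass : ((lamI M).prod (lamI M)).real Set.univ = 2 ^ M * 2 ^ M := by
    rw [Measure.real, ← Set.univ_prod_univ, Measure.prod_prod, lamI_univ, ENNReal.toReal_mul,
      ENNReal.toReal_ofReal (by positivity)]
  set η : ℝ := δ / 2 / (2 ^ M * 2 ^ M) with hη
  have hη0 : 0 < η := by positivity
  obtain ⟨ρ, hρ0, hρ⟩ := Metric.uniformContinuous_iff.1 huc η hη0
  obtain ⟨K₀, hK₀⟩ := exists_pow_lt_of_lt_one hρ0 (by norm_num : (1 / 2 : ℝ) < 1)
  refine ⟨K₀, fun K hK => ?_⟩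
  refine ⟨fun i j => max (-B) (min B (g ((i : ℝ) / 2 ^ K, (j : ℝ) / 2 ^ K))),
    fun i j => abs_clamp_le hB, ?_⟩
  set f : ℕ → ℕ → ℝ := fun i j => max (-B) (min B (g ((i : ℝ) / 2 ^ K, (j : ℝ) / 2 ^ K))) with hf
  have hpow : (1 / 2 : ℝ) ^ K < ρ :=
    lt_of_le_of_lt (pow_le_pow_of_le_one (by norm_num) (by norm_num) hK) hK₀
  have hpt : ∀ p ∈ bigI M ×ˢ bigI M, |F p - stepF M K f p| ≤ ‖F p - g p‖ + η := by
    intro p hp
    set q : ℝ × ℝ := ((⌊p.1 * 2 ^ K⌋₊ : ℝ) / 2 ^ K, (⌊p.2 * 2 ^ K⌋₊ : ℝ) / 2 ^ K) with hq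
    have hstep : stepF M K f p = max (-B) (min B (g q)) := by
      exact Set.indicator_of_mem (s := Set.Ico (0 : ℝ) (2 ^ M) ×ˢ Set.Ico (0 : ℝ) (2 ^ M)) hp _
    have hdist : dist p q < ρ := by
      rw [Prod.dist_eq, Real.dist_eq, Real.dist_eq]
      apply lt_of_le_of_lt _ hpow
      exact max_le (floor_near hp.1.1 K) (floor_near hp.2.1 K)
    have hgpq : |g p - g q| < η := by
      have := hρ hdist
      rwa [Real.dist_eq] at this
    rw [hstep, Real.norm_eq_abs]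
    calc |F p - max (-B) (min B (g q))|
        = |(F p - max (-B) (min B (g p))) +
            (max (-B) (min B (g p)) - max (-B) (min B (g q)))| := by ring_nf
      _ ≤ |F p - max (-B) (min B (g p))| +
            |max (-B) (min B (g p)) - max (-B) (min B (g q))| := abs_add_le _ _
      _ ≤ |F p - g p| + |g p - g q| :=
          add_le_add (abs_sub_clamp_le (b p)) (abs_clamp_sub_clamp_le _ _ _)
      _ ≤ |F p - g p| + η := by linarith
  have hgsub : Integrable (fun p => ‖F p - g p‖) ((lamI M).prod (lamI M)) :=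
    (hFint.sub hgint).norm
  calc dist1 M F (stepF M K f)
      ≤ ∫ p, (‖F p - g p‖ + η) ∂((lamI M).prod (lamI M)) := by
        unfold dist1
        apply integral_mono_of_nonneg (ae_of_all _ fun p => abs_nonneg _)
          (hgsub.add (integrable_const _))
        rw [← restrict_sq]
        filter_upwards [ae_restrict_mem ((measurableSet_bigI M).prod (measurableSet_bigI M))]
          with p hp
        exact hpt p hp
    _ = (∫ p, ‖F p - g p‖ ∂((lamI M).prod (lamI M))) + (2 ^ M * 2 ^ M) * η := by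
        rw [integral_add hgsub (integrable_const _), integral_const, hmass, smul_eq_mul]
    _ ≤ δ / 2 + δ / 2 := by
        apply add_le_add hgd
        rw [hη]
        apply le_of_eq
        field_simp
    _ = δ := by ring

/-! ## The transfer -/

/-- The bound for step functions, proved in `TransferA`. -/
def StepBound : Prop :=
  ∃ C : ℝ, 0 < C ∧ ∀ (S : Finset ℤ) (ε : ℤ → ℝ), (∀ k, |ε k| ≤ 1) → ∀ M K : ℕ,
    (∀ k ∈ S, -(K : ℤ) < k ∧ k ≤ M) → ∀ f₀ f₁ f₂ : ℕ → ℕ → ℝ,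
      |LamD S ε (stepF M K f₀) (stepF M K f₁) (stepF M K f₂)| ≤
        C * (1 + Real.log S.card) ^ 3 *
          (L3q (stepF M K f₀) * L3q (stepF M K f₁) * L3q (stepF M K f₂))

theorem exists_vanish {F : ℝ × ℝ → ℝ} (hF : HasCompactSupport F) :
    ∃ M₀ : ℕ, ∀ M, M₀ ≤ M → Vanish M F := by
  obtain ⟨R, hR⟩ := hF.isCompact.isBounded.subset_closedBall (0 : ℝ × ℝ)
  obtain ⟨M₀, hM₀⟩ := pow_unbounded_of_one_lt R (by norm_num : (1 : ℝ) < 2)
  refine ⟨M₀, fun M hM p hp => ?_⟩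
  apply image_eq_zero_of_notMem_tsupport
  intro hmem
  have h1 := hR hmem
  rw [mem_closedBall_zero_iff, Prod.norm_def] at h1
  have h2 : (2 : ℝ) ^ M₀ ≤ 2 ^ M := pow_le_pow_right₀ (by norm_num) hM
  rcases hp with h | h
  · have h3 := (le_max_left ‖p.1‖ ‖p.2‖).trans h1
    have h4 : p.1 ≤ ‖p.1‖ := le_abs_self _
    linarith
  · have h3 := (le_max_right ‖p.1‖ ‖p.2‖).trans h1
    have h4 : p.2 ≤ ‖p.2‖ := le_abs_self _
    linarith

theorem tendsto_L3q {M : ℕ} {B : ℝ} {F : ℝ × ℝ → ℝ} {F' : ℕ → ℝ × ℝ → ℝ} (m : Measurable F)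
    (m' : ∀ n, Measurable (F' n)) (b : ∀ p, |F p| ≤ B) (b' : ∀ n p, |F' n p| ≤ B)
    (v : Vanish M F) (v' : ∀ n, Vanish M (F' n))
    (hd : Tendsto (fun n => dist1 M F (F' n)) atTop (𝓝 0)) :
    Tendsto (fun n => L3q (F' n)) atTop (𝓝 (L3q F)) := by
  unfold L3q
  apply Tendsto.rpow_const _ (Or.inr (by norm_num))
  rw [tendsto_iff_dist_tendsto_zero]
  apply squeeze_zero (fun n => dist_nonneg) (g := fun n => 3 * B ^ 2 * dist1 M F (F' n))
  · intro n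
    rw [dist_comm, Real.dist_eq]
    exact cube_sub_le m (m' n) b (b' n) v (v' n)
  · simpa using hd.const_mul (3 * B ^ 2)

theorem transfer_of_step (h : StepBound) :
    ∃ C : ℝ, 0 < C ∧ ∀ (S : Finset ℤ) (ε : ℤ → ℝ), (∀ k, |ε k| ≤ 1) →
    ∀ F₀ F₁ F₂ : ℝ × ℝ → ℝ, Measurable F₀ → Measurable F₁ → Measurable F₂ →
      (∃ M, ∀ p, |F₀ p| ≤ M) → (∃ M, ∀ p, |F₁ p| ≤ M) → (∃ M, ∀ p, |F₂ p| ≤ M) →
      HasCompactSupport F₀ → HasCompactSupport F₁ → HasCompactSupport F₂ →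
      |LamD S ε F₀ F₁ F₂| ≤
        C * (1 + Real.log S.card) ^ 3 * (L3q F₀ * L3q F₁ * L3q F₂) := by
  obtain ⟨C, hC, hstep⟩ := h
  refine ⟨C, hC, ?_⟩
  rintro S ε hε F₀ F₁ F₂ m₀ m₁ m₂ ⟨B₀, hB₀⟩ ⟨B₁, hB₁⟩ ⟨B₂, hB₂⟩ c₀ c₁ c₂
  set B : ℝ := max B₀ (max B₁ B₂) with hBdef
  have b₀ : ∀ p, |F₀ p| ≤ B := fun p => (hB₀ p).trans (le_max_left _ _)
  have b₁ : ∀ p, |F₁ p| ≤ B := fun p =>
    (hB₁ p).trans ((le_max_left _ _).trans (le_max_right _ _))
  have b₂ : ∀ p, |F₂ p| ≤ B := fun p =>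
    (hB₂ p).trans ((le_max_right _ _).trans (le_max_right _ _))
  have hB : 0 ≤ B := (abs_nonneg _).trans (b₀ (0, 0))
  obtain ⟨M₀, hM₀⟩ := exists_vanish c₀
  obtain ⟨M₁, hM₁⟩ := exists_vanish c₁
  obtain ⟨M₂, hM₂⟩ := exists_vanish c₂
  set MS : ℕ := S.sup Int.natAbs with hMS
  have hSle : ∀ k ∈ S, k.natAbs ≤ MS := fun k hk => Finset.le_sup (f := Int.natAbs) hk
  set M : ℕ := max (max M₀ M₁) (max M₂ MS) with hM
  have v₀ : Vanish M F₀ := hM₀ M (by omega)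
  have v₁ : Vanish M F₁ := hM₁ M (by omega)
  have v₂ : Vanish M F₂ := hM₂ M (by omega)
  -- the approximations
  have hδ : ∀ n : ℕ, (0 : ℝ) < 1 / ((n : ℝ) + 1) := fun n => by positivity
  choose K₀ hK₀ using fun n : ℕ => exists_step M m₀ b₀ (hδ n)
  choose K₁ hK₁ using fun n : ℕ => exists_step M m₁ b₁ (hδ n)
  choose K₂ hK₂ using fun n : ℕ => exists_step M m₂ b₂ (hδ n)
  set K : ℕ → ℕ := fun n => max (max (K₀ n) (K₁ n)) (max (K₂ n) (MS + 1)) with hK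
  choose f₀ hf₀ hd₀ using fun n : ℕ => hK₀ n (K n) (by simp only [hK]; omega)
  choose f₁ hf₁ hd₁ using fun n : ℕ => hK₁ n (K n) (by simp only [hK]; omega)
  choose f₂ hf₂ hd₂ using fun n : ℕ => hK₂ n (K n) (by simp only [hK]; omega)
  have hlim : Tendsto (fun n : ℕ => 1 / ((n : ℝ) + 1)) atTop (𝓝 0) :=
    tendsto_one_div_add_atTop_nhds_zero_nat
  have hdn : ∀ (F F' : ℝ × ℝ → ℝ), 0 ≤ dist1 M F F' := fun F F' =>
    integral_nonneg fun p => abs_nonneg _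
  have t₀ : Tendsto (fun n => dist1 M F₀ (stepF M (K n) (f₀ n))) atTop (𝓝 0) :=
    squeeze_zero (fun n => hdn _ _) hd₀ hlim
  have t₁ : Tendsto (fun n => dist1 M F₁ (stepF M (K n) (f₁ n))) atTop (𝓝 0) :=
    squeeze_zero (fun n => hdn _ _) hd₁ hlim
  have t₂ : Tendsto (fun n => dist1 M F₂ (stepF M (K n) (f₂ n))) atTop (𝓝 0) :=
    squeeze_zero (fun n => hdn _ _) hd₂ hlim
  have l₀ := tendsto_L3q m₀ (fun n => measurable_stepF M (K n) (f₀ n)) b₀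
    (fun n => abs_stepF_le hB (hf₀ n)) v₀ (fun n => vanish_stepF _ _ _) t₀
  have l₁ := tendsto_L3q m₁ (fun n => measurable_stepF M (K n) (f₁ n)) b₁
    (fun n => abs_stepF_le hB (hf₁ n)) v₁ (fun n => vanish_stepF _ _ _) t₁
  have l₂ := tendsto_L3q m₂ (fun n => measurable_stepF M (K n) (f₂ n)) b₂
    (fun n => abs_stepF_le hB (hf₂ n)) v₂ (fun n => vanish_stepF _ _ _) t₂
  obtain ⟨C', hC'⟩ := LamD_sub_le S ε hε M B
  have lL : Tendsto (fun n => LamD S ε (stepF M (K n) (f₀ n)) (stepF M (K n) (f₁ n))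
      (stepF M (K n) (f₂ n))) atTop (𝓝 (LamD S ε F₀ F₁ F₂)) := by
    rw [tendsto_iff_dist_tendsto_zero]
    apply squeeze_zero (fun n => dist_nonneg) (g := fun n =>
      C' * (dist1 M F₀ (stepF M (K n) (f₀ n)) + dist1 M F₁ (stepF M (K n) (f₁ n)) +
        dist1 M F₂ (stepF M (K n) (f₂ n))))
    · intro n
      rw [dist_comm, Real.dist_eq]
      exact hC' _ _ _ _ _ _ m₀ m₁ m₂ (measurable_stepF _ _ _) (measurable_stepF _ _ _)
        (measurable_stepF _ _ _) b₀ b₁ b₂ (abs_stepF_le hB (hf₀ n)) (abs_stepF_le hB (hf₁ n))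
        (abs_stepF_le hB (hf₂ n)) v₀ v₁ (vanish_stepF _ _ _) (vanish_stepF _ _ _)
    · simpa using ((t₀.add t₁).add t₂).const_mul C'
  refine le_of_tendsto_of_tendsto' lL.abs (((l₀.mul l₁).mul l₂).const_mul _) fun n => ?_
  apply hstep S ε hε M (K n)
  intro k hk
  have h1 := hSle k hk
  have h2 : MS ≤ M := by omega
  have h3 : MS + 1 ≤ K n := by simp only [hK]; omega
  constructor <;> omega

end Vale.Agent.P075
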