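import Vale.Agent.P075.Schatten

namespace Vale.Agent.P075

open Finset Matrix

variable {I d : Type*} [Fintype I] [DecidableEq I] [Fintype d] [DecidableEq d]

/-- Schur multiplication of a block matrix by a scalar kernel on the block indices. -/
def Hs (s : I → I → ℝ) (A : Matrix (I × d) (I × d) ℝ) : Matrix (I × d) (I × d) ℝ :=
  Matrix.of fun p q => s p.1 q.1 * A p q

/-- constants of the triangular truncation: c 0 = 1, c (k+1) = 2 c k + 1, so c k = 2^(k+1) - 1 -/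
def ctr (k : ℕ) : ℝ := 2 ^ (k + 1) - 1

/-- a kernel of order type (sign kernel of a linear order) -/
structure OrdKer (s : I → I → ℝ) : Prop where
  diag : ∀ i, s i i = 0
  sq : ∀ i j, i ≠ j → s i j ^ 2 = 1
  anti : ∀ i j, s j i = - s i j
  cot : ∀ i j l, i ≠ j → j ≠ l → s i j * s j l = s i l * (s i j + s j l) - 1

lemma tr_ctr_nonneg (k : ℕ) : 0 ≤ ctr k := by
  unfold ctr
  have : (1 : ℝ) ≤ 2 ^ (k + 1) := one_le_pow₀ (by norm_num)
  linarith

lemma tr_ctr_succ (k : ℕ) : ctr (k + 1) = 2 * ctr k + 1 := by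
  unfold ctr
  rw [pow_succ]
  ring

lemma tr_Hs_apply (s : I → I → ℝ) (A : Matrix (I × d) (I × d) ℝ) (p q : I × d) :
    Hs s A p q = s p.1 q.1 * A p q := rfl

lemma tr_Hs_transpose {s : I → I → ℝ} (hs : OrdKer s) (A : Matrix (I × d) (I × d) ℝ) :
    Hs s Aᵀ = -(Hs s A)ᵀ := by
  ext p q
  rw [Matrix.neg_apply, Matrix.transpose_apply, tr_Hs_apply, tr_Hs_apply, Matrix.transpose_apply,
    hs.anti q.1 p.1]
  ring

lemma tr_cotlar {s : I → I → ℝ} (hs : OrdKer s) (B C : Matrix (I × d) (I × d) ℝ)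
    (hB : ∀ i u v, B (i, u) (i, v) = 0) (hC : ∀ i u v, C (i, u) (i, v) = 0) :
    Hs s B * Hs s C = Hs s (Hs s B * C + B * Hs s C) - B * C := by
  ext p r
  rw [Matrix.sub_apply, tr_Hs_apply, Matrix.add_apply, Matrix.mul_apply, Matrix.mul_apply,
    Matrix.mul_apply, Matrix.mul_apply, ← Finset.sum_add_distrib, Finset.mul_sum,
    ← Finset.sum_sub_distrib]
  refine Finset.sum_congr rfl fun q _ => ?_
  rw [tr_Hs_apply, tr_Hs_apply]
  by_cases h1 : p.1 = q.1
  · have h3 : B p q = 0 := by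
      obtain ⟨p1, p2⟩ := p
      obtain ⟨q1, q2⟩ := q
      simp only at h1
      subst h1
      exact hB _ _ _
    rw [h3]; ring
  · by_cases h2 : q.1 = r.1
    · have h3 : C q r = 0 := by
        obtain ⟨r1, r2⟩ := r
        obtain ⟨q1, q2⟩ := q
        simp only at h2
        subst h2
        exact hC _ _ _
      rw [h3]; ring
    · have h4 := hs.cot p.1 q.1 r.1 h1 h2
      calc s p.1 q.1 * B p q * (s q.1 r.1 * C q r)
          = (s p.1 q.1 * s q.1 r.1) * (B p q * C q r) := by ring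
        _ = (s p.1 r.1 * (s p.1 q.1 + s q.1 r.1) - 1) * (B p q * C q r) := by rw [h4]
        _ = s p.1 r.1 * (s p.1 q.1 * B p q * C q r + B p q * (s q.1 r.1 * C q r))
            - B p q * C q r := by ring

lemma tr_square {s : I → I → ℝ} (hs : OrdKer s) (A : Matrix (I × d) (I × d) ℝ)
    (hA : ∀ i u v, A (i, u) (i, v) = 0) :
    (Hs s A)ᵀ * Hs s A = Aᵀ * A + Hs s ((Hs s A)ᵀ * A - Aᵀ * Hs s A) := by
  have h1 := tr_cotlar hs Aᵀ A (fun i u v => by rw [Matrix.transpose_apply]; exact hA _ _ _) hA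
  rw [tr_Hs_transpose hs A] at h1
  have h2 : Hs s (-(Hs s A)ᵀ * A + Aᵀ * Hs s A) = -Hs s ((Hs s A)ᵀ * A - Aᵀ * Hs s A) := by
    ext p q
    rw [Matrix.neg_apply, tr_Hs_apply, tr_Hs_apply, Matrix.add_apply, Matrix.sub_apply,
      Matrix.neg_mul, Matrix.neg_apply]
    ring
  rw [h2, Matrix.neg_mul] at h1
  have h3 : (Hs s A)ᵀ * Hs s A = -(-((Hs s A)ᵀ * Hs s A)) := by rw [neg_neg]
  rw [h3, h1]
  abel

lemma tr_diag {s : I → I → ℝ} (A : Matrix (I × d) (I × d) ℝ) (i : I) (u v : d) :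
    ((Hs s A)ᵀ * A - Aᵀ * Hs s A) (i, u) (i, v) = 0 := by
  rw [Matrix.sub_apply, Matrix.mul_apply, Matrix.mul_apply, ← Finset.sum_sub_distrib]
  refine Finset.sum_eq_zero fun q _ => ?_
  rw [Matrix.transpose_apply, Matrix.transpose_apply, tr_Hs_apply, tr_Hs_apply]
  ring

lemma tr_quad {f g c : ℝ} (hf : 0 ≤ f) (hg : 0 ≤ g) (hc : 0 ≤ c)
    (h : g ^ 2 ≤ f ^ 2 + c * (2 * (g * f))) : g ≤ (2 * c + 1) * f := by
  by_contra hcon
  rw [not_le] at hcon
  have h1 : 0 ≤ c * f := mul_nonneg hc hf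
  have h2 : f ≤ g := by nlinarith
  have h3 : 0 < g := by
    rcases eq_or_lt_of_le hg with h0 | h0
    · exfalso
      rw [← h0] at hcon
      nlinarith
    · exact h0
  nlinarith [mul_pos h3 (sub_pos.2 hcon), mul_nonneg hf (sub_nonneg.2 h2)]

/-- triangular truncation bound for matrices with zero diagonal blocks -/
theorem Nk_Hs_le (s : I → I → ℝ) (hs : OrdKer s) (k : ℕ) (A : Matrix (I × d) (I × d) ℝ)
    (hA : ∀ i u v, A (i, u) (i, v) = 0) :
    Nk k (Hs s A) ≤ ctr k * Nk k A := by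
  induction k generalizing A with
  | zero =>
    have h1 : ctr 0 = 1 := by unfold ctr; norm_num
    rw [h1, one_mul]
    have h2 : (Nk 0 (Hs s A)) ^ 2 ≤ (Nk 0 A) ^ 2 := by
      rw [Nk_zero_sq, Nk_zero_sq]
      refine Finset.sum_le_sum fun p _ => Finset.sum_le_sum fun q _ => ?_
      rw [tr_Hs_apply, mul_pow]
      by_cases h : p.1 = q.1
      · rw [h, hs.diag]
        have : 0 ≤ A p q ^ 2 := sq_nonneg _
        simpa using this
      · rw [hs.sq _ _ h, one_mul]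
    exact le_of_sq_le_sq h2 (Nk_nonneg 0 A)
  | succ k ih =>
    set D := (Hs s A)ᵀ * A - Aᵀ * Hs s A with hD
    have h1 : (Nk (k + 1) (Hs s A)) ^ 2 ≤ (Nk (k + 1) A) ^ 2 + Nk k (Hs s D) := by
      rw [Nk_succ_sq, Nk_succ_sq, tr_square hs A hA]
      exact Nk_add_le k _ _
    have h2 : Nk k (Hs s D) ≤ ctr k * Nk k D := ih D (fun i u v => tr_diag A i u v)
    have h3 : Nk k D ≤ 2 * (Nk (k + 1) (Hs s A) * Nk (k + 1) A) := by
      have e : D = (Hs s A)ᵀ * A + -(Aᵀ * Hs s A) := by rw [hD, sub_eq_add_neg]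
      rw [e]
      refine (Nk_add_le k _ _).trans ?_
      rw [Nk_neg]
      have e1 := Nk_mul_le k (Hs s A)ᵀ A
      have e2 := Nk_mul_le k Aᵀ (Hs s A)
      rw [Nk_transpose] at e1 e2
      linarith
    rw [tr_ctr_succ]
    refine tr_quad (Nk_nonneg _ _) (Nk_nonneg _ _) (tr_ctr_nonneg k) ?_
    have h4 := mul_le_mul_of_nonneg_left h3 (tr_ctr_nonneg k)
    linarith

end Vale.Agent.P075
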