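import Vale.Agent.P075.UGm

namespace Vale.Agent.P075

open Matrix

section gain

variable {τ : Type*} [Fintype τ] [DecidableEq τ]

theorem q_mul {m : ℝ} {C U V : Matrix τ τ ℝ} {c : τ → ℝ} (hU : Uᵀ * U = 1) (hV : Vᵀ * V = 1)
    (hC : C = U * diagonal c * Vᵀ) (X : Matrix τ τ ℝ) :
    (1 + m⁻¹ • (C * Cᵀ)) * (U * X) = U * (diagonal (fun k => 1 + m⁻¹ * c k ^ 2) * X) := by
  have h1 : C * Cᵀ = U * (diagonal (fun k => c k ^ 2) * Uᵀ) := by
    rw [hC]
    simp only [transpose_mul, transpose_transpose, diagonal_transpose]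
    have : U * diagonal c * Vᵀ * (V * (diagonal c * Uᵀ)) =
        U * (diagonal c * (Vᵀ * V) * diagonal c) * Uᵀ := by
      simp only [Matrix.mul_assoc]
    rw [this, hV, Matrix.mul_one, diagonal_mul_diagonal, Matrix.mul_assoc]
    simp only [pow_two]
  have h2 : (C * Cᵀ) * (U * X) = U * (diagonal (fun k => c k ^ 2) * X) := by
    rw [h1]
    have : U * (diagonal (fun k => c k ^ 2) * Uᵀ) * (U * X) =
        U * (diagonal (fun k => c k ^ 2) * (Uᵀ * U) * X) := by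
      simp only [Matrix.mul_assoc]
    rw [this, hU, Matrix.mul_one]
  rw [Matrix.add_mul, Matrix.one_mul, Matrix.smul_mul, h2]
  have h3 : (diagonal (fun k => 1 + m⁻¹ * c k ^ 2) : Matrix τ τ ℝ) =
      1 + m⁻¹ • diagonal (fun k => c k ^ 2) := by
    ext i j
    by_cases hij : i = j
    · subst hij
      simp
    · simp [hij]
  rw [h3, Matrix.add_mul, Matrix.one_mul, Matrix.smul_mul, Matrix.mul_add, Matrix.mul_smul]

/-- the trace of a conjugated product -/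
theorem trace_conj {U : Matrix τ τ ℝ} (hU : Uᵀ * U = 1) (X : Matrix τ τ ℝ) :
    trace (U * X * Uᵀ) = trace X := by
  rw [trace_mul_comm, ← Matrix.mul_assoc, hU, Matrix.one_mul]

omit [DecidableEq τ] in
theorem trace_mul_transpose_sum (X Y : Matrix τ τ ℝ) :
    trace (X * Yᵀ) = ∑ k, ∑ l, X k l * Y k l := by
  simp only [trace, diag_apply, mul_apply, transpose_apply]

omit [DecidableEq τ] in
theorem trace_blocks (X Y Z W : Matrix τ τ ℝ) :
    trace (fromBlocks X Y Z W) = trace X + trace W := by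
  simp [trace, Fintype.sum_sum_type]

theorem gain_abs {m : ℝ} (hm : 0 < m) {A C Ua Va Uc Vc Sg : Matrix τ τ ℝ} {a c : τ → ℝ}
    (hUa : Uaᵀ * Ua = 1) (hVa : Vaᵀ * Va = 1) (hUc : Ucᵀ * Uc = 1) (hVc : Vcᵀ * Vc = 1)
    (hA : A = Ua * diagonal a * Vaᵀ) (hC : C = Uc * diagonal c * Vcᵀ) (hSg : Sgᵀ = Sg)
    {Q₀ Q₁ : Matrix (τ ⊕ τ) (τ ⊕ τ) ℝ} (h₀ : Q₀.PosSemidef) (h₁ : Q₁.PosSemidef)
    (hsum : Q₀ + Q₁ = (fromCols A Cᵀ)ᵀ * fromCols A Cᵀ)
    (hdiff : Q₀ - Q₁ = (fromCols A Cᵀ)ᵀ * (Sg * fromCols A Cᵀ)) :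
    gm (2 * m) (Q₀ + Q₁) + m / 2 * ∑ k, ∑ l, (c k * a l * (Vcᵀ * Sg * Ua) k l) ^ 2 /
      ((m + c k ^ 2) * (m + a l ^ 2)) ≤ gm m Q₀ + gm m Q₁ := by
  set u := Vcᵀ * Sg * Ua with hu
  set M : Matrix τ τ ℝ := diagonal c * u * diagonal a with hM
  have hMkl : ∀ k l, M k l = c k * a l * u k l := by
    intro k l
    rw [hM, mul_diagonal, diagonal_mul]
    ring
  set gh : Matrix τ τ ℝ := Matrix.of fun k l =>
    M k l * (m / (2 * ((m + c k ^ 2) * (m + a l ^ 2)))) with hgh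
  set g := Uc * gh * Vaᵀ with hg
  have hCSA : C * Sg * A = Uc * M * Vaᵀ := by
    rw [hC, hA, hM, hu]
    simp only [Matrix.mul_assoc]
  -- linear term
  have hlin : trace ((Q₀ - Q₁) * fromBlocks 0 gᵀ g 0) = 2 * ∑ k, ∑ l, M k l * gh k l := by
    rw [hdiff, mul_fromCols, transpose_fromCols, fromRows_mul_fromCols, fromBlocks_multiply]
    simp only [Matrix.mul_zero, zero_add, add_zero, transpose_transpose]
    rw [trace_blocks]
    have e1 : trace (Aᵀ * (Sg * Cᵀ) * g) = trace (C * (Sg * A) * gᵀ) := by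
      rw [← trace_transpose]
      simp only [transpose_mul, transpose_transpose, hSg]
      rw [trace_mul_comm]
      simp only [Matrix.mul_assoc]
    have e2 : trace (C * (Sg * A) * gᵀ) = ∑ k, ∑ l, M k l * gh k l := by
      rw [← Matrix.mul_assoc C, hCSA, hg]
      simp only [transpose_mul, transpose_transpose]
      have : Uc * M * Vaᵀ * (Va * (ghᵀ * Ucᵀ)) = Uc * (M * (Vaᵀ * Va) * ghᵀ) * Ucᵀ := by
        simp only [Matrix.mul_assoc]
      rw [this, hVa, Matrix.mul_one, trace_conj hUc, trace_mul_transpose_sum]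
    rw [e1, e2]
    ring
  -- quadratic term
  set E : Matrix (τ ⊕ τ) (τ ⊕ τ) ℝ := fromBlocks (Aᵀ * A) 0 0 (C * Cᵀ) with hE
  have hPP : (1 + m⁻¹ • E : Matrix (τ ⊕ τ) (τ ⊕ τ) ℝ) =
      fromBlocks (1 + m⁻¹ • (Aᵀ * A)) 0 0 (1 + m⁻¹ • (C * Cᵀ)) := by
    rw [hE, fromBlocks_smul, ← fromBlocks_one, fromBlocks_add]
    simp
  have hquad : trace ((1 + m⁻¹ • E) * fromBlocks 0 gᵀ g 0 * (1 + m⁻¹ • E) * fromBlocks 0 gᵀ g 0) =
      2 * ∑ k, ∑ l, (1 + m⁻¹ * c k ^ 2) * (1 + m⁻¹ * a l ^ 2) * gh k l ^ 2 := by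
    rw [hPP]
    simp only [fromBlocks_multiply, Matrix.mul_zero, Matrix.zero_mul, zero_add, add_zero]
    rw [trace_blocks]
    have hq : (1 + m⁻¹ • (C * Cᵀ)) * g = Uc * (diagonal (fun k => 1 + m⁻¹ * c k ^ 2) * gh) * Vaᵀ := by
      rw [hg, Matrix.mul_assoc Uc, q_mul hUc hVc hC, ← Matrix.mul_assoc (diagonal _),
        ← Matrix.mul_assoc Uc]
    have hp : (1 + m⁻¹ • (Aᵀ * A)) * gᵀ =
        Va * (diagonal (fun k => 1 + m⁻¹ * a k ^ 2) * ghᵀ) * Ucᵀ := by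
      have hAt : Aᵀ = Va * diagonal a * Uaᵀ := by
        rw [hA]
        simp only [transpose_mul, transpose_transpose, diagonal_transpose, Matrix.mul_assoc]
      have := q_mul (m := m) hVa hUa hAt (ghᵀ * Ucᵀ)
      rw [transpose_transpose] at this
      rw [hg]
      simp only [transpose_mul, transpose_transpose]
      rw [this, ← Matrix.mul_assoc (diagonal _), ← Matrix.mul_assoc Va]
    have e1 : trace ((1 + m⁻¹ • (Aᵀ * A)) * gᵀ * (1 + m⁻¹ • (C * Cᵀ)) * g) =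
        trace ((1 + m⁻¹ • (C * Cᵀ)) * g * (1 + m⁻¹ • (Aᵀ * A)) * gᵀ) := by
      rw [Matrix.mul_assoc ((1 + m⁻¹ • (Aᵀ * A)) * gᵀ), trace_mul_comm, Matrix.mul_assoc,
        ← Matrix.mul_assoc]
      simp only [Matrix.mul_assoc]
    have e2 : trace ((1 + m⁻¹ • (C * Cᵀ)) * g * (1 + m⁻¹ • (Aᵀ * A)) * gᵀ) =
        ∑ k, ∑ l, (1 + m⁻¹ * c k ^ 2) * (1 + m⁻¹ * a l ^ 2) * gh k l ^ 2 := by
      rw [Matrix.mul_assoc ((1 + m⁻¹ • (C * Cᵀ)) * g), hp, hq]
      have : Uc * (diagonal (fun k => 1 + m⁻¹ * c k ^ 2) * gh) * Vaᵀ *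
          (Va * (diagonal (fun k => 1 + m⁻¹ * a k ^ 2) * ghᵀ) * Ucᵀ) =
          Uc * (diagonal (fun k => 1 + m⁻¹ * c k ^ 2) * gh * (Vaᵀ * Va) *
            (diagonal (fun k => 1 + m⁻¹ * a k ^ 2) * ghᵀ)) * Ucᵀ := by
        simp only [Matrix.mul_assoc]
      rw [this, hVa, Matrix.mul_one, trace_conj hUc, ← Matrix.mul_assoc, trace_mul_transpose_sum]
      refine Finset.sum_congr rfl fun k _ => Finset.sum_congr rfl fun l _ => ?_
      rw [mul_diagonal, diagonal_mul]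
      ring
    rw [e1, e2]
    ring
  have hEpsd : (E - (1 / 2 : ℝ) • (Q₀ + Q₁)).PosSemidef := by
    have h := psd_tmul (fromCols A (-Cᵀ))
    have e : E - (1 / 2 : ℝ) • (Q₀ + Q₁) = (1 / 2 : ℝ) • ((fromCols A (-Cᵀ))ᵀ * fromCols A (-Cᵀ)) := by
      rw [hsum, hE, transpose_fromCols, transpose_fromCols, fromRows_mul_fromCols,
        fromRows_mul_fromCols, fromBlocks_smul, fromBlocks_smul, sub_eq_add_neg, fromBlocks_neg,
        fromBlocks_add]
      simp only [transpose_transpose, transpose_neg, Matrix.neg_mul, Matrix.mul_neg, neg_neg,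
        zero_add, smul_neg]
      congr 1
      · module
      · module
    rw [e]
    exact h.smul (by norm_num)
  have hζ : (fromBlocks 0 gᵀ g 0 : Matrix (τ ⊕ τ) (τ ⊕ τ) ℝ)ᵀ = fromBlocks 0 gᵀ g 0 := by
    rw [fromBlocks_transpose]
    simp
  have h := gm_gain hm h₀ h₁ hζ hEpsd
  rw [hlin, hquad] at h
  refine le_trans (le_of_eq ?_) h
  congr 1
  rw [Finset.mul_sum, Finset.mul_sum, Finset.mul_sum, Finset.mul_sum, ← Finset.sum_sub_distrib]
  refine Finset.sum_congr rfl fun k _ => ?_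
  rw [Finset.mul_sum, Finset.mul_sum, Finset.mul_sum, Finset.mul_sum, ← Finset.sum_sub_distrib]
  refine Finset.sum_congr rfl fun l _ => ?_
  rw [← hMkl k l, hgh, Matrix.of_apply]
  have h1 : 0 < m + c k ^ 2 := by positivity
  have h2 : 0 < m + a l ^ 2 := by positivity
  field_simp
  ring

end gain

end Vale.Agent.P075
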