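import Mathlib

namespace Vale.Agent.P075

open Matrix Finset

variable {κ : Type*} [Fintype κ] [DecidableEq κ]

/-- an isometry does not increase bilinear sums -/
theorem URegion_bil (v : Matrix κ κ ℝ) (hv : vᵀ * v = 1) (x y : κ → ℝ) :
    |∑ l, ∑ m, x l * v l m * y m| ≤ (∑ l, x l ^ 2 + ∑ m, y m ^ 2) / 2 := by
  have hiso : ∑ l, (∑ m, v l m * y m) ^ 2 = ∑ m, y m ^ 2 := by
    have h1 : ∀ m m' : κ, ∑ l, v l m * v l m' = if m = m' then 1 else 0 := by
      intro m m'
      have := congrFun (congrFun hv m) m'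
      rw [Matrix.mul_apply, Matrix.one_apply] at this
      simpa [Matrix.transpose_apply] using this
    calc ∑ l, (∑ m, v l m * y m) ^ 2 = ∑ l, ∑ m, ∑ m', (v l m * v l m') * (y m * y m') := by
          refine Finset.sum_congr rfl fun l _ => ?_
          rw [sq, Finset.sum_mul_sum]
          refine Finset.sum_congr rfl fun m _ => Finset.sum_congr rfl fun m' _ => ?_
          ring
      _ = ∑ m, ∑ m', (∑ l, v l m * v l m') * (y m * y m') := by
          rw [Finset.sum_comm]
          refine Finset.sum_congr rfl fun m _ => ?_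
          rw [Finset.sum_comm]
          refine Finset.sum_congr rfl fun m' _ => ?_
          rw [Finset.sum_mul]
      _ = ∑ m, y m ^ 2 := by
          refine Finset.sum_congr rfl fun m _ => ?_
          simp only [h1, ite_mul, one_mul, zero_mul, Finset.sum_ite_eq, Finset.mem_univ, if_true]
          ring
  have e : ∑ l, ∑ m, x l * v l m * y m = ∑ l, x l * (∑ m, v l m * y m) := by
    refine Finset.sum_congr rfl fun l _ => ?_
    rw [Finset.mul_sum]
    exact Finset.sum_congr rfl fun m _ => by ring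
  rw [e, ← hiso, ← Finset.sum_add_distrib, Finset.sum_div]
  refine (Finset.abs_sum_le_sum_abs _ _).trans (Finset.sum_le_sum fun l _ => ?_)
  rw [abs_le]
  constructor <;> nlinarith [sq_nonneg (x l - ∑ m, v l m * y m), sq_nonneg (x l + ∑ m, v l m * y m)]

theorem URegion_scalar {c a x : ℝ} (ha : 0 ≤ a) (hac : a ≤ c) :
    c * (a * x) ^ 2 / 2 ≤ (c * a * x) ^ 2 / (c + a) := by
  have hc : 0 ≤ c := ha.trans hac
  rcases eq_or_lt_of_le hc with h | h
  · rw [← h]
    have : a = 0 := le_antisymm (by rw [h]; exact hac) ha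
    rw [this]; simp
  · rw [div_le_div_iff₀ (by norm_num) (by linarith)]
    have h2 : 0 ≤ (a * x) ^ 2 * (c * (c - a)) :=
      mul_nonneg (sq_nonneg _) (mul_nonneg hc (by linarith))
    nlinarith

/-- one region -/
theorem URegion_part (a b c : κ → ℝ) (ha : ∀ i, 0 ≤ a i) (hb : ∀ i, 0 ≤ b i) (hc : ∀ i, 0 ≤ c i)
    (u v w : Matrix κ κ ℝ) (hv : vᵀ * v = 1) (P Q : κ → κ → Prop)
    [∀ k l, Decidable (P k l)] [∀ k m, Decidable (Q k m)]
    (hP : ∀ k l, P k l → a l ≤ c k) (hQ : ∀ k m, Q k m → b m ≤ c k) :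
    |∑ k, ∑ l, ∑ m, if P k l ∧ Q k m then (c k * a l * b m) * (u k l * v l m * w m k) else 0| ≤
      (∑ k, ∑ l, if P k l then (c k * a l * u k l) ^ 2 / (c k + a l) else 0) +
      (∑ m, ∑ k, if Q k m then (b m * c k * w m k) ^ 2 / (b m + c k) else 0) := by
  have hk : ∀ k, |∑ l, ∑ m, if P k l ∧ Q k m then (c k * a l * b m) * (u k l * v l m * w m k)
      else 0| ≤ (∑ l, if P k l then (c k * a l * u k l) ^ 2 / (c k + a l) else 0) +
      (∑ m, if Q k m then (b m * c k * w m k) ^ 2 / (b m + c k) else 0) := by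
    intro k
    set x : κ → ℝ := fun l => if P k l then a l * u k l else 0 with hx
    set y : κ → ℝ := fun m => if Q k m then b m * w m k else 0 with hy
    have e : ∑ l, ∑ m, (if P k l ∧ Q k m then (c k * a l * b m) * (u k l * v l m * w m k)
        else 0) = c k * ∑ l, ∑ m, x l * v l m * y m := by
      rw [Finset.mul_sum]
      refine Finset.sum_congr rfl fun l _ => ?_
      rw [Finset.mul_sum]
      refine Finset.sum_congr rfl fun m _ => ?_
      simp only [hx, hy]
      by_cases h1 : P k l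
      · by_cases h2 : Q k m
        · rw [if_pos ⟨h1, h2⟩, if_pos h1, if_pos h2]; ring
        · rw [if_neg (fun h => h2 h.2), if_neg h2]; ring
      · rw [if_neg (fun h => h1 h.1), if_neg h1]; ring
    rw [e, abs_mul, abs_of_nonneg (hc k)]
    calc c k * |∑ l, ∑ m, x l * v l m * y m| ≤ c k * ((∑ l, x l ^ 2 + ∑ m, y m ^ 2) / 2) :=
          mul_le_mul_of_nonneg_left (URegion_bil v hv x y) (hc k)
      _ = (∑ l, c k * x l ^ 2 / 2) + (∑ m, c k * y m ^ 2 / 2) := by
          rw [← Finset.sum_div, ← Finset.sum_div, ← Finset.mul_sum, ← Finset.mul_sum]; ring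
      _ ≤ _ := by
          refine add_le_add (Finset.sum_le_sum fun l _ => ?_) (Finset.sum_le_sum fun m _ => ?_)
          · simp only [hx]
            split_ifs with h
            · exact URegion_scalar (ha l) (hP k l h)
            · simp
          · simp only [hy]
            split_ifs with h
            · have := URegion_scalar (x := w m k) (hb m) (hQ k m h)
              rw [mul_comm (b m) (c k), add_comm (b m) (c k)]
              exact this
            · simp
  calc _ ≤ ∑ k, |∑ l, ∑ m, if P k l ∧ Q k m then (c k * a l * b m) * (u k l * v l m * w m k)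
        else 0| := Finset.abs_sum_le_sum_abs _ _
    _ ≤ ∑ k, ((∑ l, if P k l then (c k * a l * u k l) ^ 2 / (c k + a l) else 0) +
      (∑ m, if Q k m then (b m * c k * w m k) ^ 2 / (b m + c k) else 0)) :=
        Finset.sum_le_sum fun k _ => hk k
    _ = _ := by
        rw [Finset.sum_add_distrib]
        congr 1
        rw [Finset.sum_comm]

/-- trilinear sum with three orthogonal matrices: split according to which of a l, b m, c k is the
largest. If c k is the largest: for fixed k the sum over l, m (with a l ≤ c k, b m ≤ c k) is a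
bilinear form of v, a contraction, in (a l * u k l)_l and (b m * w m k)_m; then AM-GM and
c a^2 ≤ 2 c^2 a^2/(c+a) for a ≤ c. -/
theorem region (a b c : κ → ℝ) (ha : ∀ i, 0 ≤ a i) (hb : ∀ i, 0 ≤ b i) (hc : ∀ i, 0 ≤ c i)
    (u v w : Matrix κ κ ℝ) (hu : uᵀ * u = 1) (hv : vᵀ * v = 1) (hw : wᵀ * w = 1) :
    |∑ k, ∑ l, ∑ m, (c k * a l * b m) * (u k l * v l m * w m k)| ≤
      (∑ k, ∑ l, (c k * a l * u k l) ^ 2 / (c k + a l)) +
      (∑ l, ∑ m, (a l * b m * v l m) ^ 2 / (a l + b m)) +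
      (∑ m, ∑ k, (b m * c k * w m k) ^ 2 / (b m + c k)) := by
  classical
  have p1 := URegion_part a b c ha hb hc u v w hv (fun k l => a l ≤ c k) (fun k m => b m ≤ c k)
    (fun _ _ h => h) (fun _ _ h => h)
  have p2 := URegion_part b c a hb hc ha v w u hw (fun l m => b m ≤ a l) (fun l k => c k < a l)
    (fun _ _ h => h) (fun _ _ h => h.le)
  have p3 := URegion_part c a b hc ha hb w u v hu (fun m k => c k < b m) (fun m l => a l < b m)
    (fun _ _ h => h.le) (fun _ _ h => h.le)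
  set S1 := ∑ k, ∑ l, ∑ m, (if a l ≤ c k ∧ b m ≤ c k then
    (c k * a l * b m) * (u k l * v l m * w m k) else 0) with hS1
  set S2 := ∑ l, ∑ m, ∑ k, (if b m ≤ a l ∧ c k < a l then
    (a l * b m * c k) * (v l m * w m k * u k l) else 0) with hS2
  set S3 := ∑ m, ∑ k, ∑ l, (if c k < b m ∧ a l < b m then
    (b m * c k * a l) * (w m k * u k l * v l m) else 0) with hS3
  have e2 : S2 = ∑ k, ∑ l, ∑ m, (if b m ≤ a l ∧ c k < a l then
    (a l * b m * c k) * (v l m * w m k * u k l) else 0) := by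
    rw [hS2]
    calc _ = ∑ l, ∑ k, ∑ m, (if b m ≤ a l ∧ c k < a l then
        (a l * b m * c k) * (v l m * w m k * u k l) else 0) :=
          Finset.sum_congr rfl fun l _ => Finset.sum_comm
      _ = _ := Finset.sum_comm
  have e3 : S3 = ∑ k, ∑ l, ∑ m, (if c k < b m ∧ a l < b m then
    (b m * c k * a l) * (w m k * u k l * v l m) else 0) := by
    rw [hS3]
    calc _ = ∑ k, ∑ m, ∑ l, (if c k < b m ∧ a l < b m then
        (b m * c k * a l) * (w m k * u k l * v l m) else 0) := Finset.sum_comm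
      _ = _ := Finset.sum_congr rfl fun l _ => Finset.sum_comm
  have etot : ∑ k, ∑ l, ∑ m, (c k * a l * b m) * (u k l * v l m * w m k) = S1 + S2 + S3 := by
    rw [e2, e3, hS1, ← Finset.sum_add_distrib, ← Finset.sum_add_distrib]
    refine Finset.sum_congr rfl fun k _ => ?_
    rw [← Finset.sum_add_distrib, ← Finset.sum_add_distrib]
    refine Finset.sum_congr rfl fun l _ => ?_
    rw [← Finset.sum_add_distrib, ← Finset.sum_add_distrib]
    refine Finset.sum_congr rfl fun m _ => ?_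
    rcases le_or_gt (a l) (c k) with h1 | h1
    · rcases le_or_gt (b m) (c k) with h2 | h2
      · rw [if_pos ⟨h1, h2⟩, if_neg (fun h => absurd h.2 (not_lt.mpr h1)),
          if_neg (fun h => absurd h.1 (not_lt.mpr h2))]
        ring
      · rw [if_neg (fun h => absurd h.2 (not_le.mpr h2)),
          if_neg (fun h => absurd h.2 (not_lt.mpr h1)), if_pos ⟨h2, lt_of_le_of_lt h1 h2⟩]
        ring
    · rcases le_or_gt (b m) (a l) with h2 | h2
      · rw [if_neg (fun h => absurd h.1 (not_le.mpr h1)), if_pos ⟨h2, h1⟩,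
          if_neg (fun h => absurd h.2 (not_lt.mpr h2))]
        ring
      · rw [if_neg (fun h => absurd h.1 (not_le.mpr h1)),
          if_neg (fun h => absurd h.1 (not_le.mpr h2)), if_pos ⟨h1.trans h2, h2⟩]
        ring
  have eU : ∑ k, ∑ l, (c k * a l * u k l) ^ 2 / (c k + a l) =
      (∑ k, ∑ l, if a l ≤ c k then (c k * a l * u k l) ^ 2 / (c k + a l) else 0) +
      (∑ k, ∑ l, if c k < a l then (c k * a l * u k l) ^ 2 / (c k + a l) else 0) := by
    rw [← Finset.sum_add_distrib]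
    refine Finset.sum_congr rfl fun k _ => ?_
    rw [← Finset.sum_add_distrib]
    refine Finset.sum_congr rfl fun l _ => ?_
    rcases le_or_gt (a l) (c k) with h | h
    · rw [if_pos h, if_neg (not_lt.mpr h), add_zero]
    · rw [if_neg (not_le.mpr h), if_pos h, zero_add]
  have eV : ∑ l, ∑ m, (a l * b m * v l m) ^ 2 / (a l + b m) =
      (∑ l, ∑ m, if b m ≤ a l then (a l * b m * v l m) ^ 2 / (a l + b m) else 0) +
      (∑ l, ∑ m, if a l < b m then (a l * b m * v l m) ^ 2 / (a l + b m) else 0) := by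
    rw [← Finset.sum_add_distrib]
    refine Finset.sum_congr rfl fun k _ => ?_
    rw [← Finset.sum_add_distrib]
    refine Finset.sum_congr rfl fun l _ => ?_
    rcases le_or_gt (b l) (a k) with h | h
    · rw [if_pos h, if_neg (not_lt.mpr h), add_zero]
    · rw [if_neg (not_le.mpr h), if_pos h, zero_add]
  have eW : ∑ m, ∑ k, (b m * c k * w m k) ^ 2 / (b m + c k) =
      (∑ m, ∑ k, if b m ≤ c k then (b m * c k * w m k) ^ 2 / (b m + c k) else 0) +
      (∑ m, ∑ k, if c k < b m then (b m * c k * w m k) ^ 2 / (b m + c k) else 0) := by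
    rw [← Finset.sum_add_distrib]
    refine Finset.sum_congr rfl fun k _ => ?_
    rw [← Finset.sum_add_distrib]
    refine Finset.sum_congr rfl fun l _ => ?_
    rcases le_or_gt (b k) (c l) with h | h
    · rw [if_pos h, if_neg (not_lt.mpr h), add_zero]
    · rw [if_neg (not_le.mpr h), if_pos h, zero_add]
  rw [etot, eU, eV, eW]
  have t := (abs_add_le (S1 + S2) S3).trans (add_le_add (abs_add_le S1 S2) le_rfl)
  linarith

/-- choice of the dyadic scale j = Int.log 2 (max a c) -/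
theorem pick (x a c : κ → κ → ℝ) (ha : ∀ k l, 0 ≤ a k l) (hc : ∀ k l, 0 ≤ c k l)
    (hx : ∀ k l, a k l + c k l = 0 → x k l = 0) :
    ∃ J₀ : Finset ℤ, ∀ J : Finset ℤ, J₀ ⊆ J →
      ∑ k, ∑ l, (x k l) ^ 2 / (c k l + a k l) ≤
        36 * ∑ j ∈ J, (2 : ℝ) ^ j * ((2 * ((2 : ℝ) ^ j) ^ 2) / 2 *
          ∑ k, ∑ l, (x k l) ^ 2 / ((2 * ((2 : ℝ) ^ j) ^ 2 + c k l ^ 2) *
            (2 * ((2 : ℝ) ^ j) ^ 2 + a k l ^ 2))) := by
  classical
  refine ⟨Finset.univ.image (fun p : κ × κ => Int.log 2 (max (a p.1 p.2) (c p.1 p.2))),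
    fun J hJ => ?_⟩
  have e : 36 * ∑ j ∈ J, (2 : ℝ) ^ j * ((2 * ((2 : ℝ) ^ j) ^ 2) / 2 *
          ∑ k, ∑ l, (x k l) ^ 2 / ((2 * ((2 : ℝ) ^ j) ^ 2 + c k l ^ 2) *
            (2 * ((2 : ℝ) ^ j) ^ 2 + a k l ^ 2))) =
      ∑ k, ∑ l, ∑ j ∈ J, 36 * ((2 : ℝ) ^ j * ((2 * ((2 : ℝ) ^ j) ^ 2) / 2 *
          ((x k l) ^ 2 / ((2 * ((2 : ℝ) ^ j) ^ 2 + c k l ^ 2) *
            (2 * ((2 : ℝ) ^ j) ^ 2 + a k l ^ 2))))) := by
    rw [Finset.mul_sum]
    simp only [Finset.mul_sum]
    rw [Finset.sum_comm]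
    refine Finset.sum_congr rfl fun k _ => ?_
    rw [Finset.sum_comm]
  rw [e]
  refine Finset.sum_le_sum fun k _ => Finset.sum_le_sum fun l _ => ?_
  have hnn : ∀ j ∈ J, 0 ≤ 36 * ((2 : ℝ) ^ j * ((2 * ((2 : ℝ) ^ j) ^ 2) / 2 *
          ((x k l) ^ 2 / ((2 * ((2 : ℝ) ^ j) ^ 2 + c k l ^ 2) *
            (2 * ((2 : ℝ) ^ j) ^ 2 + a k l ^ 2))))) := fun j _ => by positivity
  have ha' := ha k l
  have hc' := hc k l
  rcases eq_or_lt_of_le (add_nonneg ha' hc') with h0 | h0
  · rw [hx k l h0.symm]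
    simp
  · set M := max (a k l) (c k l) with hM
    have hMpos : 0 < M := by
      by_contra hcon
      push Not at hcon
      have h1 := le_max_left (a k l) (c k l)
      have h2 := le_max_right (a k l) (c k l)
      linarith
    set j := Int.log 2 M with hj
    have hjJ : j ∈ J := hJ (Finset.mem_image.mpr ⟨(k, l), Finset.mem_univ _, rfl⟩)
    refine le_trans ?_ (Finset.single_le_sum hnn hjJ)
    have h1 : (2 : ℝ) ^ j ≤ M := by
      have := Int.zpow_log_le_self (b := 2) (r := M) (by norm_num) hMpos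
      exact_mod_cast this
    have h2 : M < (2 : ℝ) ^ (j + 1) := by
      have := Int.lt_zpow_succ_log_self (b := 2) (by norm_num) M
      exact_mod_cast this
    rw [zpow_add_one₀ (by norm_num)] at h2
    set q : ℝ := (2 : ℝ) ^ j with hq
    have hq0 : 0 < q := by positivity
    have hcM : c k l ≤ 2 * q := (le_max_right _ _).trans (by linarith)
    have haM : a k l ≤ 2 * q := (le_max_left _ _).trans (by linarith)
    have hsum : q ≤ c k l + a k l := by
      rcases max_choice (a k l) (c k l) with h | h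
      · rw [← hM] at h; linarith
      · rw [← hM] at h; linarith
    have hc2 : c k l ^ 2 ≤ 4 * q ^ 2 := by nlinarith
    have ha2 : a k l ^ 2 ≤ 4 * q ^ 2 := by nlinarith
    have hden : (2 * q ^ 2 + c k l ^ 2) * (2 * q ^ 2 + a k l ^ 2) ≤ 36 * q ^ 4 := by
      calc _ ≤ (6 * q ^ 2) * (6 * q ^ 2) := by
            apply mul_le_mul <;> nlinarith [sq_nonneg (a k l)]
        _ = 36 * q ^ 4 := by ring
    have hdpos : 0 < (2 * q ^ 2 + c k l ^ 2) * (2 * q ^ 2 + a k l ^ 2) := by positivity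
    calc x k l ^ 2 / (c k l + a k l) ≤ x k l ^ 2 / q :=
          div_le_div_of_nonneg_left (sq_nonneg _) hq0 hsum
      _ = 36 * (q * ((2 * q ^ 2) / 2 * (x k l ^ 2 / (36 * q ^ 4)))) := by
          field_simp
      _ ≤ _ := by
          refine mul_le_mul_of_nonneg_left ?_ (by norm_num)
          refine mul_le_mul_of_nonneg_left ?_ hq0.le
          refine mul_le_mul_of_nonneg_left ?_ (by positivity)
          exact div_le_div_of_nonneg_left (sq_nonneg _) hdpos hden

theorem URegion_geom (J : Finset ℤ) : ∀ n : ℤ, (∀ k ∈ J, k ≤ n) →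
    ∑ k ∈ J, (2 : ℝ) ^ k ≤ 2 ^ (n + 1) := by
  induction J using Finset.induction_on_max with
  | empty => intro n _; simp; positivity
  | insert a s hs ih =>
    intro n hn
    have ha : a ≤ n := hn a (Finset.mem_insert_self _ _)
    rw [Finset.sum_insert (fun h => lt_irrefl _ (hs a h))]
    have h1 := ih (a - 1) (fun k hk => by have := hs k hk; omega)
    rw [sub_add_cancel] at h1
    calc (2 : ℝ) ^ a + ∑ k ∈ s, (2 : ℝ) ^ k ≤ 2 ^ a + 2 ^ a := by linarith
      _ = 2 ^ (a + 1) := by rw [zpow_add_one₀ (by norm_num)]; ring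
      _ ≤ 2 ^ (n + 1) := zpow_le_zpow_right₀ (by norm_num) (by omega)

theorem URegion_geom' (J : Finset ℤ) (n : ℤ) (h : ∀ k ∈ J, n ≤ k) :
    ∑ k ∈ J, (2 : ℝ) ^ (-k) ≤ 2 ^ (-n + 1) := by
  have h1 := URegion_geom (J.image (fun k => -k)) (-n) (by
    intro k hk
    obtain ⟨k', hk', rfl⟩ := Finset.mem_image.mp hk
    have := h k' hk'
    omega)
  rwa [Finset.sum_image (fun a _ b _ hab => by simpa using hab)] at h1

/-- f_ν(t) = t - ν² log (1 + t/ν²), ν = 2^k: the weighted sum over any finite set of dyadic ν is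
at most a constant times t^(3/2). (0 ≤ f_ν(t) ≤ min t (t²/(2ν²)).) -/
theorem dyadic_sum : ∃ C : ℝ, 0 < C ∧ ∀ (J : Finset ℤ) (t : ℝ), 0 ≤ t →
    ∑ k ∈ J, (2 : ℝ) ^ k * (t - ((2 : ℝ) ^ k) ^ 2 * Real.log (1 + (((2 : ℝ) ^ k) ^ 2)⁻¹ * t)) ≤
      C * t ^ ((3 : ℝ) / 2) := by
  classical
  refine ⟨4, by norm_num, fun J t ht => ?_⟩
  rcases eq_or_lt_of_le ht with h0 | h0
  · rw [← h0]
    simp
  · set s : ℝ := Real.sqrt t with hs
    have hs0 : 0 < s := Real.sqrt_pos.mpr h0
    have hs2 : s ^ 2 = t := Real.sq_sqrt ht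
    have hpow : t ^ ((3 : ℝ) / 2) = s ^ 3 := by
      rw [← hs2, ← Real.rpow_natCast s 2, ← Real.rpow_mul hs0.le, ← Real.rpow_natCast s 3]
      norm_num
    rw [hpow]
    set n := Int.log 2 s with hn
    have h1 : (2 : ℝ) ^ n ≤ s := by
      have := Int.zpow_log_le_self (b := 2) (r := s) (by norm_num) hs0
      exact_mod_cast this
    have h2 : s < (2 : ℝ) ^ (n + 1) := by
      have := Int.lt_zpow_succ_log_self (b := 2) (by norm_num) s
      exact_mod_cast this
    -- pointwise bounds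
    have b1 : ∀ k : ℤ, (2 : ℝ) ^ k * (t - ((2 : ℝ) ^ k) ^ 2 *
        Real.log (1 + (((2 : ℝ) ^ k) ^ 2)⁻¹ * t)) ≤ t * 2 ^ k := by
      intro k
      have hq : (0 : ℝ) < 2 ^ k := by positivity
      have hl : 0 ≤ Real.log (1 + (((2 : ℝ) ^ k) ^ 2)⁻¹ * t) :=
        Real.log_nonneg (by have : 0 ≤ (((2 : ℝ) ^ k) ^ 2)⁻¹ * t := by positivity
                            linarith)
      have : 0 ≤ ((2 : ℝ) ^ k) ^ 2 * Real.log (1 + (((2 : ℝ) ^ k) ^ 2)⁻¹ * t) := by positivity
      rw [mul_comm t]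
      exact mul_le_mul_of_nonneg_left (by linarith) hq.le
    have b2 : ∀ k : ℤ, (2 : ℝ) ^ k * (t - ((2 : ℝ) ^ k) ^ 2 *
        Real.log (1 + (((2 : ℝ) ^ k) ^ 2)⁻¹ * t)) ≤ t ^ 2 / 2 * 2 ^ (-k) := by
      intro k
      set q : ℝ := (2 : ℝ) ^ k with hq'
      have hq : 0 < q := by positivity
      set y : ℝ := (q ^ 2)⁻¹ * t with hy
      have hy0 : 0 ≤ y := by positivity
      have hlog : y - y ^ 2 / 2 ≤ Real.log (1 + y) := by
        have h := Real.le_log_one_add_of_nonneg hy0
        refine le_trans ?_ h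
        rw [le_div_iff₀ (by linarith)]
        nlinarith [pow_nonneg hy0 3, sq_nonneg y]
      have e1 : q ^ 2 * y = t := by rw [hy]; field_simp
      have e2 : q ^ 2 * (y ^ 2 / 2) = t ^ 2 / 2 / q ^ 2 := by rw [hy]; field_simp
      have h3 : t - q ^ 2 * Real.log (1 + y) ≤ t ^ 2 / 2 / q ^ 2 := by
        have := mul_le_mul_of_nonneg_left hlog (by positivity : 0 ≤ q ^ 2)
        rw [mul_sub, e1, e2] at this
        linarith
      calc q * (t - q ^ 2 * Real.log (1 + y)) ≤ q * (t ^ 2 / 2 / q ^ 2) :=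
            mul_le_mul_of_nonneg_left h3 hq.le
        _ = t ^ 2 / 2 * 2 ^ (-k) := by
            rw [_root_.zpow_neg, ← hq']; field_simp
    rw [← Finset.sum_filter_add_sum_filter_not J (fun k => k ≤ n)]
    have s1 : ∑ k ∈ J.filter (fun k => k ≤ n), (2 : ℝ) ^ k * (t - ((2 : ℝ) ^ k) ^ 2 *
        Real.log (1 + (((2 : ℝ) ^ k) ^ 2)⁻¹ * t)) ≤ 2 * s ^ 3 := by
      calc _ ≤ ∑ k ∈ J.filter (fun k => k ≤ n), t * 2 ^ k := Finset.sum_le_sum fun k _ => b1 k
        _ = t * ∑ k ∈ J.filter (fun k => k ≤ n), (2 : ℝ) ^ k := by rw [Finset.mul_sum]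
        _ ≤ t * 2 ^ (n + 1) := mul_le_mul_of_nonneg_left
            (URegion_geom _ n fun k hk => (Finset.mem_filter.mp hk).2) ht
        _ ≤ t * (2 * s) := by
            refine mul_le_mul_of_nonneg_left ?_ ht
            rw [zpow_add_one₀ (by norm_num)]; linarith
        _ = 2 * s ^ 3 := by rw [← hs2]; ring
    have s2 : ∑ k ∈ J.filter (fun k => ¬ k ≤ n), (2 : ℝ) ^ k * (t - ((2 : ℝ) ^ k) ^ 2 *
        Real.log (1 + (((2 : ℝ) ^ k) ^ 2)⁻¹ * t)) ≤ 2 * s ^ 3 := by
      calc _ ≤ ∑ k ∈ J.filter (fun k => ¬ k ≤ n), t ^ 2 / 2 * 2 ^ (-k) :=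
            Finset.sum_le_sum fun k _ => b2 k
        _ = t ^ 2 / 2 * ∑ k ∈ J.filter (fun k => ¬ k ≤ n), (2 : ℝ) ^ (-k) := by
            rw [Finset.mul_sum]
        _ ≤ t ^ 2 / 2 * 2 ^ (-(n + 1) + 1) := mul_le_mul_of_nonneg_left
            (URegion_geom' _ (n + 1) fun k hk => by
              have := (Finset.mem_filter.mp hk).2
              omega) (by positivity)
        _ ≤ t ^ 2 / 2 * (2 / s) := by
            refine mul_le_mul_of_nonneg_left ?_ (by positivity)
            rw [zpow_add_one₀ (by norm_num), _root_.zpow_neg, le_div_iff₀ hs0]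
            have hp : (0 : ℝ) < 2 ^ (n + 1) := by positivity
            have : ((2 : ℝ) ^ (n + 1))⁻¹ * s ≤ 1 := by
              rw [inv_mul_le_iff₀ hp]; linarith
            linarith
        _ = s ^ 3 := by rw [← hs2]; field_simp
        _ ≤ 2 * s ^ 3 := by have : 0 ≤ s ^ 3 := by positivity
                            linarith
    linarith

end Vale.Agent.P075
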