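import Mathlib

namespace Vale.Agent.P075

open Matrix

theorem svd_inner {κ : Type*} [Fintype κ] (x y : EuclideanSpace ℝ κ) :
    inner ℝ x y = ∑ i, x i * y i := by
  rw [PiLp.inner_apply]
  refine Finset.sum_congr rfl fun i _ => ?_
  simp [mul_comm]

/-- singular value decomposition of a real square matrix -/
theorem real_svd {κ : Type*} [Fintype κ] [DecidableEq κ] (A : Matrix κ κ ℝ) :
    ∃ (U V : Matrix κ κ ℝ) (a : κ → ℝ), Uᵀ * U = 1 ∧ Vᵀ * V = 1 ∧ (∀ i, 0 ≤ a i) ∧
      A = U * Matrix.diagonal a * Vᵀ := by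
  have hP : (Aᵀ * A).PosSemidef := by
    have h := posSemidef_conjTranspose_mul_self A
    rwa [conjTranspose_eq_transpose_of_trivial] at h
  have hH : (Aᵀ * A).IsHermitian := hP.isHermitian
  set e := hH.eigenvectorBasis with he
  set lam := hH.eigenvalues with hlam
  have hlam0 : ∀ i, 0 ≤ lam i := hP.eigenvalues_nonneg
  have hev : ∀ j, (Aᵀ * A) *ᵥ (e j : κ → ℝ) = lam j • (e j : κ → ℝ) :=
    fun j => hH.mulVec_eigenvectorBasis j
  set a : κ → ℝ := fun i => Real.sqrt (lam i) with ha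
  have ha0 : ∀ i, 0 ≤ a i := fun i => Real.sqrt_nonneg _
  have ha2 : ∀ i, a i * a i = lam i := fun i => Real.mul_self_sqrt (hlam0 i)
  have heo : ∀ i j, ∑ k, e i k * e j k = if i = j then 1 else 0 := by
    intro i j
    rw [← svd_inner]
    exact orthonormal_iff_ite.1 e.orthonormal i j
  set V : Matrix κ κ ℝ := Matrix.of fun i j => e j i with hV
  have hVV : Vᵀ * V = 1 := by
    ext i j
    rw [mul_apply, Matrix.one_apply, ← heo i j]
    rfl
  set w : κ → EuclideanSpace ℝ κ := fun j => WithLp.toLp 2 (A *ᵥ (e j : κ → ℝ)) with hw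
  have hww : ∀ i j, inner ℝ (w i) (w j) = if i = j then lam j else 0 := by
    intro i j
    rw [svd_inner]
    have h1 : ∑ k, w i k * w j k = (A *ᵥ (e i : κ → ℝ)) ⬝ᵥ (A *ᵥ (e j : κ → ℝ)) := rfl
    have h2 : (A *ᵥ (e i : κ → ℝ)) ⬝ᵥ (A *ᵥ (e j : κ → ℝ)) =
        (e i : κ → ℝ) ⬝ᵥ ((Aᵀ * A) *ᵥ (e j : κ → ℝ)) := by
      rw [← mulVec_mulVec, dotProduct_mulVec (e i : κ → ℝ) Aᵀ, vecMul_transpose]
    rw [h1, h2, hev j, dotProduct_smul, smul_eq_mul]
    have h3 : (e i : κ → ℝ) ⬝ᵥ (e j : κ → ℝ) = if i = j then 1 else 0 := heo i j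
    rw [h3]
    split_ifs <;> simp
  set s : Set κ := {j | a j ≠ 0} with hs
  have hon : Orthonormal ℝ (s.domRestrict fun j => (a j)⁻¹ • w j) := by
    rw [orthonormal_iff_ite]
    rintro ⟨i, hi⟩ ⟨j, hj⟩
    simp only [Set.domRestrict_apply, inner_smul_left, inner_smul_right, hww, Subtype.mk.injEq]
    by_cases hij : i = j
    · subst hij
      simp only [if_true]
      have hi' : a i ≠ 0 := hi
      rw [← ha2]
      simp only [conj_trivial]
      field_simp
    · simp [hij]
  obtain ⟨b, hb⟩ := hon.exists_orthonormalBasis_extension_of_card_eq (by simp)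
  refine ⟨Matrix.of fun i j => b j i, V, a, ?_, hVV, ha0, ?_⟩
  · ext i j
    rw [mul_apply, Matrix.one_apply]
    have := orthonormal_iff_ite.1 b.orthonormal i j
    rw [svd_inner] at this
    rw [← this]
    rfl
  · have hVV' : V * Vᵀ = 1 := mul_eq_one_comm.1 hVV
    have hAV : A * V = (Matrix.of fun i j => b j i) * diagonal a := by
      ext i j
      rw [mul_diagonal, Matrix.of_apply]
      have h1 : (A * V) i j = w j i := by
        rw [mul_apply]
        rfl
      rw [h1]
      by_cases hj : a j = 0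
      · have h2 : w j = 0 := by
          have h3 := hww j j
          rw [if_pos rfl, ← ha2, hj, mul_zero] at h3
          exact inner_self_eq_zero.1 h3
        rw [h2, hj, mul_zero]
        rfl
      · have h2 := hb j hj
        rw [h2]
        have h3 : ((a j)⁻¹ • w j) i = (a j)⁻¹ * w j i := rfl
        rw [h3]
        field_simp
    rw [← hAV, Matrix.mul_assoc, hVV', Matrix.mul_one]

end Vale.Agent.P075
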