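import Vale.Agent.P075.HeavyAux
import Vale.Agent.P075.UGain
import Vale.Agent.P075.USvd
import Vale.Agent.P075.URegion

namespace Vale.Agent.P075

open Matrix Finset

noncomputable def KK {ι : Type*} [Fintype ι] [DecidableEq ι] (m : ℝ) (A C : Matrix ι ι ℝ) : ℝ :=
  gm m (A * Aᵀ + Cᵀ * C)

theorem KK_psd {ι : Type*} [Fintype ι] [DecidableEq ι] (A C : Matrix ι ι ℝ) :
    (A * Aᵀ + Cᵀ * C).PosSemidef := (psd_mult A).add (psd_tmul C)

theorem KK_nonneg {ι : Type*} [Fintype ι] [DecidableEq ι] {m : ℝ} (hm : 0 < m)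
    (A C : Matrix ι ι ℝ) : 0 ≤ KK m A C := gm_nonneg hm (KK_psd A C)

variable {N : ℕ}

/-- sign matrix of the first digit -/
noncomputable def Sg (N : ℕ) : Matrix (G (N + 1)) (G (N + 1)) ℝ := diagonal (fun x => sg 0 x)

theorem Sg_t : (Sg N)ᵀ = Sg N := diagonal_transpose _

theorem Sg_sq : Sg N * Sg N = 1 := by
  unfold Sg
  rw [diagonal_mul_diagonal]
  simp only [sg_sq]
  exact diagonal_one

theorem sg_zero_cons0 (x : G N) : sg 0 (Fin.cons 0 x : G (N + 1)) = 1 := by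
  unfold sg
  rw [dif_pos (Nat.succ_pos N)]
  have : (Fin.cons 0 x : G (N + 1)) ⟨0, Nat.succ_pos N⟩ = 0 := rfl
  rw [if_pos this]

theorem sg_zero_cons1 (x : G N) : sg 0 (Fin.cons 1 x : G (N + 1)) = -1 := by
  unfold sg
  rw [dif_pos (Nat.succ_pos N)]
  have : (Fin.cons 1 x : G (N + 1)) ⟨0, Nat.succ_pos N⟩ = 1 := rfl
  rw [this, if_neg (by decide)]

def cellM (F : Matrix (G (N + 1)) (G (N + 1)) ℝ) (α β : ZMod 2) : Matrix (G N) (G N) ℝ :=
  cell F α β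

theorem sum_zmod2 {M : Type*} [AddCommMonoid M] (f : ZMod 2 → M) : ∑ α, f α = f 0 + f 1 :=
  Fin.sum_univ_two f

theorem cellX {m : ℝ} (hm : 0 < m) {A C Ua Va Uc Vc : Matrix (G (N + 1)) (G (N + 1)) ℝ}
    {a c : G (N + 1) → ℝ}
    (hUa : Uaᵀ * Ua = 1) (hVa : Vaᵀ * Va = 1) (hUc : Ucᵀ * Uc = 1) (hVc : Vcᵀ * Vc = 1)
    (hA : A = Ua * diagonal a * Vaᵀ) (hC : C = Uc * diagonal c * Vcᵀ) :
    KK (4 * m) A C + 2 * m / 2 * ∑ k, ∑ l, (c k * a l * (Vcᵀ * Sg N * Ua) k l) ^ 2 /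
      ((2 * m + c k ^ 2) * (2 * m + a l ^ 2)) ≤
      ∑ α : ZMod 2, ∑ β : ZMod 2, KK m (cellM A α β) (cellM C (α + β) α) := by
  set R : Matrix (G (N + 1)) (G (N + 1) ⊕ G (N + 1)) ℝ := fromCols A Cᵀ with hR
  set Ri : ZMod 2 → Matrix (G N) (G (N + 1) ⊕ G (N + 1)) ℝ :=
    fun i => R.submatrix (fun x : G N => (Fin.cons i x : G (N + 1))) id with hRi
  have hsum : (Ri 0)ᵀ * Ri 0 + (Ri 1)ᵀ * Ri 1 = Rᵀ * R := by
    ext p q
    simp only [Matrix.add_apply, mul_apply, transpose_apply, hRi, submatrix_apply, id_eq]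
    rw [sum_cons, sum_zmod2]
  have hdiff : (Ri 0)ᵀ * Ri 0 - (Ri 1)ᵀ * Ri 1 = Rᵀ * (Sg N * R) := by
    ext p q
    simp only [Matrix.sub_apply, mul_apply, transpose_apply, hRi, submatrix_apply, id_eq]
    simp only [← mul_apply, Sg, diagonal_mul]
    rw [sum_cons, sum_zmod2]
    simp only [sg_zero_cons0, sg_zero_cons1]
    rw [sub_eq_add_neg, ← Finset.sum_neg_distrib]
    congr 1
    · refine Finset.sum_congr rfl fun x _ => by ring
    · refine Finset.sum_congr rfl fun x _ => by ring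
  have h1 := gain_abs (m := 2 * m) (by positivity) hUa hVa hUc hVc hA hC (Sg_t (N := N))
    (psd_tmul (Ri 0)) (psd_tmul (Ri 1)) hsum hdiff
  have h2 : KK (4 * m) A C = gm (2 * (2 * m)) ((Ri 0)ᵀ * Ri 0 + (Ri 1)ᵀ * Ri 1) := by
    rw [hsum, ← gm_comm, hR, transpose_fromCols, fromCols_mul_fromRows, transpose_transpose]
    unfold KK
    congr 1
    ring
  have h3 : ∀ i : ZMod 2, gm (2 * m) ((Ri i)ᵀ * Ri i) ≤
      ∑ β : ZMod 2, KK m (cellM A i β) (cellM C (i + β) i) := by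
    intro i
    rw [← gm_comm]
    have e : Ri i * (Ri i)ᵀ = (cellM A i 0 * (cellM A i 0)ᵀ +
        (cellM C (i + 0) i)ᵀ * cellM C (i + 0) i) + (cellM A i 1 * (cellM A i 1)ᵀ +
        (cellM C (i + 1) i)ᵀ * cellM C (i + 1) i) := by
      ext x x'
      simp only [Matrix.add_apply, mul_apply, transpose_apply, hRi, submatrix_apply, id_eq, hR,
        Fintype.sum_sum_type, fromCols_apply_inl, fromCols_apply_inr]
      rw [sum_cons, sum_zmod2, sum_cons, sum_zmod2]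
      unfold cellM cell
      rcases zmod2_cases i with hi | hi
      · subst hi
        simp only [zero_add]
        ring
      · subst hi
        have : (1 : ZMod 2) + 1 = 0 := by decide
        simp only [this, add_zero]
        ring
    rw [e, sum_zmod2]
    exact gm_half hm (KK_psd _ _) (KK_psd _ _)
  rw [h2, sum_zmod2]
  have h4 := h3 0
  have h5 := h3 1
  linarith

theorem trace3 {τ : Type*} [Fintype τ] (X Y Z : Matrix τ τ ℝ) :
    trace (X * Y * Z) = ∑ k, ∑ l, ∑ m, X k l * Y l m * Z m k := by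
  simp only [trace, diag_apply, mul_apply, Finset.sum_mul]
  refine Finset.sum_congr rfl fun k _ => ?_
  rw [Finset.sum_comm]

theorem Lam_zero_trace (A B C : Matrix (G (N + 1)) (G (N + 1)) ℝ) :
    2 ^ (N + 1) * Lam 0 A B C = trace ((Sg N * A) * (Sg N * B) * (Sg N * C)) := by
  rw [trace3]
  unfold Lam
  rw [Finset.mul_sum]
  refine Finset.sum_congr rfl fun x _ => ?_
  rw [Finset.mul_sum]
  refine Finset.sum_congr rfl fun y _ => ?_
  rw [Finset.mul_sum]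
  refine Finset.sum_congr rfl fun z _ => ?_
  unfold Sg kj
  rw [if_pos (Low_zero _), diagonal_mul, diagonal_mul, diagonal_mul, sg_add, sg_add, Nat.sub_zero]
  have : (2 : ℝ) ^ (N + 1) ≠ 0 := by positivity
  field_simp

theorem orth_u {U V : Matrix (G (N + 1)) (G (N + 1)) ℝ} (hU : Uᵀ * U = 1) (hV : Vᵀ * V = 1) :
    (Vᵀ * Sg N * U)ᵀ * (Vᵀ * Sg N * U) = 1 := by
  have hV' : V * Vᵀ = 1 := mul_eq_one_comm.1 hV
  simp only [transpose_mul, transpose_transpose, Sg_t]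
  have : Uᵀ * (Sg N * V) * (Vᵀ * Sg N * U) = Uᵀ * (Sg N * (V * Vᵀ) * Sg N) * U := by
    simp only [Matrix.mul_assoc]
  rw [this, hV', Matrix.mul_one, Sg_sq, Matrix.mul_one, hU]

noncomputable def Pot (m : ℝ) (F₀ F₁ F₂ : G N → G N → ℝ) : ℝ :=
  KK (ι := G N) m F₀ F₂ + KK (ι := G N) m F₁ F₀ + KK (ι := G N) m F₂ F₁

theorem Pot_nonneg {m : ℝ} (hm : 0 < m) (F₀ F₁ F₂ : G N → G N → ℝ) : 0 ≤ Pot m F₀ F₁ F₂ :=
  add_nonneg (add_nonneg (KK_nonneg hm _ _) (KK_nonneg hm _ _)) (KK_nonneg hm _ _)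

theorem sum_zmod22 (f : ZMod 2 → ZMod 2 → ℝ) :
    ∑ α, ∑ β, f α β = f 0 0 + f 0 1 + f 1 0 + f 1 1 := by
  rw [sum_zmod2, sum_zmod2, sum_zmod2]
  ring

theorem Pot_children {m : ℝ} (F₀ F₁ F₂ : G (N + 1) → G (N + 1) → ℝ) :
    ∑ α : ZMod 2, ∑ β : ZMod 2,
      Pot m (cell F₀ α β) (cell F₁ β (α + β)) (cell F₂ (α + β) α) =
    (∑ α : ZMod 2, ∑ β : ZMod 2, KK m (cellM F₀ α β) (cellM F₂ (α + β) α)) +
    (∑ α : ZMod 2, ∑ β : ZMod 2, KK m (cellM F₁ α β) (cellM F₀ (α + β) α)) +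
    (∑ α : ZMod 2, ∑ β : ZMod 2, KK m (cellM F₂ α β) (cellM F₁ (α + β) α)) := by
  have h11 : (1 : ZMod 2) + 1 = 0 := by decide
  unfold Pot cellM
  simp only [sum_zmod22, add_zero, zero_add, h11]
  ring

theorem cellStep (F₀ F₁ F₂ : G (N + 1) → G (N + 1) → ℝ) :
    ∃ J₀ : Finset ℤ, ∀ J : Finset ℤ, J₀ ⊆ J →
      2 ^ (N + 1) * |Lam 0 F₀ F₁ F₂| ≤ 36 * ∑ j ∈ J, (2 : ℝ) ^ j *
        ((∑ α : ZMod 2, ∑ β : ZMod 2, Pot (((2 : ℝ) ^ j) ^ 2) (cell F₀ α β) (cell F₁ β (α + β))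
          (cell F₂ (α + β) α)) - Pot (4 * ((2 : ℝ) ^ j) ^ 2) F₀ F₁ F₂) := by
  obtain ⟨Ua, Va, a, hUa, hVa, ha, hA⟩ := real_svd (κ := G (N + 1)) F₀
  obtain ⟨Ub, Vb, b, hUb, hVb, hb, hB⟩ := real_svd (κ := G (N + 1)) F₁
  obtain ⟨Uc, Vc, c, hUc, hVc, hc, hC⟩ := real_svd (κ := G (N + 1)) F₂
  set u := Vcᵀ * Sg N * Ua with hu
  set v := Vaᵀ * Sg N * Ub with hv
  set w := Vbᵀ * Sg N * Uc with hw
  have hreg := region a b c ha hb hc u v w (orth_u hUa hVc) (orth_u hUb hVa) (orth_u hUc hVb)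
  have htr : 2 ^ (N + 1) * Lam 0 F₀ F₁ F₂ =
      ∑ k, ∑ l, ∑ m, (c k * a l * b m) * (u k l * v l m * w m k) := by
    have e1 := Lam_zero_trace (N := N) F₀ F₁ F₂
    have e2 : trace ((Sg N * Matrix.of F₀) * (Sg N * Matrix.of F₁) * (Sg N * Matrix.of F₂)) =
        trace ((u * diagonal a) * (v * diagonal b) * (w * diagonal c)) := by
      have hA' : Matrix.of F₀ = Ua * diagonal a * Vaᵀ := hA
      have hB' : Matrix.of F₁ = Ub * diagonal b * Vbᵀ := hB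
      have hC' : Matrix.of F₂ = Uc * diagonal c * Vcᵀ := hC
      rw [hA', hB', hC', hu, hv, hw]
      have e3 : Sg N * (Ua * diagonal a * Vaᵀ) * (Sg N * (Ub * diagonal b * Vbᵀ)) *
          (Sg N * (Uc * diagonal c * Vcᵀ)) = (Sg N * (Ua * diagonal a * Vaᵀ) *
          (Sg N * (Ub * diagonal b * Vbᵀ)) * (Sg N * (Uc * diagonal c))) * Vcᵀ := by
        simp only [Matrix.mul_assoc]
      rw [e3, trace_mul_comm]
      simp only [Matrix.mul_assoc]
    rw [e1]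
    refine e2.trans ?_
    rw [trace3]
    refine Finset.sum_congr rfl fun k _ => Finset.sum_congr rfl fun l _ =>
      Finset.sum_congr rfl fun m _ => ?_
    rw [mul_diagonal, mul_diagonal, mul_diagonal]
    ring
  obtain ⟨J₁, hJ₁⟩ := pick (κ := G (N + 1)) (fun k l => c k * a l * u k l) (fun _ l => a l)
    (fun k _ => c k) (fun _ l => ha l) (fun k _ => hc k) (by
      intro k l h
      have h1 : a l = 0 := by linarith [ha l, hc k]
      simp [h1])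
  obtain ⟨J₂, hJ₂⟩ := pick (κ := G (N + 1)) (fun k l => a k * b l * v k l) (fun _ l => b l)
    (fun k _ => a k) (fun _ l => hb l) (fun k _ => ha k) (by
      intro k l h
      have h1 : b l = 0 := by linarith [hb l, ha k]
      simp [h1])
  obtain ⟨J₃, hJ₃⟩ := pick (κ := G (N + 1)) (fun k l => b k * c l * w k l) (fun _ l => c l)
    (fun k _ => b k) (fun _ l => hc l) (fun k _ => hb k) (by
      intro k l h
      have h1 : c l = 0 := by linarith [hc l, hb k]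
      simp [h1])
  refine ⟨J₁ ∪ J₂ ∪ J₃, fun J hJ => ?_⟩
  have g1 := hJ₁ J ((Finset.subset_union_left.trans Finset.subset_union_left).trans hJ)
  have g2 := hJ₂ J ((Finset.subset_union_right.trans Finset.subset_union_left).trans hJ)
  have g3 := hJ₃ J (Finset.subset_union_right.trans hJ)
  have habs : 2 ^ (N + 1) * |Lam 0 F₀ F₁ F₂| = |2 ^ (N + 1) * Lam 0 F₀ F₁ F₂| := by
    rw [abs_mul, abs_of_pos (by positivity : (0 : ℝ) < 2 ^ (N + 1))]
  rw [habs, htr]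
  refine hreg.trans ((add_le_add (add_le_add g1 g2) g3).trans ?_)
  rw [← mul_add, ← mul_add, ← Finset.sum_add_distrib, ← Finset.sum_add_distrib]
  refine mul_le_mul_of_nonneg_left (Finset.sum_le_sum fun j _ => ?_) (by norm_num)
  rw [← mul_add, ← mul_add]
  refine mul_le_mul_of_nonneg_left ?_ (by positivity)
  have hm : (0 : ℝ) < ((2 : ℝ) ^ j) ^ 2 := by positivity
  have k1 := cellX hm hUa hVa hUc hVc hA hC
  have k2 := cellX hm hUb hVb hUa hVa hB hA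
  have k3 := cellX hm hUc hVc hUb hVb hC hB
  rw [Pot_children]
  have hP : Pot (4 * ((2 : ℝ) ^ j) ^ 2) F₀ F₁ F₂ = KK (ι := G (N + 1)) (4 * ((2 : ℝ) ^ j) ^ 2) F₀ F₂ +
    KK (ι := G (N + 1)) (4 * ((2 : ℝ) ^ j) ^ 2) F₁ F₀ +
    KK (ι := G (N + 1)) (4 * ((2 : ℝ) ^ j) ^ 2) F₂ F₁ := rfl
  rw [hP]
  linarith

end Vale.Agent.P075
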