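import Vale.Agent.P075.Levels
import Vale.Agent.P075.UCell

namespace Vale.Agent.P075

open Finset Matrix

noncomputable def ff (m t : ℝ) : ℝ := t - m * Real.log (1 + m⁻¹ * t)

noncomputable def pt (m a b c : ℝ) : ℝ :=
  ff m (a ^ 2 + c ^ 2) + ff m (b ^ 2 + a ^ 2) + ff m (c ^ 2 + b ^ 2)

noncomputable def Pts {N : ℕ} (m : ℝ) (F₀ F₁ F₂ : G N → G N → ℝ) : ℝ :=
  ∑ x, ∑ y, pt m (F₀ x y) (F₁ y (x + y)) (F₂ (x + y) x)

theorem Pts_zero (m : ℝ) (F₀ F₁ F₂ : G 0 → G 0 → ℝ) : Pot m F₀ F₁ F₂ = Pts m F₀ F₁ F₂ := by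
  have hsum : ∀ f : G 0 → ℝ, ∑ x, f x = f 0 := by
    intro f
    rw [Fintype.sum_unique]
    exact congrArg f (Subsingleton.elim _ _)
  have hdet : ∀ M : Matrix (G 0) (G 0) ℝ, M.det = M 0 0 := by
    intro M
    rw [det_unique]
    exact congrArg₂ M (Subsingleton.elim _ _) (Subsingleton.elim _ _)
  have hKK : ∀ A C : Matrix (G 0) (G 0) ℝ, KK m A C = ff m (A 0 0 ^ 2 + C 0 0 ^ 2) := by
    intro A C
    unfold KK gm ff
    rw [hdet]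
    simp only [trace, diag_apply, hsum, Matrix.add_apply, mul_apply, transpose_apply,
      Matrix.smul_apply, Matrix.one_apply_eq, smul_eq_mul, pow_two]
  have hR : Pts m F₀ F₁ F₂ = ff m (F₀ 0 0 ^ 2 + F₂ 0 0 ^ 2) + ff m (F₁ 0 0 ^ 2 + F₀ 0 0 ^ 2) +
      ff m (F₂ 0 0 ^ 2 + F₁ 0 0 ^ 2) := by
    unfold Pts pt
    simp only [hsum, add_zero]
  rw [hR]
  exact congrArg₂ (· + ·) (congrArg₂ (· + ·) (hKK F₀ F₂) (hKK F₁ F₀)) (hKK F₂ F₁)

theorem Pts_cons {N : ℕ} (m : ℝ) (F₀ F₁ F₂ : G (N + 1) → G (N + 1) → ℝ) :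
    Pts m F₀ F₁ F₂ = ∑ α : ZMod 2, ∑ β : ZMod 2,
      Pts m (cell F₀ α β) (cell F₁ β (α + β)) (cell F₂ (α + β) α) := by
  unfold Pts
  rw [sum2_cons]
  simp only [cons_add_G, cell]

theorem telescoping : ∀ (N : ℕ) (F₀ F₁ F₂ : G N → G N → ℝ),
    ∃ J₀ : Finset ℤ, ∀ J : Finset ℤ, J₀ ⊆ J →
      ∑ j ∈ range N, |Lam j F₀ F₁ F₂| ≤ 18 * ∑ k ∈ J, (2 : ℝ) ^ k *
        (Pts (((2 : ℝ) ^ k) ^ 2) F₀ F₁ F₂ - Pot (((2 : ℝ) ^ (k + (N : ℤ))) ^ 2) F₀ F₁ F₂) := by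
  intro N
  induction N with
  | zero =>
    intro F₀ F₁ F₂
    refine ⟨∅, fun J _ => ?_⟩
    simp [Pts_zero]
  | succ N ih =>
    intro F₀ F₁ F₂
    choose Jc hJc using fun (α β : ZMod 2) =>
      ih (cell F₀ α β) (cell F₁ β (α + β)) (cell F₂ (α + β) α)
    obtain ⟨Js, hJs⟩ := cellStep F₀ F₁ F₂
    refine ⟨(univ.biUnion fun α : ZMod 2 => univ.biUnion fun β : ZMod 2 => Jc α β) ∪
      Js.image (fun j => j - (N : ℤ)), fun J hJ => ?_⟩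
    have hJ1 : ∀ α β, Jc α β ⊆ J := by
      intro α β k hk
      refine hJ (mem_union_left _ ?_)
      simp only [mem_biUnion, mem_univ, true_and]
      exact ⟨α, β, hk⟩
    have hJ2 : Js ⊆ J.map (addRightEmbedding (N : ℤ)) := by
      intro j hj
      rw [mem_map]
      refine ⟨j - N, hJ (mem_union_right _ (mem_image_of_mem _ hj)), ?_⟩
      simp
    have h0 := hJs _ hJ2
    rw [sum_map] at h0
    simp only [addRightEmbedding_apply] at h0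
    set X : ℤ → ℝ := fun k => ∑ α : ZMod 2, ∑ β : ZMod 2, Pot (((2 : ℝ) ^ (k + (N : ℤ))) ^ 2)
      (cell F₀ α β) (cell F₁ β (α + β)) (cell F₂ (α + β) α) with hX
    set Y : ℤ → ℝ := fun k => Pot (((2 : ℝ) ^ (k + ((N + 1 : ℕ) : ℤ))) ^ 2) F₀ F₁ F₂ with hY
    have h2 : (2 : ℝ) ≠ 0 := two_ne_zero
    have h1 : |Lam 0 F₀ F₁ F₂| ≤ 18 * ∑ k ∈ J, (2 : ℝ) ^ k * (X k - Y k) := by
      have e : 36 * ∑ k ∈ J, (2 : ℝ) ^ (k + (N : ℤ)) * ((∑ α : ZMod 2, ∑ β : ZMod 2,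
          Pot (((2 : ℝ) ^ (k + (N : ℤ))) ^ 2) (cell F₀ α β) (cell F₁ β (α + β))
          (cell F₂ (α + β) α)) - Pot (4 * ((2 : ℝ) ^ (k + (N : ℤ))) ^ 2) F₀ F₁ F₂) =
          2 ^ (N + 1) * (18 * ∑ k ∈ J, (2 : ℝ) ^ k * (X k - Y k)) := by
        rw [Finset.mul_sum, Finset.mul_sum, Finset.mul_sum]
        refine Finset.sum_congr rfl fun k _ => ?_
        have e1 : 4 * ((2 : ℝ) ^ (k + (N : ℤ))) ^ 2 =
            ((2 : ℝ) ^ (k + ((N + 1 : ℕ) : ℤ))) ^ 2 := by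
          rw [Nat.cast_succ, ← add_assoc, zpow_add_one₀ h2]
          ring
        have e2 : (2 : ℝ) ^ (k + (N : ℤ)) = 2 ^ k * 2 ^ N := by
          rw [zpow_add₀ h2, zpow_natCast]
        rw [e1]
        simp only [hX, hY]
        rw [e2, pow_succ]
        ring
      rw [e] at h0
      exact le_of_mul_le_mul_left h0 (by positivity)
    have h3 : ∑ j ∈ range N, |Lam (j + 1) F₀ F₁ F₂| ≤ 18 * ∑ k ∈ J, (2 : ℝ) ^ k *
        (Pts (((2 : ℝ) ^ k) ^ 2) F₀ F₁ F₂ - X k) := by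
      calc ∑ j ∈ range N, |Lam (j + 1) F₀ F₁ F₂|
          ≤ ∑ j ∈ range N, ∑ α : ZMod 2, ∑ β : ZMod 2,
            |Lam j (cell F₀ α β) (cell F₁ β (α + β)) (cell F₂ (α + β) α)| := by
            refine Finset.sum_le_sum fun j _ => ?_
            rw [Lam_cons]
            refine (Finset.abs_sum_le_sum_abs _ _).trans (Finset.sum_le_sum fun α _ => ?_)
            exact Finset.abs_sum_le_sum_abs _ _
        _ = ∑ α : ZMod 2, ∑ β : ZMod 2, ∑ j ∈ range N,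
            |Lam j (cell F₀ α β) (cell F₁ β (α + β)) (cell F₂ (α + β) α)| := by
            rw [Finset.sum_comm]
            refine Finset.sum_congr rfl fun α _ => ?_
            rw [Finset.sum_comm]
        _ ≤ ∑ α : ZMod 2, ∑ β : ZMod 2, 18 * ∑ k ∈ J, (2 : ℝ) ^ k *
            (Pts (((2 : ℝ) ^ k) ^ 2) (cell F₀ α β) (cell F₁ β (α + β)) (cell F₂ (α + β) α) -
              Pot (((2 : ℝ) ^ (k + (N : ℤ))) ^ 2) (cell F₀ α β) (cell F₁ β (α + β))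
                (cell F₂ (α + β) α)) :=
            Finset.sum_le_sum fun α _ => Finset.sum_le_sum fun β _ => hJc α β J (hJ1 α β)
        _ = 18 * ∑ k ∈ J, (2 : ℝ) ^ k * (Pts (((2 : ℝ) ^ k) ^ 2) F₀ F₁ F₂ - X k) := by
            have e : ∀ k, (2 : ℝ) ^ k * (Pts (((2 : ℝ) ^ k) ^ 2) F₀ F₁ F₂ - X k) =
                ∑ α : ZMod 2, ∑ β : ZMod 2, (2 : ℝ) ^ k *
            (Pts (((2 : ℝ) ^ k) ^ 2) (cell F₀ α β) (cell F₁ β (α + β)) (cell F₂ (α + β) α) -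
              Pot (((2 : ℝ) ^ (k + (N : ℤ))) ^ 2) (cell F₀ α β) (cell F₁ β (α + β))
                (cell F₂ (α + β) α)) := by
              intro k
              rw [Pts_cons, hX]
              simp only [← Finset.sum_sub_distrib, Finset.mul_sum]
            have e' : ∀ g : ℤ → ZMod 2 → ZMod 2 → ℝ,
                ∑ k ∈ J, ∑ α, ∑ β, g k α β = ∑ α, ∑ β, ∑ k ∈ J, g k α β := by
              intro g
              rw [Finset.sum_comm]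
              refine Finset.sum_congr rfl fun α _ => ?_
              rw [Finset.sum_comm]
            simp only [e]
            rw [e', Finset.mul_sum]
            refine Finset.sum_congr rfl fun α _ => ?_
            rw [Finset.mul_sum]
    rw [Finset.sum_range_succ']
    refine (add_le_add h3 h1).trans (le_of_eq ?_)
    rw [← mul_add, ← Finset.sum_add_distrib]
    congr 1
    refine Finset.sum_congr rfl fun k _ => ?_
    rw [hY]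
    ring

theorem unnormU : ∃ C : ℝ, 0 < C ∧ ∀ (N : ℕ) (F₀ F₁ F₂ : G N → G N → ℝ),
    ∑ j ∈ range N, |Lam j F₀ F₁ F₂| ≤
      C * (∑ x, ∑ y, |F₀ x y| ^ 3 + ∑ x, ∑ y, |F₁ x y| ^ 3 + ∑ x, ∑ y, |F₂ x y| ^ 3) := by
  obtain ⟨C, hC, hd⟩ := dyadic_sum
  refine ⟨108 * C, by positivity, fun N F₀ F₁ F₂ => ?_⟩
  obtain ⟨J, hJ⟩ := telescoping N F₀ F₁ F₂
  refine (hJ J (Finset.Subset.refl J)).trans ?_
  have h1 : ∑ k ∈ J, (2 : ℝ) ^ k * (Pts (((2 : ℝ) ^ k) ^ 2) F₀ F₁ F₂ -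
      Pot (((2 : ℝ) ^ (k + (N : ℤ))) ^ 2) F₀ F₁ F₂) ≤
      ∑ k ∈ J, (2 : ℝ) ^ k * Pts (((2 : ℝ) ^ k) ^ 2) F₀ F₁ F₂ := by
    refine Finset.sum_le_sum fun k _ => mul_le_mul_of_nonneg_left ?_ (by positivity)
    have := Pot_nonneg (m := ((2 : ℝ) ^ (k + (N : ℤ))) ^ 2) (by positivity) F₀ F₁ F₂
    linarith
  have h2 : ∀ a b : ℝ, ∑ k ∈ J, (2 : ℝ) ^ k * ff (((2 : ℝ) ^ k) ^ 2) (a ^ 2 + b ^ 2) ≤
      3 * C * (|a| ^ 3 + |b| ^ 3) := by
    intro a b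
    have h3 := hd J (a ^ 2 + b ^ 2) (by positivity)
    have h4 : (a ^ 2 + b ^ 2) ^ ((3 : ℝ) / 2) ≤ 3 * (|a| ^ 3 + |b| ^ 3) := by
      have h5 : ∀ s t : ℝ, 0 ≤ t → t ≤ s → (s ^ 2 + t ^ 2) ^ ((3 : ℝ) / 2) ≤ 3 * (s ^ 3 + t ^ 3) := by
        intro s t ht hst
        have hs : 0 ≤ s := ht.trans hst
        have h6 : s ^ 2 + t ^ 2 ≤ 2 * s ^ 2 := by nlinarith
        have h7 : (s ^ 2 + t ^ 2) ^ ((3 : ℝ) / 2) ≤ (2 * s ^ 2) ^ ((3 : ℝ) / 2) :=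
          Real.rpow_le_rpow (by positivity) h6 (by norm_num)
        have h8 : (2 * s ^ 2) ^ ((3 : ℝ) / 2) = (2 : ℝ) ^ ((3 : ℝ) / 2) * s ^ 3 := by
          rw [Real.mul_rpow (by norm_num) (by positivity), ← Real.rpow_natCast s 2,
            ← Real.rpow_mul hs, ← Real.rpow_natCast s 3]
          norm_num
        have h9 : (2 : ℝ) ^ ((3 : ℝ) / 2) ≤ 3 := by
          have h10 : ((2 : ℝ) ^ ((3 : ℝ) / 2)) ^ 2 = 8 := by
            rw [← Real.rpow_natCast, ← Real.rpow_mul (by norm_num)]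
            norm_num
          have h11 : 0 ≤ (2 : ℝ) ^ ((3 : ℝ) / 2) := by positivity
          nlinarith
        have h12 : 0 ≤ s ^ 3 := by positivity
        have h13 : 0 ≤ t ^ 3 := by positivity
        rw [h8] at h7
        have h14 := mul_le_mul_of_nonneg_right h9 h12
        linarith
      rcases le_total |b| |a| with h | h
      · have := h5 |a| |b| (abs_nonneg _) h
        simpa only [sq_abs] using this
      · have := h5 |b| |a| (abs_nonneg _) h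
        simp only [sq_abs] at this
        rw [add_comm (a ^ 2), add_comm (|a| ^ 3)]
        exact this
    have h5 := mul_le_mul_of_nonneg_left h4 hC.le
    unfold ff
    refine h3.trans (h5.trans (le_of_eq ?_))
    ring
  have h3 : ∑ k ∈ J, (2 : ℝ) ^ k * Pts (((2 : ℝ) ^ k) ^ 2) F₀ F₁ F₂ ≤
      6 * C * (∑ x, ∑ y, |F₀ x y| ^ 3 + ∑ x, ∑ y, |F₁ x y| ^ 3 + ∑ x, ∑ y, |F₂ x y| ^ 3) := by
    have e1 : ∑ k ∈ J, (2 : ℝ) ^ k * Pts (((2 : ℝ) ^ k) ^ 2) F₀ F₁ F₂ =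
        ∑ x, ∑ y, ∑ k ∈ J, (2 : ℝ) ^ k * pt (((2 : ℝ) ^ k) ^ 2) (F₀ x y) (F₁ y (x + y))
          (F₂ (x + y) x) := by
      unfold Pts
      simp only [Finset.mul_sum]
      rw [Finset.sum_comm]
      refine Finset.sum_congr rfl fun x _ => ?_
      rw [Finset.sum_comm]
    have e2 : ∀ a b c : ℝ, ∑ k ∈ J, (2 : ℝ) ^ k * pt (((2 : ℝ) ^ k) ^ 2) a b c ≤
        6 * C * (|a| ^ 3 + |b| ^ 3 + |c| ^ 3) := by
      intro a b c
      unfold pt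
      simp only [mul_add, Finset.sum_add_distrib]
      have := h2 a c
      have := h2 b a
      have := h2 c b
      linarith
    have e3 : ∑ x, ∑ y, |F₁ y (x + y)| ^ 3 = ∑ x, ∑ y, |F₁ x y| ^ 3 := by
      rw [Finset.sum_comm]
      refine Finset.sum_congr rfl fun y _ => ?_
      exact sum_translate (fun t => |F₁ y t| ^ 3) y
    have e4 : ∑ x, ∑ y, |F₂ (x + y) x| ^ 3 = ∑ x, ∑ y, |F₂ x y| ^ 3 := by
      rw [Finset.sum_comm (f := fun x y => |F₂ x y| ^ 3)]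
      refine Finset.sum_congr rfl fun x _ => ?_
      simp only [add_comm x]
      exact sum_translate (fun t => |F₂ t x| ^ 3) x
    rw [e1]
    refine (Finset.sum_le_sum fun x _ => Finset.sum_le_sum fun y _ => e2 _ _ _).trans ?_
    simp only [← Finset.mul_sum, Finset.sum_add_distrib]
    rw [e3, e4]
  have h4 := h1.trans h3
  have h5 : 0 ≤ C := hC.le
  calc 18 * ∑ k ∈ J, (2 : ℝ) ^ k * (Pts (((2 : ℝ) ^ k) ^ 2) F₀ F₁ F₂ -
      Pot (((2 : ℝ) ^ (k + (N : ℤ))) ^ 2) F₀ F₁ F₂)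
      ≤ 18 * (6 * C * (∑ x, ∑ y, |F₀ x y| ^ 3 + ∑ x, ∑ y, |F₁ x y| ^ 3 +
        ∑ x, ∑ y, |F₂ x y| ^ 3)) := mul_le_mul_of_nonneg_left h4 (by norm_num)
    _ = _ := by ring

theorem finiteUniform : ∃ C : ℝ, 0 < C ∧ ∀ (N : ℕ) (S : Finset ℕ), (∀ i ∈ S, i < N) →
    ∀ F₀ F₁ F₂ : G N → G N → ℝ,
    ∑ j ∈ S, |Lam j F₀ F₁ F₂| ≤ C * (l3 F₀ * l3 F₁ * l3 F₂) := by
  obtain ⟨C, hC, hun⟩ := unnormU
  refine ⟨3 * C, by positivity, ?_⟩
  intro N S hSN F₀ F₁ F₂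
  have l0 := l3_nonneg F₀
  have l1 := l3_nonneg F₁
  have l2' := l3_nonneg F₂
  rcases l0.eq_or_lt with h0 | h0
  · have : ∀ j, Lam j F₀ F₁ F₂ = 0 := by
      intro j
      rw [l3_eq_zero h0.symm]
      simp [Lam]
    simp only [this, abs_zero, Finset.sum_const_zero]
    positivity
  rcases l1.eq_or_lt with h1 | h1
  · have : ∀ j, Lam j F₀ F₁ F₂ = 0 := by
      intro j
      rw [l3_eq_zero h1.symm]
      simp [Lam]
    simp only [this, abs_zero, Finset.sum_const_zero]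
    positivity
  rcases l2'.eq_or_lt with h2 | h2
  · have : ∀ j, Lam j F₀ F₁ F₂ = 0 := by
      intro j
      rw [l3_eq_zero h2.symm]
      simp [Lam]
    simp only [this, abs_zero, Finset.sum_const_zero]
    positivity
  have hnorm : ∀ F : G N → G N → ℝ, 0 < l3 F → ∑ x, ∑ y, |(l3 F)⁻¹ * F x y| ^ 3 = 1 := by
    intro F hF
    simp only [abs_mul, mul_pow, ← Finset.mul_sum]
    rw [← l3_cube F, abs_of_pos (inv_pos.2 hF), ← mul_pow, inv_mul_cancel₀ hF.ne', one_pow]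
  have h3 := hun N (fun x y => (l3 F₀)⁻¹ * F₀ x y) (fun x y => (l3 F₁)⁻¹ * F₁ x y)
    (fun x y => (l3 F₂)⁻¹ * F₂ x y)
  rw [hnorm F₀ h0, hnorm F₁ h1, hnorm F₂ h2] at h3
  have hsub : S ⊆ range N := fun i hi => mem_range.2 (hSN i hi)
  have h3' := (Finset.sum_le_sum_of_subset_of_nonneg hsub (f := fun j =>
    |Lam j (fun x y => (l3 F₀)⁻¹ * F₀ x y) (fun x y => (l3 F₁)⁻¹ * F₁ x y)
      (fun x y => (l3 F₂)⁻¹ * F₂ x y)|) (fun j _ _ => abs_nonneg _)).trans h3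
  have h4 : ∀ j ∈ S, |Lam j F₀ F₁ F₂| = (l3 F₀ * l3 F₁ * l3 F₂) *
      |Lam j (fun x y => (l3 F₀)⁻¹ * F₀ x y) (fun x y => (l3 F₁)⁻¹ * F₁ x y)
        (fun x y => (l3 F₂)⁻¹ * F₂ x y)| := by
    intro j _
    rw [Lam_smul, abs_mul,
      abs_of_pos (show 0 < (l3 F₀)⁻¹ * (l3 F₁)⁻¹ * (l3 F₂)⁻¹ by positivity)]
    field_simp
  rw [Finset.sum_congr rfl h4, ← Finset.mul_sum]
  have hp : 0 < l3 F₀ * l3 F₁ * l3 F₂ := by positivity
  calc l3 F₀ * l3 F₁ * l3 F₂ * ∑ j ∈ S, |Lam j (fun x y => (l3 F₀)⁻¹ * F₀ x y)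
        (fun x y => (l3 F₁)⁻¹ * F₁ x y) (fun x y => (l3 F₂)⁻¹ * F₂ x y)|
      ≤ l3 F₀ * l3 F₁ * l3 F₂ * (C * (1 + 1 + 1)) :=
        mul_le_mul_of_nonneg_left h3' hp.le
    _ = 3 * C * (l3 F₀ * l3 F₁ * l3 F₂) := by ring

end Vale.Agent.P075
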