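import Vale.Agent.P075.ULog

namespace Vale.Agent.P075

open Matrix

section gm

variable {ι κ : Type*} [Fintype ι] [DecidableEq ι] [Fintype κ] [DecidableEq κ]

noncomputable def gm (m : ℝ) (S : Matrix ι ι ℝ) : ℝ :=
  S.trace - m * Real.log (1 + m⁻¹ • S).det

omit [Fintype ι] in
theorem one_add_posDef {m : ℝ} (hm : 0 < m) {S : Matrix ι ι ℝ} (hS : S.PosSemidef) :
    (1 + m⁻¹ • S).PosDef := by
  have h : (m⁻¹ • S).PosSemidef := hS.smul (inv_nonneg.2 hm.le)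
  exact PosDef.add_posSemidef PosDef.one h

theorem gm_nonneg {m : ℝ} (hm : 0 < m) {S : Matrix ι ι ℝ} (hS : S.PosSemidef) : 0 ≤ gm m S := by
  have h := logdet_le_trace (one_add_posDef hm hS)
  rw [trace_add, trace_one, trace_smul, smul_eq_mul] at h
  have h2 : m * Real.log (1 + m⁻¹ • S).det ≤ m * (m⁻¹ * S.trace) := by
    refine mul_le_mul_of_nonneg_left ?_ hm.le
    linarith
  rw [mul_inv_cancel_left₀ hm.ne'] at h2
  unfold gm
  linarith

theorem gm_comm (m : ℝ) (R : Matrix ι κ ℝ) : gm m (R * Rᵀ) = gm m (Rᵀ * R) := by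
  have h := det_one_add_mul_comm (m⁻¹ • R) Rᵀ
  rw [Matrix.smul_mul, Matrix.mul_smul] at h
  unfold gm
  rw [trace_mul_comm R Rᵀ, h]

omit [Fintype ι] in
theorem half_eq {m : ℝ} (S T : Matrix ι ι ℝ) :
    (1 / 2 : ℝ) • ((1 + m⁻¹ • S) + (1 + m⁻¹ • T)) = 1 + (2 * m)⁻¹ • (S + T) := by
  rw [mul_inv]
  module

theorem gm_gain {m : ℝ} (hm : 0 < m) {S T E ζ : Matrix ι ι ℝ} (hS : S.PosSemidef)
    (hT : T.PosSemidef) (hζ : ζᵀ = ζ) (hE : (E - (1 / 2 : ℝ) • (S + T)).PosSemidef) :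
    gm (2 * m) (S + T) + (trace ((S - T) * ζ) -
      m * trace ((1 + m⁻¹ • E) * ζ * (1 + m⁻¹ • E) * ζ)) ≤ gm m S + gm m T := by
  have h0 := one_add_posDef hm hS
  have h1 := one_add_posDef hm hT
  have h := logdet_concave (ζ := ζ) (PP := 1 + m⁻¹ • E) h0 h1 hζ (by
    have e : (1 + m⁻¹ • E) - (1 / 2 : ℝ) • ((1 + m⁻¹ • S) + (1 + m⁻¹ • T)) =
        m⁻¹ • (E - (1 / 2 : ℝ) • (S + T)) := by
      module
    rw [e]
    exact hE.smul (inv_nonneg.2 hm.le))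
  have e2 : (1 + m⁻¹ • S) - (1 + m⁻¹ • T) = m⁻¹ • (S - T) := by
    module
  rw [half_eq, e2, Matrix.smul_mul, trace_smul, smul_eq_mul] at h
  unfold gm
  rw [trace_add]
  have h3 := mul_le_mul_of_nonneg_left h hm.le
  have h4 : m * (m⁻¹ * trace ((S - T) * ζ)) = trace ((S - T) * ζ) := by
    rw [mul_inv_cancel_left₀ hm.ne']
  have h5 : m * (2 * Real.log (1 + (2 * m)⁻¹ • (S + T)).det -
      (m⁻¹ * trace ((S - T) * ζ) - trace ((1 + m⁻¹ • E) * ζ * (1 + m⁻¹ • E) * ζ))) =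
      2 * m * Real.log (1 + (2 * m)⁻¹ • (S + T)).det - (trace ((S - T) * ζ) -
        m * trace ((1 + m⁻¹ • E) * ζ * (1 + m⁻¹ • E) * ζ)) := by
    linear_combination -h4
  rw [h5] at h3
  linarith

theorem gm_half {m : ℝ} (hm : 0 < m) {S T : Matrix ι ι ℝ} (hS : S.PosSemidef)
    (hT : T.PosSemidef) : gm (2 * m) (S + T) ≤ gm m S + gm m T := by
  have h := gm_gain (E := (1 / 2 : ℝ) • (S + T)) (ζ := 0) hm hS hT (by simp)
    (by rw [sub_self]; exact PosSemidef.zero)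
  simpa using h

omit [DecidableEq ι] [DecidableEq κ] in
theorem psd_tmul (R : Matrix ι κ ℝ) : (Rᵀ * R).PosSemidef := by
  have h := posSemidef_conjTranspose_mul_self R
  rwa [conjTranspose_eq_transpose_of_trivial] at h

omit [DecidableEq ι] [DecidableEq κ] in
theorem psd_mult (R : Matrix ι κ ℝ) : (R * Rᵀ).PosSemidef := by
  have h := posSemidef_self_mul_conjTranspose R
  rwa [conjTranspose_eq_transpose_of_trivial] at h

end gm

end Vale.Agent.P075
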