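import Mathlib

namespace Vale.Agent.P075

open Matrix

variable {ι : Type*} [Fintype ι] [DecidableEq ι]

theorem logdet_le_trace {Y : Matrix ι ι ℝ} (hY : Y.PosDef) :
    Real.log Y.det ≤ Y.trace - Fintype.card ι := by
  have h1 : Y.det = ∏ i, hY.isHermitian.eigenvalues i := by
    have := hY.isHermitian.det_eq_prod_eigenvalues
    simpa using this
  have h2 : Y.trace = ∑ i, hY.isHermitian.eigenvalues i := by
    have := hY.isHermitian.trace_eq_sum_eigenvalues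
    simpa using this
  rw [h1, h2, Real.log_prod (fun i _ => (hY.eigenvalues_pos i).ne')]
  have h3 : ∑ i, Real.log (hY.isHermitian.eigenvalues i) ≤
      ∑ i, (hY.isHermitian.eigenvalues i - 1) :=
    Finset.sum_le_sum fun i _ => Real.log_le_sub_one_of_pos (hY.eigenvalues_pos i)
  rw [Finset.sum_sub_distrib, Finset.sum_const, Finset.card_univ, nsmul_eq_mul, mul_one] at h3
  exact h3

open scoped MatrixOrder in
private theorem ul_factor {Φ : Matrix ι ι ℝ} (hΦ : Φ.PosSemidef) :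
    ∃ Θ : Matrix ι ι ℝ, Φ = Θᵀ * Θ := by
  obtain ⟨B, hB⟩ := CStarAlgebra.nonneg_iff_eq_star_mul_self.mp hΦ.nonneg
  refine ⟨B, ?_⟩
  rw [hB, star_eq_conjTranspose, conjTranspose_eq_transpose_of_trivial]

private theorem ul_tr_mul_nonneg {A B : Matrix ι ι ℝ} (hA : A.PosSemidef) (hB : B.PosSemidef) :
    0 ≤ (A * B).trace := by
  obtain ⟨T, hT⟩ := ul_factor hA
  have h1 : (A * B).trace = (T * B * Tᵀ).trace := by
    rw [hT, Matrix.mul_assoc, Matrix.trace_mul_comm]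
  rw [h1]
  have h2 := hB.mul_mul_conjTranspose_same T
  rw [conjTranspose_eq_transpose_of_trivial] at h2
  exact h2.trace_nonneg

/-- Concavity of log det with a quantitative gain. With P̄ = (P₀+P₁)/2 = Θᵀ Θ, X = Θ⁻ᵀ (P₀-P₁)/2 Θ⁻¹ :
det P₀ det P₁ = det P̄ ^ 2 det (1 - X ^ 2), log det (1 - X^2) ≤ - tr X^2, and for symmetric ζ
tr X^2 ≥ 2 tr (X Y) - tr (Y^2), Y = Θ ζ Θᵀ; finally tr (P̄ ζ P̄ ζ) ≤ tr (𝒫 ζ 𝒫 ζ). -/
theorem logdet_concave {P₀ P₁ PP ζ : Matrix ι ι ℝ} (h₀ : P₀.PosDef) (h₁ : P₁.PosDef)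
    (hζ : ζᵀ = ζ) (hPP : (PP - (1 / 2 : ℝ) • (P₀ + P₁)).PosSemidef) :
    Real.log P₀.det + Real.log P₁.det ≤ 2 * Real.log (((1 / 2 : ℝ) • (P₀ + P₁)).det) -
      (Matrix.trace ((P₀ - P₁) * ζ) - Matrix.trace (PP * ζ * PP * ζ)) := by
  set Pb : Matrix ι ι ℝ := (1 / 2 : ℝ) • (P₀ + P₁) with hPb
  have hPbd : Pb.PosDef := (h₀.add h₁).smul (by norm_num)
  obtain ⟨Θ, hΘ⟩ := ul_factor hPbd.posSemidef
  have hdet : IsUnit Θ.det := by
    have h := hPbd.det_pos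
    rw [hΘ, det_mul, det_transpose] at h
    exact isUnit_iff_ne_zero.2 (fun h0 => by rw [h0] at h; simp at h)
  have hi1 : Θ⁻¹ * Θ = 1 := Matrix.nonsing_inv_mul _ hdet
  have hi2 : Θ * Θ⁻¹ = 1 := Matrix.mul_nonsing_inv _ hdet
  have hi3 : Θᵀ * Θ⁻¹ᵀ = 1 := by rw [← transpose_mul, hi1, transpose_one]
  have hi4 : Θ⁻¹ᵀ * Θᵀ = 1 := by rw [← transpose_mul, hi2, transpose_one]
  have hs0 : P₀ᵀ = P₀ := by
    have := h₀.isHermitian.eq
    rwa [conjTranspose_eq_transpose_of_trivial] at this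
  have hs1 : P₁ᵀ = P₁ := by
    have := h₁.isHermitian.eq
    rwa [conjTranspose_eq_transpose_of_trivial] at this
  set A : Matrix ι ι ℝ := Θ⁻¹ᵀ * P₀ * Θ⁻¹ with hA
  set B : Matrix ι ι ℝ := Θ⁻¹ᵀ * P₁ * Θ⁻¹ with hB
  have hunit : IsUnit Θ⁻¹ :=
    (Matrix.isUnit_nonsing_inv_iff).2 ((Matrix.isUnit_iff_isUnit_det _).2 hdet)
  have hAd : A.PosDef := by
    have := (Matrix.IsUnit.posDef_star_left_conjugate_iff (x := P₀) hunit).2 h₀
    simpa [star_eq_conjTranspose, conjTranspose_eq_transpose_of_trivial, hA] using this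
  have hBd : B.PosDef := by
    have := (Matrix.IsUnit.posDef_star_left_conjugate_iff (x := P₁) hunit).2 h₁
    simpa [star_eq_conjTranspose, conjTranspose_eq_transpose_of_trivial, hB] using this
  have hAs : Aᵀ = A := by
    have := hAd.isHermitian.eq
    rwa [conjTranspose_eq_transpose_of_trivial] at this
  have hBs : Bᵀ = B := by
    have := hBd.isHermitian.eq
    rwa [conjTranspose_eq_transpose_of_trivial] at this
  have hP0 : P₀ = Θᵀ * A * Θ := by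
    calc P₀ = (Θᵀ * Θ⁻¹ᵀ) * P₀ * (Θ⁻¹ * Θ) := by rw [hi3, hi1, Matrix.one_mul, Matrix.mul_one]
      _ = Θᵀ * A * Θ := by rw [hA]; noncomm_ring
  have hP1 : P₁ = Θᵀ * B * Θ := by
    calc P₁ = (Θᵀ * Θ⁻¹ᵀ) * P₁ * (Θ⁻¹ * Θ) := by rw [hi3, hi1, Matrix.one_mul, Matrix.mul_one]
      _ = Θᵀ * B * Θ := by rw [hB]; noncomm_ring
  have hAB2 : A + B = (2 : ℝ) • 1 := by
    have e : P₀ + P₁ = (2 : ℝ) • Pb := by
      rw [hPb, smul_smul]; norm_num
    calc A + B = Θ⁻¹ᵀ * (P₀ + P₁) * Θ⁻¹ := by rw [hA, hB]; noncomm_ring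
      _ = (2 : ℝ) • (Θ⁻¹ᵀ * (Θᵀ * Θ) * Θ⁻¹) := by rw [e, hΘ]; simp
      _ = (2 : ℝ) • ((Θ⁻¹ᵀ * Θᵀ) * (Θ * Θ⁻¹)) := by simp only [Matrix.mul_assoc]
      _ = (2 : ℝ) • 1 := by rw [hi4, hi2, Matrix.one_mul]
  have hBA : B = (2 : ℝ) • 1 - A := by rw [← hAB2]; abel
  -- A * B is positive definite
  have hcomm : A * B = B * A := by
    rw [hBA]
    simp [Matrix.mul_sub, Matrix.sub_mul]
  have hAunit : IsUnit A.det := isUnit_iff_ne_zero.2 hAd.det_pos.ne'
  have hBunit : IsUnit B.det := isUnit_iff_ne_zero.2 hBd.det_pos.ne'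
  have hABd : (A * B).PosDef := by
    have hsum : (A⁻¹ + B⁻¹).PosDef := hAd.inv.add hBd.inv
    have hprod : A * B * (A⁻¹ + B⁻¹) = (2 : ℝ) • 1 := by
      calc A * B * (A⁻¹ + B⁻¹) = A * B * A⁻¹ + A * (B * B⁻¹) := by
            rw [Matrix.mul_add, Matrix.mul_assoc A B B⁻¹]
        _ = B * (A * A⁻¹) + A * (B * B⁻¹) := by rw [hcomm, Matrix.mul_assoc]
        _ = (2 : ℝ) • 1 := by
            rw [Matrix.mul_nonsing_inv _ hAunit, Matrix.mul_nonsing_inv _ hBunit,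
              Matrix.mul_one, Matrix.mul_one, ← hAB2]
            abel
    have hinv : A * B = (2 : ℝ) • (A⁻¹ + B⁻¹)⁻¹ := by
      have hu : IsUnit (A⁻¹ + B⁻¹).det := isUnit_iff_ne_zero.2 hsum.det_pos.ne'
      calc A * B = A * B * ((A⁻¹ + B⁻¹) * (A⁻¹ + B⁻¹)⁻¹) := by
            rw [Matrix.mul_nonsing_inv _ hu, Matrix.mul_one]
        _ = (2 : ℝ) • (A⁻¹ + B⁻¹)⁻¹ := by
            rw [← Matrix.mul_assoc, hprod, Matrix.smul_mul, Matrix.one_mul]
    rw [hinv]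
    exact hsum.inv.smul (by norm_num)
  have hdetAB : Real.log P₀.det + Real.log P₁.det =
      2 * Real.log Pb.det + Real.log (A * B).det := by
    have hT : Θ.det ≠ 0 := hdet.ne_zero
    rw [hP0, hP1, hΘ]
    simp only [det_mul, det_transpose]
    rw [Real.log_mul (mul_ne_zero hT hAd.det_pos.ne') hT, Real.log_mul hT hAd.det_pos.ne',
      Real.log_mul (mul_ne_zero hT hBd.det_pos.ne') hT, Real.log_mul hT hBd.det_pos.ne',
      Real.log_mul hT hT, Real.log_mul hAd.det_pos.ne' hBd.det_pos.ne']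
    ring
  have hlog := logdet_le_trace hABd
  -- X = A - 1
  set X : Matrix ι ι ℝ := A - 1 with hX
  have hXs : Xᵀ = X := by rw [hX, transpose_sub, hAs, transpose_one]
  have hABX : A * B = 1 - X * X := by
    rw [hBA, hX]
    have h2 : (2 : ℝ) • (1 : Matrix ι ι ℝ) = 1 + 1 := by
      rw [two_smul]
    rw [h2]
    noncomm_ring
  have htr1 : (A * B).trace - Fintype.card ι = -(X * X).trace := by
    rw [hABX, trace_sub, trace_one]
    ring
  set Y : Matrix ι ι ℝ := Θ * ζ * Θᵀ with hY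
  have hYs : Yᵀ = Y := by
    rw [hY, transpose_mul, transpose_mul, transpose_transpose, hζ, Matrix.mul_assoc]
  have hsq : 0 ≤ ((X - Y) * (X - Y)).trace := by
    have h := (Matrix.posSemidef_conjTranspose_mul_self (X - Y)).trace_nonneg
    rwa [conjTranspose_eq_transpose_of_trivial, transpose_sub, hXs, hYs] at h
  have hsq2 : ((X - Y) * (X - Y)).trace = (X * X).trace - 2 * (X * Y).trace + (Y * Y).trace := by
    have e : (X - Y) * (X - Y) = X * X - X * Y - Y * X + Y * Y := by noncomm_ring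
    rw [e, trace_add, trace_sub, trace_sub, Matrix.trace_mul_comm Y X]
    ring
  have hXY : 2 * (X * Y).trace = ((P₀ - P₁) * ζ).trace := by
    have e1 : P₀ - P₁ = (2 : ℝ) • (Θᵀ * X * Θ) := by
      rw [hP0, hP1, hBA, hX, two_smul, two_smul]
      noncomm_ring
    rw [e1, Matrix.smul_mul, trace_smul, smul_eq_mul]
    congr 1
    rw [hY]
    calc (X * (Θ * ζ * Θᵀ)).trace = ((X * Θ * ζ) * Θᵀ).trace := by
          simp only [Matrix.mul_assoc]
      _ = (Θᵀ * (X * Θ * ζ)).trace := Matrix.trace_mul_comm _ _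
      _ = (Θᵀ * X * Θ * ζ).trace := by simp only [Matrix.mul_assoc]
  have hYY : (Y * Y).trace = (Pb * ζ * Pb * ζ).trace := by
    rw [hY, hΘ]
    calc (Θ * ζ * Θᵀ * (Θ * ζ * Θᵀ)).trace = (Θ * (ζ * Θᵀ * Θ * ζ * Θᵀ)).trace := by
          simp only [Matrix.mul_assoc]
      _ = (ζ * Θᵀ * Θ * ζ * Θᵀ * Θ).trace := Matrix.trace_mul_comm _ _
      _ = (ζ * (Θᵀ * Θ * ζ * (Θᵀ * Θ))).trace := by simp only [Matrix.mul_assoc]
      _ = (Θᵀ * Θ * ζ * (Θᵀ * Θ) * ζ).trace := Matrix.trace_mul_comm _ _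
  -- comparison of the quadratic terms
  set E : Matrix ι ι ℝ := PP - Pb with hE
  have hPPe : PP = E + Pb := by rw [hE]; abel
  have hPPd : PP.PosSemidef := by rw [hPPe]; exact hPP.add hPbd.posSemidef
  have hc : (Pb * ζ * Pb * ζ).trace ≤ (PP * ζ * PP * ζ).trace := by
    have e : PP * ζ * PP * ζ - Pb * ζ * Pb * ζ = E * (ζ * PP * ζ) + Pb * (ζ * E * ζ) := by
      rw [hPPe]; noncomm_ring
    have t1 : 0 ≤ (E * (ζ * PP * ζ)).trace := by
      refine ul_tr_mul_nonneg hPP ?_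
      have := hPPd.mul_mul_conjTranspose_same ζ
      rwa [conjTranspose_eq_transpose_of_trivial, hζ] at this
    have t2 : 0 ≤ (Pb * (ζ * E * ζ)).trace := by
      refine ul_tr_mul_nonneg hPbd.posSemidef ?_
      have := hPP.mul_mul_conjTranspose_same ζ
      rwa [conjTranspose_eq_transpose_of_trivial, hζ] at this
    have t3 := congrArg Matrix.trace e
    rw [trace_sub, trace_add] at t3
    linarith
  rw [hdetAB]
  rw [htr1] at hlog
  rw [hsq2, hXY, hYY] at hsq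
  linarith

end Vale.Agent.P075
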