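import Vale.Agent.P075.Trunc
import Vale.Agent.P075.BasicLemmas

namespace Vale.Agent.P075

open Finset Matrix

/-- constant of the operator valued martingale transform -/
def Ck (k : ℕ) : ℝ := 2 * 4 ^ (k + 1)

/-- martingale transform of a matrix valued function on G n, written with kernels kj -/
noncomputable def Tr {n : ℕ} {d : Type*} (σ : ℕ → ℝ) (A : G n → Matrix d d ℝ) : G n → Matrix d d ℝ :=
  fun x => ∑ x', (∑ i ∈ range n, σ i * kj i (x + x')) • A x'

section characters

/-- the nontrivial sign character of ZMod 2 -/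
def ps (a : ZMod 2) : ℝ := if a = 0 then 1 else -1

theorem ps_zero : ps 0 = 1 := by simp [ps]
theorem ps_one : ps 1 = -1 := by
  unfold ps
  rw [if_neg (by decide)]

theorem ps_add (a b : ZMod 2) : ps (a + b) = ps a * ps b := by
  rcases zmod2_cases a with rfl | rfl <;> rcases zmod2_cases b with rfl | rfl
  · simp [ps_zero]
  · simp [ps_zero]
  · simp [ps_zero]
  · have : (1 : ZMod 2) + 1 = 0 := by decide
    rw [this, ps_zero, ps_one]; norm_num

theorem ps_sq (a : ZMod 2) : ps a * ps a = 1 := by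
  rcases zmod2_cases a with rfl | rfl
  · simp [ps_zero]
  · rw [ps_one]; norm_num

theorem ps_ne {a b : ZMod 2} (h : a ≠ b) : ps b = - ps a := by
  rcases zmod2_cases a with rfl | rfl <;> rcases zmod2_cases b with rfl | rfl
  · exact absurd rfl h
  · rw [ps_zero, ps_one]
  · rw [ps_zero, ps_one]; norm_num
  · exact absurd rfl h

variable {n : ℕ}

/-- Walsh functions -/
def chi (z x : G n) : ℝ := ps (∑ i, z i * x i)

theorem chi_add_left (z w x : G n) : chi (z + w) x = chi z x * chi w x := by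
  unfold chi
  rw [← ps_add, ← Finset.sum_add_distrib]
  congr 1
  refine Finset.sum_congr rfl fun i _ => ?_
  rw [Pi.add_apply, add_mul]

theorem chi_comm (z x : G n) : chi z x = chi x z := by
  unfold chi
  congr 1
  refine Finset.sum_congr rfl fun i _ => mul_comm _ _

theorem chi_add_right (z x y : G n) : chi z (x + y) = chi z x * chi z y := by
  rw [chi_comm, chi_add_left, chi_comm x, chi_comm y]

theorem chi_sq (z x : G n) : chi z x * chi z x = 1 := ps_sq _

theorem chi_zero_left (x : G n) : chi 0 x = 1 := by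
  unfold chi
  simp [ps_zero]

theorem chi_single_right (z : G n) (l : Fin n) : chi z (Pi.single l 1) = ps (z l) := by
  unfold chi
  congr 1
  rw [Finset.sum_eq_single l]
  · simp
  · intro b _ hb
    rw [Pi.single_eq_of_ne hb, mul_zero]
  · intro h
    exact absurd (mem_univ l) h

theorem sum_chi_Low {i : ℕ} (hi : i ≤ n) (z : G n) :
    ∑ t ∈ univ.filter (fun t : G n => Low i t), chi z t =
      if (∀ l : Fin n, i ≤ (l : ℕ) → z l = 0) then 2 ^ (n - i) else 0 := by
  classical
  split_ifs with h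
  · have h1 : ∀ t ∈ univ.filter (fun t : G n => Low i t), chi z t = 1 := by
      intro t ht
      simp only [mem_filter, mem_univ, true_and] at ht
      unfold chi
      rw [Finset.sum_eq_zero, ps_zero]
      intro l _
      by_cases hl : i ≤ (l : ℕ)
      · rw [h l hl, zero_mul]
      · rw [ht l (not_le.1 hl), mul_zero]
    rw [Finset.sum_congr rfl h1, Finset.sum_const, card_Low hi]
    simp
  · push Not at h
    obtain ⟨l, hl, hzl⟩ := h
    set t₀ : G n := Pi.single l 1 with ht₀
    have hlow : Low i t₀ := by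
      intro m hm
      rw [ht₀, Pi.single_eq_of_ne]
      intro h
      rw [h] at hm
      omega
    have hc : chi z t₀ = -1 := by
      rw [ht₀, chi_single_right]
      rcases zmod2_cases (z l) with h0 | h0
      · exact absurd h0 hzl
      · rw [h0, ps_one]
    have h1 : ∑ t ∈ univ.filter (fun t : G n => Low i t), chi z t =
        - ∑ t ∈ univ.filter (fun t : G n => Low i t), chi z t := by
      conv_lhs => rw [Finset.sum_filter,
        ← sum_translate (fun t : G n => if Low i t then chi z t else 0) t₀]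
      rw [Finset.sum_filter, ← Finset.sum_neg_distrib]
      refine Finset.sum_congr rfl fun t _ => ?_
      have h2 : Low i (t + t₀) ↔ Low i t := by
        rw [add_comm]
        exact Low_add_iff hlow
      by_cases h3 : Low i t
      · rw [if_pos (h2.2 h3), if_pos h3, chi_add_right, hc]; ring
      · rw [if_neg (fun h4 => h3 (h2.1 h4)), if_neg h3]; ring
    linarith

theorem sum_chi (x : G n) : ∑ z : G n, chi z x = if x = 0 then 2 ^ n else 0 := by
  have h := sum_chi_Low (n := n) (i := 0) (Nat.zero_le n) x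
  have h1 : (univ.filter (fun t : G n => Low 0 t)) = univ := by
    ext t
    simp only [mem_filter, mem_univ, true_and, iff_true]
    exact Low_zero t
  rw [h1] at h
  have h2 : ∑ z : G n, chi z x = ∑ z : G n, chi x z :=
    Finset.sum_congr rfl fun z _ => chi_comm z x
  rw [h2, h]
  have h3 : (∀ l : Fin n, 0 ≤ (l : ℕ) → x l = 0) ↔ x = 0 := by
    constructor
    · intro h4
      funext l
      exact h4 l (Nat.zero_le _)
    · rintro rfl l _
      rfl
  by_cases h4 : x = 0
  · rw [if_pos h4, if_pos (h3.2 h4), Nat.sub_zero]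
  · rw [if_neg h4, if_neg (fun h5 => h4 (h3.1 h5))]

/-- j is the largest index where z and w differ -/
def IsLead (z w : G n) (j : Fin n) : Prop := z j ≠ w j ∧ ∀ l, j < l → z l = w l

theorem sum_chi_kj (z : G n) {i : ℕ} (hi : i < n) :
    ∑ t, chi z t * kj i t = open Classical in if IsLead z 0 ⟨i, hi⟩ then 1 else 0 := by
  classical
  set e : G n := Pi.single ⟨i, hi⟩ 1 with he
  have h1 : ∀ t : G n, chi z t * kj i t = (if Low i t then chi (z + e) t else 0) / 2 ^ (n - i) := by
    intro t
    unfold kj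
    split_ifs with h
    · have h2 : sg i t = chi e t := by
        rw [he, chi_comm, chi_single_right]
        unfold sg ps
        rw [dif_pos hi]
      rw [chi_add_left, h2]
      ring
    · simp
  simp_rw [h1]
  rw [← Finset.sum_div, ← Finset.sum_filter, sum_chi_Low hi.le]
  have h3 : (∀ l : Fin n, i ≤ (l : ℕ) → (z + e) l = 0) ↔ IsLead z 0 ⟨i, hi⟩ := by
    constructor
    · intro h
      constructor
      · have h4 := h ⟨i, hi⟩ (le_refl i)
        rw [Pi.add_apply, he, Pi.single_eq_same] at h4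
        intro h5
        rw [h5] at h4
        simp at h4
      · intro l hl
        have hl' : i < (l : ℕ) := hl
        have h4 := h l hl'.le
        rw [Pi.add_apply, he, Pi.single_eq_of_ne, add_zero] at h4
        · exact h4
        · intro h5
          rw [h5] at hl'
          simp at hl'
    · rintro ⟨h4, h5⟩ l hl
      rw [Pi.add_apply, he]
      by_cases h6 : l = ⟨i, hi⟩
      · rw [h6, Pi.single_eq_same]
        rcases zmod2_cases (z ⟨i, hi⟩) with h7 | h7
        · exact absurd h7 h4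
        · rw [h7]; decide
      · rw [Pi.single_eq_of_ne h6, add_zero]
        refine h5 l ?_
        have h7 : i ≠ (l : ℕ) := fun h8 => h6 (Fin.ext h8.symm)
        exact Fin.lt_def.2 (lt_of_le_of_ne hl h7)
  by_cases h4 : IsLead z 0 ⟨i, hi⟩
  · rw [if_pos h4, if_pos (h3.2 h4), div_self]
    positivity
  · rw [if_neg h4, if_neg (fun h5 => h4 (h3.1 h5)), zero_div]

end characters

section bigmatrix

variable {n : ℕ} {d : Type*} [Fintype d] [DecidableEq d]

/-- the Walsh block matrix -/
noncomputable def BM (A : G n → Matrix d d ℝ) : Matrix (G n × d) (G n × d) ℝ :=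
  Matrix.of fun p q => (∑ x, chi (p.1 + q.1) x * A x p.2 q.2) / 2 ^ n

theorem BM_apply (A : G n → Matrix d d ℝ) (p q : G n × d) :
    BM A p q = (∑ x, chi (p.1 + q.1) x * A x p.2 q.2) / 2 ^ n := rfl

theorem BM_mul (A A' : G n → Matrix d d ℝ) : BM A * BM A' = BM (fun x => A x * A' x) := by
  classical
  ext p q
  rw [Matrix.mul_apply, BM_apply, Fintype.sum_prod_type]
  have h1 : ∀ (z : G n) (w : d), BM A p (z, w) * BM A' (z, w) q =
      ∑ x, ∑ x', chi z (x + x') * (chi p.1 x * chi q.1 x' * (A x p.2 w * A' x' w q.2)) /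
        (2 ^ n * 2 ^ n) := by
    intro z w
    rw [BM_apply, BM_apply, div_mul_div_comm, Finset.sum_mul_sum, Finset.sum_div]
    refine Finset.sum_congr rfl fun x _ => ?_
    rw [Finset.sum_div]
    refine Finset.sum_congr rfl fun x' _ => ?_
    rw [chi_add_left, chi_add_left, chi_add_right]
    ring
  simp_rw [h1]
  have h2 : ∑ z : G n, ∑ w, ∑ x, ∑ x', chi z (x + x') *
      (chi p.1 x * chi q.1 x' * (A x p.2 w * A' x' w q.2)) / (2 ^ n * 2 ^ n) =
      ∑ x, ∑ x', ∑ w, (∑ z : G n, chi z (x + x')) *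
        (chi p.1 x * chi q.1 x' * (A x p.2 w * A' x' w q.2)) / (2 ^ n * 2 ^ n) := by
    rw [Finset.sum_comm]
    have e1 : ∀ w, ∑ z : G n, ∑ x, ∑ x', chi z (x + x') *
        (chi p.1 x * chi q.1 x' * (A x p.2 w * A' x' w q.2)) / (2 ^ n * 2 ^ n) =
        ∑ x, ∑ x', (∑ z : G n, chi z (x + x')) *
        (chi p.1 x * chi q.1 x' * (A x p.2 w * A' x' w q.2)) / (2 ^ n * 2 ^ n) := by
      intro w
      rw [Finset.sum_comm]
      refine Finset.sum_congr rfl fun x _ => ?_
      rw [Finset.sum_comm]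
      refine Finset.sum_congr rfl fun x' _ => ?_
      rw [Finset.sum_mul, Finset.sum_div]
    simp_rw [e1]
    rw [Finset.sum_comm]
    refine Finset.sum_congr rfl fun x _ => ?_
    rw [Finset.sum_comm]
  rw [h2, Finset.sum_div]
  refine Finset.sum_congr rfl fun x _ => ?_
  rw [Finset.sum_eq_single x]
  · rw [Matrix.mul_apply, Finset.mul_sum, Finset.sum_div]
    refine Finset.sum_congr rfl fun w _ => ?_
    rw [sum_chi, if_pos (add_self_G x), chi_add_left]
    have : (2 : ℝ) ^ n ≠ 0 := by positivity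
    field_simp
  · intro x' _ hx'
    refine Finset.sum_eq_zero fun w _ => ?_
    rw [sum_chi, if_neg]
    · simp
    · intro h
      apply hx'
      have h3 : x + (x + x') = x + 0 := by rw [h]
      rw [add_add_self_G, add_zero] at h3
      exact h3
  · intro h
    exact absurd (mem_univ x) h

theorem BM_one : BM (fun _ : G n => (1 : Matrix d d ℝ)) = 1 := by
  classical
  ext p q
  rw [BM_apply, ← Finset.sum_mul]
  have h2 : ∑ x : G n, chi (p.1 + q.1) x = ∑ x : G n, chi x (p.1 + q.1) :=
    Finset.sum_congr rfl fun z _ => chi_comm _ _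
  rw [h2, sum_chi, Matrix.one_apply, Matrix.one_apply]
  by_cases h : p = q
  · rw [if_pos h]
    have h3 : p.1 + q.1 = 0 := by rw [h, add_self_G]
    rw [if_pos h3, if_pos (by rw [h]), mul_one, div_self]
    positivity
  · rw [if_neg h]
    by_cases h1 : p.1 + q.1 = 0
    · have h4 : p.1 = q.1 := by
        have h5 : p.1 + (p.1 + q.1) = p.1 + 0 := by rw [h1]
        rw [add_add_self_G, add_zero] at h5
        exact h5.symm
      have h6 : p.2 ≠ q.2 := fun h7 => h (Prod.ext h4 h7)
      rw [if_neg h6, mul_zero, zero_div]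
    · rw [if_neg h1, zero_mul, zero_div]

theorem BM_pow (A : G n → Matrix d d ℝ) (m : ℕ) : BM A ^ m = BM (fun x => A x ^ m) := by
  induction m with
  | zero =>
    simp only [pow_zero]
    exact BM_one.symm
  | succ m ih =>
    rw [pow_succ, ih, BM_mul]
    simp only [pow_succ]

theorem BM_transpose (A : G n → Matrix d d ℝ) : (BM A)ᵀ = BM (fun x => (A x)ᵀ) := by
  ext p q
  rw [Matrix.transpose_apply, BM_apply, BM_apply, add_comm q.1 p.1]
  rfl

theorem trace_BM (A : G n → Matrix d d ℝ) : Matrix.trace (BM A) = ∑ x, Matrix.trace (A x) := by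
  classical
  unfold Matrix.trace
  rw [Fintype.sum_prod_type]
  have h1 : ∀ (z : G n) (w : d), Matrix.diag (BM A) (z, w) = ∑ x, A x w w / 2 ^ n := by
    intro z w
    rw [Matrix.diag_apply, BM_apply, Finset.sum_div]
    refine Finset.sum_congr rfl fun x _ => ?_
    rw [add_self_G, chi_zero_left, one_mul]
  simp_rw [h1]
  rw [Finset.sum_const, Finset.card_univ, nsmul_eq_mul]
  have h2 : (Fintype.card (G n) : ℝ) = 2 ^ n := by
    simp [Fintype.card_pi, ZMod.card]
  rw [h2, Finset.sum_comm, Finset.mul_sum]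
  refine Finset.sum_congr rfl fun x _ => ?_
  rw [Finset.mul_sum]
  refine Finset.sum_congr rfl fun w _ => ?_
  rw [Matrix.diag_apply]
  field_simp

theorem Nk_BM (k : ℕ) (A : G n → Matrix d d ℝ) :
    Nk k (BM A) ^ (2 ^ (k + 1)) = ∑ x, Matrix.trace (((A x)ᵀ * A x) ^ (2 ^ k)) := by
  rw [Nk_pow, BM_transpose, BM_mul, BM_pow, trace_BM]

theorem BM_add (A A' : G n → Matrix d d ℝ) : BM (fun x => A x + A' x) = BM A + BM A' := by
  ext p q
  rw [Matrix.add_apply, BM_apply, BM_apply, BM_apply, ← add_div, ← Finset.sum_add_distrib]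
  congr 1
  refine Finset.sum_congr rfl fun x _ => ?_
  rw [Matrix.add_apply]
  ring

theorem BM_smul (c : ℝ) (A : G n → Matrix d d ℝ) : BM (fun x => c • A x) = c • BM A := by
  ext p q
  rw [Matrix.smul_apply, BM_apply, BM_apply, smul_eq_mul, mul_div_assoc', Finset.mul_sum]
  congr 1
  refine Finset.sum_congr rfl fun x _ => ?_
  rw [Matrix.smul_apply, smul_eq_mul]
  ring

theorem Nk_BM_translate (k : ℕ) (A : G n → Matrix d d ℝ) (a : G n) :
    Nk k (BM (fun x => A (x + a))) = Nk k (BM A) := by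
  have h1 : Nk k (BM (fun x => A (x + a))) ^ (2 ^ (k + 1)) = Nk k (BM A) ^ (2 ^ (k + 1)) := by
    rw [Nk_BM, Nk_BM]
    exact sum_translate (fun x => Matrix.trace (((A x)ᵀ * A x) ^ (2 ^ k))) a
  exact (pow_left_inj₀ (Nk_nonneg _ _) (Nk_nonneg _ _) (by positivity)).1 h1

/-- matrix of the mean -/
theorem Nk_mean (k : ℕ) (A : G n → Matrix d d ℝ) :
    Nk k (Matrix.of fun p q : G n × d => if p.1 = q.1 then BM A p q else 0) ≤ Nk k (BM A) := by
  classical
  have h1 : (Matrix.of fun p q : G n × d => if p.1 = q.1 then BM A p q else 0) =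
      ((1 : ℝ) / 2 ^ n) • ∑ a : G n, BM (fun x => A (x + a)) := by
    ext p q
    rw [Matrix.of_apply, Matrix.smul_apply, Matrix.sum_apply, smul_eq_mul]
    have h2 : ∀ a : G n, BM (fun x => A (x + a)) p q =
        chi (p.1 + q.1) a * BM A p q := by
      intro a
      rw [BM_apply, BM_apply, mul_div_assoc', Finset.mul_sum]
      congr 1
      rw [← sum_translate (fun x => chi (p.1 + q.1) a * (chi (p.1 + q.1) x * A x p.2 q.2)) a]
      refine Finset.sum_congr rfl fun x _ => ?_
      rw [chi_add_right]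
      have := chi_sq (p.1 + q.1) a
      calc chi (p.1 + q.1) x * A (x + a) p.2 q.2 =
          (chi (p.1 + q.1) a * chi (p.1 + q.1) a) * (chi (p.1 + q.1) x * A (x + a) p.2 q.2) := by
            rw [this, one_mul]
        _ = _ := by ring
    simp_rw [h2]
    rw [← Finset.sum_mul]
    have h3 : ∑ x : G n, chi (p.1 + q.1) x = ∑ x : G n, chi x (p.1 + q.1) :=
      Finset.sum_congr rfl fun z _ => chi_comm _ _
    rw [h3, sum_chi]
    by_cases h : p.1 = q.1
    · have h4 : p.1 + q.1 = 0 := by rw [h, add_self_G]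
      rw [if_pos h, if_pos h4]
      have : (2 : ℝ) ^ n ≠ 0 := by positivity
      field_simp
    · have h4 : p.1 + q.1 ≠ 0 := by
        intro h1
        apply h
        have h5 : p.1 + (p.1 + q.1) = p.1 + 0 := by rw [h1]
        rw [add_add_self_G, add_zero] at h5
        exact h5.symm
      rw [if_neg h, if_neg h4]
      ring
  rw [h1, Nk_smul]
  have h2 := Nk_sum_le (univ : Finset (G n)) k (fun a => BM (fun x => A (x + a)))
  simp_rw [Nk_BM_translate] at h2
  rw [Finset.sum_const, Finset.card_univ, nsmul_eq_mul] at h2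
  have h3 : (Fintype.card (G n) : ℝ) = 2 ^ n := by
    simp [Fintype.card_pi, ZMod.card]
  rw [h3] at h2
  rw [abs_of_pos (by positivity : (0 : ℝ) < 1 / 2 ^ n)]
  have h4 := mul_le_mul_of_nonneg_left h2 (by positivity : (0 : ℝ) ≤ 1 / 2 ^ n)
  refine le_trans h4 (le_of_eq ?_)
  have : (2 : ℝ) ^ n ≠ 0 := by positivity
  field_simp

end bigmatrix

section kernels

variable {n : ℕ}

open Classical in
/-- signed order kernel -/
noncomputable def sk (σ : ℕ → ℝ) (z w : G n) : ℝ :=
  ∑ j : Fin n, if IsLead z w j then σ j * ps (z j) else 0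

theorem IsLead.unique {z w : G n} {j l : Fin n} (h : IsLead z w j) (h' : IsLead z w l) :
    j = l := by
  rcases lt_trichotomy j l with h1 | h1 | h1
  · exact absurd (h.2 l h1) h'.1
  · exact h1
  · exact absurd (h'.2 j h1) h.1

theorem exists_lead {z w : G n} (h : z ≠ w) : ∃ j, IsLead z w j := by
  classical
  have h1 : (univ.filter (fun l : Fin n => z l ≠ w l)).Nonempty := by
    by_contra h2
    rw [Finset.not_nonempty_iff_eq_empty] at h2
    apply h
    funext l
    by_contra h3
    have : l ∈ univ.filter (fun l : Fin n => z l ≠ w l) := by simp [h3]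
    rw [h2] at this
    simp at this
  refine ⟨(univ.filter (fun l : Fin n => z l ≠ w l)).max' h1, ?_, ?_⟩
  · have := Finset.max'_mem _ h1
    simpa using this
  · intro l hl
    by_contra h3
    have h4 : l ∈ univ.filter (fun l : Fin n => z l ≠ w l) := by simp [h3]
    have h5 := Finset.le_max' _ l h4
    exact absurd hl (not_lt.2 h5)

theorem sk_lead (σ : ℕ → ℝ) {z w : G n} {j : Fin n} (h : IsLead z w j) :
    sk σ z w = σ j * ps (z j) := by
  classical
  unfold sk
  rw [Finset.sum_eq_single j]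
  · rw [if_pos h]
  · intro l _ hl
    rw [if_neg (fun h' => hl (h'.unique h))]
  · intro h'
    exact absurd (mem_univ j) h'

theorem sk_self (σ : ℕ → ℝ) (z : G n) : sk σ z z = 0 := by
  classical
  unfold sk
  refine Finset.sum_eq_zero fun l _ => ?_
  rw [if_neg (fun h => h.1 rfl)]

theorem ordKer_sk (σ : ℕ → ℝ) (hσ : ∀ i, σ i = 1 ∨ σ i = -1) : OrdKer (sk (n := n) σ) := by
  have hsq : ∀ i, σ i * σ i = 1 := by
    intro i
    rcases hσ i with h | h <;> rw [h] <;> norm_num
  have hsq1 : ∀ z w : G n, z ≠ w → sk σ z w ^ 2 = 1 := by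
    intro z w hzw
    obtain ⟨j, hj⟩ := exists_lead hzw
    rw [sk_lead σ hj]
    calc (σ j * ps (z j)) ^ 2 = (σ j * σ j) * (ps (z j) * ps (z j)) := by ring
      _ = 1 := by rw [hsq, ps_sq, one_mul]
  have hanti : ∀ z w : G n, sk σ w z = - sk σ z w := by
    intro z w
    by_cases hzw : z = w
    · rw [hzw, sk_self, neg_zero]
    · obtain ⟨j, hj⟩ := exists_lead hzw
      have hj' : IsLead w z j := ⟨fun h => hj.1 h.symm, fun l hl => (hj.2 l hl).symm⟩
      rw [sk_lead σ hj, sk_lead σ hj', ps_ne hj.1]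
      ring
  refine ⟨sk_self σ, hsq1, hanti, ?_⟩
  intro x y z hxy hyz
  obtain ⟨p, hp⟩ := exists_lead hxy
  obtain ⟨q, hq⟩ := exists_lead hyz
  rcases lt_trichotomy p q with h1 | h1 | h1
  · -- lead of x,z is q
    have hr : IsLead x z q := by
      refine ⟨?_, fun l hl => ?_⟩
      · rw [hp.2 q h1]; exact hq.1
      · rw [hp.2 l (lt_trans h1 hl)]; exact hq.2 l hl
    have e1 : sk σ x z = sk σ y z := by
      rw [sk_lead σ hr, sk_lead σ hq, hp.2 q h1]
    rw [e1]
    have := hsq1 y z hyz
    nlinarith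
  · subst h1
    have e1 : sk σ y z = - sk σ x y := by
      rw [sk_lead σ hp, sk_lead σ hq, ps_ne hp.1]
      ring
    rw [e1]
    have := hsq1 x y hxy
    nlinarith
  · have hr : IsLead x z p := by
      refine ⟨?_, fun l hl => ?_⟩
      · rw [← hq.2 p h1]; exact hp.1
      · rw [← hq.2 l (lt_trans h1 hl)]; exact hp.2 l hl
    have e1 : sk σ x z = sk σ x y := by
      rw [sk_lead σ hr, sk_lead σ hp]
    rw [e1]
    have := hsq1 x y hxy
    nlinarith

open Classical in
/-- Fourier multiplier of the martingale transform -/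
noncomputable def mk (σ : ℕ → ℝ) (z : G n) : ℝ :=
  ∑ j : Fin n, if IsLead z 0 j then σ j else 0

theorem IsLead_add {z w : G n} {j : Fin n} : IsLead (z + w) 0 j ↔ IsLead z w j := by
  have h1 : ∀ l, (z + w) l = (0 : G n) l ↔ z l = w l := by
    intro l
    rw [Pi.add_apply, Pi.zero_apply]
    rcases zmod2_cases (z l) with h2 | h2 <;> rcases zmod2_cases (w l) with h3 | h3 <;>
      rw [h2, h3] <;> decide
  unfold IsLead
  simp only [ne_eq, h1]

theorem mk_eq (σ : ℕ → ℝ) (z w : G n) : mk σ (z + w) = sk (fun _ => 1) z w * sk σ z w := by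
  classical
  by_cases h : z = w
  · rw [h, sk_self, zero_mul]
    unfold mk
    refine Finset.sum_eq_zero fun l _ => ?_
    rw [if_neg]
    intro h1
    rw [IsLead_add] at h1
    exact h1.1 rfl
  · obtain ⟨j, hj⟩ := exists_lead h
    rw [sk_lead _ hj, sk_lead _ hj]
    have h1 : mk σ (z + w) = σ j := by
      unfold mk
      rw [Finset.sum_eq_single j]
      · rw [if_pos (IsLead_add.2 hj)]
      · intro l _ hl
        rw [if_neg (fun h' => hl ((IsLead_add.1 h').unique hj))]
      · intro h'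
        exact absurd (mem_univ j) h'
    rw [h1]
    have := ps_sq (z j)
    calc σ j = σ j * (ps (z j) * ps (z j)) := by rw [this, mul_one]
      _ = _ := by ring

theorem sum_chi_kernel (σ : ℕ → ℝ) (z : G n) :
    ∑ t, chi z t * (∑ i ∈ range n, σ i * kj i t) = mk σ z := by
  classical
  unfold mk
  have h1 : ∑ t, chi z t * (∑ i ∈ range n, σ i * kj i t) =
      ∑ i ∈ range n, σ i * ∑ t, chi z t * kj i t := by
    simp_rw [Finset.mul_sum]
    rw [Finset.sum_comm]
    refine Finset.sum_congr rfl fun i _ => Finset.sum_congr rfl fun t _ => ?_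
    ring
  rw [h1, Finset.sum_range]
  refine Finset.sum_congr rfl fun i _ => ?_
  rw [sum_chi_kj z i.2]
  by_cases h : IsLead z 0 i
  · have h' : IsLead z 0 ⟨(i : ℕ), i.2⟩ := h
    rw [if_pos h', if_pos h, mul_one]
  · have h' : ¬ IsLead z 0 ⟨(i : ℕ), i.2⟩ := h
    rw [if_neg h', if_neg h, mul_zero]

end kernels

section final

variable {n : ℕ} {d : Type*} [Fintype d] [DecidableEq d]

theorem BM_Tr (σ : ℕ → ℝ) (A : G n → Matrix d d ℝ) (p q : G n × d) :
    BM (Tr σ A) p q = mk σ (p.1 + q.1) * BM A p q := by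
  rw [BM_apply, BM_apply, ← sum_chi_kernel, mul_div_assoc']
  congr 1
  set z := p.1 + q.1 with hz
  unfold Tr
  have h1 : ∀ x, chi z x * (∑ x', (∑ i ∈ range n, σ i * kj i (x + x')) • A x') p.2 q.2 =
      ∑ x', (chi z (x + x') * ∑ i ∈ range n, σ i * kj i (x + x')) * (chi z x' * A x' p.2 q.2) := by
    intro x
    rw [Matrix.sum_apply, Finset.mul_sum]
    refine Finset.sum_congr rfl fun x' _ => ?_
    rw [Matrix.smul_apply, smul_eq_mul, chi_add_right]
    have := chi_sq z x'
    calc chi z x * ((∑ i ∈ range n, σ i * kj i (x + x')) * A x' p.2 q.2) =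
        (chi z x' * chi z x') *
          (chi z x * ((∑ i ∈ range n, σ i * kj i (x + x')) * A x' p.2 q.2)) := by
          rw [this, one_mul]
      _ = _ := by ring
  simp_rw [h1]
  rw [Finset.sum_comm, Finset.mul_sum]
  refine Finset.sum_congr rfl fun x' _ => ?_
  rw [← Finset.sum_mul]
  congr 1
  exact sum_translate (fun t => chi z t * ∑ i ∈ range n, σ i * kj i t) x'

theorem umd_pm (k : ℕ) (σ : ℕ → ℝ) (hσ : ∀ i, σ i = 1 ∨ σ i = -1) (A : G n → Matrix d d ℝ) :
    Nk k (BM (Tr σ A)) ≤ Ck k * Nk k (BM A) := by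
  classical
  set E : Matrix (G n × d) (G n × d) ℝ :=
    Matrix.of fun p q : G n × d => if p.1 = q.1 then BM A p q else 0 with hE
  set D : Matrix (G n × d) (G n × d) ℝ := BM A + -E with hD
  have hDdiag : ∀ i u v, D (i, u) (i, v) = 0 := by
    intro i u v
    rw [hD, Matrix.add_apply, Matrix.neg_apply, hE, Matrix.of_apply]
    simp
  have h1 : BM (Tr σ A) = Hs (sk (fun _ => 1)) (Hs (sk σ) D) := by
    ext p q
    rw [BM_Tr, mk_eq, tr_Hs_apply, tr_Hs_apply]
    by_cases h : p.1 = q.1
    · rw [h, sk_self]; ring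
    · have h2 : D p q = BM A p q := by
        rw [hD, Matrix.add_apply, Matrix.neg_apply, hE, Matrix.of_apply, if_neg h]
        ring
      rw [h2]; ring
  have hk1 := ordKer_sk (n := n) (fun _ => (1 : ℝ)) (fun _ => Or.inl rfl)
  have hk2 := ordKer_sk (n := n) σ hσ
  have h2 : Nk k (BM (Tr σ A)) ≤ ctr k * Nk k (Hs (sk σ) D) := by
    rw [h1]
    refine Nk_Hs_le _ hk1 k _ ?_
    intro i u v
    rw [tr_Hs_apply, hDdiag, mul_zero]
  have h3 : Nk k (Hs (sk σ) D) ≤ ctr k * Nk k D := Nk_Hs_le _ hk2 k _ hDdiag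
  have h4 : Nk k D ≤ 2 * Nk k (BM A) := by
    have h5 := Nk_add_le k (BM A) (-E)
    rw [Nk_neg] at h5
    have h6 := Nk_mean k A
    linarith
  have hc := tr_ctr_nonneg k
  have hn := Nk_nonneg k (BM A)
  have h5 : Nk k (BM (Tr σ A)) ≤ ctr k * (ctr k * (2 * Nk k (BM A))) :=
    le_trans h2 (mul_le_mul_of_nonneg_left
      (le_trans h3 (mul_le_mul_of_nonneg_left h4 hc)) hc)
  refine le_trans h5 ?_
  have h6 : ctr k ^ 2 ≤ 4 ^ (k + 1) := by
    have h7 : ctr k ≤ 2 ^ (k + 1) := by unfold ctr; linarith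
    calc ctr k ^ 2 ≤ (2 ^ (k + 1)) ^ 2 := by gcongr
      _ = 4 ^ (k + 1) := by rw [← pow_mul, mul_comm, pow_mul]; norm_num
  have h8 : ctr k * (ctr k * (2 * Nk k (BM A))) = 2 * ctr k ^ 2 * Nk k (BM A) := by ring
  rw [h8]
  unfold Ck
  refine mul_le_mul_of_nonneg_right ?_ hn
  linarith

/-- operator valued dyadic martingale transforms are bounded on L^p(S^p), p = 2^(k+1) -/
theorem umd (k : ℕ) (σ : ℕ → ℝ)
    (hσ : ∀ i, σ i = 0 ∨ σ i = 1 ∨ σ i = -1) (A : G n → Matrix d d ℝ) :
    ∑ x, Matrix.trace (((Tr σ A x)ᵀ * Tr σ A x) ^ (2 ^ k)) ≤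
      (Ck k) ^ (2 ^ (k + 1)) * ∑ x, Matrix.trace (((A x)ᵀ * A x) ^ (2 ^ k)) := by
  set σ' : ℕ → ℝ := fun i => if σ i = 0 then 1 else σ i with hσ'
  set σ'' : ℕ → ℝ := fun i => if σ i = 0 then -1 else σ i with hσ''
  have h1 : ∀ i, σ' i = 1 ∨ σ' i = -1 := by
    intro i
    by_cases h : σ i = 0
    · left; simp only [hσ']; rw [if_pos h]
    · have h2 : σ' i = σ i := by simp only [hσ']; rw [if_neg h]
      rw [h2]
      exact (hσ i).resolve_left h
  have h2 : ∀ i, σ'' i = 1 ∨ σ'' i = -1 := by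
    intro i
    by_cases h : σ i = 0
    · right; simp only [hσ'']; rw [if_pos h]
    · have h2 : σ'' i = σ i := by simp only [hσ'']; rw [if_neg h]
      rw [h2]
      exact (hσ i).resolve_left h
  have h3 : ∀ i, σ i = (1 / 2) * (σ' i + σ'' i) := by
    intro i
    by_cases h : σ i = 0
    · simp only [hσ', hσ'']; rw [if_pos h, if_pos h, h]; norm_num
    · simp only [hσ', hσ'']; rw [if_neg h, if_neg h]; ring
  have h4 : Tr σ A = fun x => ((1 : ℝ) / 2) • (Tr σ' A x + Tr σ'' A x) := by
    funext x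
    unfold Tr
    rw [← Finset.sum_add_distrib, Finset.smul_sum]
    refine Finset.sum_congr rfl fun x' _ => ?_
    rw [← add_smul, smul_smul, ← Finset.sum_add_distrib, Finset.mul_sum]
    congr 1
    refine Finset.sum_congr rfl fun i _ => ?_
    rw [h3 i]
    ring
  have h5 : Nk k (BM (Tr σ A)) ≤ Ck k * Nk k (BM A) := by
    rw [h4, BM_smul, BM_add, Nk_smul]
    have h6 := Nk_add_le k (BM (Tr σ' A)) (BM (Tr σ'' A))
    have h7 := umd_pm k σ' h1 A
    have h8 := umd_pm k σ'' h2 A
    rw [abs_of_pos (by norm_num : (0 : ℝ) < 1 / 2)]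
    linarith
  rw [← Nk_BM, ← Nk_BM, ← mul_pow]
  exact pow_le_pow_left₀ (Nk_nonneg _ _) h5 _

end final

end Vale.Agent.P075
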