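import Vale.Agent.P075.ZDefs

namespace Vale.Agent.P075

open Finset Matrix

theorem abs_hZ_le (k : ℕ) (t : ℤ) : |hZ k t| ≤ 1 := by
  unfold hZ; split_ifs <;> simp

theorem abs_gZ_le (k : ℕ) (t : ℤ) : |gZ k t| ≤ 1 := by
  unfold gZ; split_ifs <;> simp

theorem hZ_support {k : ℕ} {t : ℤ} (h : ¬ (0 ≤ t ∧ t < 2 ^ k)) : hZ k t = 0 := by
  unfold hZ; rw [if_neg h]

theorem gZ_support {k : ℕ} {t : ℤ} (h : ¬ (0 ≤ t ∧ t < 2 ^ k)) : gZ k t = 0 := by
  unfold gZ; rw [if_neg h]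

theorem rhoZ_support {k : ℕ} {t : ℤ} (h : 2 ^ k ≤ |t|) : rhoZ k t = 0 := by
  unfold rhoZ
  rw [Finset.sum_eq_zero, zero_div]
  intro u hu
  rw [Finset.mem_Ico] at hu
  rw [gZ_support, zero_mul]
  rintro ⟨h1, h2⟩
  rcases abs_cases t with ⟨h3, h4⟩ | ⟨h3, h4⟩
  · rw [h3] at h; omega
  · rw [h3] at h; omega

theorem abs_rhoZ_le (k : ℕ) (t : ℤ) : |rhoZ k t| ≤ 1 / 2 ^ k := by
  unfold rhoZ
  have h4 : (0 : ℝ) < 4 ^ k := by positivity
  have h2 : (0 : ℝ) < 2 ^ k := by positivity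
  have h42 : (4 : ℝ) ^ k = 2 ^ k * 2 ^ k := by
    rw [← mul_pow]; norm_num
  rw [abs_div, abs_of_pos h4, div_le_div_iff₀ h4 h2, one_mul, h42]
  refine mul_le_mul_of_nonneg_right ?_ h2.le
  calc |∑ u ∈ Finset.Ico (0 : ℤ) (2 ^ k), gZ k (u + t) * hZ k u|
      ≤ ∑ u ∈ Finset.Ico (0 : ℤ) (2 ^ k), |gZ k (u + t) * hZ k u| :=
        Finset.abs_sum_le_sum_abs _ _
    _ ≤ ∑ u ∈ Finset.Ico (0 : ℤ) (2 ^ k), 1 := by
        refine Finset.sum_le_sum fun u _ => ?_
        rw [abs_mul]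
        exact mul_le_one₀ (abs_gZ_le k _) (abs_nonneg _) (abs_hZ_le k _)
    _ = 2 ^ k := by
        rw [Finset.sum_const, Int.card_Ico, sub_zero]
        have : (2 : ℤ) ^ k = ((2 ^ k : ℕ) : ℤ) := by push_cast; rfl
        rw [this, Int.toNat_natCast]
        simp

/-- correlation form with a free translation parameter -/
theorem rhoZ_conv (k : ℕ) (x v lo hi : ℤ) (h1 : lo ≤ v - 2 ^ k + 1) (h2 : v < hi) :
    rhoZ k (x - v) = (∑ a ∈ Finset.Ico lo hi, gZ k (x - a) * hZ k (v - a)) / 4 ^ k := by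
  unfold rhoZ
  congr 1
  have e1 : ∑ a ∈ Finset.Ico lo hi, gZ k (x - a) * hZ k (v - a) =
      ∑ a ∈ Finset.Ico (v - 2 ^ k + 1) (v + 1), gZ k (x - a) * hZ k (v - a) := by
    symm
    refine Finset.sum_subset ?_ ?_
    · intro a ha
      rw [Finset.mem_Ico] at ha ⊢
      omega
    · intro a _ ha
      rw [Finset.mem_Ico] at ha
      rw [hZ_support (k := k) (t := v - a), mul_zero]
      rintro ⟨g1, g2⟩
      exact ha ⟨by omega, by omega⟩
  rw [e1]
  refine Finset.sum_bij' (fun u _ => v - u) (fun a _ => v - a) ?_ ?_ ?_ ?_ ?_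
  · intro u hu
    rw [Finset.mem_Ico] at hu ⊢
    omega
  · intro a ha
    rw [Finset.mem_Ico] at ha ⊢
    omega
  · intro u _
    ring
  · intro a _
    ring
  · intro u _
    have e2 : u + (x - v) = x - (v - u) := by ring
    have e3 : v - (v - u) = u := by ring
    rw [e2, e3]

private theorem und_zero {N : ℕ} : und (0 : G N) = 0 := by
  refine Nat.eq_of_testBit_eq fun i => ?_
  rw [Nat.zero_testBit]
  by_cases hi : i < N
  · rw [testBit_und _ hi, decide_eq_false_iff_not]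
    show ¬ ((0 : ZMod 2) = 1)
    decide
  · exact Nat.testBit_lt_two_pow ((und_lt (0 : G N)).trans_le
      (Nat.pow_le_pow_right (by norm_num) (by omega)))

theorem Low_und {N j : ℕ} (hj : j ≤ N) (x y : G N) :
    Low j (x + y) ↔ und x / 2 ^ (N - j) = und y / 2 ^ (N - j) := by
  have h := xor3_div (N := N) (j := j) rfl x y 0
  rw [und_zero, Nat.zero_div, Nat.xor_zero, add_zero] at h
  rw [← h, Nat.xor_eq_zero_iff]

theorem sum_abs_rhoZ {N : ℕ} (k : ℕ) (c : ℤ) : ∑ z : G N, |rhoZ k ((und z : ℤ) + c)| ≤ 2 := by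
  rw [sum_und (fun a => |rhoZ k ((a : ℤ) + c)|)]
  have h2 : (0 : ℝ) < 2 ^ k := by positivity
  calc ∑ a ∈ Finset.range (2 ^ N), |rhoZ k ((a : ℤ) + c)|
      = ∑ t ∈ (Finset.range (2 ^ N)).map
          ⟨fun a : ℕ => (a : ℤ) + c, fun a b hab => by simpa using hab⟩, |rhoZ k t| := by
        rw [Finset.sum_map]
        rfl
    _ ≤ ∑ t ∈ (Finset.range (2 ^ N)).map
          ⟨fun a : ℕ => (a : ℤ) + c, fun a b hab => by simpa using hab⟩,
          (if t ∈ Finset.Ico (-(2 : ℤ) ^ k) (2 ^ k) then 1 / (2 : ℝ) ^ k else 0) := by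
        refine Finset.sum_le_sum fun t _ => ?_
        split_ifs with ht
        · exact abs_rhoZ_le k t
        · rw [rhoZ_support, abs_zero]
          rw [Finset.mem_Ico] at ht
          by_contra hc
          rw [not_le, abs_lt] at hc
          exact ht ⟨hc.1.le, hc.2⟩
    _ ≤ ∑ t ∈ Finset.Ico (-(2 : ℤ) ^ k) (2 ^ k), 1 / (2 : ℝ) ^ k := by
        rw [← Finset.sum_filter]
        refine Finset.sum_le_sum_of_subset_of_nonneg ?_ (fun _ _ _ => by positivity)
        intro t ht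
        exact (Finset.mem_filter.1 ht).2
    _ = 2 := by
        rw [Finset.sum_const, Int.card_Ico]
        have : (2 : ℤ) ^ k - -2 ^ k = ((2 * 2 ^ k : ℕ) : ℤ) := by push_cast; ring
        rw [this, Int.toNat_natCast, nsmul_eq_mul]
        push_cast
        field_simp

theorem LamR_cyc {N : ℕ} (s : ℤ) (j : ℕ) (F₀ F₁ F₂ : G N → G N → ℝ) :
    LamR s j F₀ F₁ F₂ = LamR s j F₁ F₂ F₀ := by
  unfold LamR
  rw [Finset.sum_comm]
  refine Finset.sum_congr rfl fun y _ => ?_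
  rw [Finset.sum_comm]
  refine Finset.sum_congr rfl fun z _ => ?_
  refine Finset.sum_congr rfl fun x _ => ?_
  have : (und x : ℤ) + und y + und z - s = und y + und z + und x - s := by ring
  rw [this]; ring

theorem LamR_tp {N : ℕ} (s : ℤ) (j : ℕ) (F₀ F₁ F₂ : G N → G N → ℝ) :
    LamR s j F₀ F₁ F₂ = LamR s j (tp F₂) (tp F₁) (tp F₀) := by
  unfold LamR tp
  refine Finset.sum_congr rfl fun x _ => ?_
  rw [Finset.sum_comm]
  refine Finset.sum_congr rfl fun z _ => ?_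
  refine Finset.sum_congr rfl fun y _ => ?_
  have : (und x : ℤ) + und y + und z - s = und x + und z + und y - s := by ring
  rw [this]; ring

theorem LamR_sub₀ {N : ℕ} (s : ℤ) (j : ℕ) (F F' F₁ F₂ : G N → G N → ℝ) :
    LamR s j (fun x y => F x y - F' x y) F₁ F₂ = LamR s j F F₁ F₂ - LamR s j F' F₁ F₂ := by
  unfold LamR
  simp only [← Finset.sum_sub_distrib]
  refine Finset.sum_congr rfl fun x _ => Finset.sum_congr rfl fun y _ =>
    Finset.sum_congr rfl fun z _ => by ring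

theorem LamR_sub₂ {N : ℕ} (s : ℤ) (j : ℕ) (F₀ F₁ F F' : G N → G N → ℝ) :
    LamR s j F₀ F₁ (fun x y => F x y - F' x y) = LamR s j F₀ F₁ F - LamR s j F₀ F₁ F' := by
  unfold LamR
  simp only [← Finset.sum_sub_distrib]
  refine Finset.sum_congr rfl fun x _ => Finset.sum_congr rfl fun y _ =>
    Finset.sum_congr rfl fun z _ => by ring

theorem LamR_add₀ {N : ℕ} (s : ℤ) (j : ℕ) (F F' F₁ F₂ : G N → G N → ℝ) :
    LamR s j (fun x y => F x y + F' x y) F₁ F₂ = LamR s j F F₁ F₂ + LamR s j F' F₁ F₂ := by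
  unfold LamR
  simp only [← Finset.sum_add_distrib]
  refine Finset.sum_congr rfl fun x _ => Finset.sum_congr rfl fun y _ =>
    Finset.sum_congr rfl fun z _ => by ring

theorem LamR_add₂ {N : ℕ} (s : ℤ) (j : ℕ) (F₀ F₁ F F' : G N → G N → ℝ) :
    LamR s j F₀ F₁ (fun x y => F x y + F' x y) = LamR s j F₀ F₁ F + LamR s j F₀ F₁ F' := by
  unfold LamR
  simp only [← Finset.sum_add_distrib]
  refine Finset.sum_congr rfl fun x _ => Finset.sum_congr rfl fun y _ =>
    Finset.sum_congr rfl fun z _ => by ring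

end Vale.Agent.P075
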