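import Vale.Agent.P075.ZDefs

namespace Vale.Agent.P075

open Finset

/-- cells at scale k: x / 2^k = q, y / 2^k = r. F₀ restricted to the cell (q, r). -/
noncomputable def cutI (k : ℕ) (q r : ℤ) (F : ℤ → ℤ → ℝ) : ℤ → ℤ → ℝ :=
  fun x y => if x / 2 ^ k = q ∧ y / 2 ^ k = r then F x y else 0

/-- support of F₀ in the cell -/
noncomputable def n0 (B : Finset ℤ) (F : ℤ → ℤ → ℝ) (k : ℕ) (q r : ℤ) : ℝ :=
  ∑ x ∈ B, ∑ y ∈ B, if F x y ≠ 0 ∧ x / 2 ^ k = q ∧ y / 2 ^ k = r then 1 else 0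

/-- support of F₁ seen from the cell: y in the cell, s - y - z in the tripled cell -/
noncomputable def n1 (B : Finset ℤ) (s : ℤ) (F : ℤ → ℤ → ℝ) (k : ℕ) (q r : ℤ) : ℝ :=
  ∑ y ∈ B, ∑ z ∈ B, if F y z ≠ 0 ∧ y / 2 ^ k = r ∧ |(s - y - z) / 2 ^ k - q| ≤ 1 then 1 else 0

/-- support of F₂ seen from the cell: x in the cell, s - z - x in the tripled cell -/
noncomputable def n2 (B : Finset ℤ) (s : ℤ) (F : ℤ → ℤ → ℝ) (k : ℕ) (q r : ℤ) : ℝ :=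
  ∑ z ∈ B, ∑ x ∈ B, if F z x ≠ 0 ∧ x / 2 ^ k = q ∧ |(s - z - x) / 2 ^ k - r| ≤ 1 then 1 else 0

end Vale.Agent.P075
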