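import Vale.Agent.P075.ZBasic
import Vale.Agent.P075.ZCellDefs

namespace Vale.Agent.P075

open Finset

theorem LamI_cyc (B : Finset ℤ) (s : ℤ) (k : ℕ) (F₀ F₁ F₂ : ℤ → ℤ → ℝ) :
    LamI B s k F₀ F₁ F₂ = LamI B s k F₁ F₂ F₀ := by
  unfold LamI
  rw [Finset.sum_comm]
  refine Finset.sum_congr rfl fun y _ => ?_
  rw [Finset.sum_comm]
  refine Finset.sum_congr rfl fun z _ => ?_
  refine Finset.sum_congr rfl fun x _ => ?_
  rw [show x + y + z - s = y + z + x - s by ring]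
  ring

theorem ZCells_div (k : ℕ) (x q : ℤ) :
    x / 2 ^ k = q ↔ q * 2 ^ k ≤ x ∧ x < q * 2 ^ k + 2 ^ k := by
  have hP : (0 : ℤ) < 2 ^ k := by positivity
  have h1 : x / 2 ^ k = q ↔ q ≤ x / 2 ^ k ∧ x / 2 ^ k < q + 1 := by omega
  rw [h1, Int.le_ediv_iff_mul_le hP, Int.ediv_lt_iff_lt_mul hP, add_mul, one_mul]

theorem ZCells_near {k : ℕ} {x t q : ℤ} (hx : x / 2 ^ k = q) (ht : |t| < 2 ^ k) :
    |(x - t) / 2 ^ k - q| ≤ 1 := by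
  have hP : (0 : ℤ) < 2 ^ k := by positivity
  rw [ZCells_div] at hx
  rw [abs_lt] at ht
  rw [abs_le]
  have h1 : q - 1 ≤ (x - t) / 2 ^ k := by
    rw [Int.le_ediv_iff_mul_le hP]; linarith [hx.1, ht.2]
  have h2 : (x - t) / 2 ^ k < q + 2 := by
    rw [Int.ediv_lt_iff_lt_mul hP]; linarith [hx.2, ht.1]
  constructor <;> omega

theorem ZCells_count (B : Finset ℤ) (k : ℕ) (q : ℤ) :
    ∑ x ∈ B, (if x / 2 ^ k = q then (1 : ℝ) else 0) ≤ 2 ^ k := by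
  rw [Finset.sum_boole]
  have h1 : B.filter (fun x => x / 2 ^ k = q) ⊆ Finset.Ico (q * 2 ^ k) (q * 2 ^ k + 2 ^ k) := by
    intro x hx
    rw [Finset.mem_filter, ZCells_div] at hx
    rw [Finset.mem_Ico]
    exact hx.2
  have h2 := Finset.card_le_card h1
  rw [Int.card_Ico, show q * 2 ^ k + 2 ^ k - q * 2 ^ k = ((2 ^ k : ℕ) : ℤ) by push_cast; ring,
    Int.toNat_natCast] at h2
  exact_mod_cast h2

theorem ZCells_count3 (B : Finset ℤ) (k : ℕ) (t q : ℤ) :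
    ∑ z ∈ B, (if |(t - z) / 2 ^ k - q| ≤ 1 then (1 : ℝ) else 0) ≤ 3 * 2 ^ k := by
  have hP : (0 : ℤ) < 2 ^ k := by positivity
  rw [Finset.sum_boole]
  have h1 : B.filter (fun z => |(t - z) / 2 ^ k - q| ≤ 1) ⊆
      Finset.Ioc (t - (q + 2) * 2 ^ k) (t - (q - 1) * 2 ^ k) := by
    intro z hz
    rw [Finset.mem_filter, abs_le] at hz
    rw [Finset.mem_Ioc]
    have h3 : q - 1 ≤ (t - z) / 2 ^ k := by omega
    have h4 : (t - z) / 2 ^ k < q + 2 := by omega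
    rw [Int.le_ediv_iff_mul_le hP] at h3
    rw [Int.ediv_lt_iff_lt_mul hP] at h4
    constructor <;> linarith
  have h2 := Finset.card_le_card h1
  rw [Int.card_Ioc, show t - (q - 1) * 2 ^ k - (t - (q + 2) * 2 ^ k) = ((3 * 2 ^ k : ℕ) : ℤ) by
    push_cast; ring, Int.toNat_natCast] at h2
  exact_mod_cast h2

theorem n0_le (B : Finset ℤ) (F : ℤ → ℤ → ℝ) (k : ℕ) (q r : ℤ) : n0 B F k q r ≤ 4 ^ k := by
  unfold n0
  have h1 : ∀ x ∈ B, ∀ y ∈ B,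
      (if F x y ≠ 0 ∧ x / 2 ^ k = q ∧ y / 2 ^ k = r then (1 : ℝ) else 0) ≤
      (if x / 2 ^ k = q then (1 : ℝ) else 0) * (if y / 2 ^ k = r then (1 : ℝ) else 0) := by
    intro x _ y _
    split_ifs <;> first | tauto | norm_num
  refine (Finset.sum_le_sum fun x hx => Finset.sum_le_sum fun y hy => h1 x hx y hy).trans ?_
  simp only [← Finset.mul_sum]
  rw [← Finset.sum_mul, show (4 : ℝ) ^ k = 2 ^ k * 2 ^ k by rw [← mul_pow]; norm_num]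
  exact mul_le_mul (ZCells_count B k q) (ZCells_count B k r)
    (Finset.sum_nonneg fun x _ => by split_ifs <;> norm_num) (by positivity)

theorem n1_le (B : Finset ℤ) (s : ℤ) (F : ℤ → ℤ → ℝ) (k : ℕ) (q r : ℤ) :
    n1 B s F k q r ≤ 3 * 4 ^ k := by
  unfold n1
  have h1 : ∀ y ∈ B, ∀ z ∈ B,
      (if F y z ≠ 0 ∧ y / 2 ^ k = r ∧ |(s - y - z) / 2 ^ k - q| ≤ 1 then (1 : ℝ) else 0) ≤
      (if y / 2 ^ k = r then (1 : ℝ) else 0) *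
        (if |(s - y - z) / 2 ^ k - q| ≤ 1 then (1 : ℝ) else 0) := by
    intro x _ y _
    split_ifs <;> first | tauto | norm_num
  refine (Finset.sum_le_sum fun x hx => Finset.sum_le_sum fun y hy => h1 x hx y hy).trans ?_
  simp only [← Finset.mul_sum]
  calc ∑ y ∈ B, (if y / 2 ^ k = r then (1 : ℝ) else 0) *
        ∑ z ∈ B, (if |(s - y - z) / 2 ^ k - q| ≤ 1 then (1 : ℝ) else 0)
      ≤ ∑ y ∈ B, (if y / 2 ^ k = r then (1 : ℝ) else 0) * (3 * 2 ^ k) := by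
        refine Finset.sum_le_sum fun y _ => mul_le_mul_of_nonneg_left
          (ZCells_count3 B k (s - y) q) (by split_ifs <;> norm_num)
    _ = (∑ y ∈ B, (if y / 2 ^ k = r then (1 : ℝ) else 0)) * (3 * 2 ^ k) := by
        rw [Finset.sum_mul]
    _ ≤ 2 ^ k * (3 * 2 ^ k) := mul_le_mul_of_nonneg_right (ZCells_count B k r) (by positivity)
    _ = 3 * 4 ^ k := by
        rw [show (4 : ℝ) ^ k = 2 ^ k * 2 ^ k by rw [← mul_pow]; norm_num]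
        ring

theorem n2_eq_n1 (B : Finset ℤ) (s : ℤ) (F : ℤ → ℤ → ℝ) (k : ℕ) (q r : ℤ) :
    n2 B s F k q r = n1 B s (fun x z => F z x) k r q := by
  unfold n1 n2
  rw [Finset.sum_comm]
  refine Finset.sum_congr rfl fun z _ => Finset.sum_congr rfl fun x _ => ?_
  rw [show s - z - x = s - x - z by ring]

theorem n2_le (B : Finset ℤ) (s : ℤ) (F : ℤ → ℤ → ℝ) (k : ℕ) (q r : ℤ) :
    n2 B s F k q r ≤ 3 * 4 ^ k := by
  rw [n2_eq_n1]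
  exact n1_le _ _ _ _ _ _

theorem ZCells_loomis (B : Finset ℤ) (f g h : ℤ → ℤ → ℝ) :
    (∑ x ∈ B, ∑ y ∈ B, ∑ z ∈ B, f x y * g y z * h z x) ^ 2 ≤
      (∑ x ∈ B, ∑ y ∈ B, f x y ^ 2) * (∑ x ∈ B, ∑ y ∈ B, g x y ^ 2) *
        (∑ x ∈ B, ∑ y ∈ B, h x y ^ 2) := by
  have h1 : (∑ x ∈ B, ∑ y ∈ B, ∑ z ∈ B, f x y * g y z * h z x) =
      ∑ p ∈ B ×ˢ B, f p.1 p.2 * ∑ z ∈ B, g p.2 z * h z p.1 := by
    rw [Finset.sum_product]
    refine Finset.sum_congr rfl fun x _ => Finset.sum_congr rfl fun y _ => ?_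
    rw [Finset.mul_sum]
    refine Finset.sum_congr rfl fun z _ => by ring
  rw [h1]
  refine (Finset.sum_mul_sq_le_sq_mul_sq _ _ _).trans ?_
  rw [mul_assoc, Finset.sum_product]
  refine mul_le_mul_of_nonneg_left ?_ (Finset.sum_nonneg fun x _ =>
    Finset.sum_nonneg fun y _ => sq_nonneg _)
  have h2 : ∀ p ∈ B ×ˢ B, (∑ z ∈ B, g p.2 z * h z p.1) ^ 2 ≤
      (∑ z ∈ B, g p.2 z ^ 2) * (∑ z ∈ B, h z p.1 ^ 2) :=
    fun p _ => Finset.sum_mul_sq_le_sq_mul_sq _ _ _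
  refine (Finset.sum_le_sum h2).trans ?_
  rw [Finset.sum_product_right]
  simp only
  rw [Finset.sum_mul]
  refine le_of_eq (Finset.sum_congr rfl fun y _ => ?_)
  rw [← Finset.mul_sum]
  congr 1
  rw [Finset.sum_comm]

/-- single scale estimate on a cell (Loomis-Whitney) -/
theorem single_cell (B : Finset ℤ) (s : ℤ) (k : ℕ) (q r : ℤ) (F₀ F₁ F₂ : ℤ → ℤ → ℝ)
    (h₀ : ∀ x y, |F₀ x y| ≤ 1) (h₁ : ∀ x y, |F₁ x y| ≤ 1) (h₂ : ∀ x y, |F₂ x y| ≤ 1) :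
    |LamI B s k (cutI k q r F₀) F₁ F₂| ≤
      1 / 2 ^ k * Real.sqrt (n0 B F₀ k q r * n1 B s F₁ k q r * n2 B s F₂ k q r) := by
  set f : ℤ → ℤ → ℝ := fun x y => if F₀ x y ≠ 0 ∧ x / 2 ^ k = q ∧ y / 2 ^ k = r then 1 else 0 with hf
  set g : ℤ → ℤ → ℝ := fun y z =>
    if F₁ y z ≠ 0 ∧ y / 2 ^ k = r ∧ |(s - y - z) / 2 ^ k - q| ≤ 1 then 1 else 0 with hg
  set h : ℤ → ℤ → ℝ := fun z x =>
    if F₂ z x ≠ 0 ∧ x / 2 ^ k = q ∧ |(s - z - x) / 2 ^ k - r| ≤ 1 then 1 else 0 with hh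
  have hf0 : ∀ x y, 0 ≤ f x y := by intro x y; rw [hf]; dsimp only; split_ifs <;> norm_num
  have hg0 : ∀ x y, 0 ≤ g x y := by intro x y; rw [hg]; dsimp only; split_ifs <;> norm_num
  have hh0 : ∀ x y, 0 ≤ h x y := by intro x y; rw [hh]; dsimp only; split_ifs <;> norm_num
  have key : ∀ x y z, |rhoZ k (x + y + z - s) * cutI k q r F₀ x y * F₁ y z * F₂ z x| ≤
      1 / 2 ^ k * (f x y * g y z * h z x) := by
    intro x y z
    have hR : 0 ≤ 1 / 2 ^ k * (f x y * g y z * h z x) := by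
      have := hf0 x y
      have := hg0 y z
      have := hh0 z x
      positivity
    by_cases hc : x / 2 ^ k = q ∧ y / 2 ^ k = r
    swap
    · unfold cutI
      rw [if_neg hc]
      simpa using hR
    by_cases hr : |x + y + z - s| < 2 ^ k
    swap
    · rw [not_lt] at hr
      rw [rhoZ_support hr]
      simpa using hR
    by_cases z0 : F₀ x y = 0
    · unfold cutI
      rw [z0]
      simpa using hR
    by_cases z1 : F₁ y z = 0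
    · rw [z1]
      simpa using hR
    by_cases z2 : F₂ z x = 0
    · rw [z2]
      simpa using hR
    have c1 := ZCells_near hc.1 hr
    have c2 := ZCells_near hc.2 hr
    rw [show x - (x + y + z - s) = s - y - z by ring] at c1
    rw [show y - (x + y + z - s) = s - z - x by ring] at c2
    have ef : f x y = 1 := by rw [hf]; exact if_pos ⟨z0, hc.1, hc.2⟩
    have eg : g y z = 1 := by rw [hg]; exact if_pos ⟨z1, hc.2, c1⟩
    have eh : h z x = 1 := by rw [hh]; exact if_pos ⟨z2, hc.1, c2⟩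
    rw [ef, eg, eh]
    unfold cutI
    rw [if_pos hc, abs_mul, abs_mul, abs_mul]
    have a0 := abs_rhoZ_le k (x + y + z - s)
    have a1 : |rhoZ k (x + y + z - s)| * |F₀ x y| ≤ 1 / 2 ^ k * 1 :=
      mul_le_mul a0 (h₀ x y) (abs_nonneg _) (by positivity)
    have a2 : |rhoZ k (x + y + z - s)| * |F₀ x y| * |F₁ y z| ≤ 1 / 2 ^ k * 1 * 1 :=
      mul_le_mul a1 (h₁ y z) (abs_nonneg _) (by positivity)
    have a3 : |rhoZ k (x + y + z - s)| * |F₀ x y| * |F₁ y z| * |F₂ z x| ≤ 1 / 2 ^ k * 1 * 1 * 1 :=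
      mul_le_mul a2 (h₂ z x) (abs_nonneg _) (by positivity)
    linarith
  have h1 : |LamI B s k (cutI k q r F₀) F₁ F₂| ≤
      1 / 2 ^ k * ∑ x ∈ B, ∑ y ∈ B, ∑ z ∈ B, f x y * g y z * h z x := by
    unfold LamI
    simp only [Finset.mul_sum]
    refine (Finset.abs_sum_le_sum_abs _ _).trans (Finset.sum_le_sum fun x _ => ?_)
    refine (Finset.abs_sum_le_sum_abs _ _).trans (Finset.sum_le_sum fun y _ => ?_)
    refine (Finset.abs_sum_le_sum_abs _ _).trans (Finset.sum_le_sum fun z _ => ?_)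
    exact key x y z
  refine h1.trans (mul_le_mul_of_nonneg_left ?_ (by positivity))
  refine Real.le_sqrt_of_sq_le ?_
  refine (ZCells_loomis B f g h).trans (le_of_eq ?_)
  unfold n0 n1 n2
  have sq : ∀ (p : Prop) [Decidable p], (if p then (1 : ℝ) else 0) ^ 2 = if p then 1 else 0 := by
    intro p _
    split_ifs <;> norm_num
  simp only [hf, hg, hh, sq]

theorem ZCells_light {a b c α β γ τ : ℝ} (k : ℕ) (ha : 0 ≤ a) (hb : 0 ≤ b) (hc : 0 ≤ c)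
    (ha' : a ≤ τ * 4 ^ k) (hb' : b ≤ 3 * 4 ^ k) (hc' : c ≤ 3 * 4 ^ k)
    (h0 : 1 / 12 ≤ α) (h1 : 0 ≤ β) (h2 : 0 ≤ γ) (hsum : α + β + γ = 1 / 2)
    (hτ : 0 < τ) (hτ1 : τ ≤ 1) :
    a ^ α * b ^ β * c ^ γ ≤ 2 * τ ^ ((1 : ℝ) / 12) * 2 ^ k := by
  have hM : (0 : ℝ) < 4 ^ k := by positivity
  have e1 : a ^ α ≤ τ ^ ((1 : ℝ) / 12) * (4 ^ k) ^ α := by
    calc a ^ α ≤ (τ * 4 ^ k) ^ α := Real.rpow_le_rpow ha ha' (by linarith)
      _ = τ ^ α * (4 ^ k) ^ α := Real.mul_rpow hτ.le hM.le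
      _ ≤ τ ^ ((1 : ℝ) / 12) * (4 ^ k) ^ α := by
          refine mul_le_mul_of_nonneg_right ?_ (by positivity)
          exact Real.rpow_le_rpow_of_exponent_ge hτ hτ1 h0
  have e2 : b ^ β ≤ 3 ^ β * (4 ^ k) ^ β := by
    calc b ^ β ≤ (3 * 4 ^ k) ^ β := Real.rpow_le_rpow hb hb' h1
      _ = 3 ^ β * (4 ^ k) ^ β := Real.mul_rpow (by norm_num) hM.le
  have e3 : c ^ γ ≤ 3 ^ γ * (4 ^ k) ^ γ := by
    calc c ^ γ ≤ (3 * 4 ^ k) ^ γ := Real.rpow_le_rpow hc hc' h2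
      _ = 3 ^ γ * (4 ^ k) ^ γ := Real.mul_rpow (by norm_num) hM.le
  have e4 : ((4 : ℝ) ^ k) ^ α * (4 ^ k) ^ β * (4 ^ k) ^ γ = 2 ^ k := by
    rw [← Real.rpow_add hM, ← Real.rpow_add hM, hsum, ← Real.sqrt_eq_rpow,
      show (4 : ℝ) ^ k = (2 ^ k) ^ 2 by rw [← pow_mul, mul_comm, pow_mul]; norm_num,
      Real.sqrt_sq (by positivity)]
  have e5 : (3 : ℝ) ^ β * 3 ^ γ ≤ 2 := by
    rw [← Real.rpow_add (by norm_num)]
    calc (3 : ℝ) ^ (β + γ) ≤ 3 ^ ((1 : ℝ) / 2) :=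
          Real.rpow_le_rpow_of_exponent_le (by norm_num) (by linarith)
      _ = Real.sqrt 3 := (Real.sqrt_eq_rpow 3).symm
      _ ≤ 2 := by
          rw [show (2 : ℝ) = Real.sqrt (2 ^ 2) by rw [Real.sqrt_sq (by norm_num)]]
          exact Real.sqrt_le_sqrt (by norm_num)
  calc a ^ α * b ^ β * c ^ γ
      ≤ (τ ^ ((1 : ℝ) / 12) * (4 ^ k) ^ α) * (3 ^ β * (4 ^ k) ^ β) * (3 ^ γ * (4 ^ k) ^ γ) := by
        have p1 : 0 ≤ b ^ β := Real.rpow_nonneg hb _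
        have p2 : 0 ≤ c ^ γ := Real.rpow_nonneg hc _
        exact mul_le_mul (mul_le_mul e1 e2 p1 (by positivity)) e3 p2 (by positivity)
    _ = τ ^ ((1 : ℝ) / 12) * (3 ^ β * 3 ^ γ) * ((4 ^ k) ^ α * (4 ^ k) ^ β * (4 ^ k) ^ γ) := by ring
    _ = τ ^ ((1 : ℝ) / 12) * (3 ^ β * 3 ^ γ) * 2 ^ k := by rw [e4]
    _ ≤ τ ^ ((1 : ℝ) / 12) * 2 * 2 ^ k := by
        refine mul_le_mul_of_nonneg_right ?_ (by positivity)
        exact mul_le_mul_of_nonneg_left e5 (by positivity)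
    _ = _ := by ring

/-- numerical lemma for a light cell: the three numbers are at most 3 * 4^k and one of them is
less than τ 4^k -/
theorem light_numI {a b c θ₀ θ₁ θ₂ τ : ℝ} (k : ℕ) (ha : 0 ≤ a) (hb : 0 ≤ b) (hc : 0 ≤ c)
    (ha' : a ≤ 3 * 4 ^ k) (hb' : b ≤ 3 * 4 ^ k) (hc' : c ≤ 3 * 4 ^ k)
    (h0 : 0 ≤ θ₀) (h1 : 0 ≤ θ₁) (h2 : 0 ≤ θ₂) (h0' : θ₀ ≤ 5 / 12) (h1' : θ₁ ≤ 5 / 12)
    (h2' : θ₂ ≤ 5 / 12) (hsum : θ₀ + θ₁ + θ₂ = 1) (hτ : 0 < τ) (hτ1 : τ ≤ 1)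
    (hl : a ≤ τ * 4 ^ k ∨ b ≤ τ * 4 ^ k ∨ c ≤ τ * 4 ^ k) :
    1 / 2 ^ k * Real.sqrt (a * b * c) ≤
      2 * τ ^ ((1 : ℝ) / 12) * (a ^ θ₀ * b ^ θ₁ * c ^ θ₂) := by
  have hs : Real.sqrt (a * b * c) = (a ^ θ₀ * b ^ θ₁ * c ^ θ₂) *
      (a ^ (1 / 2 - θ₀) * b ^ (1 / 2 - θ₁) * c ^ (1 / 2 - θ₂)) := by
    have ea : a ^ ((1 : ℝ) / 2) = a ^ θ₀ * a ^ (1 / 2 - θ₀) := by
      rw [← Real.rpow_add_of_nonneg ha h0 (by linarith)]; congr 1; ring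
    have eb : b ^ ((1 : ℝ) / 2) = b ^ θ₁ * b ^ (1 / 2 - θ₁) := by
      rw [← Real.rpow_add_of_nonneg hb h1 (by linarith)]; congr 1; ring
    have ec : c ^ ((1 : ℝ) / 2) = c ^ θ₂ * c ^ (1 / 2 - θ₂) := by
      rw [← Real.rpow_add_of_nonneg hc h2 (by linarith)]; congr 1; ring
    rw [Real.sqrt_eq_rpow, Real.mul_rpow (mul_nonneg ha hb) hc, Real.mul_rpow ha hb, ea, eb, ec]
    ring
  have hP : 0 ≤ a ^ θ₀ * b ^ θ₁ * c ^ θ₂ := by positivity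
  have key : a ^ (1 / 2 - θ₀) * b ^ (1 / 2 - θ₁) * c ^ (1 / 2 - θ₂) ≤
      2 * τ ^ ((1 : ℝ) / 12) * 2 ^ k := by
    rcases hl with hl | hl | hl
    · exact ZCells_light k ha hb hc hl hb' hc' (by linarith) (by linarith) (by linarith)
        (by linarith) hτ hτ1
    · have := ZCells_light (α := 1 / 2 - θ₁) (β := 1 / 2 - θ₀) (γ := 1 / 2 - θ₂) k hb ha hc hl ha' hc'
        (by linarith) (by linarith) (by linarith) (by linarith) hτ hτ1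
      linarith
    · have := ZCells_light (α := 1 / 2 - θ₂) (β := 1 / 2 - θ₀) (γ := 1 / 2 - θ₁) k hc ha hb hl ha' hb'
        (by linarith) (by linarith) (by linarith) (by linarith) hτ hτ1
      linarith
  rw [hs]
  have h2k : (0 : ℝ) < 2 ^ k := by positivity
  calc 1 / 2 ^ k * ((a ^ θ₀ * b ^ θ₁ * c ^ θ₂) *
      (a ^ (1 / 2 - θ₀) * b ^ (1 / 2 - θ₁) * c ^ (1 / 2 - θ₂)))
      ≤ 1 / 2 ^ k * ((a ^ θ₀ * b ^ θ₁ * c ^ θ₂) * (2 * τ ^ ((1 : ℝ) / 12) * 2 ^ k)) :=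
        mul_le_mul_of_nonneg_left (mul_le_mul_of_nonneg_left key hP) (by positivity)
    _ = _ := by field_simp

theorem ZCells_heavy {a b c θ₀ θ₁ θ₂ : ℝ} (ha : 0 ≤ a) (hb : 0 ≤ b) (hac : a ≤ c) (hbc : b ≤ c)
    (h0 : 0 ≤ θ₀) (h1 : 0 ≤ θ₁) (h0' : θ₀ ≤ 5 / 12) (h1' : θ₁ ≤ 5 / 12)
    (hsum : θ₀ + θ₁ + θ₂ = 1) : Real.sqrt (a * b) ≤ a ^ θ₀ * b ^ θ₁ * c ^ θ₂ := by
  have hc : 0 ≤ c := ha.trans hac
  have ea : a ^ ((1 : ℝ) / 2) = a ^ θ₀ * a ^ (1 / 2 - θ₀) := by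
    rw [← Real.rpow_add_of_nonneg ha h0 (by linarith)]; congr 1; ring
  have eb : b ^ ((1 : ℝ) / 2) = b ^ θ₁ * b ^ (1 / 2 - θ₁) := by
    rw [← Real.rpow_add_of_nonneg hb h1 (by linarith)]; congr 1; ring
  have ec : c ^ θ₂ = c ^ (1 / 2 - θ₀) * c ^ (1 / 2 - θ₁) := by
    rw [← Real.rpow_add_of_nonneg hc (by linarith) (by linarith)]; congr 1; linarith
  have k1 : a ^ (1 / 2 - θ₀) ≤ c ^ (1 / 2 - θ₀) := Real.rpow_le_rpow ha hac (by linarith)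
  have k2 : b ^ (1 / 2 - θ₁) ≤ c ^ (1 / 2 - θ₁) := Real.rpow_le_rpow hb hbc (by linarith)
  rw [Real.sqrt_eq_rpow, Real.mul_rpow ha hb, ea, eb, ec]
  have p1 : 0 ≤ a ^ θ₀ := Real.rpow_nonneg ha _
  have p2 : 0 ≤ b ^ θ₁ := Real.rpow_nonneg hb _
  have p3 : 0 ≤ a ^ (1 / 2 - θ₀) := Real.rpow_nonneg ha _
  have p4 : 0 ≤ b ^ (1 / 2 - θ₁) := Real.rpow_nonneg hb _
  have k3 := mul_le_mul k1 k2 p4 (p3.trans k1)
  calc a ^ θ₀ * a ^ (1 / 2 - θ₀) * (b ^ θ₁ * b ^ (1 / 2 - θ₁))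
      = (a ^ θ₀ * b ^ θ₁) * (a ^ (1 / 2 - θ₀) * b ^ (1 / 2 - θ₁)) := by ring
    _ ≤ (a ^ θ₀ * b ^ θ₁) * (c ^ (1 / 2 - θ₀) * c ^ (1 / 2 - θ₁)) :=
        mul_le_mul_of_nonneg_left k3 (mul_nonneg p1 p2)

/-- numerical lemma for a heavy cell -/
theorem heavy_numI {a b c θ₀ θ₁ θ₂ τ : ℝ} (ha : τ ≤ a) (hb : τ ≤ b) (hc : τ ≤ c) (hτ : 0 ≤ τ)
    (h0 : 0 ≤ θ₀) (h1 : 0 ≤ θ₁) (h2 : 0 ≤ θ₂) (h0' : θ₀ ≤ 5 / 12) (h1' : θ₁ ≤ 5 / 12)
    (h2' : θ₂ ≤ 5 / 12) (hsum : θ₀ + θ₁ + θ₂ = 1) :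
    min (Real.sqrt (a * b)) (min (Real.sqrt (b * c)) (Real.sqrt (a * c))) + τ ≤
      2 * (a ^ θ₀ * b ^ θ₁ * c ^ θ₂) := by
  have pa : 0 ≤ a := hτ.trans ha
  have pb : 0 ≤ b := hτ.trans hb
  have pc : 0 ≤ c := hτ.trans hc
  have hτP : τ ≤ a ^ θ₀ * b ^ θ₁ * c ^ θ₂ := by
    have e1 : τ = τ ^ θ₀ * τ ^ θ₁ * τ ^ θ₂ := by
      rw [← Real.rpow_add_of_nonneg hτ h0 h1, ← Real.rpow_add_of_nonneg hτ (by linarith) h2, hsum,
        Real.rpow_one]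
    have k0 := Real.rpow_le_rpow hτ ha h0
    have k1 := Real.rpow_le_rpow hτ hb h1
    have k2 := Real.rpow_le_rpow hτ hc h2
    have q0 : 0 ≤ τ ^ θ₀ := Real.rpow_nonneg hτ _
    have q1 : 0 ≤ τ ^ θ₁ := Real.rpow_nonneg hτ _
    have q2 : 0 ≤ τ ^ θ₂ := Real.rpow_nonneg hτ _
    calc τ = τ ^ θ₀ * τ ^ θ₁ * τ ^ θ₂ := e1
      _ ≤ a ^ θ₀ * b ^ θ₁ * c ^ θ₂ :=
        mul_le_mul (mul_le_mul k0 k1 q1 (q0.trans k0)) k2 q2
          (mul_nonneg (q0.trans k0) (q1.trans k1))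
  have hmin : min (Real.sqrt (a * b)) (min (Real.sqrt (b * c)) (Real.sqrt (a * c))) ≤
      a ^ θ₀ * b ^ θ₁ * c ^ θ₂ := by
    by_cases hcm : a ≤ c ∧ b ≤ c
    · exact (min_le_left _ _).trans (ZCells_heavy pa pb hcm.1 hcm.2 h0 h1 h0' h1' hsum)
    by_cases ham : b ≤ a ∧ c ≤ a
    · refine (min_le_right _ _).trans ((min_le_left _ _).trans ?_)
      have := ZCells_heavy (θ₂ := θ₀) pb pc ham.1 ham.2 h1 h2 h1' h2' (by linarith)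
      linarith
    · have hb1 : a ≤ b := by
        by_contra hcon
        rw [not_le] at hcon
        rcases le_total a c with h | h
        · exact hcm ⟨h, by linarith⟩
        · exact ham ⟨hcon.le, h⟩
      have hb2 : c ≤ b := by
        by_contra hcon
        rw [not_le] at hcon
        exact hcm ⟨by linarith, hcon.le⟩
      refine (min_le_right _ _).trans ((min_le_right _ _).trans ?_)
      have := ZCells_heavy (θ₂ := θ₁) pa pc hb1 hb2 h0 h2 h0' h2' (by linarith)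
      linarith
  linarith

end Vale.Agent.P075
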