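import Mathlib

namespace Vale.Agent.P075

open MeasureTheory

/-- trilinear form with kernel K(x+y+z), real valued functions -/
noncomputable def LamC (K : ℝ → ℝ) (F₀ F₁ F₂ : ℝ × ℝ → ℝ) : ℝ :=
  ∫ p : ℝ × ℝ × ℝ, K (p.1 + p.2.1 + p.2.2) * F₀ (p.1, p.2.1) * F₁ (p.2.1, p.2.2) * F₂ (p.2.2, p.1)

/-- L^3 norm on the plane -/
noncomputable def L3 (F : ℝ × ℝ → ℝ) : ℝ := (∫ p, |F p| ^ 3) ^ ((1 : ℝ) / 3)

end Vale.Agent.P075
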