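import Vale.Agent.P075.ZContDefs

namespace Vale.Agent.P075

open MeasureTheory
open scoped ENNReal

theorem ZHolder_int0 (κ : ℝ → ℝ≥0∞) (f : ℝ × ℝ → ℝ≥0∞) (hκ : Measurable κ) (hf : Measurable f) :
    ∫⁻ p : ℝ × ℝ × ℝ, κ (p.1 + p.2.1 + p.2.2) * f (p.1, p.2.1) = (∫⁻ t, κ t) * ∫⁻ p, f p := by
  have hm : Measurable fun p : ℝ × ℝ × ℝ => κ (p.1 + p.2.1 + p.2.2) * f (p.1, p.2.1) := by
    fun_prop
  rw [Measure.volume_eq_prod, lintegral_prod _ hm.aemeasurable]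
  have h1 : ∀ x : ℝ, ∫⁻ q : ℝ × ℝ, κ (x + q.1 + q.2) * f (x, q.1)
      = (∫⁻ t, κ t) * ∫⁻ y, f (x, y) := by
    intro x
    have hm1 : Measurable fun q : ℝ × ℝ => κ (x + q.1 + q.2) * f (x, q.1) := by fun_prop
    rw [Measure.volume_eq_prod, lintegral_prod _ hm1.aemeasurable]
    have h2 : ∀ y : ℝ, ∫⁻ z : ℝ, κ (x + y + z) * f (x, y) = (∫⁻ t, κ t) * f (x, y) := by
      intro y
      rw [lintegral_mul_const _ (by fun_prop), lintegral_add_left_eq_self]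
    simp_rw [h2]
    rw [lintegral_const_mul _ (by fun_prop)]
  simp_rw [h1]
  rw [lintegral_const_mul _ (by fun_prop), Measure.volume_eq_prod, lintegral_prod _ hf.aemeasurable]

theorem ZHolder_int1 (κ : ℝ → ℝ≥0∞) (f : ℝ × ℝ → ℝ≥0∞) (hκ : Measurable κ) (hf : Measurable f) :
    ∫⁻ p : ℝ × ℝ × ℝ, κ (p.1 + p.2.1 + p.2.2) * f (p.2.1, p.2.2) = (∫⁻ t, κ t) * ∫⁻ p, f p := by
  have hm : Measurable fun p : ℝ × ℝ × ℝ => κ (p.1 + p.2.1 + p.2.2) * f (p.2.1, p.2.2) := by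
    fun_prop
  rw [Measure.volume_eq_prod, lintegral_prod_symm _ hm.aemeasurable]
  have h1 : ∀ q : ℝ × ℝ, ∫⁻ x : ℝ, κ (x + q.1 + q.2) * f (q.1, q.2) = (∫⁻ t, κ t) * f q := by
    intro q
    rw [lintegral_mul_const _ (by fun_prop)]
    congr 1
    simp_rw [add_assoc]
    exact lintegral_add_right_eq_self κ _
  simp_rw [h1]
  rw [lintegral_const_mul _ hf]

theorem ZHolder_int2 (κ : ℝ → ℝ≥0∞) (f : ℝ × ℝ → ℝ≥0∞) (hκ : Measurable κ) (hf : Measurable f) :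
    ∫⁻ p : ℝ × ℝ × ℝ, κ (p.1 + p.2.1 + p.2.2) * f (p.2.2, p.1) = (∫⁻ t, κ t) * ∫⁻ p, f p := by
  have hm : Measurable fun p : ℝ × ℝ × ℝ => κ (p.1 + p.2.1 + p.2.2) * f (p.2.2, p.1) := by
    fun_prop
  rw [Measure.volume_eq_prod, lintegral_prod _ hm.aemeasurable]
  have h1 : ∀ x : ℝ, ∫⁻ q : ℝ × ℝ, κ (x + q.1 + q.2) * f (q.2, x)
      = (∫⁻ t, κ t) * ∫⁻ z, f (z, x) := by
    intro x
    have hm1 : Measurable fun q : ℝ × ℝ => κ (x + q.1 + q.2) * f (q.2, x) := by fun_prop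
    rw [Measure.volume_eq_prod, lintegral_prod_symm _ hm1.aemeasurable]
    have h2 : ∀ z : ℝ, ∫⁻ y : ℝ, κ (x + y + z) * f (z, x) = (∫⁻ t, κ t) * f (z, x) := by
      intro z
      rw [lintegral_mul_const _ (by fun_prop)]
      congr 1
      have : ∀ y, κ (x + y + z) = κ (y + (x + z)) := by intro y; congr 1; ring
      simp_rw [this]
      exact lintegral_add_right_eq_self κ _
    simp_rw [h2]
    rw [lintegral_const_mul _ (by fun_prop)]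
  simp_rw [h1]
  rw [lintegral_const_mul _ (by fun_prop), Measure.volume_eq_prod,
    lintegral_prod_symm _ hf.aemeasurable]

/-- basic single kernel estimate -/
theorem holder_lintegral (κ : ℝ → ℝ≥0∞) (f₀ f₁ f₂ : ℝ × ℝ → ℝ≥0∞) (hκ : Measurable κ)
    (h₀ : Measurable f₀) (h₁ : Measurable f₁) (h₂ : Measurable f₂) :
    ∫⁻ p : ℝ × ℝ × ℝ, κ (p.1 + p.2.1 + p.2.2) * f₀ (p.1, p.2.1) * f₁ (p.2.1, p.2.2) *
      f₂ (p.2.2, p.1) ≤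
    (∫⁻ t, κ t) * ((∫⁻ p, f₀ p ^ (3 : ℝ)) ^ ((1 : ℝ) / 3) * (∫⁻ p, f₁ p ^ (3 : ℝ)) ^ ((1 : ℝ) / 3) *
      (∫⁻ p, f₂ p ^ (3 : ℝ)) ^ ((1 : ℝ) / 3)) := by
  set g : Fin 3 → ℝ × ℝ × ℝ → ℝ≥0∞ := ![
    fun p => κ (p.1 + p.2.1 + p.2.2) * (fun q => f₀ q ^ (3 : ℝ)) (p.1, p.2.1),
    fun p => κ (p.1 + p.2.1 + p.2.2) * (fun q => f₁ q ^ (3 : ℝ)) (p.2.1, p.2.2),
    fun p => κ (p.1 + p.2.1 + p.2.2) * (fun q => f₂ q ^ (3 : ℝ)) (p.2.2, p.1)] with hg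
  have hgm : ∀ i ∈ (Finset.univ : Finset (Fin 3)), AEMeasurable (g i) volume := by
    intro i _
    fin_cases i
    · simp only [hg]; apply Measurable.aemeasurable; simp; fun_prop
    · simp only [hg]; apply Measurable.aemeasurable; simp; fun_prop
    · simp only [hg]; apply Measurable.aemeasurable; simp; fun_prop
  have hH := ENNReal.lintegral_prod_norm_pow_le (μ := (volume : Measure (ℝ × ℝ × ℝ)))
    (Finset.univ : Finset (Fin 3)) hgm (p := fun _ => (1 : ℝ) / 3) (by simp) (by intro i _; norm_num)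
  have hl : ∀ p : ℝ × ℝ × ℝ, ∏ i : Fin 3, g i p ^ ((1 : ℝ) / 3)
      = κ (p.1 + p.2.1 + p.2.2) * f₀ (p.1, p.2.1) * f₁ (p.2.1, p.2.2) * f₂ (p.2.2, p.1) := by
    intro p
    rw [Fin.prod_univ_three]
    simp only [hg, Matrix.cons_val_zero, Matrix.cons_val_one, Matrix.cons_val_two,
      Matrix.head_cons, Matrix.tail_cons]
    rw [ENNReal.mul_rpow_of_nonneg _ _ (by norm_num), ENNReal.mul_rpow_of_nonneg _ _ (by norm_num),
      ENNReal.mul_rpow_of_nonneg _ _ (by norm_num)]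
    simp only [← ENNReal.rpow_mul]
    norm_num
    have hk : κ (p.1 + p.2.1 + p.2.2) ^ ((1 : ℝ) / 3) * κ (p.1 + p.2.1 + p.2.2) ^ ((1 : ℝ) / 3)
        * κ (p.1 + p.2.1 + p.2.2) ^ ((1 : ℝ) / 3) = κ (p.1 + p.2.1 + p.2.2) := by
      rw [← ENNReal.rpow_add_of_nonneg _ _ (by norm_num) (by norm_num),
        ← ENNReal.rpow_add_of_nonneg _ _ (by norm_num) (by norm_num)]
      norm_num
    calc _ = (κ (p.1 + p.2.1 + p.2.2) ^ ((1 : ℝ) / 3) * κ (p.1 + p.2.1 + p.2.2) ^ ((1 : ℝ) / 3)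
        * κ (p.1 + p.2.1 + p.2.2) ^ ((1 : ℝ) / 3)) * f₀ (p.1, p.2.1) * f₁ (p.2.1, p.2.2)
          * f₂ (p.2.2, p.1) := by ring
      _ = _ := by rw [hk]
  simp_rw [hl] at hH
  refine hH.trans (le_of_eq ?_)
  rw [Fin.prod_univ_three]
  simp only [hg, Matrix.cons_val_zero, Matrix.cons_val_one, Matrix.cons_val_two,
    Matrix.head_cons, Matrix.tail_cons]
  have i0 := ZHolder_int0 κ (fun q => f₀ q ^ (3 : ℝ)) hκ (by fun_prop)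
  have i1 := ZHolder_int1 κ (fun q => f₁ q ^ (3 : ℝ)) hκ (by fun_prop)
  have i2 := ZHolder_int2 κ (fun q => f₂ q ^ (3 : ℝ)) hκ (by fun_prop)
  rw [i0, i1, i2]
  rw [ENNReal.mul_rpow_of_nonneg _ _ (by norm_num), ENNReal.mul_rpow_of_nonneg _ _ (by norm_num),
    ENNReal.mul_rpow_of_nonneg _ _ (by norm_num)]
  have hk : (∫⁻ t, κ t) ^ ((1 : ℝ) / 3) * (∫⁻ t, κ t) ^ ((1 : ℝ) / 3)
      * (∫⁻ t, κ t) ^ ((1 : ℝ) / 3) = ∫⁻ t, κ t := by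
    rw [← ENNReal.rpow_add_of_nonneg _ _ (by norm_num) (by norm_num),
      ← ENNReal.rpow_add_of_nonneg _ _ (by norm_num) (by norm_num)]
    norm_num
  calc _ = ((∫⁻ t, κ t) ^ ((1 : ℝ) / 3) * (∫⁻ t, κ t) ^ ((1 : ℝ) / 3)
      * (∫⁻ t, κ t) ^ ((1 : ℝ) / 3)) * ((∫⁻ p, f₀ p ^ (3 : ℝ)) ^ ((1 : ℝ) / 3)
        * (∫⁻ p, f₁ p ^ (3 : ℝ)) ^ ((1 : ℝ) / 3) * (∫⁻ p, f₂ p ^ (3 : ℝ)) ^ ((1 : ℝ) / 3)) := by ring
    _ = _ := by rw [hk]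

theorem ZHolder_enorm_cube {F : ℝ × ℝ → ℝ} (h : Integrable (fun p => |F p| ^ 3)) :
    (∫⁻ p, ‖F p‖ₑ ^ (3 : ℝ)) = ENNReal.ofReal (∫ p, |F p| ^ 3) := by
  rw [ofReal_integral_eq_lintegral_ofReal h (ae_of_all _ fun p => by positivity)]
  refine lintegral_congr fun p => ?_
  rw [Real.enorm_eq_ofReal_abs, ENNReal.ofReal_rpow_of_nonneg (abs_nonneg _) (by norm_num)]
  congr 1
  norm_cast

theorem ZHolder_root {F : ℝ × ℝ → ℝ} (h : Integrable (fun p => |F p| ^ 3)) :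
    (∫⁻ p, ‖F p‖ₑ ^ (3 : ℝ)) ^ ((1 : ℝ) / 3) = ENNReal.ofReal (L3 F) := by
  rw [ZHolder_enorm_cube h, ENNReal.ofReal_rpow_of_nonneg (integral_nonneg fun p => by positivity)
    (by norm_num)]
  rfl

theorem L3_nonneg (F : ℝ × ℝ → ℝ) : 0 ≤ L3 F := by
  unfold L3
  exact Real.rpow_nonneg (integral_nonneg fun p => by positivity) _

/-- real valued version with integrability of the integrand -/
theorem holder_LamC (K : ℝ → ℝ) (hK : Integrable K) (hKm : Measurable K)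
    (F₀ F₁ F₂ : ℝ × ℝ → ℝ) (m₀ : Measurable F₀) (m₁ : Measurable F₁) (m₂ : Measurable F₂)
    (h₀ : Integrable (fun p => |F₀ p| ^ 3)) (h₁ : Integrable (fun p => |F₁ p| ^ 3))
    (h₂ : Integrable (fun p => |F₂ p| ^ 3)) :
    Integrable (fun p : ℝ × ℝ × ℝ => K (p.1 + p.2.1 + p.2.2) * F₀ (p.1, p.2.1) *
      F₁ (p.2.1, p.2.2) * F₂ (p.2.2, p.1)) ∧
    ∫ p : ℝ × ℝ × ℝ, |K (p.1 + p.2.1 + p.2.2) * F₀ (p.1, p.2.1) *
      F₁ (p.2.1, p.2.2) * F₂ (p.2.2, p.1)| ≤ (∫ t, |K t|) * (L3 F₀ * L3 F₁ * L3 F₂) := by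
  have hmeas : Measurable (fun p : ℝ × ℝ × ℝ => K (p.1 + p.2.1 + p.2.2) * F₀ (p.1, p.2.1) *
      F₁ (p.2.1, p.2.2) * F₂ (p.2.2, p.1)) := by fun_prop
  have hH := holder_lintegral (fun t => ‖K t‖ₑ) (fun p => ‖F₀ p‖ₑ) (fun p => ‖F₁ p‖ₑ)
    (fun p => ‖F₂ p‖ₑ) (by fun_prop) (by fun_prop) (by fun_prop) (by fun_prop)
  rw [ZHolder_root h₀, ZHolder_root h₁, ZHolder_root h₂] at hH
  have hKe : (∫⁻ t, ‖K t‖ₑ) = ENNReal.ofReal (∫ t, |K t|) := by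
    have := ofReal_integral_norm_eq_lintegral_enorm hK
    rw [← this]
    rfl
  rw [hKe, ← ENNReal.ofReal_mul (L3_nonneg _),
    ← ENNReal.ofReal_mul (mul_nonneg (L3_nonneg _) (L3_nonneg _)),
    ← ENNReal.ofReal_mul (integral_nonneg fun t => abs_nonneg _)] at hH
  have hle : (∫⁻ p : ℝ × ℝ × ℝ, ‖K (p.1 + p.2.1 + p.2.2) * F₀ (p.1, p.2.1) *
      F₁ (p.2.1, p.2.2) * F₂ (p.2.2, p.1)‖ₑ) ≤
      ENNReal.ofReal ((∫ t, |K t|) * (L3 F₀ * L3 F₁ * L3 F₂)) := by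
    refine le_trans (le_of_eq ?_) hH
    refine lintegral_congr fun p => ?_
    simp only [enorm_mul]
  have hint : Integrable (fun p : ℝ × ℝ × ℝ => K (p.1 + p.2.1 + p.2.2) * F₀ (p.1, p.2.1) *
      F₁ (p.2.1, p.2.2) * F₂ (p.2.2, p.1)) :=
    ⟨hmeas.aestronglyMeasurable, lt_of_le_of_lt hle ENNReal.ofReal_lt_top⟩
  refine ⟨hint, ?_⟩
  have h3 := ofReal_integral_norm_eq_lintegral_enorm hint
  rw [← h3] at hle
  have h4 := (ENNReal.ofReal_le_ofReal_iff (mul_nonneg (integral_nonneg fun t => abs_nonneg _)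
    (mul_nonneg (mul_nonneg (L3_nonneg _) (L3_nonneg _)) (L3_nonneg _)))).1 hle
  exact h4

end Vale.Agent.P075
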