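import Vale.Agent.P075.ZContDefs
import Vale.Agent.P075.ZHolder

/-! Fibration of `ℝ³` and `ℝ²` over the unit cube. -/

namespace Vale.Agent.P075

open MeasureTheory Finset
open scoped ENNReal

/-- the unit cube -/
def ucube : Set (ℝ × ℝ × ℝ) :=
  Set.Ico (0 : ℝ) 1 ×ˢ (Set.Ico (0 : ℝ) 1 ×ˢ Set.Ico (0 : ℝ) 1)

/-- the unit square -/
def usq : Set (ℝ × ℝ) := Set.Ico (0 : ℝ) 1 ×ˢ Set.Ico (0 : ℝ) 1

/-- the cell of an integer point -/
def ucell (t : ℤ × ℤ × ℤ) : Set (ℝ × ℝ × ℝ) :=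
  {p | ⌊p.1⌋ = t.1 ∧ ⌊p.2.1⌋ = t.2.1 ∧ ⌊p.2.2⌋ = t.2.2}

/-- the cell of an integer point in the plane -/
def ucell2 (t : ℤ × ℤ) : Set (ℝ × ℝ) := {p | ⌊p.1⌋ = t.1 ∧ ⌊p.2⌋ = t.2}

theorem measurableSet_ucube : MeasurableSet ucube :=
  measurableSet_Ico.prod (measurableSet_Ico.prod measurableSet_Ico)

theorem measurableSet_usq : MeasurableSet usq := measurableSet_Ico.prod measurableSet_Ico

theorem measurableSet_ucell (t : ℤ × ℤ × ℤ) : MeasurableSet (ucell t) := by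
  have h1 : Measurable fun p : ℝ × ℝ × ℝ => ⌊p.1⌋ := Int.measurable_floor.comp measurable_fst
  have h2 : Measurable fun p : ℝ × ℝ × ℝ => ⌊p.2.1⌋ :=
    Int.measurable_floor.comp (measurable_fst.comp measurable_snd)
  have h3 : Measurable fun p : ℝ × ℝ × ℝ => ⌊p.2.2⌋ :=
    Int.measurable_floor.comp (measurable_snd.comp measurable_snd)
  exact (h1 (measurableSet_singleton t.1)).inter
    ((h2 (measurableSet_singleton t.2.1)).inter (h3 (measurableSet_singleton t.2.2)))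

theorem measurableSet_ucell2 (t : ℤ × ℤ) : MeasurableSet (ucell2 t) := by
  have h1 : Measurable fun p : ℝ × ℝ => ⌊p.1⌋ := Int.measurable_floor.comp measurable_fst
  have h2 : Measurable fun p : ℝ × ℝ => ⌊p.2⌋ := Int.measurable_floor.comp measurable_snd
  exact (h1 (measurableSet_singleton t.1)).inter (h2 (measurableSet_singleton t.2))

theorem ucell_disjoint : Pairwise (Function.onFun Disjoint ucell) := by
  intro s t hst
  refine Set.disjoint_left.2 fun p hs ht => hst ?_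
  obtain ⟨h1, h2, h3⟩ := hs
  obtain ⟨k1, k2, k3⟩ := ht
  ext
  · exact h1.symm.trans k1
  · exact h2.symm.trans k2
  · exact h3.symm.trans k3

theorem ucell2_disjoint : Pairwise (Function.onFun Disjoint ucell2) := by
  intro s t hst
  refine Set.disjoint_left.2 fun p hs ht => hst ?_
  obtain ⟨h1, h2⟩ := hs
  obtain ⟨k1, k2⟩ := ht
  ext
  · exact h1.symm.trans k1
  · exact h2.symm.trans k2

/-- the real point of an integer point -/
def rpt (t : ℤ × ℤ × ℤ) : ℝ × ℝ × ℝ := ((t.1 : ℝ), (t.2.1 : ℝ), (t.2.2 : ℝ))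

def rpt2 (t : ℤ × ℤ) : ℝ × ℝ := ((t.1 : ℝ), (t.2 : ℝ))

theorem preimage_ucell (t : ℤ × ℤ × ℤ) : (fun p => p + rpt t) ⁻¹' (ucell t) = ucube := by
  ext p
  simp only [Set.mem_preimage, ucell, Set.mem_ofPred_eq, rpt, Prod.fst_add, Prod.snd_add, ucube,
    Set.mem_prod, Set.mem_Ico, Int.floor_add_intCast]
  have h : ∀ (x : ℝ) (n : ℤ), ⌊x⌋ + n = n ↔ 0 ≤ x ∧ x < 1 := by
    intro x n
    rw [show (⌊x⌋ + n = n ↔ ⌊x⌋ = 0) from by constructor <;> intro h <;> omega]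
    rw [Int.floor_eq_iff]
    simp
  rw [h, h, h]

theorem preimage_ucell2 (t : ℤ × ℤ) : (fun p => p + rpt2 t) ⁻¹' (ucell2 t) = usq := by
  ext p
  simp only [Set.mem_preimage, ucell2, Set.mem_ofPred_eq, rpt2, Prod.fst_add, Prod.snd_add, usq,
    Set.mem_prod, Set.mem_Ico, Int.floor_add_intCast]
  have h : ∀ (x : ℝ) (n : ℤ), ⌊x⌋ + n = n ↔ 0 ≤ x ∧ x < 1 := by
    intro x n
    rw [show (⌊x⌋ + n = n ↔ ⌊x⌋ = 0) from by constructor <;> intro h <;> omega]
    rw [Int.floor_eq_iff]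
    simp
  rw [h, h]

theorem ZCubeAux_left_inv : (volume : Measure (ℝ × ℝ × ℝ)).IsAddLeftInvariant := by
  rw [Measure.volume_eq_prod]
  infer_instance

theorem ZCubeAux_right_inv : (volume : Measure (ℝ × ℝ × ℝ)).IsAddRightInvariant := by
  have := ZCubeAux_left_inv
  infer_instance

theorem setIntegral_ucell (H : ℝ × ℝ × ℝ → ℝ) (t : ℤ × ℤ × ℤ) :
    ∫ p in ucell t, H p = ∫ p in ucube, H (p + rpt t) := by
  have := ZCubeAux_right_inv
  rw [← preimage_ucell t]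
  exact ((measurePreserving_add_right volume (rpt t)).setIntegral_preimage_emb
    (measurableEmbedding_addRight (rpt t)) H (ucell t)).symm

theorem setLIntegral_ucell2 (H : ℝ × ℝ → ℝ≥0∞) (t : ℤ × ℤ) :
    ∫⁻ p in ucell2 t, H p = ∫⁻ p in usq, H (p + rpt2 t) := by
  rw [← preimage_ucell2 t]
  exact ((measurePreserving_add_right volume (rpt2 t)).setLIntegral_comp_preimage_emb
    (measurableEmbedding_addRight (rpt2 t)) H (ucell2 t)).symm

/-- the union of the cells of a finite set -/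
def ubox (T : Finset (ℤ × ℤ × ℤ)) : Set (ℝ × ℝ × ℝ) := ⋃ t ∈ T, ucell t

theorem setIntegral_ubox (T : Finset (ℤ × ℤ × ℤ)) (H : ℝ × ℝ × ℝ → ℝ) (hH : Integrable H) :
    ∫ p in ubox T, H p = ∫ p in ucube, ∑ t ∈ T, H (p + rpt t) := by
  have := ZCubeAux_right_inv
  unfold ubox
  rw [integral_biUnion_finset T (fun t _ => measurableSet_ucell t)
    (fun s _ t _ hst => ucell_disjoint hst) (fun t _ => hH.integrableOn)]
  rw [integral_finsetSum]
  · exact Finset.sum_congr rfl fun t _ => setIntegral_ucell H t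
  · intro t _
    exact (hH.comp_add_right (rpt t)).integrableOn

theorem lintegral_usq_le (B : Finset ℤ) (φ : ℝ × ℝ → ℝ≥0∞) (hφ : Measurable φ) :
    ∫⁻ q in usq, ∑ a ∈ B, ∑ b ∈ B, φ (q.1 + a, q.2 + b) ≤ ∫⁻ q, φ q := by
  have h1 : ∀ q : ℝ × ℝ, ∑ a ∈ B, ∑ b ∈ B, φ (q.1 + a, q.2 + b)
      = ∑ t ∈ B ×ˢ B, φ (q + rpt2 t) := by
    intro q
    rw [Finset.sum_product]
    rfl
  simp_rw [h1]
  rw [lintegral_finsetSum]
  swap
  · intro t _
    fun_prop
  simp_rw [← setLIntegral_ucell2]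
  rw [← lintegral_biUnion_finset (fun s _ t _ hst => ucell2_disjoint hst)
    (fun t _ => measurableSet_ucell2 t)]
  exact setLIntegral_le_lintegral _ _

theorem lintegral_ucube_01 (ψ : ℝ × ℝ → ℝ≥0∞) (hψ : Measurable ψ) :
    ∫⁻ p in ucube, ψ (p.1, p.2.1) = ∫⁻ q in usq, ψ q := by
  have hm : Measurable fun p : ℝ × ℝ × ℝ => ψ (p.1, p.2.1) := by fun_prop
  unfold ucube usq
  rw [Measure.volume_eq_prod, ← Measure.prod_restrict, lintegral_prod _ hm.aemeasurable,
    Measure.volume_eq_prod, ← Measure.prod_restrict, lintegral_prod _ hψ.aemeasurable]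
  refine lintegral_congr fun x => ?_
  have hm1 : Measurable fun q : ℝ × ℝ => ψ (x, q.1) := by fun_prop
  rw [lintegral_prod _ hm1.aemeasurable]
  refine lintegral_congr fun y => ?_
  simp

theorem lintegral_ucube_12 (ψ : ℝ × ℝ → ℝ≥0∞) (hψ : Measurable ψ) :
    ∫⁻ p in ucube, ψ (p.2.1, p.2.2) = ∫⁻ q in usq, ψ q := by
  have hm : Measurable fun p : ℝ × ℝ × ℝ => ψ (p.2.1, p.2.2) := by fun_prop
  unfold ucube usq
  rw [Measure.volume_eq_prod, ← Measure.prod_restrict, lintegral_prod_symm _ hm.aemeasurable]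
  refine lintegral_congr fun q => ?_
  simp

theorem lintegral_ucube_20 (ψ : ℝ × ℝ → ℝ≥0∞) (hψ : Measurable ψ) :
    ∫⁻ p in ucube, ψ (p.2.2, p.1) = ∫⁻ q in usq, ψ q := by
  have hm : Measurable fun p : ℝ × ℝ × ℝ => ψ (p.2.2, p.1) := by fun_prop
  unfold ucube usq
  rw [Measure.volume_eq_prod, ← Measure.prod_restrict, lintegral_prod _ hm.aemeasurable,
    Measure.volume_eq_prod, ← Measure.prod_restrict, lintegral_prod_symm _ hψ.aemeasurable]
  refine lintegral_congr fun x => ?_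
  have hm1 : Measurable fun q : ℝ × ℝ => ψ (q.2, x) := by fun_prop
  rw [lintegral_prod_symm _ hm1.aemeasurable]
  refine lintegral_congr fun y => ?_
  simp

end Vale.Agent.P075
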