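import Vale.Agent.P075.ZBasic

namespace Vale.Agent.P075

open Finset

noncomputable def tent (t : ℝ) : ℝ := max 0 (1 - |t|)

/-- the odd piecewise linear profile of the Haar shift kernel -/
noncomputable def rhoR (t : ℝ) : ℝ :=
  (3 * tent (4 * t + 1) - 3 * tent (4 * t - 1) + tent (4 * t - 3) - tent (4 * t + 3)) / 4

theorem ZTent_cont : Continuous tent := by
  unfold tent
  fun_prop

theorem ZTent_neg (t : ℝ) : tent (-t) = tent t := by
  unfold tent; rw [abs_neg]

theorem ZTent_nonneg (t : ℝ) : 0 ≤ tent t := le_max_left _ _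

theorem ZTent_le_one (t : ℝ) : tent t ≤ 1 :=
  max_le zero_le_one (by linarith [abs_nonneg t])

theorem ZTent_zero {t : ℝ} (h : 1 ≤ |t|) : tent t = 0 :=
  max_eq_left (by linarith)

theorem ZTent_of_nonneg {t : ℝ} (h : 0 ≤ t) (h1 : t ≤ 1) : tent t = 1 - t := by
  unfold tent
  rw [abs_of_nonneg h, max_eq_right (by linarith)]

theorem ZTent_of_nonpos {t : ℝ} (h : t ≤ 0) (h1 : -1 ≤ t) : tent t = 1 + t := by
  unfold tent
  rw [abs_of_nonpos h, max_eq_right (by linarith)]
  ring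

theorem rhoR_continuous : Continuous rhoR := by
  unfold rhoR
  have := ZTent_cont
  fun_prop

theorem rhoR_odd (t : ℝ) : rhoR (-t) = - rhoR t := by
  unfold rhoR
  have e1 : 4 * (-t) + 1 = -(4 * t - 1) := by ring
  have e2 : 4 * (-t) - 1 = -(4 * t + 1) := by ring
  have e3 : 4 * (-t) - 3 = -(4 * t + 3) := by ring
  have e4 : 4 * (-t) + 3 = -(4 * t - 3) := by ring
  rw [e1, e2, e3, e4, ZTent_neg, ZTent_neg, ZTent_neg, ZTent_neg]
  ring

theorem abs_rhoR_le (t : ℝ) : |rhoR t| ≤ 1 := by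
  unfold rhoR
  have a1 := ZTent_nonneg (4 * t + 1)
  have a2 := ZTent_nonneg (4 * t - 1)
  have a3 := ZTent_nonneg (4 * t - 3)
  have a4 := ZTent_nonneg (4 * t + 3)
  have b1 := ZTent_le_one (4 * t + 1)
  have b2 := ZTent_le_one (4 * t - 1)
  have b3 := ZTent_le_one (4 * t - 3)
  have b4 := ZTent_le_one (4 * t + 3)
  rw [abs_le]
  constructor <;> linarith

theorem rhoR_support {t : ℝ} (h : 1 ≤ |t|) : rhoR t = 0 := by
  unfold rhoR
  have h4 : t ≤ -1 ∨ 1 ≤ t := by
    rcases le_abs.mp h with h | h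
    · right; exact h
    · left; linarith
  rw [ZTent_zero (t := 4 * t + 1), ZTent_zero (t := 4 * t - 1), ZTent_zero (t := 4 * t - 3),
    ZTent_zero (t := 4 * t + 3)]
  · ring
  all_goals
    rw [le_abs]
    rcases h4 with h4 | h4
    · right; linarith
    · left; linarith

theorem integral_rhoR : ∫ t in (0 : ℝ)..1, rhoR t = -1 / 8 := by
  have hi : ∀ a b : ℝ, IntervalIntegrable rhoR MeasureTheory.volume a b := fun a b =>
    rhoR_continuous.intervalIntegrable a b
  have e1 : ∫ t in (0 : ℝ)..(1/4), rhoR t = ∫ t in (0 : ℝ)..(1/4), (-3 * t) := by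
    apply intervalIntegral.integral_congr
    intro t ht
    rw [Set.uIcc_of_le (by norm_num)] at ht
    obtain ⟨h0, h1⟩ := ht
    show rhoR t = -3 * t
    unfold rhoR
    rw [ZTent_zero (t := 4 * t + 1) (by rw [abs_of_nonneg] <;> linarith),
      ZTent_of_nonpos (t := 4 * t - 1) (by linarith) (by linarith),
      ZTent_zero (t := 4 * t - 3) (by rw [abs_of_nonpos] <;> linarith),
      ZTent_zero (t := 4 * t + 3) (by rw [abs_of_nonneg] <;> linarith)]
    ring
  have e2 : ∫ t in (1/4 : ℝ)..(1/2), rhoR t = ∫ t in (1/4 : ℝ)..(1/2), (3 * t - 3 / 2) := by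
    apply intervalIntegral.integral_congr
    intro t ht
    rw [Set.uIcc_of_le (by norm_num)] at ht
    obtain ⟨h0, h1⟩ := ht
    show rhoR t = 3 * t - 3 / 2
    unfold rhoR
    rw [ZTent_zero (t := 4 * t + 1) (by rw [abs_of_nonneg] <;> linarith),
      ZTent_of_nonneg (t := 4 * t - 1) (by linarith) (by linarith),
      ZTent_zero (t := 4 * t - 3) (by rw [abs_of_nonpos] <;> linarith),
      ZTent_zero (t := 4 * t + 3) (by rw [abs_of_nonneg] <;> linarith)]
    ring
  have e3 : ∫ t in (1/2 : ℝ)..(3/4), rhoR t = ∫ t in (1/2 : ℝ)..(3/4), (t - 1 / 2) := by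
    apply intervalIntegral.integral_congr
    intro t ht
    rw [Set.uIcc_of_le (by norm_num)] at ht
    obtain ⟨h0, h1⟩ := ht
    show rhoR t = t - 1 / 2
    unfold rhoR
    rw [ZTent_zero (t := 4 * t + 1) (by rw [abs_of_nonneg] <;> linarith),
      ZTent_zero (t := 4 * t - 1) (by rw [abs_of_nonneg] <;> linarith),
      ZTent_of_nonpos (t := 4 * t - 3) (by linarith) (by linarith),
      ZTent_zero (t := 4 * t + 3) (by rw [abs_of_nonneg] <;> linarith)]
    ring
  have e4 : ∫ t in (3/4 : ℝ)..1, rhoR t = ∫ t in (3/4 : ℝ)..1, (1 - t) := by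
    apply intervalIntegral.integral_congr
    intro t ht
    rw [Set.uIcc_of_le (by norm_num)] at ht
    obtain ⟨h0, h1⟩ := ht
    show rhoR t = 1 - t
    unfold rhoR
    rw [ZTent_zero (t := 4 * t + 1) (by rw [abs_of_nonneg] <;> linarith),
      ZTent_zero (t := 4 * t - 1) (by rw [abs_of_nonneg] <;> linarith),
      ZTent_of_nonneg (t := 4 * t - 3) (by linarith) (by linarith),
      ZTent_zero (t := 4 * t + 3) (by rw [abs_of_nonneg] <;> linarith)]
    ring
  rw [← intervalIntegral.integral_add_adjacent_intervals (hi 0 (1/2)) (hi (1/2) 1),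
    ← intervalIntegral.integral_add_adjacent_intervals (hi 0 (1/4)) (hi (1/4) (1/2)),
    ← intervalIntegral.integral_add_adjacent_intervals (hi (1/2) (3/4)) (hi (3/4) 1),
    e1, e2, e3, e4]
  have q1 : ∫ t in (0 : ℝ)..(1/4), (-3 * t) = -3 / 32 := by
    have h : ∀ x ∈ Set.uIcc (0 : ℝ) (1/4), HasDerivAt (fun t : ℝ => -3 / 2 * t ^ 2) (-3 * x) x := by
      intro x _
      have := ((hasDerivAt_id x).pow 2).const_mul (-3 / 2)
      simpa using this.congr_deriv (by simp; ring)
    rw [intervalIntegral.integral_eq_sub_of_hasDerivAt h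
      (Continuous.intervalIntegrable (by fun_prop) _ _)]
    norm_num
  have q2 : ∫ t in (1/4 : ℝ)..(1/2), (3 * t - 3 / 2) = -3 / 32 := by
    have h : ∀ x ∈ Set.uIcc (1/4 : ℝ) (1/2), HasDerivAt (fun t : ℝ => 3 / 2 * t ^ 2 - 3 / 2 * t)
        (3 * x - 3 / 2) x := by
      intro x _
      have := (((hasDerivAt_id x).pow 2).const_mul (3 / 2)).sub ((hasDerivAt_id x).const_mul (3 / 2))
      exact this.congr_deriv (by simp; ring)
    rw [intervalIntegral.integral_eq_sub_of_hasDerivAt h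
      (Continuous.intervalIntegrable (by fun_prop) _ _)]
    norm_num
  have q3 : ∫ t in (1/2 : ℝ)..(3/4), (t - 1 / 2) = 1 / 32 := by
    have h : ∀ x ∈ Set.uIcc (1/2 : ℝ) (3/4), HasDerivAt (fun t : ℝ => 1 / 2 * t ^ 2 - 1 / 2 * t)
        (x - 1 / 2) x := by
      intro x _
      have := (((hasDerivAt_id x).pow 2).const_mul (1 / 2)).sub ((hasDerivAt_id x).const_mul (1 / 2))
      exact this.congr_deriv (by simp)
    rw [intervalIntegral.integral_eq_sub_of_hasDerivAt h
      (Continuous.intervalIntegrable (by fun_prop) _ _)]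
    norm_num
  have q4 : ∫ t in (3/4 : ℝ)..1, (1 - t) = 1 / 32 := by
    have h : ∀ x ∈ Set.uIcc (3/4 : ℝ) 1, HasDerivAt (fun t : ℝ => t - 1 / 2 * t ^ 2)
        (1 - x) x := by
      intro x _
      have := (hasDerivAt_id x).sub (((hasDerivAt_id x).pow 2).const_mul (1 / 2))
      exact this.congr_deriv (by simp)
    rw [intervalIntegral.integral_eq_sub_of_hasDerivAt h
      (Continuous.intervalIntegrable (by fun_prop) _ _)]
    norm_num
  rw [q1, q2, q3, q4]
  norm_num

/-- scaled tent at integers -/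
theorem ZTent_int_nonneg {l : ℕ} (hl : 0 < l) {m : ℤ} {v : ℝ} (h0 : 0 ≤ (m : ℝ) + v)
    (h1 : (m : ℝ) + v ≤ l) : tent (((m : ℝ) + v) / l) = 1 - ((m : ℝ) + v) / l := by
  have hl' : (0 : ℝ) < l := by exact_mod_cast hl
  exact ZTent_of_nonneg (by positivity) (by rw [div_le_one hl']; exact h1)

theorem ZTent_int_nonpos {l : ℕ} (hl : 0 < l) {m : ℤ} {v : ℝ} (h0 : (m : ℝ) + v ≤ 0)
    (h1 : -(l : ℝ) ≤ (m : ℝ) + v) : tent (((m : ℝ) + v) / l) = 1 + ((m : ℝ) + v) / l := by
  have hl' : (0 : ℝ) < l := by exact_mod_cast hl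
  refine ZTent_of_nonpos (div_nonpos_of_nonpos_of_nonneg h0 hl'.le) ?_
  rw [le_div_iff₀ hl']; linarith

theorem ZTent_int_zero {l : ℕ} (hl : 0 < l) {m : ℤ} {v : ℝ} (h : (l : ℝ) ≤ |(m : ℝ) + v|) :
    tent (((m : ℝ) + v) / l) = 0 := by
  have hl' : (0 : ℝ) < l := by exact_mod_cast hl
  apply ZTent_zero
  rw [abs_div, abs_of_pos hl', le_div_iff₀ hl']
  linarith

theorem ZTent_interp {l : ℕ} (hl : 0 < l) (m : ℤ) {v : ℝ} (hv : 0 ≤ v) (hv1 : v ≤ 1) :
    tent (((m : ℝ) + v) / l) = (1 - v) * tent ((m : ℝ) / l) + v * tent (((m : ℝ) + 1) / l) := by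
  have hl' : (0 : ℝ) < l := by exact_mod_cast hl
  have e0 : (m : ℝ) / l = ((m : ℝ) + 0) / l := by rw [add_zero]
  rw [e0]
  rcases le_or_gt (l : ℤ) m with h | h
  · have h' : (l : ℝ) ≤ m := by exact_mod_cast h
    rw [ZTent_int_zero hl (le_abs.mpr (Or.inl (by linarith))),
      ZTent_int_zero hl (le_abs.mpr (Or.inl (by linarith))),
      ZTent_int_zero hl (le_abs.mpr (Or.inl (by linarith)))]
    ring
  rcases le_or_gt 0 m with h2 | h2
  · have h' : (m : ℝ) + 1 ≤ l := by exact_mod_cast h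
    have h2' : (0 : ℝ) ≤ m := by exact_mod_cast h2
    rw [ZTent_int_nonneg hl (by linarith) (by linarith),
      ZTent_int_nonneg hl (by linarith) (by linarith),
      ZTent_int_nonneg hl (by linarith) (by linarith)]
    field_simp
    ring
  rcases le_or_gt (-(l : ℤ)) m with h3 | h3
  · have h' : (m : ℝ) + 1 ≤ 0 := by exact_mod_cast h2
    have h3' : -(l : ℝ) ≤ m := by exact_mod_cast h3
    rw [ZTent_int_nonpos hl (by linarith) (by linarith),
      ZTent_int_nonpos hl (by linarith) (by linarith),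
      ZTent_int_nonpos hl (by linarith) (by linarith)]
    field_simp
    ring
  · have h' : (m : ℝ) + 1 ≤ -(l : ℝ) := by exact_mod_cast h3
    rw [ZTent_int_zero hl (le_abs.mpr (Or.inr (by linarith))),
      ZTent_int_zero hl (le_abs.mpr (Or.inr (by linarith))),
      ZTent_int_zero hl (le_abs.mpr (Or.inr (by linarith)))]
    ring

/-- primitive of gZ -/
noncomputable def ZTentG (x : ℝ) : ℝ := tent (x - 1) - tent (x - 3)

theorem ZTent_prim {l : ℕ} (hl : 0 < l) {k : ℕ} (hk : (2 : ℤ) ^ k = 4 * l) (v : ℤ) :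
    gZ k v = l * (ZTentG (((v : ℝ) + 1) / l) - ZTentG ((v : ℝ) / l)) := by
  have hl' : (0 : ℝ) < l := by exact_mod_cast hl
  have hlZ : (0 : ℤ) < l := by exact_mod_cast hl
  have key : ∀ c : ℤ, tent (((v : ℝ) + 1) / l - c) - tent ((v : ℝ) / l - c) =
      if (c - 1) * l ≤ v ∧ v < c * l then 1 / (l : ℝ) else
      if c * l ≤ v ∧ v < (c + 1) * l then - (1 / (l : ℝ)) else 0 := by
    intro c
    have e1 : ((v : ℝ) + 1) / l - c = (((v - c * l : ℤ) : ℝ) + 1) / l := by
      push_cast; field_simp; ring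
    have e2 : (v : ℝ) / l - c = (((v - c * l : ℤ) : ℝ) + 0) / l := by
      push_cast; field_simp; ring
    rw [e1, e2]
    generalize hm : v - c * l = m
    have c1 : ((c - 1) * l ≤ v ∧ v < c * l) ↔ (-(l : ℤ) ≤ m ∧ m < 0) := by
      rw [← hm]; constructor
      · rintro ⟨a, b⟩; constructor <;> linarith
      · rintro ⟨a, b⟩; constructor <;> linarith
    have c2 : (c * l ≤ v ∧ v < (c + 1) * l) ↔ (0 ≤ m ∧ m < l) := by
      rw [← hm]; constructor
      · rintro ⟨a, b⟩; constructor <;> linarith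
      · rintro ⟨a, b⟩; constructor <;> linarith
    rw [if_congr c1 rfl (if_congr c2 rfl rfl)]
    by_cases h1 : -(l : ℤ) ≤ m ∧ m < 0
    · rw [if_pos h1]
      have a1 : -(l : ℝ) ≤ m := by exact_mod_cast h1.1
      have a2 : (m : ℝ) + 1 ≤ 0 := by exact_mod_cast h1.2
      rw [ZTent_int_nonpos hl (by linarith) (by linarith),
        ZTent_int_nonpos hl (by linarith) (by linarith)]
      field_simp; ring
    · rw [if_neg h1]
      by_cases h2 : 0 ≤ m ∧ m < l
      · rw [if_pos h2]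
        have a1 : (0 : ℝ) ≤ m := by exact_mod_cast h2.1
        have a2 : (m : ℝ) + 1 ≤ l := by exact_mod_cast h2.2
        rw [ZTent_int_nonneg hl (by linarith) (by linarith),
          ZTent_int_nonneg hl (by linarith) (by linarith)]
        field_simp; ring
      · rw [if_neg h2]
        have h3 : m < -(l : ℤ) ∨ (l : ℤ) ≤ m := by
          by_contra hc
          push Not at hc
          rcases lt_or_ge m 0 with h | h
          · exact h1 ⟨hc.1, h⟩
          · exact h2 ⟨h, hc.2⟩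
        rcases h3 with h3 | h3
        · have a1 : (m : ℝ) + 1 ≤ -(l : ℝ) := by exact_mod_cast h3
          rw [ZTent_int_zero hl (le_abs.mpr (Or.inr (by linarith))),
            ZTent_int_zero hl (le_abs.mpr (Or.inr (by linarith)))]
          ring
        · have a1 : (l : ℝ) ≤ m := by exact_mod_cast h3
          rw [ZTent_int_zero hl (le_abs.mpr (Or.inl (by linarith))),
            ZTent_int_zero hl (le_abs.mpr (Or.inl (by linarith)))]
          ring
  have k1 := key 1
  have k3 := key 3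
  have e : ZTentG (((v : ℝ) + 1) / l) - ZTentG ((v : ℝ) / l) =
      (tent (((v : ℝ) + 1) / l - (1 : ℤ)) - tent ((v : ℝ) / l - (1 : ℤ))) -
      (tent (((v : ℝ) + 1) / l - (3 : ℤ)) - tent ((v : ℝ) / l - (3 : ℤ))) := by
    unfold ZTentG; push_cast; ring
  rw [e, k1, k3]
  unfold gZ
  rw [hk]
  have d : (l : ℝ) * (1 / l) = 1 := by field_simp
  rcases lt_or_ge v 0 with h0 | h0
  · rw [if_neg (by omega), if_neg (by omega), if_neg (by omega), if_neg (by omega),
      if_neg (by omega)]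
    ring
  rcases lt_or_ge v l with h1 | h1
  · rw [if_pos (by omega), if_neg (by omega), if_pos (by omega), if_neg (by omega),
      if_neg (by omega)]
    rw [sub_zero, d]
  rcases lt_or_ge v (2 * l) with h2 | h2
  · rw [if_pos (by omega), if_pos (by omega), if_neg (by omega), if_pos (by omega),
      if_neg (by omega), if_neg (by omega)]
    linarith
  rcases lt_or_ge v (3 * l) with h3 | h3
  · rw [if_pos (by omega), if_pos (by omega), if_neg (by omega), if_neg (by omega),
      if_pos (by omega)]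
    linarith
  rcases lt_or_ge v (4 * l) with h4 | h4
  · rw [if_pos (by omega), if_neg (by omega), if_neg (by omega), if_neg (by omega),
      if_neg (by omega), if_pos (by omega)]
    linarith
  · rw [if_neg (by omega), if_neg (by omega), if_neg (by omega), if_neg (by omega),
      if_neg (by omega)]
    ring

theorem ZTent_sum {l : ℕ} (hl : 0 < l) {k : ℕ} (hk : (2 : ℤ) ^ k = 4 * l) (n p : ℤ) (d : ℕ) :
    ∑ u ∈ Finset.Ico p (p + d), gZ k (u + n) =
      l * (ZTentG (((n + p + d : ℤ) : ℝ) / l) - ZTentG (((n + p : ℤ) : ℝ) / l)) := by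
  induction d with
  | zero => simp
  | succ d ih =>
    have e : Finset.Ico p (p + ((d + 1 : ℕ) : ℤ)) = insert (p + d) (Finset.Ico p (p + d)) := by
      ext u
      simp only [Finset.mem_Ico, Finset.mem_insert]
      push_cast
      omega
    rw [e, Finset.sum_insert (by simp), ih, ZTent_prim hl hk]
    push_cast
    have e1 : (p : ℝ) + d + n + 1 = n + p + (d + 1) := by ring
    have e2 : (p : ℝ) + d + n = n + p + d := by ring
    rw [e1, e2]
    ring

theorem rhoZ_eq_rhoR (k : ℕ) (hk : 2 ≤ k) (n : ℤ) : rhoZ k n = rhoR (n / 2 ^ k) / 2 ^ k := by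
  obtain ⟨j, rfl⟩ := Nat.exists_eq_add_of_le' hk
  have hl : 0 < 2 ^ j := by positivity
  have hkZ : (2 : ℤ) ^ (j + 2) = 4 * ((2 ^ j : ℕ) : ℤ) := by push_cast; ring
  unfold rhoZ
  set l : ℕ := 2 ^ j with hldef
  have hl' : (0 : ℝ) < l := by exact_mod_cast hl
  have hlZ : (0 : ℤ) < l := by exact_mod_cast hl
  have e : Finset.Ico (0 : ℤ) (2 ^ (j + 2)) = (Finset.Ico (0 : ℤ) (0 + l)) ∪
      (Finset.Ico (l : ℤ) (l + l)) ∪ (Finset.Ico (2 * l : ℤ) (2 * l + l)) ∪
      (Finset.Ico (3 * l : ℤ) (3 * l + l)) := by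
    rw [hkZ]
    ext u
    simp only [Finset.mem_Ico, Finset.mem_union]
    omega
  have d1 : Disjoint (Finset.Ico (0 : ℤ) (0 + l)) (Finset.Ico (l : ℤ) (l + l)) := by
    rw [Finset.disjoint_left]; intro u; simp only [Finset.mem_Ico]; omega
  have d2 : Disjoint ((Finset.Ico (0 : ℤ) (0 + l)) ∪ (Finset.Ico (l : ℤ) (l + l)))
      (Finset.Ico (2 * l : ℤ) (2 * l + l)) := by
    rw [Finset.disjoint_left]; intro u; simp only [Finset.mem_Ico, Finset.mem_union]; omega
  have d3 : Disjoint ((Finset.Ico (0 : ℤ) (0 + l)) ∪ (Finset.Ico (l : ℤ) (l + l)) ∪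
      (Finset.Ico (2 * l : ℤ) (2 * l + l))) (Finset.Ico (3 * l : ℤ) (3 * l + l)) := by
    rw [Finset.disjoint_left]; intro u; simp only [Finset.mem_Ico, Finset.mem_union]; omega
  have hh : ∀ (b : ℤ) (c : ℝ), (∀ u ∈ Finset.Ico (b : ℤ) (b + l), hZ (j + 2) u = c) →
      ∑ u ∈ Finset.Ico (b : ℤ) (b + l), gZ (j + 2) (u + n) * hZ (j + 2) u =
        c * (l * (ZTentG (((n + b + l : ℤ) : ℝ) / l) - ZTentG (((n + b : ℤ) : ℝ) / l))) := by
    intro b c h
    rw [← ZTent_sum hl hkZ n b l, Finset.mul_sum]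
    refine Finset.sum_congr rfl fun u hu => ?_
    rw [h u hu, mul_comm]
  rw [e, Finset.sum_union d3, Finset.sum_union d2, Finset.sum_union d1,
    hh 0 1, hh l 1, hh (2 * l) (-1), hh (3 * l) (-1)]
  · unfold rhoR
    have x0 : (((n + 0 : ℤ) : ℝ) / l) = (n : ℝ) / l := by simp
    have x1 : (((n + 0 + l : ℤ) : ℝ) / l) = (n : ℝ) / l + 1 := by
      push_cast; field_simp; ring
    have x2 : (((n + l : ℤ) : ℝ) / l) = (n : ℝ) / l + 1 := by
      push_cast; field_simp
    have x3 : (((n + l + l : ℤ) : ℝ) / l) = (n : ℝ) / l + 2 := by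
      push_cast; field_simp; ring
    have x4 : (((n + 2 * l : ℤ) : ℝ) / l) = (n : ℝ) / l + 2 := by
      push_cast; field_simp
    have x5 : (((n + 2 * l + l : ℤ) : ℝ) / l) = (n : ℝ) / l + 3 := by
      push_cast; field_simp; ring
    have x6 : (((n + 3 * l : ℤ) : ℝ) / l) = (n : ℝ) / l + 3 := by
      push_cast; field_simp
    have x7 : (((n + 3 * l + l : ℤ) : ℝ) / l) = (n : ℝ) / l + 4 := by
      push_cast; field_simp; ring
    rw [x0, x1, x2, x3, x4, x5, x6, x7]
    have hp : (2 : ℝ) ^ (j + 2) = 4 * l := by rw [hldef]; push_cast; ring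
    have hp4 : (4 : ℝ) ^ (j + 2) = 16 * (l * l) := by
      have : (4 : ℝ) ^ (j + 2) = (2 ^ (j + 2)) * (2 ^ (j + 2)) := by
        rw [← mul_pow]; norm_num
      rw [this, hp]; ring
    have y : 4 * ((n : ℝ) / (4 * l)) = (n : ℝ) / l := by field_simp
    rw [hp, hp4, y]
    generalize (n : ℝ) / l = x
    unfold ZTentG
    have z1 : x + 1 - 3 = x - 1 - 1 := by ring
    have s0 : x + 1 - 1 = x := by ring
    have s1 : x + 1 - 3 = x - 2 := by ring
    have s2 : x + 2 - 1 = x + 1 := by ring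
    have s3 : x + 2 - 3 = x - 1 := by ring
    have s4 : x + 3 - 1 = x + 2 := by ring
    have s5 : x + 3 - 3 = x := by ring
    have s6 : x + 4 - 1 = x + 3 := by ring
    have s7 : x + 4 - 3 = x + 1 := by ring
    rw [s0, s1, s2, s3, s4, s5, s6, s7]
    field_simp
    ring
  · intro u hu
    rw [Finset.mem_Ico] at hu
    unfold hZ
    rw [hkZ, if_pos (by omega), if_neg (by omega)]
  · intro u hu
    rw [Finset.mem_Ico] at hu
    unfold hZ
    rw [hkZ, if_pos (by omega), if_neg (by omega)]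
  · intro u hu
    rw [Finset.mem_Ico] at hu
    unfold hZ
    rw [hkZ, if_pos (by omega), if_pos (by omega)]
  · intro u hu
    rw [Finset.mem_Ico] at hu
    unfold hZ
    rw [hkZ, if_pos (by omega), if_pos (by omega)]

/-- linear interpolation between integers -/
theorem rhoR_interp (k : ℕ) (hk : 2 ≤ k) (n : ℤ) (v : ℝ) (hv : 0 ≤ v) (hv1 : v ≤ 1) :
    rhoR ((n + v) / 2 ^ k) / 2 ^ k = (1 - v) * rhoZ k n + v * rhoZ k (n + 1) := by
  rw [rhoZ_eq_rhoR k hk, rhoZ_eq_rhoR k hk]
  obtain ⟨j, rfl⟩ := Nat.exists_eq_add_of_le' hk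
  have hl : 0 < 2 ^ j := by positivity
  set l : ℕ := 2 ^ j with hldef
  have hl' : (0 : ℝ) < l := by exact_mod_cast hl
  have hp : (2 : ℝ) ^ (j + 2) = 4 * l := by rw [hldef]; push_cast; ring
  rw [hp]
  have key : ∀ c : ℤ, tent (4 * (((n : ℝ) + v) / (4 * l)) + c) =
      (1 - v) * tent (4 * ((n : ℝ) / (4 * l)) + c) +
        v * tent (4 * (((n + 1 : ℤ) : ℝ) / (4 * l)) + c) := by
    intro c
    have h := ZTent_interp hl (n + c * l) hv hv1
    have e1 : 4 * (((n : ℝ) + v) / (4 * l)) + c = (((n + c * l : ℤ) : ℝ) + v) / l := by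
      push_cast; field_simp; ring
    have e2 : 4 * ((n : ℝ) / (4 * l)) + c = ((n + c * l : ℤ) : ℝ) / l := by
      push_cast; field_simp
    have e3 : 4 * (((n + 1 : ℤ) : ℝ) / (4 * l)) + c = (((n + c * l : ℤ) : ℝ) + 1) / l := by
      push_cast; field_simp; ring
    rw [e1, e2, e3, h]
  have k1 := key 1
  have k2 := key (-1)
  have k3 := key 3
  have k4 := key (-3)
  simp only [Int.cast_one, Int.cast_neg, Int.cast_ofNat, ← sub_eq_add_neg] at k1 k2 k3 k4
  unfold rhoR
  rw [k1, k2, k3, k4]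
  ring

end Vale.Agent.P075
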