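import Vale.Agent.P075.ZLevels
import Vale.Agent.P075.ZTent
import Vale.Agent.P075.ZHolder
import Vale.Agent.P075.ZCubeAux

namespace Vale.Agent.P075

open MeasureTheory Finset
open scoped ENNReal

/-- the integrand -/
noncomputable def ZCubeH (k : ℕ) (F₀ F₁ F₂ : ℝ × ℝ → ℝ) (p : ℝ × ℝ × ℝ) : ℝ :=
  rhoR ((p.1 + p.2.1 + p.2.2) / 2 ^ k) / 2 ^ k * F₀ (p.1, p.2.1) * F₁ (p.2.1, p.2.2) *
    F₂ (p.2.2, p.1)

theorem ZCubeH_shift (k : ℕ) (hk : 2 ≤ k) (F₀ F₁ F₂ : ℝ × ℝ → ℝ) (p : ℝ × ℝ × ℝ) (a b c : ℤ) :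
    ZCubeH k F₀ F₁ F₂ (p + rpt (a, b, c)) =
      ((1 - Int.fract (p.1 + p.2.1 + p.2.2)) * rhoZ k (a + b + c - (-⌊p.1 + p.2.1 + p.2.2⌋)) +
        Int.fract (p.1 + p.2.1 + p.2.2) * rhoZ k (a + b + c - (-⌊p.1 + p.2.1 + p.2.2⌋ - 1))) *
      F₀ (p.1 + a, p.2.1 + b) * F₁ (p.2.1 + b, p.2.2 + c) * F₂ (p.2.2 + c, p.1 + a) := by
  have h1 : (p + rpt (a, b, c)).1 + (p + rpt (a, b, c)).2.1 + (p + rpt (a, b, c)).2.2 =
      ((a + b + c + ⌊p.1 + p.2.1 + p.2.2⌋ : ℤ) : ℝ) + Int.fract (p.1 + p.2.1 + p.2.2) := by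
    have h2 := Int.floor_add_fract (p.1 + p.2.1 + p.2.2)
    simp only [rpt, Prod.fst_add, Prod.snd_add, Int.cast_add]
    linarith
  unfold ZCubeH
  rw [h1, rhoR_interp k hk _ _ (Int.fract_nonneg _) (Int.fract_lt_one _).le]
  rw [show a + b + c - (-⌊p.1 + p.2.1 + p.2.2⌋) = a + b + c + ⌊p.1 + p.2.1 + p.2.2⌋ by ring,
    show a + b + c - (-⌊p.1 + p.2.1 + p.2.2⌋ - 1) = a + b + c + ⌊p.1 + p.2.1 + p.2.2⌋ + 1 by ring]
  simp only [rpt, Prod.fst_add, Prod.snd_add]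

theorem ZCube_sum (k : ℕ) (hk : 2 ≤ k) (B : Finset ℤ) (F₀ F₁ F₂ : ℝ × ℝ → ℝ) (p : ℝ × ℝ × ℝ) :
    ∑ t ∈ B ×ˢ (B ×ˢ B), ZCubeH k F₀ F₁ F₂ (p + rpt t) =
      (1 - Int.fract (p.1 + p.2.1 + p.2.2)) *
        LamI B (-⌊p.1 + p.2.1 + p.2.2⌋) k (fun x y => F₀ (p.1 + x, p.2.1 + y))
          (fun y z => F₁ (p.2.1 + y, p.2.2 + z)) (fun z x => F₂ (p.2.2 + z, p.1 + x)) +
      Int.fract (p.1 + p.2.1 + p.2.2) *
        LamI B (-⌊p.1 + p.2.1 + p.2.2⌋ - 1) k (fun x y => F₀ (p.1 + x, p.2.1 + y))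
          (fun y z => F₁ (p.2.1 + y, p.2.2 + z)) (fun z x => F₂ (p.2.2 + z, p.1 + x)) := by
  unfold LamI
  simp only [Finset.sum_product, Finset.mul_sum, ← Finset.sum_add_distrib]
  refine Finset.sum_congr rfl fun a _ => Finset.sum_congr rfl fun b _ =>
    Finset.sum_congr rfl fun c _ => ?_
  rw [ZCubeH_shift k hk]
  ring

theorem ZCube_pt {Q : ℝ} {S : Finset ℕ} (hS : ∀ k ∈ S, 2 ≤ k)
    (hfin : ∀ (B : Finset ℤ) (s : ℤ) (F₀ F₁ F₂ : ℤ → ℤ → ℝ),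
      ∑ k ∈ S, |LamI B s k F₀ F₁ F₂| ≤ Q * (l3I B F₀ * l3I B F₁ * l3I B F₂))
    (B : Finset ℤ) (F₀ F₁ F₂ : ℝ × ℝ → ℝ) (p : ℝ × ℝ × ℝ) :
    ∑ k ∈ S, |∑ t ∈ B ×ˢ (B ×ˢ B), ZCubeH k F₀ F₁ F₂ (p + rpt t)| ≤
      Q * (l3I B (fun x y => F₀ (p.1 + x, p.2.1 + y)) *
        l3I B (fun y z => F₁ (p.2.1 + y, p.2.2 + z)) *
        l3I B (fun z x => F₂ (p.2.2 + z, p.1 + x))) := by
  set θ := Int.fract (p.1 + p.2.1 + p.2.2) with hθ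
  have h0 : 0 ≤ θ := Int.fract_nonneg _
  have h1 : θ ≤ 1 := (Int.fract_lt_one _).le
  have ha := hfin B (-⌊p.1 + p.2.1 + p.2.2⌋) (fun x y => F₀ (p.1 + x, p.2.1 + y))
    (fun y z => F₁ (p.2.1 + y, p.2.2 + z)) (fun z x => F₂ (p.2.2 + z, p.1 + x))
  have hb := hfin B (-⌊p.1 + p.2.1 + p.2.2⌋ - 1) (fun x y => F₀ (p.1 + x, p.2.1 + y))
    (fun y z => F₁ (p.2.1 + y, p.2.2 + z)) (fun z x => F₂ (p.2.2 + z, p.1 + x))
  calc ∑ k ∈ S, |∑ t ∈ B ×ˢ (B ×ˢ B), ZCubeH k F₀ F₁ F₂ (p + rpt t)|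
      ≤ ∑ k ∈ S, ((1 - θ) * |LamI B (-⌊p.1 + p.2.1 + p.2.2⌋) k
          (fun x y => F₀ (p.1 + x, p.2.1 + y)) (fun y z => F₁ (p.2.1 + y, p.2.2 + z))
          (fun z x => F₂ (p.2.2 + z, p.1 + x))| +
        θ * |LamI B (-⌊p.1 + p.2.1 + p.2.2⌋ - 1) k
          (fun x y => F₀ (p.1 + x, p.2.1 + y)) (fun y z => F₁ (p.2.1 + y, p.2.2 + z))
          (fun z x => F₂ (p.2.2 + z, p.1 + x))|) := by
        refine Finset.sum_le_sum fun k hk => ?_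
        rw [ZCube_sum k (hS k hk)]
        refine (abs_add_le _ _).trans ?_
        rw [abs_mul, abs_mul, abs_of_nonneg h0, abs_of_nonneg (by linarith : 0 ≤ 1 - θ)]
    _ = (1 - θ) * ∑ k ∈ S, |LamI B (-⌊p.1 + p.2.1 + p.2.2⌋) k
          (fun x y => F₀ (p.1 + x, p.2.1 + y)) (fun y z => F₁ (p.2.1 + y, p.2.2 + z))
          (fun z x => F₂ (p.2.2 + z, p.1 + x))| +
        θ * ∑ k ∈ S, |LamI B (-⌊p.1 + p.2.1 + p.2.2⌋ - 1) k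
          (fun x y => F₀ (p.1 + x, p.2.1 + y)) (fun y z => F₁ (p.2.1 + y, p.2.2 + z))
          (fun z x => F₂ (p.2.2 + z, p.1 + x))| := by
        rw [Finset.sum_add_distrib, Finset.mul_sum, Finset.mul_sum]
    _ ≤ _ := by
        have e1 := mul_le_mul_of_nonneg_left ha (by linarith : 0 ≤ 1 - θ)
        have e2 := mul_le_mul_of_nonneg_left hb h0
        nlinarith

theorem l3I_nonneg' (B : Finset ℤ) (f : ℤ → ℤ → ℝ) : 0 ≤ l3I B f := by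
  unfold l3I
  exact Real.rpow_nonneg (Finset.sum_nonneg fun x _ => Finset.sum_nonneg fun y _ => by positivity) _

theorem ZCube_l3I (B : Finset ℤ) (f : ℤ → ℤ → ℝ) :
    ENNReal.ofReal (l3I B f) = (∑ x ∈ B, ∑ y ∈ B, ‖f x y‖ₑ ^ (3 : ℝ)) ^ ((1 : ℝ) / 3) := by
  unfold l3I
  rw [← ENNReal.ofReal_rpow_of_nonneg (Finset.sum_nonneg fun x _ => Finset.sum_nonneg fun y _ => by
    positivity) (by norm_num)]
  congr 1
  rw [ENNReal.ofReal_sum_of_nonneg (fun x _ => Finset.sum_nonneg fun y _ => by positivity)]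
  refine Finset.sum_congr rfl fun x _ => ?_
  rw [ENNReal.ofReal_sum_of_nonneg (fun y _ => by positivity)]
  refine Finset.sum_congr rfl fun y _ => ?_
  rw [Real.enorm_eq_ofReal_abs, ENNReal.ofReal_rpow_of_nonneg (abs_nonneg _) (by norm_num)]
  congr 1
  norm_cast

/-- the local cubes -/
noncomputable def ZCubePsi (B : Finset ℤ) (F : ℝ × ℝ → ℝ) (q : ℝ × ℝ) : ℝ≥0∞ :=
  ∑ a ∈ B, ∑ b ∈ B, (fun q => ‖F q‖ₑ ^ (3 : ℝ)) (q.1 + a, q.2 + b)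

theorem ZCubePsi_measurable (B : Finset ℤ) {F : ℝ × ℝ → ℝ} (hF : Measurable F) :
    Measurable (ZCubePsi B F) := by
  unfold ZCubePsi
  fun_prop

theorem ZCubePsi_lintegral (B : Finset ℤ) {F : ℝ × ℝ → ℝ} (hF : Measurable F) :
    ∫⁻ q in usq, ZCubePsi B F q ≤ ∫⁻ q, ‖F q‖ₑ ^ (3 : ℝ) := by
  unfold ZCubePsi
  exact lintegral_usq_le B (fun q => ‖F q‖ₑ ^ (3 : ℝ)) (by fun_prop)

theorem ZCube_holder (B : Finset ℤ) {F₀ F₁ F₂ : ℝ × ℝ → ℝ} (m₀ : Measurable F₀)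
    (m₁ : Measurable F₁) (m₂ : Measurable F₂) :
    ∫⁻ p in ucube, ZCubePsi B F₀ (p.1, p.2.1) ^ ((1 : ℝ) / 3) *
        ZCubePsi B F₁ (p.2.1, p.2.2) ^ ((1 : ℝ) / 3) *
        ZCubePsi B F₂ (p.2.2, p.1) ^ ((1 : ℝ) / 3) ≤
    (∫⁻ q, ‖F₀ q‖ₑ ^ (3 : ℝ)) ^ ((1 : ℝ) / 3) * (∫⁻ q, ‖F₁ q‖ₑ ^ (3 : ℝ)) ^ ((1 : ℝ) / 3) *
      (∫⁻ q, ‖F₂ q‖ₑ ^ (3 : ℝ)) ^ ((1 : ℝ) / 3) := by
  have n₀ := ZCubePsi_measurable B m₀
  have n₁ := ZCubePsi_measurable B m₁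
  have n₂ := ZCubePsi_measurable B m₂
  set g : Fin 3 → ℝ × ℝ × ℝ → ℝ≥0∞ := ![fun p => ZCubePsi B F₀ (p.1, p.2.1),
    fun p => ZCubePsi B F₁ (p.2.1, p.2.2), fun p => ZCubePsi B F₂ (p.2.2, p.1)] with hg
  have hgm : ∀ i ∈ (Finset.univ : Finset (Fin 3)), AEMeasurable (g i) (volume.restrict ucube) := by
    intro i _
    fin_cases i
    · simp only [hg]; apply Measurable.aemeasurable; simp; fun_prop
    · simp only [hg]; apply Measurable.aemeasurable; simp; fun_prop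
    · simp only [hg]; apply Measurable.aemeasurable; simp; fun_prop
  have hH := ENNReal.lintegral_prod_norm_pow_le (μ := volume.restrict ucube)
    (Finset.univ : Finset (Fin 3)) hgm (p := fun _ => (1 : ℝ) / 3) (by simp) (by intro i _; norm_num)
  simp only [Fin.prod_univ_three, hg, Matrix.cons_val_zero, Matrix.cons_val_one,
    Matrix.cons_val_two, Matrix.head_cons, Matrix.tail_cons] at hH
  rw [lintegral_ucube_01 _ n₀, lintegral_ucube_12 _ n₁, lintegral_ucube_20 _ n₂] at hH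
  refine hH.trans ?_
  have k0 := ENNReal.rpow_le_rpow (ZCubePsi_lintegral B m₀) (by norm_num : (0 : ℝ) ≤ 1 / 3)
  have k1 := ENNReal.rpow_le_rpow (ZCubePsi_lintegral B m₁) (by norm_num : (0 : ℝ) ≤ 1 / 3)
  have k2 := ENNReal.rpow_le_rpow (ZCubePsi_lintegral B m₂) (by norm_num : (0 : ℝ) ≤ 1 / 3)
  exact mul_le_mul' (mul_le_mul' k0 k1) k2

theorem ZCubeH_measurable (k : ℕ) {F₀ F₁ F₂ : ℝ × ℝ → ℝ} (m₀ : Measurable F₀)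
    (m₁ : Measurable F₁) (m₂ : Measurable F₂) : Measurable (ZCubeH k F₀ F₁ F₂) := by
  have h := rhoR_continuous.measurable
  unfold ZCubeH
  fun_prop

theorem ZCubeH_integrable (k : ℕ) {F₀ F₁ F₂ : ℝ × ℝ → ℝ} (m₀ : Measurable F₀)
    (m₁ : Measurable F₁) (m₂ : Measurable F₂)
    (h₀ : Integrable (fun p => |F₀ p| ^ 3)) (h₁ : Integrable (fun p => |F₁ p| ^ 3))
    (h₂ : Integrable (fun p => |F₂ p| ^ 3)) : Integrable (ZCubeH k F₀ F₁ F₂) := by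
  have hc : Continuous (fun t : ℝ => rhoR (t / 2 ^ k) / 2 ^ k) :=
    (rhoR_continuous.comp (continuous_id.div_const _)).div_const _
  have hs : HasCompactSupport (fun t : ℝ => rhoR (t / 2 ^ k) / 2 ^ k) := by
    refine HasCompactSupport.intro (K := Set.Icc (-(2 : ℝ) ^ k) (2 ^ k)) isCompact_Icc ?_
    intro t ht
    have h2 : (0 : ℝ) < 2 ^ k := by positivity
    rw [rhoR_support, zero_div]
    rw [abs_div, abs_of_pos h2, le_div_iff₀ h2, one_mul]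
    by_contra hcon
    rw [not_le, abs_lt] at hcon
    exact ht ⟨hcon.1.le, hcon.2.le⟩
  exact (holder_LamC _ (hc.integrable_of_hasCompactSupport hs) hc.measurable F₀ F₁ F₂ m₀ m₁ m₂
    h₀ h₁ h₂).1

theorem ZCube_box {Q : ℝ} (hQ : 0 ≤ Q) {S : Finset ℕ} (hS : ∀ k ∈ S, 2 ≤ k)
    (hfin : ∀ (B : Finset ℤ) (s : ℤ) (F₀ F₁ F₂ : ℤ → ℤ → ℝ),
      ∑ k ∈ S, |LamI B s k F₀ F₁ F₂| ≤ Q * (l3I B F₀ * l3I B F₁ * l3I B F₂))
    (B : Finset ℤ) {F₀ F₁ F₂ : ℝ × ℝ → ℝ} (m₀ : Measurable F₀)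
    (m₁ : Measurable F₁) (m₂ : Measurable F₂)
    (h₀ : Integrable (fun p => |F₀ p| ^ 3)) (h₁ : Integrable (fun p => |F₁ p| ^ 3))
    (h₂ : Integrable (fun p => |F₂ p| ^ 3)) :
    ∑ k ∈ S, |∫ p in ubox (B ×ˢ (B ×ˢ B)), ZCubeH k F₀ F₁ F₂ p| ≤
      Q * (L3 F₀ * L3 F₁ * L3 F₂) := by
  have hL : 0 ≤ Q * (L3 F₀ * L3 F₁ * L3 F₂) :=
    mul_nonneg hQ (mul_nonneg (mul_nonneg (L3_nonneg _) (L3_nonneg _)) (L3_nonneg _))
  rw [← ENNReal.ofReal_le_ofReal_iff hL, ENNReal.ofReal_sum_of_nonneg (fun k _ => abs_nonneg _)]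
  have e1 : ∀ k ∈ S, ENNReal.ofReal |∫ p in ubox (B ×ˢ (B ×ˢ B)), ZCubeH k F₀ F₁ F₂ p| ≤
      ∫⁻ p in ucube, ‖∑ t ∈ B ×ˢ (B ×ˢ B), ZCubeH k F₀ F₁ F₂ (p + rpt t)‖ₑ := by
    intro k _
    rw [setIntegral_ubox _ _ (ZCubeH_integrable k m₀ m₁ m₂ h₀ h₁ h₂), ← Real.enorm_eq_ofReal_abs]
    exact enorm_integral_le_lintegral_enorm _
  refine (Finset.sum_le_sum e1).trans ?_
  have hm : ∀ k ∈ S, Measurable fun p : ℝ × ℝ × ℝ =>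
      ‖∑ t ∈ B ×ˢ (B ×ˢ B), ZCubeH k F₀ F₁ F₂ (p + rpt t)‖ₑ := by
    intro k _
    have := ZCubeH_measurable k m₀ m₁ m₂
    fun_prop
  rw [← lintegral_finsetSum S hm]
  have e2 : ∀ p : ℝ × ℝ × ℝ,
      ∑ k ∈ S, ‖∑ t ∈ B ×ˢ (B ×ˢ B), ZCubeH k F₀ F₁ F₂ (p + rpt t)‖ₑ ≤
      ENNReal.ofReal Q * (ZCubePsi B F₀ (p.1, p.2.1) ^ ((1 : ℝ) / 3) *
        ZCubePsi B F₁ (p.2.1, p.2.2) ^ ((1 : ℝ) / 3) *
        ZCubePsi B F₂ (p.2.2, p.1) ^ ((1 : ℝ) / 3)) := by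
    intro p
    have h := ZCube_pt hS hfin B F₀ F₁ F₂ p
    have h' := ENNReal.ofReal_le_ofReal h
    rw [ENNReal.ofReal_sum_of_nonneg (fun k _ => abs_nonneg _), ENNReal.ofReal_mul hQ,
      ENNReal.ofReal_mul (mul_nonneg (l3I_nonneg' _ _) (l3I_nonneg' _ _)),
      ENNReal.ofReal_mul (l3I_nonneg' _ _), ZCube_l3I, ZCube_l3I, ZCube_l3I] at h'
    simp only [Real.enorm_eq_ofReal_abs]
    refine h'.trans (le_of_eq ?_)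
    simp only [ZCubePsi]
  refine (lintegral_mono e2).trans ?_
  rw [lintegral_const_mul']
  swap
  · exact ENNReal.ofReal_ne_top
  rw [ENNReal.ofReal_mul hQ, ENNReal.ofReal_mul (mul_nonneg (L3_nonneg _) (L3_nonneg _)),
    ENNReal.ofReal_mul (L3_nonneg _), ← ZHolder_root h₀, ← ZHolder_root h₁, ← ZHolder_root h₂]
  gcongr
  exact ZCube_holder B m₀ m₁ m₂

theorem ubox_measurable (T : Finset (ℤ × ℤ × ℤ)) : MeasurableSet (ubox T) := by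
  unfold ubox
  exact Finset.measurableSet_biUnion _ fun t _ => measurableSet_ucell t

theorem ubox_mono {T T' : Finset (ℤ × ℤ × ℤ)} (h : T ⊆ T') : ubox T ⊆ ubox T' := by
  unfold ubox
  intro p hp
  simp only [Set.mem_iUnion] at hp ⊢
  obtain ⟨t, ht, htp⟩ := hp
  exact ⟨t, h ht, htp⟩

/-- the increasing boxes -/
noncomputable def zbox (R : ℕ) : Finset ℤ := Finset.Ico (-(R : ℤ)) R

theorem zbox_mono {R R' : ℕ} (h : R ≤ R') : zbox R ⊆ zbox R' := by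
  unfold zbox
  apply Finset.Ico_subset_Ico <;> omega

theorem ubox_union : (⋃ R : ℕ, ubox (zbox R ×ˢ (zbox R ×ˢ zbox R))) = Set.univ := by
  refine Set.eq_univ_of_forall fun p => ?_
  rw [Set.mem_iUnion]
  refine ⟨(|⌊p.1⌋| + |⌊p.2.1⌋| + |⌊p.2.2⌋| + 1).toNat, ?_⟩
  have h0 := abs_nonneg ⌊p.1⌋
  have h1 := abs_nonneg ⌊p.2.1⌋
  have h2 := abs_nonneg ⌊p.2.2⌋
  have ha := le_abs_self ⌊p.1⌋
  have hb := le_abs_self ⌊p.2.1⌋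
  have hc := le_abs_self ⌊p.2.2⌋
  have ha' := neg_abs_le ⌊p.1⌋
  have hb' := neg_abs_le ⌊p.2.1⌋
  have hc' := neg_abs_le ⌊p.2.2⌋
  unfold ubox
  simp only [Set.mem_iUnion]
  refine ⟨(⌊p.1⌋, ⌊p.2.1⌋, ⌊p.2.2⌋), ?_, ?_⟩
  · simp only [Finset.mem_product, zbox, Finset.mem_Ico]
    refine ⟨⟨?_, ?_⟩, ⟨?_, ?_⟩, ?_, ?_⟩ <;> omega
  · exact ⟨rfl, rfl, rfl⟩

/-- transfer of finiteThmI to the plane, by fibering over the unit cube -/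
theorem cubeThm : ∃ C : ℝ, 0 < C ∧ ∀ (m : ℕ) (S : Finset ℕ), 2 ≤ m →
    S.card ≤ m → (∀ k ∈ S, 2 ≤ k) → ∀ F₀ F₁ F₂ : ℝ × ℝ → ℝ,
    Measurable F₀ → Measurable F₁ → Measurable F₂ →
    Integrable (fun p => |F₀ p| ^ 3) → Integrable (fun p => |F₁ p| ^ 3) →
    Integrable (fun p => |F₂ p| ^ 3) →
    ∑ k ∈ S, |LamC (fun t => rhoR (t / 2 ^ k) / 2 ^ k) F₀ F₁ F₂| ≤
      C * (1 + Real.log m) ^ 6 * (L3 F₀ * L3 F₁ * L3 F₂) := by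
  obtain ⟨C, hC, hfin⟩ := finiteThmI
  refine ⟨C, hC, ?_⟩
  intro m S hm hcard hS F₀ F₁ F₂ m₀ m₁ m₂ h₀ h₁ h₂
  have hlog : 0 ≤ Real.log m := Real.log_natCast_nonneg m
  have hQ : 0 ≤ C * (1 + Real.log m) ^ 6 := by positivity
  have hbox : ∀ R : ℕ,
      ∑ k ∈ S, |∫ p in ubox (zbox R ×ˢ (zbox R ×ˢ zbox R)), ZCubeH k F₀ F₁ F₂ p| ≤
      C * (1 + Real.log m) ^ 6 * (L3 F₀ * L3 F₁ * L3 F₂) := fun R =>
    ZCube_box hQ hS (fun B s f₀ f₁ f₂ => hfin B s m S hm hcard hS f₀ f₁ f₂) (zbox R) m₀ m₁ m₂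
      h₀ h₁ h₂
  have hlim : Filter.Tendsto (fun R : ℕ => ∑ k ∈ S,
      |∫ p in ubox (zbox R ×ˢ (zbox R ×ˢ zbox R)), ZCubeH k F₀ F₁ F₂ p|) Filter.atTop
      (nhds (∑ k ∈ S, |∫ p, ZCubeH k F₀ F₁ F₂ p|)) := by
    refine tendsto_finsetSum S fun k _ => Filter.Tendsto.abs ?_
    have := tendsto_setIntegral_of_monotone (μ := (volume : Measure (ℝ × ℝ × ℝ)))
      (f := ZCubeH k F₀ F₁ F₂)
      (s := fun R : ℕ => ubox (zbox R ×ˢ (zbox R ×ˢ zbox R)))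
      (fun R => ubox_measurable _)
      (fun R R' h => ubox_mono (Finset.product_subset_product (zbox_mono h)
        (Finset.product_subset_product (zbox_mono h) (zbox_mono h))))
      (ZCubeH_integrable k m₀ m₁ m₂ h₀ h₁ h₂).integrableOn
    rw [ubox_union, setIntegral_univ] at this
    exact this
  exact le_of_tendsto' hlim hbox

end Vale.Agent.P075
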