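import Vale.Agent.P075.Local
import Vale.Agent.P075.TransferA

/-! Definitions for the real line version (Q1). Integer kernels, discrete forms. -/

namespace Vale.Agent.P075

open Finset Matrix

/-- sign pattern +,+,-,- on [0, 2^k) -/
def hZ (k : ℕ) (t : ℤ) : ℝ :=
  if 0 ≤ t ∧ t < 2 ^ k then (if 2 * t < 2 ^ k then 1 else -1) else 0

/-- sign pattern +,-,-,+ on [0, 2^k) -/
def gZ (k : ℕ) (t : ℤ) : ℝ :=
  if 0 ≤ t ∧ t < 2 ^ k then (if 2 ^ k ≤ 4 * t ∧ 4 * t < 3 * 2 ^ k then -1 else 1) else 0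

/-- discrete kernel of scale 2^k (used for k ≥ 2) -/
noncomputable def rhoZ (k : ℕ) (t : ℤ) : ℝ :=
  (∑ u ∈ Finset.Ico (0 : ℤ) (2 ^ k), gZ k (u + t) * hZ k u) / 4 ^ k

/-- the form at level j (scale 2^(N-j)) on functions on G N, with an arbitrary integer shift s -/
noncomputable def LamR {N : ℕ} (s : ℤ) (j : ℕ) (F₀ F₁ F₂ : G N → G N → ℝ) : ℝ :=
  ∑ x, ∑ y, ∑ z, rhoZ (N - j) ((und x : ℤ) + und y + und z - s) * F₀ x y * F₁ y z * F₂ z x

/-- the form on functions on ℤ × ℤ, variables in the finite set B -/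
noncomputable def LamI (B : Finset ℤ) (s : ℤ) (k : ℕ) (F₀ F₁ F₂ : ℤ → ℤ → ℝ) : ℝ :=
  ∑ x ∈ B, ∑ y ∈ B, ∑ z ∈ B, rhoZ k (x + y + z - s) * F₀ x y * F₁ y z * F₂ z x

/-- number of points of B × B in the support -/
noncomputable def nzI (B : Finset ℤ) (F : ℤ → ℤ → ℝ) : ℝ :=
  ∑ x ∈ B, ∑ y ∈ B, if F x y ≠ 0 then 1 else 0

noncomputable def l3I (B : Finset ℤ) (F : ℤ → ℤ → ℝ) : ℝ :=
  (∑ x ∈ B, ∑ y ∈ B, |F x y| ^ 3) ^ ((1 : ℝ) / 3)

/-- Haar shift on G n: σ i (level i martingale difference) multiplied by the sign of digit i+1 -/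
noncomputable def Sha {n : ℕ} {d : Type*} (σ : ℕ → ℝ) (A : G n → Matrix d d ℝ) :
    G n → Matrix d d ℝ :=
  fun x => ∑ x', (∑ i ∈ range (n - 1), σ i * sg (i + 1) x * kj i (x + x')) • A x'

/-- matrix of the form at the point x; levels i with i + 2 ≤ N -/
noncomputable def WmR {N : ℕ} (s : ℤ) (σ : ℕ → ℝ) (F : G N → G N → ℝ) (x : G N) :
    Matrix (G N) (G N) ℝ :=
  Matrix.of fun y z => F y z *
    ∑ i ∈ range (N - 1), σ i * rhoZ (N - i) ((und x : ℤ) + und y + und z - s)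

end Vale.Agent.P075
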