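import Vale.Agent.P075.ZTent

namespace Vale.Agent.P075

open MeasureTheory Finset

/-- the hard truncated kernel -/
noncomputable def KR (ε R t : ℝ) : ℝ := if ε < |t| ∧ |t| < R then 1 / t else 0

/-- average over dilations of m consecutive dyadic pieces -/
noncomputable def Kav (l₀ : ℝ) (m : ℕ) (t : ℝ) : ℝ :=
  ∫ l in l₀..(2 * l₀), (∑ k ∈ Finset.Ico 2 (m + 2), rhoR (t / (l * 2 ^ k)) / (l * 2 ^ k)) / l

/-- primitive of rhoR -/
noncomputable def ZKernelP (x : ℝ) : ℝ := ∫ v in (0 : ℝ)..x, rhoR v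

theorem ZKernelP_deriv (x : ℝ) : HasDerivAt ZKernelP (rhoR x) x :=
  intervalIntegral.integral_hasDerivAt_right (rhoR_continuous.intervalIntegrable _ _)
    (rhoR_continuous.stronglyMeasurableAtFilter _ _) rhoR_continuous.continuousAt

theorem ZKernelP_cont : Continuous ZKernelP :=
  continuous_iff_continuousAt.mpr fun x => (ZKernelP_deriv x).continuousAt

theorem ZKernelP_abs (x : ℝ) : |ZKernelP x| ≤ |x| := by
  have h := intervalIntegral.norm_integral_le_of_norm_le_const (a := (0 : ℝ)) (b := x)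
    (f := rhoR) (C := 1) (fun y _ => abs_rhoR_le y)
  rw [sub_zero, one_mul, Real.norm_eq_abs] at h
  exact h

theorem ZKernelP_neg (x : ℝ) : ZKernelP (-x) = ZKernelP x := by
  unfold ZKernelP
  have h := intervalIntegral.integral_comp_neg (a := (0 : ℝ)) (b := x) rhoR
  simp only [rhoR_odd, neg_zero] at h
  rw [intervalIntegral.integral_neg] at h
  rw [intervalIntegral.integral_symm, ← h, neg_neg]

theorem ZKernelP_ge {x : ℝ} (hx : 1 ≤ x) : ZKernelP x = -1 / 8 := by
  unfold ZKernelP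
  rw [← intervalIntegral.integral_add_adjacent_intervals
    (rhoR_continuous.intervalIntegrable 0 1) (rhoR_continuous.intervalIntegrable 1 x),
    integral_rhoR]
  have : ∫ v in (1 : ℝ)..x, rhoR v = ∫ v in (1 : ℝ)..x, (0 : ℝ) := by
    apply intervalIntegral.integral_congr
    intro t ht
    rw [Set.uIcc_of_le hx] at ht
    exact rhoR_support (by rw [abs_of_nonneg] <;> linarith [ht.1])
  rw [this]
  simp

theorem ZKernelP_ge_abs {x : ℝ} (hx : 1 ≤ |x|) : ZKernelP x = -1 / 8 := by
  rcases le_abs.mp hx with h | h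
  · exact ZKernelP_ge h
  · rw [← ZKernelP_neg]; exact ZKernelP_ge h

/-- explicit form of the averaged kernel -/
noncomputable def ZKex (a b t : ℝ) : ℝ := (ZKernelP (t / a) - ZKernelP (t / b)) / t

theorem rhoR_zero : rhoR 0 = 0 := by
  have := rhoR_odd 0
  rw [neg_zero] at this
  linarith

theorem ZKernel_piece {l₀ : ℝ} (hl : 0 < l₀) (k : ℕ) {t : ℝ} (ht : t ≠ 0) :
    IntervalIntegrable (fun l => rhoR (t / (l * 2 ^ k)) / (l * 2 ^ k) / l) volume l₀ (2 * l₀) ∧
    ∫ l in l₀..(2 * l₀), rhoR (t / (l * 2 ^ k)) / (l * 2 ^ k) / l =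
      (ZKernelP (t / (l₀ * 2 ^ k)) - ZKernelP (t / (l₀ * 2 ^ (k + 1)))) / t := by
  have hle : l₀ ≤ 2 * l₀ := by linarith
  have hcont : ContinuousOn (fun l => rhoR (t / (l * 2 ^ k)) / (l * 2 ^ k) / l)
      (Set.uIcc l₀ (2 * l₀)) := by
    rw [Set.uIcc_of_le hle]
    have hne : ∀ l ∈ Set.Icc l₀ (2 * l₀), l ≠ 0 := fun l hl' => by linarith [hl'.1]
    have hne2 : ∀ l ∈ Set.Icc l₀ (2 * l₀), l * 2 ^ k ≠ 0 := fun l hl' =>
      mul_ne_zero (hne l hl') (by positivity)
    have c1 : ContinuousOn (fun l : ℝ => l * 2 ^ k) (Set.Icc l₀ (2 * l₀)) := by fun_prop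
    have c2 : ContinuousOn (fun l : ℝ => t / (l * 2 ^ k)) (Set.Icc l₀ (2 * l₀)) :=
      continuousOn_const.div c1 hne2
    exact ((rhoR_continuous.comp_continuousOn c2).div c1 hne2).div continuousOn_id hne
  have hint : IntervalIntegrable (fun l => rhoR (t / (l * 2 ^ k)) / (l * 2 ^ k) / l) volume l₀ (2 * l₀) :=
    hcont.intervalIntegrable
  refine ⟨hint, ?_⟩
  have hd : ∀ l ∈ Set.uIcc l₀ (2 * l₀), HasDerivAt (fun l => - ZKernelP (t / (l * 2 ^ k)) / t)
      (rhoR (t / (l * 2 ^ k)) / (l * 2 ^ k) / l) l := by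
    intro l hl'
    rw [Set.uIcc_of_le hle] at hl'
    have hl0 : l ≠ 0 := by linarith [hl'.1]
    have h1 : HasDerivAt (fun l : ℝ => l * 2 ^ k) (1 * 2 ^ k) l :=
      (hasDerivAt_id l).mul_const _
    have h2 : HasDerivAt (fun l : ℝ => t / (l * 2 ^ k))
        ((0 * (l * 2 ^ k) - t * (1 * 2 ^ k)) / (l * 2 ^ k) ^ 2) l :=
      (hasDerivAt_const l t).div h1 (mul_ne_zero hl0 (by positivity))
    have h3 := (((ZKernelP_deriv (t / (l * 2 ^ k))).comp l h2).neg).div_const t
    refine h3.congr_deriv ?_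
    field_simp
    ring
  rw [intervalIntegral.integral_eq_sub_of_hasDerivAt hd hint]
  have e : 2 * l₀ * 2 ^ k = l₀ * 2 ^ (k + 1) := by ring
  rw [e]
  ring

theorem ZKernel_Kav {l₀ : ℝ} (hl : 0 < l₀) (m : ℕ) (t : ℝ) :
    Kav l₀ m t = ZKex (4 * l₀) (l₀ * 2 ^ (m + 2)) t := by
  rcases eq_or_ne t 0 with rfl | ht
  · unfold Kav ZKex
    simp [rhoR_zero]
  · unfold Kav
    have e : (fun l => (∑ k ∈ Finset.Ico 2 (m + 2), rhoR (t / (l * 2 ^ k)) / (l * 2 ^ k)) / l) =
        fun l => ∑ k ∈ Finset.Ico 2 (m + 2), rhoR (t / (l * 2 ^ k)) / (l * 2 ^ k) / l := by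
      funext l; rw [Finset.sum_div]
    rw [e, intervalIntegral.integral_finsetSum (fun k _ => (ZKernel_piece hl k ht).1),
      Finset.sum_congr rfl (fun k _ => (ZKernel_piece hl k ht).2)]
    have : ∀ m : ℕ, ∑ k ∈ Finset.Ico 2 (m + 2),
        (ZKernelP (t / (l₀ * 2 ^ k)) - ZKernelP (t / (l₀ * 2 ^ (k + 1)))) / t =
        (ZKernelP (t / (l₀ * 2 ^ 2)) - ZKernelP (t / (l₀ * 2 ^ (m + 2)))) / t := by
      intro m
      induction m with
      | zero => simp
      | succ m ih =>
        rw [show m + 1 + 2 = (m + 2) + 1 by ring, Finset.sum_Ico_succ_top (by omega), ih]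
        ring
    rw [this]
    unfold ZKex
    have e4 : l₀ * 2 ^ 2 = 4 * l₀ := by ring
    rw [e4]

theorem ZKex_meas (a b : ℝ) : Measurable (ZKex a b) := by
  unfold ZKex
  have := ZKernelP_cont.measurable
  fun_prop

theorem ZKex_bound {a b : ℝ} (ha : 0 < a) (hb : 0 < b) (t : ℝ) : |ZKex a b t| ≤ 1 / a + 1 / b := by
  unfold ZKex
  rcases eq_or_ne t 0 with rfl | ht
  · simp; positivity
  · have ht' : 0 < |t| := abs_pos.mpr ht
    rw [abs_div, div_le_iff₀ ht']
    have h1 := ZKernelP_abs (t / a)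
    have h2 := ZKernelP_abs (t / b)
    rw [abs_div, abs_of_pos ha] at h1
    rw [abs_div, abs_of_pos hb] at h2
    have h3 := abs_sub (ZKernelP (t / a)) (ZKernelP (t / b))
    calc |ZKernelP (t / a) - ZKernelP (t / b)| ≤ |ZKernelP (t / a)| + |ZKernelP (t / b)| :=
          abs_sub _ _
      _ ≤ |t| / a + |t| / b := add_le_add h1 h2
      _ = (1 / a + 1 / b) * |t| := by ring

theorem ZKex_support {a b : ℝ} (ha : 0 < a) (hab : a ≤ b) {t : ℝ} (ht : b ≤ |t|) :
    ZKex a b t = 0 := by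
  have hb : 0 < b := ha.trans_le hab
  unfold ZKex
  rw [ZKernelP_ge_abs, ZKernelP_ge_abs, sub_self, zero_div]
  · rw [abs_div, abs_of_pos hb, le_div_iff₀ hb]; linarith
  · rw [abs_div, abs_of_pos ha, le_div_iff₀ ha]; linarith

theorem KR_meas (ε R : ℝ) : Measurable (KR ε R) := by
  unfold KR
  refine Measurable.ite ?_ (by fun_prop) measurable_const
  have ha : Measurable (fun t : ℝ => |t|) := by fun_prop
  exact (measurableSet_lt measurable_const ha).inter
    (measurableSet_lt ha measurable_const)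

theorem ZKernel_int_ind (c : ℝ) {b : ℝ} (hb : 0 < b) :
    Integrable (Set.indicator (Set.Icc (-b) b) (fun _ => c)) ∧
    ∫ t, Set.indicator (Set.Icc (-b) b) (fun _ => c) t = 2 * b * c := by
  constructor
  · exact (integrable_indicator_iff measurableSet_Icc).mpr
      (integrableOn_const (by simp) (by simp))
  · rw [integral_indicator measurableSet_Icc, setIntegral_const]
    simp only [Measure.real, Real.volume_Icc, smul_eq_mul]
    rw [ENNReal.toReal_ofReal (by linarith)]
    ring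

theorem ZKernel_err {ε R b : ℝ} (hε : 0 < ε) (hR : ε < R) (hb : R ≤ b) (t : ℝ) :
    |KR ε R t + 8 * ZKex ε b t| ≤
      Set.indicator (Set.Icc (-ε) ε) (fun _ => 16 / ε) t +
      Set.indicator (Set.Icc (-b) b) (fun _ => 17 / R) t := by
  have hR0 : 0 < R := hε.trans hR
  have hb0 : 0 < b := hR0.trans_le hb
  rcases le_or_gt |t| ε with h | h
  · have m1 : t ∈ Set.Icc (-ε) ε := by rw [Set.mem_Icc, ← abs_le]; exact h
    have m2 : t ∈ Set.Icc (-b) b := by rw [Set.mem_Icc, ← abs_le]; linarith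
    rw [Set.indicator_of_mem m1, Set.indicator_of_mem m2]
    have e : KR ε R t = 0 := by
      unfold KR; rw [if_neg]; rintro ⟨h1, _⟩; linarith
    rw [e, zero_add, abs_mul]
    have h1 := ZKex_bound hε hb0 t
    have h2 : 1 / b ≤ 1 / ε := one_div_le_one_div_of_le hε (by linarith)
    have h3 : 0 ≤ 17 / R := by positivity
    have h8 : |(8 : ℝ)| = 8 := by norm_num
    rw [h8]
    have : 16 / ε = 8 * (1 / ε + 1 / ε) := by ring
    rw [this]
    linarith
  · have ht0 : 0 < |t| := hε.trans h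
    have htne : t ≠ 0 := abs_pos.mp ht0
    have n1 : 0 ≤ Set.indicator (Set.Icc (-ε) ε) (fun _ => 16 / ε) t :=
      Set.indicator_nonneg (fun _ _ => by positivity) t
    have ePε : ZKernelP (t / ε) = -1 / 8 :=
      ZKernelP_ge_abs (by rw [abs_div, abs_of_pos hε, le_div_iff₀ hε]; linarith)
    rcases le_or_gt |t| b with h2 | h2
    · have m2 : t ∈ Set.Icc (-b) b := by rw [Set.mem_Icc, ← abs_le]; exact h2
      rw [Set.indicator_of_mem m2]
      have hPb := ZKernelP_abs (t / b)
      rw [abs_div, abs_of_pos hb0] at hPb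
      rcases lt_or_ge |t| R with h3 | h3
      · have e : KR ε R t = 1 / t := by unfold KR; rw [if_pos ⟨h, h3⟩]
        have e2 : KR ε R t + 8 * ZKex ε b t = -(8 * ZKernelP (t / b)) / t := by
          rw [e]; unfold ZKex; rw [ePε]; field_simp; ring
        rw [e2, abs_div, abs_neg, abs_mul, show |(8 : ℝ)| = 8 by norm_num]
        have h4 : 8 * |ZKernelP (t / b)| / |t| ≤ 8 / b := by
          rw [div_le_iff₀ ht0]
          calc 8 * |ZKernelP (t / b)| ≤ 8 * (|t| / b) := by linarith
            _ = 8 / b * |t| := by ring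
        have h5 : 8 / b ≤ 17 / R := by
          rw [div_le_div_iff₀ hb0 hR0]; nlinarith
        linarith
      · have e : KR ε R t = 0 := by
          unfold KR; rw [if_neg]; rintro ⟨_, h4⟩; linarith
        have e2 : KR ε R t + 8 * ZKex ε b t = (-1 - 8 * ZKernelP (t / b)) / t := by
          rw [e]; unfold ZKex; rw [ePε]; ring
        rw [e2, abs_div]
        have h4 : |(-1 - 8 * ZKernelP (t / b))| ≤ 9 := by
          have h5 : |ZKernelP (t / b)| ≤ 1 :=
            hPb.trans ((div_le_one hb0).mpr h2)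
          have := abs_le.mp h5
          rw [abs_le]; constructor <;> linarith
        have h6 : |(-1 - 8 * ZKernelP (t / b))| / |t| ≤ 9 / R := by
          rw [div_le_div_iff₀ ht0 hR0]
          have : |(-1 - 8 * ZKernelP (t / b))| * R ≤ 9 * R := by
            exact mul_le_mul_of_nonneg_right h4 hR0.le
          nlinarith
        have h7 : 9 / R ≤ 17 / R := by
          rw [div_le_div_iff_of_pos_right hR0]; norm_num
        linarith
    · have e : KR ε R t = 0 := by
        unfold KR; rw [if_neg]; rintro ⟨_, h4⟩; linarith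
      rw [e, ZKex_support hε (by linarith) h2.le]
      have n2 : 0 ≤ Set.indicator (Set.Icc (-b) b) (fun _ => 17 / R) t :=
        Set.indicator_nonneg (fun _ _ => by positivity) t
      simp only [mul_zero, add_zero, abs_zero]
      linarith

/-- the truncated kernel is -8 Kav up to an error with bounded L^1 norm -/
theorem kernel_approx : ∃ C : ℝ, 0 < C ∧ ∀ ε R : ℝ, 0 < ε → ε < R → ∃ (l₀ : ℝ) (m : ℕ),
    0 < l₀ ∧ 2 ≤ m ∧ (m : ℝ) ≤ C * (1 + Real.log (R / ε)) ∧
    Integrable (Kav l₀ m) ∧ Integrable (fun t => KR ε R t + 8 * Kav l₀ m t) ∧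
    ∫ t, |KR ε R t + 8 * Kav l₀ m t| ≤ C := by
  refine ⟨400, by norm_num, fun ε R hε hR => ?_⟩
  have hR0 : 0 < R := hε.trans hR
  have hq : 1 < R / ε := by rw [one_lt_div hε]; exact hR
  have hlogpos : 0 < Real.log (R / ε) := Real.log_pos hq
  have hlog2 : 0 < Real.log 2 := Real.log_pos (by norm_num)
  have hlog2' : (1 : ℝ) / 2 ≤ Real.log 2 := by
    have := Real.log_two_gt_d9; linarith
  set y : ℝ := Real.log (R / ε) / Real.log 2 with hy
  have hy0 : 0 ≤ y := by positivity
  set n : ℕ := ⌈y⌉₊ with hn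
  have hn1 : y ≤ n := Nat.le_ceil y
  have hn2 : (n : ℝ) < y + 1 := Nat.ceil_lt_add_one hy0
  have hRy : (2 : ℝ) ^ y = R / ε := by
    rw [Real.rpow_def_of_pos (by norm_num), hy]
    rw [mul_div_cancel₀ _ hlog2.ne']
    exact Real.exp_log (by positivity)
  have hp1 : R / ε ≤ 2 ^ n := by
    rw [← hRy, ← Real.rpow_natCast]
    exact Real.rpow_le_rpow_of_exponent_le (by norm_num) hn1
  have hp2 : (2 : ℝ) ^ n ≤ 2 * (R / ε) := by
    rw [← hRy, ← Real.rpow_natCast]
    calc (2 : ℝ) ^ (n : ℝ) ≤ 2 ^ (y + 1) :=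
          Real.rpow_le_rpow_of_exponent_le (by norm_num) hn2.le
      _ = 2 * 2 ^ y := by rw [Real.rpow_add (by norm_num), Real.rpow_one]; ring
  set b : ℝ := ε / 4 * 2 ^ (n + 2 + 2) with hb
  have hb1 : b = 4 * (ε * 2 ^ n) := by rw [hb, pow_add, pow_add]; ring
  have hbR : R ≤ b := by
    rw [hb1]
    have : R ≤ ε * 2 ^ n := by
      rw [div_le_iff₀ hε] at hp1; linarith
    have h0 : 0 < ε * 2 ^ n := by positivity
    linarith
  have hbR2 : b ≤ 8 * R := by
    rw [hb1]
    have : ε * 2 ^ n ≤ 2 * R := by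
      have := mul_le_mul_of_nonneg_left hp2 hε.le
      have e : ε * (2 * (R / ε)) = 2 * R := by field_simp
      linarith
    linarith
  have hb0 : 0 < b := hR0.trans_le hbR
  have h4 : 0 < ε / 4 := by positivity
  have hK : Kav (ε / 4) (n + 2) = ZKex ε b := by
    funext t
    rw [ZKernel_Kav h4, ← hb]
    have : 4 * (ε / 4) = ε := by ring
    rw [this]
  have hKint : Integrable (ZKex ε b) := by
    refine Integrable.mono' (ZKernel_int_ind (1 / ε + 1 / b) hb0).1
      (ZKex_meas ε b).aestronglyMeasurable (Filter.Eventually.of_forall fun t => ?_)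
    rw [Real.norm_eq_abs]
    rcases le_or_gt |t| b with h | h
    · rw [Set.indicator_of_mem (by rw [Set.mem_Icc, ← abs_le]; exact h)]
      exact ZKex_bound hε hb0 t
    · rw [ZKex_support hε (by linarith) h.le, abs_zero]
      exact Set.indicator_nonneg (fun _ _ => by positivity) t
  have hbound : Integrable (fun t => Set.indicator (Set.Icc (-ε) ε) (fun _ => 16 / ε) t +
      Set.indicator (Set.Icc (-b) b) (fun _ => 17 / R) t) :=
    (ZKernel_int_ind (16 / ε) hε).1.add (ZKernel_int_ind (17 / R) hb0).1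
  have hmeas : Measurable (fun t => KR ε R t + 8 * ZKex ε b t) :=
    (KR_meas ε R).add ((ZKex_meas ε b).const_mul 8)
  have hE : Integrable (fun t => KR ε R t + 8 * ZKex ε b t) :=
    Integrable.mono' hbound hmeas.aestronglyMeasurable
      (Filter.Eventually.of_forall fun t => ZKernel_err hε hR hbR t)
  refine ⟨ε / 4, n + 2, h4, by omega, ?_, ?_, ?_, ?_⟩
  · push_cast
    have hy2 : y ≤ 2 * Real.log (R / ε) := by
      rw [hy, div_le_iff₀ hlog2]; nlinarith
    linarith
  · rw [hK]; exact hKint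
  · rw [hK]; exact hE
  · rw [hK]
    calc ∫ t, |KR ε R t + 8 * ZKex ε b t| ≤
        ∫ t, (Set.indicator (Set.Icc (-ε) ε) (fun _ => 16 / ε) t +
          Set.indicator (Set.Icc (-b) b) (fun _ => 17 / R) t) :=
          integral_mono hE.abs hbound (fun t => ZKernel_err hε hR hbR t)
      _ = 2 * ε * (16 / ε) + 2 * b * (17 / R) := by
          rw [integral_add (ZKernel_int_ind (16 / ε) hε).1 (ZKernel_int_ind (17 / R) hb0).1,
            (ZKernel_int_ind (16 / ε) hε).2, (ZKernel_int_ind (17 / R) hb0).2]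
      _ ≤ 400 := by
          have e1 : 2 * ε * (16 / ε) = 32 := by field_simp; norm_num
          have e2 : 2 * b * (17 / R) ≤ 272 := by
            rw [mul_div_assoc', div_le_iff₀ hR0]; linarith
          linarith

end Vale.Agent.P075
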