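import Vale.Agent.P075.ZCube
import Vale.Agent.P075.ZKernel

namespace Vale.Agent.P075

open MeasureTheory Finset
open scoped ENNReal


theorem ZFinal_haar3 : (volume : Measure (ℝ × ℝ × ℝ)).IsAddHaarMeasure := by
  rw [Measure.volume_eq_prod]; infer_instance

theorem ZFinal_haar2 : (volume : Measure (ℝ × ℝ)).IsAddHaarMeasure := by
  rw [Measure.volume_eq_prod]; infer_instance

theorem ZFinal_dil3 (f : ℝ × ℝ × ℝ → ℝ) {l : ℝ} (hl : 0 < l) :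
    ∫ p, f p = l ^ 3 * ∫ q, f (l • q) := by
  have := ZFinal_haar3
  rw [Measure.integral_comp_smul]
  have h3 : Module.finrank ℝ (ℝ × ℝ × ℝ) = 3 := by simp
  rw [h3, smul_eq_mul, abs_of_pos (by positivity)]
  field_simp

theorem ZFinal_dil2 (f : ℝ × ℝ → ℝ) {l : ℝ} (hl : 0 < l) :
    ∫ q, f (l • q) = (l ^ 2)⁻¹ * ∫ p, f p := by
  have := ZFinal_haar2
  rw [Measure.integral_comp_smul]
  have h3 : Module.finrank ℝ (ℝ × ℝ) = 2 := by simp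
  rw [h3, smul_eq_mul, abs_of_pos (by positivity)]

theorem ZFinal_L3 (F : ℝ × ℝ → ℝ) {l : ℝ} (hl : 0 < l) :
    L3 (fun q => F (l • q)) = ((l ^ 2)⁻¹) ^ ((1 : ℝ) / 3) * L3 F := by
  unfold L3
  rw [ZFinal_dil2 (fun p => |F p| ^ 3) hl, Real.mul_rpow (by positivity)
    (integral_nonneg fun p => by positivity)]

theorem ZFinal_LamC (K : ℝ → ℝ) (F₀ F₁ F₂ : ℝ × ℝ → ℝ) {l : ℝ} (hl : 0 < l) :
    LamC (fun t => K (t / l) / l) F₀ F₁ F₂ =
      l ^ 2 * LamC K (fun q => F₀ (l • q)) (fun q => F₁ (l • q)) (fun q => F₂ (l • q)) := by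
  unfold LamC
  rw [ZFinal_dil3 _ hl]
  rw [← integral_const_mul, ← integral_const_mul]
  refine integral_congr_ae (Filter.Eventually.of_forall fun q => ?_)
  simp only [Prod.smul_fst, Prod.smul_snd, smul_eq_mul, Prod.smul_mk]
  have e : (l * q.1 + l * q.2.1 + l * q.2.2) / l = q.1 + q.2.1 + q.2.2 := by
    field_simp
  rw [e]
  field_simp

theorem ZFinal_rho_int (k : ℕ) {l : ℝ} (hl : 0 < l) :
    Continuous (fun t => rhoR (t / (l * 2 ^ k)) / (l * 2 ^ k)) ∧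
    Integrable (fun t => rhoR (t / (l * 2 ^ k)) / (l * 2 ^ k)) := by
  have hc : Continuous (fun t => rhoR (t / (l * 2 ^ k)) / (l * 2 ^ k)) :=
    (rhoR_continuous.comp (continuous_id.div_const _)).div_const _
  refine ⟨hc, hc.integrable_of_hasCompactSupport ?_⟩
  refine HasCompactSupport.intro (isCompact_Icc (a := -(l * 2 ^ k)) (b := l * 2 ^ k)) ?_
  intro t ht
  have hp : 0 < l * 2 ^ k := by positivity
  rw [rhoR_support, zero_div]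
  rw [Set.mem_Icc, ← abs_le, not_le] at ht
  rw [abs_div, abs_of_pos hp, le_div_iff₀ hp]
  linarith

/-- the integrand in Kav -/
noncomputable def ZFinalK (m : ℕ) (l t : ℝ) : ℝ :=
  (∑ k ∈ Finset.Ico 2 (m + 2), rhoR (t / (l * 2 ^ k)) / (l * 2 ^ k)) / l

section
variable {F₀ F₁ F₂ : ℝ × ℝ → ℝ}

theorem ZFinal_fixed (m : ℕ) {l : ℝ} (hl : 0 < l)
    (m₀ : Measurable F₀) (m₁ : Measurable F₁) (m₂ : Measurable F₂)
    (h₀ : Integrable (fun p => |F₀ p| ^ 3)) (h₁ : Integrable (fun p => |F₁ p| ^ 3))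
    (h₂ : Integrable (fun p => |F₂ p| ^ 3)) :
    ∫ p : ℝ × ℝ × ℝ, ZFinalK m l (p.1 + p.2.1 + p.2.2) * F₀ (p.1, p.2.1) * F₁ (p.2.1, p.2.2) *
      F₂ (p.2.2, p.1) =
      (1 / l) * ∑ k ∈ Finset.Ico 2 (m + 2),
        LamC (fun t => rhoR (t / (l * 2 ^ k)) / (l * 2 ^ k)) F₀ F₁ F₂ := by
  unfold LamC
  rw [← integral_finsetSum _ (fun k _ => (holder_LamC _ (ZFinal_rho_int k hl).2
    (ZFinal_rho_int k hl).1.measurable F₀ F₁ F₂ m₀ m₁ m₂ h₀ h₁ h₂).1), ← integral_const_mul]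
  refine integral_congr_ae (Filter.Eventually.of_forall fun p => ?_)
  simp only [ZFinalK]
  rw [← Finset.sum_mul, ← Finset.sum_mul, ← Finset.sum_mul]
  ring

theorem ZFinal_fixed_le {C : ℝ} (hC : ∀ (m : ℕ) (S : Finset ℕ), 2 ≤ m →
    S.card ≤ m → (∀ k ∈ S, 2 ≤ k) → ∀ F₀ F₁ F₂ : ℝ × ℝ → ℝ,
    Measurable F₀ → Measurable F₁ → Measurable F₂ →
    Integrable (fun p => |F₀ p| ^ 3) → Integrable (fun p => |F₁ p| ^ 3) →
    Integrable (fun p => |F₂ p| ^ 3) →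
    ∑ k ∈ S, |LamC (fun t => rhoR (t / 2 ^ k) / 2 ^ k) F₀ F₁ F₂| ≤
      C * (1 + Real.log m) ^ 6 * (L3 F₀ * L3 F₁ * L3 F₂))
    {m : ℕ} (hm : 2 ≤ m) {l : ℝ} (hl : 0 < l)
    (m₀ : Measurable F₀) (m₁ : Measurable F₁) (m₂ : Measurable F₂)
    (h₀ : Integrable (fun p => |F₀ p| ^ 3)) (h₁ : Integrable (fun p => |F₁ p| ^ 3))
    (h₂ : Integrable (fun p => |F₂ p| ^ 3)) :
    |∫ p : ℝ × ℝ × ℝ, ZFinalK m l (p.1 + p.2.1 + p.2.2) * F₀ (p.1, p.2.1) * F₁ (p.2.1, p.2.2) *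
      F₂ (p.2.2, p.1)| ≤
      (1 / l) * (C * (1 + Real.log m) ^ 6 * (L3 F₀ * L3 F₁ * L3 F₂)) := by
  rw [ZFinal_fixed m hl m₀ m₁ m₂ h₀ h₁ h₂, abs_mul, abs_of_pos (by positivity : 0 < 1 / l)]
  refine mul_le_mul_of_nonneg_left ?_ (by positivity)
  have hK : ∀ k : ℕ, (fun t => rhoR (t / (l * 2 ^ k)) / (l * 2 ^ k)) =
      (fun t => (fun s => rhoR (s / 2 ^ k) / 2 ^ k) (t / l) / l) := by
    intro k
    funext t
    show rhoR (t / (l * 2 ^ k)) / (l * 2 ^ k) = rhoR (t / l / 2 ^ k) / 2 ^ k / l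
    rw [div_div t, div_div _ _ l, mul_comm (2 ^ k) l]
  have hsm : Measurable (fun q : ℝ × ℝ => l • q) := by fun_prop
  have := ZFinal_haar2
  have hd := hC m (Finset.Ico 2 (m + 2)) hm (by simp) (fun k hk => (Finset.mem_Ico.mp hk).1)
    (fun q => F₀ (l • q)) (fun q => F₁ (l • q)) (fun q => F₂ (l • q))
    (m₀.comp hsm) (m₁.comp hsm) (m₂.comp hsm)
    (h₀.comp_smul hl.ne') (h₁.comp_smul hl.ne') (h₂.comp_smul hl.ne')
  calc |∑ k ∈ Finset.Ico 2 (m + 2), LamC (fun t => rhoR (t / (l * 2 ^ k)) / (l * 2 ^ k)) F₀ F₁ F₂|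
      ≤ ∑ k ∈ Finset.Ico 2 (m + 2),
        |LamC (fun t => rhoR (t / (l * 2 ^ k)) / (l * 2 ^ k)) F₀ F₁ F₂| :=
        Finset.abs_sum_le_sum_abs _ _
    _ = l ^ 2 * ∑ k ∈ Finset.Ico 2 (m + 2), |LamC (fun s => rhoR (s / 2 ^ k) / 2 ^ k)
          (fun q => F₀ (l • q)) (fun q => F₁ (l • q)) (fun q => F₂ (l • q))| := by
        rw [Finset.mul_sum]
        refine Finset.sum_congr rfl fun k _ => ?_
        rw [hK k, ZFinal_LamC (fun s => rhoR (s / 2 ^ k) / 2 ^ k) _ _ _ hl, abs_mul, abs_of_pos (by positivity : 0 < l ^ 2)]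
    _ ≤ l ^ 2 * (C * (1 + Real.log m) ^ 6 * (L3 (fun q => F₀ (l • q)) *
          L3 (fun q => F₁ (l • q)) * L3 (fun q => F₂ (l • q)))) :=
        mul_le_mul_of_nonneg_left hd (by positivity)
    _ = C * (1 + Real.log m) ^ 6 * (L3 F₀ * L3 F₁ * L3 F₂) := by
        rw [ZFinal_L3 _ hl, ZFinal_L3 _ hl, ZFinal_L3 _ hl]
        have h3 : ((l ^ 2)⁻¹) ^ ((1 : ℝ) / 3) * ((l ^ 2)⁻¹) ^ ((1 : ℝ) / 3) *
            ((l ^ 2)⁻¹) ^ ((1 : ℝ) / 3) = (l ^ 2)⁻¹ := by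
          rw [← Real.rpow_add (by positivity), ← Real.rpow_add (by positivity)]
          norm_num
        have h4 : l ^ 2 * (l ^ 2)⁻¹ = 1 := mul_inv_cancel₀ (by positivity)
        calc _ = l ^ 2 * (((l ^ 2)⁻¹) ^ ((1 : ℝ) / 3) * ((l ^ 2)⁻¹) ^ ((1 : ℝ) / 3) *
            ((l ^ 2)⁻¹) ^ ((1 : ℝ) / 3)) * (C * (1 + Real.log m) ^ 6 *
              (L3 F₀ * L3 F₁ * L3 F₂)) := by ring
          _ = _ := by rw [h3, h4, one_mul]

theorem ZFinalK_bound {l₀ : ℝ} (hl₀ : 0 < l₀) (m : ℕ) {l : ℝ} (h1 : l₀ < l) (h2 : l ≤ 2 * l₀)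
    (t : ℝ) : |ZFinalK m l t| ≤ (m / l₀ / l₀) *
      Set.indicator (Set.Icc (-(2 * l₀ * 2 ^ (m + 2))) (2 * l₀ * 2 ^ (m + 2))) (fun _ => (1 : ℝ)) t := by
  have hl : 0 < l := hl₀.trans h1
  rcases le_or_gt |t| (2 * l₀ * 2 ^ (m + 2)) with h | h
  · rw [Set.indicator_of_mem (by rw [Set.mem_Icc, ← abs_le]; exact h), mul_one]
    unfold ZFinalK
    rw [abs_div, abs_of_pos hl]
    have hs : |∑ k ∈ Finset.Ico 2 (m + 2), rhoR (t / (l * 2 ^ k)) / (l * 2 ^ k)| ≤ m / l₀ := by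
      calc _ ≤ ∑ k ∈ Finset.Ico 2 (m + 2), |rhoR (t / (l * 2 ^ k)) / (l * 2 ^ k)| :=
            Finset.abs_sum_le_sum_abs _ _
        _ ≤ ∑ k ∈ Finset.Ico 2 (m + 2), 1 / l₀ := by
            refine Finset.sum_le_sum fun k _ => ?_
            rw [abs_div, abs_of_pos (by positivity : 0 < l * 2 ^ k)]
            refine div_le_div₀ zero_le_one (abs_rhoR_le _) hl₀ ?_
            have h3 : (1 : ℝ) ≤ 2 ^ k := one_le_pow₀ (by norm_num)
            nlinarith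
        _ = m / l₀ := by
            rw [Finset.sum_const, Nat.card_Ico, nsmul_eq_mul]
            simp [div_eq_mul_inv]
    exact div_le_div₀ (by positivity) hs hl₀ h1.le
  · rw [Set.indicator_of_notMem (by rw [Set.mem_Icc, ← abs_le]; exact not_le.mpr h), mul_zero]
    unfold ZFinalK
    rw [Finset.sum_eq_zero]
    · simp
    · intro k hk
      have hk' := Finset.mem_Ico.mp hk
      have hp : 0 < l * 2 ^ k := by positivity
      rw [rhoR_support, zero_div]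
      rw [abs_div, abs_of_pos hp, le_div_iff₀ hp, one_mul]
      refine le_trans ?_ h.le
      exact mul_le_mul h2 (pow_le_pow_right₀ (by norm_num) hk'.2.le) (by positivity) (by positivity)

theorem ZFinal_joint {l₀ : ℝ} (hl₀ : 0 < l₀) (m : ℕ)
    (m₀ : Measurable F₀) (m₁ : Measurable F₁) (m₂ : Measurable F₂)
    (h₀ : Integrable (fun p => |F₀ p| ^ 3)) (h₁ : Integrable (fun p => |F₁ p| ^ 3))
    (h₂ : Integrable (fun p => |F₂ p| ^ 3)) :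
    Integrable (Function.uncurry (fun (l : ℝ) (p : ℝ × ℝ × ℝ) =>
      ZFinalK m l (p.1 + p.2.1 + p.2.2) * F₀ (p.1, p.2.1) * F₁ (p.2.1, p.2.2) *
      F₂ (p.2.2, p.1))) ((volume.restrict (Set.Ioc l₀ (2 * l₀))).prod volume) := by
  set T : ℝ := 2 * l₀ * 2 ^ (m + 2) with hT
  have hT0 : 0 < T := by positivity
  set Kc : ℝ → ℝ := Set.indicator (Set.Icc (-T) T) (fun _ => (1 : ℝ)) with hKc
  have hKm : Measurable Kc := measurable_const.indicator measurableSet_Icc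
  have hKi : Integrable Kc := (ZKernel_int_ind 1 hT0).1
  have hh := (holder_LamC Kc hKi hKm F₀ F₁ F₂ m₀ m₁ m₂ h₀ h₁ h₂).1.abs
  have hc : Integrable (fun _ : ℝ => (m / l₀ / l₀ : ℝ)) (volume.restrict (Set.Ioc l₀ (2 * l₀))) :=
    integrableOn_const (by simp) (by simp)
  have hb := hc.mul_prod hh
  have hrho := rhoR_continuous.measurable
  refine Integrable.mono' hb ?_ ?_
  · apply Measurable.aestronglyMeasurable
    have hK2 : Measurable (fun z : ℝ × ℝ × ℝ × ℝ => ZFinalK m z.1 (z.2.1 + z.2.2.1 + z.2.2.2)) := by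
      unfold ZFinalK
      refine Measurable.div (Finset.measurable_sum _ fun k _ => ?_) measurable_fst
      fun_prop
    have e : (Function.uncurry (fun (l : ℝ) (p : ℝ × ℝ × ℝ) =>
      ZFinalK m l (p.1 + p.2.1 + p.2.2) * F₀ (p.1, p.2.1) * F₁ (p.2.1, p.2.2) *
      F₂ (p.2.2, p.1))) = fun z : ℝ × ℝ × ℝ × ℝ =>
      ZFinalK m z.1 (z.2.1 + z.2.2.1 + z.2.2.2) * F₀ (z.2.1, z.2.2.1) * F₁ (z.2.2.1, z.2.2.2) *
      F₂ (z.2.2.2, z.2.1) := by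
      funext z; rfl
    rw [e]
    exact ((hK2.mul (by fun_prop)).mul (by fun_prop)).mul (by fun_prop)
  · have h1 : ∀ᵐ l ∂(volume.restrict (Set.Ioc l₀ (2 * l₀))), l ∈ Set.Ioc l₀ (2 * l₀) :=
      ae_restrict_mem measurableSet_Ioc
    have h2 := Measure.quasiMeasurePreserving_fst (μ := volume.restrict (Set.Ioc l₀ (2 * l₀)))
      (ν := (volume : Measure (ℝ × ℝ × ℝ))) |>.ae h1
    filter_upwards [h2] with z hz
    have hb := ZFinalK_bound hl₀ m hz.1 hz.2 (z.2.1 + z.2.2.1 + z.2.2.2)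
    simp only [Function.uncurry, Real.norm_eq_abs]
    rw [abs_mul, abs_mul, abs_mul, abs_mul, abs_mul, abs_mul]
    rw [← hT, ← hKc] at hb
    have hKn : 0 ≤ Kc (z.2.1 + z.2.2.1 + z.2.2.2) :=
      Set.indicator_nonneg (fun _ _ => zero_le_one) _
    rw [abs_of_nonneg hKn]
    calc |ZFinalK m z.1 (z.2.1 + z.2.2.1 + z.2.2.2)| * |F₀ (z.2.1, z.2.2.1)| *
          |F₁ (z.2.2.1, z.2.2.2)| * |F₂ (z.2.2.2, z.2.1)|
        ≤ (m / l₀ / l₀ * Kc (z.2.1 + z.2.2.1 + z.2.2.2)) * |F₀ (z.2.1, z.2.2.1)| *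
          |F₁ (z.2.2.1, z.2.2.2)| * |F₂ (z.2.2.2, z.2.1)| := by
          gcongr
      _ = _ := by ring

theorem ZFinal_Kav {C : ℝ} (hC0 : 0 < C) (hC : ∀ (m : ℕ) (S : Finset ℕ), 2 ≤ m →
    S.card ≤ m → (∀ k ∈ S, 2 ≤ k) → ∀ F₀ F₁ F₂ : ℝ × ℝ → ℝ,
    Measurable F₀ → Measurable F₁ → Measurable F₂ →
    Integrable (fun p => |F₀ p| ^ 3) → Integrable (fun p => |F₁ p| ^ 3) →
    Integrable (fun p => |F₂ p| ^ 3) →
    ∑ k ∈ S, |LamC (fun t => rhoR (t / 2 ^ k) / 2 ^ k) F₀ F₁ F₂| ≤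
      C * (1 + Real.log m) ^ 6 * (L3 F₀ * L3 F₁ * L3 F₂))
    {m : ℕ} (hm : 2 ≤ m) {l₀ : ℝ} (hl₀ : 0 < l₀)
    (m₀ : Measurable F₀) (m₁ : Measurable F₁) (m₂ : Measurable F₂)
    (h₀ : Integrable (fun p => |F₀ p| ^ 3)) (h₁ : Integrable (fun p => |F₁ p| ^ 3))
    (h₂ : Integrable (fun p => |F₂ p| ^ 3)) :
    |LamC (Kav l₀ m) F₀ F₁ F₂| ≤ C * (1 + Real.log m) ^ 6 * (L3 F₀ * L3 F₁ * L3 F₂) := by
  have hle : l₀ ≤ 2 * l₀ := by linarith
  have e1 : LamC (Kav l₀ m) F₀ F₁ F₂ = ∫ p : ℝ × ℝ × ℝ, ∫ l in Set.Ioc l₀ (2 * l₀),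
      ZFinalK m l (p.1 + p.2.1 + p.2.2) * F₀ (p.1, p.2.1) * F₁ (p.2.1, p.2.2) *
      F₂ (p.2.2, p.1) := by
    unfold LamC
    refine integral_congr_ae (Filter.Eventually.of_forall fun p => ?_)
    simp only
    rw [integral_mul_const, integral_mul_const, integral_mul_const]
    unfold Kav
    rw [intervalIntegral.integral_of_le hle]
    rfl
  rw [e1, ← integral_integral_swap (ZFinal_joint hl₀ m m₀ m₁ m₂ h₀ h₁ h₂), ← Real.norm_eq_abs]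
  set B : ℝ := C * (1 + Real.log m) ^ 6 * (L3 F₀ * L3 F₁ * L3 F₂) with hB
  have hB0 : 0 ≤ B := by
    have h1 : 0 ≤ Real.log m := Real.log_natCast_nonneg m
    have := L3_nonneg F₀
    have := L3_nonneg F₁
    have := L3_nonneg F₂
    positivity
  have hn := norm_setIntegral_le_of_norm_le_const (μ := (volume : Measure ℝ))
    (s := Set.Ioc l₀ (2 * l₀)) (C := 1 / l₀ * B) (f := fun l => ∫ p : ℝ × ℝ × ℝ,
      ZFinalK m l (p.1 + p.2.1 + p.2.2) * F₀ (p.1, p.2.1) * F₁ (p.2.1, p.2.2) *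
      F₂ (p.2.2, p.1)) (by simp) (fun l hl => by
        rw [Real.norm_eq_abs]
        have hl' : 0 < l := hl₀.trans hl.1
        refine (ZFinal_fixed_le hC hm hl' m₀ m₁ m₂ h₀ h₁ h₂).trans ?_
        rw [← hB]
        exact mul_le_mul_of_nonneg_right (one_div_le_one_div_of_le hl₀ hl.1.le) hB0)
  refine hn.trans (le_of_eq ?_)
  rw [Real.volume_real_Ioc_of_le hle]
  field_simp
  ring

end

theorem KR_integrable (ε R : ℝ) (hε : 0 < ε) (hR : ε < R) : Integrable (KR ε R) := by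
  have hR0 : 0 < R := hε.trans hR
  refine Integrable.mono' (ZKernel_int_ind (1 / ε) hR0).1 (KR_meas ε R).aestronglyMeasurable
    (Filter.Eventually.of_forall fun t => ?_)
  unfold KR
  split_ifs with h
  · rw [Set.indicator_of_mem (by rw [Set.mem_Icc, ← abs_le]; exact h.2.le), Real.norm_eq_abs,
      abs_div, abs_one]
    exact one_div_le_one_div_of_le hε h.1.le
  · rw [norm_zero]
    exact Set.indicator_nonneg (fun _ _ => by positivity) t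

theorem finalReal : ∃ C : ℝ, 0 < C ∧ ∀ ε R : ℝ, 0 < ε → ε < R → ∀ F₀ F₁ F₂ : ℝ × ℝ → ℝ,
    Measurable F₀ → Measurable F₁ → Measurable F₂ →
    Integrable (fun p => |F₀ p| ^ 3) → Integrable (fun p => |F₁ p| ^ 3) →
    Integrable (fun p => |F₂ p| ^ 3) →
    |LamC (KR ε R) F₀ F₁ F₂| ≤
      C * (1 + Real.log (1 + Real.log (R / ε))) ^ 6 * (L3 F₀ * L3 F₁ * L3 F₂) := by
  obtain ⟨C1, hC1, hk⟩ := kernel_approx
  obtain ⟨C2, hC2, hcube⟩ := cubeThm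
  set A : ℝ := 1 + |Real.log C1| with hA
  have hA1 : 1 ≤ A := by rw [hA]; linarith [abs_nonneg (Real.log C1)]
  refine ⟨C1 + 8 * (C2 * A ^ 6), by positivity, fun ε R hε hR F₀ F₁ F₂ m₀ m₁ m₂ h₀ h₁ h₂ => ?_⟩
  obtain ⟨l₀, m, hl₀, hm, hmC, hKi, hEi, hEb⟩ := hk ε R hε hR
  set L : ℝ := L3 F₀ * L3 F₁ * L3 F₂ with hL
  have hL0 : 0 ≤ L := mul_nonneg (mul_nonneg (L3_nonneg _) (L3_nonneg _)) (L3_nonneg _)
  set W : ℝ := 1 + Real.log (1 + Real.log (R / ε)) with hW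
  have hlog : 0 < Real.log (R / ε) := Real.log_pos (by rw [one_lt_div hε]; exact hR)
  have hW1 : 1 ≤ W := by
    have := Real.log_nonneg (by linarith : (1 : ℝ) ≤ 1 + Real.log (R / ε))
    rw [hW]; linarith
  have hKavm : Measurable (Kav l₀ m) := by
    have : Kav l₀ m = ZKex (4 * l₀) (l₀ * 2 ^ (m + 2)) := funext fun t => ZKernel_Kav hl₀ m t
    rw [this]; exact ZKex_meas _ _
  have hEm : Measurable (fun t => KR ε R t + 8 * Kav l₀ m t) := (KR_meas ε R).add (hKavm.const_mul 8)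
  have iE := holder_LamC _ hEi hEm F₀ F₁ F₂ m₀ m₁ m₂ h₀ h₁ h₂
  have iK := holder_LamC _ hKi hKavm F₀ F₁ F₂ m₀ m₁ m₂ h₀ h₁ h₂
  have split : LamC (KR ε R) F₀ F₁ F₂ =
      LamC (fun t => KR ε R t + 8 * Kav l₀ m t) F₀ F₁ F₂ - 8 * LamC (Kav l₀ m) F₀ F₁ F₂ := by
    unfold LamC
    rw [← integral_const_mul, ← integral_sub iE.1 (iK.1.const_mul 8)]
    refine integral_congr_ae (Filter.Eventually.of_forall fun p => ?_)
    simp only
    ring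
  have b1 : |LamC (fun t => KR ε R t + 8 * Kav l₀ m t) F₀ F₁ F₂| ≤ C1 * L := by
    unfold LamC
    refine (abs_integral_le_integral_abs).trans (iE.2.trans ?_)
    exact mul_le_mul_of_nonneg_right hEb hL0
  have b2 := ZFinal_Kav hC2 hcube hm hl₀ m₀ m₁ m₂ h₀ h₁ h₂
  rw [← hL] at b2
  have hmpos : (0 : ℝ) < m := by exact_mod_cast (by omega : 0 < m)
  have hlm : 1 + Real.log m ≤ A * W := by
    have h1 : Real.log m ≤ Real.log (C1 * (1 + Real.log (R / ε))) := Real.log_le_log hmpos hmC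
    rw [Real.log_mul hC1.ne' (by positivity)] at h1
    have h2 := le_abs_self (Real.log C1)
    have h3 : 1 + Real.log m ≤ |Real.log C1| + W := by rw [hW]; linarith
    have h4 : |Real.log C1| ≤ |Real.log C1| * W := le_mul_of_one_le_right (abs_nonneg _) hW1
    calc 1 + Real.log m ≤ |Real.log C1| * W + W := by linarith
      _ = A * W := by rw [hA]; ring
  have hlm0 : 0 ≤ 1 + Real.log m := by
    have := Real.log_natCast_nonneg m; linarith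
  have hp : (1 + Real.log m) ^ 6 ≤ A ^ 6 * W ^ 6 := by
    rw [← mul_pow]; exact pow_le_pow_left₀ hlm0 hlm 6
  have hW6 : 1 ≤ W ^ 6 := one_le_pow₀ hW1
  rw [split]
  calc |LamC (fun t => KR ε R t + 8 * Kav l₀ m t) F₀ F₁ F₂ - 8 * LamC (Kav l₀ m) F₀ F₁ F₂|
      ≤ |LamC (fun t => KR ε R t + 8 * Kav l₀ m t) F₀ F₁ F₂| + |8 * LamC (Kav l₀ m) F₀ F₁ F₂| :=
        abs_sub _ _
    _ = |LamC (fun t => KR ε R t + 8 * Kav l₀ m t) F₀ F₁ F₂| + 8 * |LamC (Kav l₀ m) F₀ F₁ F₂| := by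
        rw [abs_mul]; norm_num
    _ ≤ C1 * L + 8 * (C2 * (1 + Real.log m) ^ 6 * L) := by linarith
    _ ≤ C1 * W ^ 6 * L + 8 * (C2 * (A ^ 6 * W ^ 6) * L) := by
        have t1 : C1 * L ≤ C1 * W ^ 6 * L := by
          refine mul_le_mul_of_nonneg_right ?_ hL0
          exact le_mul_of_one_le_right hC1.le hW6
        have t2 : C2 * (1 + Real.log m) ^ 6 * L ≤ C2 * (A ^ 6 * W ^ 6) * L :=
          mul_le_mul_of_nonneg_right (mul_le_mul_of_nonneg_left hp hC2.le) hL0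
        linarith
    _ = (C1 + 8 * (C2 * A ^ 6)) * W ^ 6 * L := by ring

/-- the integrand of the truncated triangular Hilbert form -/
noncomputable def triInt (ε R : ℝ) (G₀ G₁ G₂ : ℝ × ℝ → ℂ) (p : ℝ × ℝ × ℝ) : ℂ :=
  if ε < |p.1 + p.2.1 + p.2.2| ∧ |p.1 + p.2.1 + p.2.2| < R then
    G₀ (p.1, p.2.1) * G₁ (p.2.1, p.2.2) * G₂ (p.2.2, p.1) / ((p.1 + p.2.1 + p.2.2 : ℝ) : ℂ)
  else 0

theorem ZFinal_qmp_of {f : ℝ × ℝ × ℝ → ℝ × ℝ} (hf : Measurable f)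
    (h : ∀ φ : ℝ × ℝ → ℝ≥0∞, Measurable φ → ∫⁻ p, 1 * φ (f p) = (∫⁻ _ : ℝ, 1) * ∫⁻ q, φ q) :
    Measure.QuasiMeasurePreserving f volume volume := by
  refine ⟨hf, Measure.AbsolutelyContinuous.mk fun s hs h0 => ?_⟩
  rw [Measure.map_apply hf hs, ← lintegral_indicator_one (hf hs)]
  have h1 := h (s.indicator 1) (measurable_one.indicator hs)
  rw [lintegral_indicator_one hs, h0, mul_zero] at h1
  rw [← h1]
  refine lintegral_congr fun p => ?_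
  rw [one_mul]
  rfl

theorem ZFinal_qmp0 : Measure.QuasiMeasurePreserving
    (fun p : ℝ × ℝ × ℝ => ((p.1, p.2.1) : ℝ × ℝ)) volume volume :=
  ZFinal_qmp_of (by fun_prop) fun φ hφ => ZHolder_int0 (fun _ => 1) φ measurable_const hφ

theorem ZFinal_qmp1 : Measure.QuasiMeasurePreserving
    (fun p : ℝ × ℝ × ℝ => ((p.2.1, p.2.2) : ℝ × ℝ)) volume volume :=
  ZFinal_qmp_of (by fun_prop) fun φ hφ => ZHolder_int1 (fun _ => 1) φ measurable_const hφ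

theorem ZFinal_qmp2 : Measure.QuasiMeasurePreserving
    (fun p : ℝ × ℝ × ℝ => ((p.2.2, p.1) : ℝ × ℝ)) volume volume :=
  ZFinal_qmp_of (by fun_prop) fun φ hφ => ZHolder_int2 (fun _ => 1) φ measurable_const hφ

/-- real and imaginary part -/
noncomputable def ZFpart (b : Bool) (G : ℝ × ℝ → ℂ) (p : ℝ × ℝ) : ℝ :=
  cond b (G p).im (G p).re

noncomputable def ZFcoef (b : Bool) : ℂ := cond b Complex.I 1

theorem ZFcoef_norm (b : Bool) : ‖ZFcoef b‖ = 1 := by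
  cases b <;> simp [ZFcoef]

theorem ZFpart_sum (G : ℝ × ℝ → ℂ) (p : ℝ × ℝ) :
    G p = ∑ b : Bool, ZFcoef b * (ZFpart b G p : ℂ) := by
  rw [Fintype.sum_bool]
  simp only [ZFcoef, ZFpart, cond_true, cond_false, one_mul]
  rw [add_comm, mul_comm]
  exact (Complex.re_add_im (G p)).symm

theorem ZFpart_meas (b : Bool) {G : ℝ × ℝ → ℂ} (hG : Measurable G) : Measurable (ZFpart b G) := by
  cases b
  · exact Complex.measurable_re.comp hG
  · exact Complex.measurable_im.comp hG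

theorem ZFpart_le (b : Bool) (G : ℝ × ℝ → ℂ) (p : ℝ × ℝ) : |ZFpart b G p| ≤ ‖G p‖ := by
  cases b
  · exact Complex.abs_re_le_norm _
  · exact Complex.abs_im_le_norm _

theorem ZFpart_int (b : Bool) {G : ℝ × ℝ → ℂ} (hG : Measurable G) (hL : MemLp G 3 volume) :
    Integrable (fun p => |ZFpart b G p| ^ 3) := by
  have h3 : Integrable (fun p => ‖G p‖ ^ 3) := by
    have hL' : MemLp G ((3 : ℕ) : ℝ≥0∞) volume := by exact_mod_cast hL
    exact hL'.integrable_norm_pow (by norm_num)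
  have hm := ZFpart_meas b hG
  refine h3.mono' (by fun_prop) (Filter.Eventually.of_forall fun p => ?_)
  rw [Real.norm_eq_abs, abs_of_nonneg (by positivity)]
  exact pow_le_pow_left₀ (abs_nonneg _) (ZFpart_le b G p) 3

theorem ZFpart_L3 (b : Bool) {G : ℝ × ℝ → ℂ} (hG : Measurable G) (hL : MemLp G 3 volume) :
    L3 (ZFpart b G) ≤ (eLpNorm G 3 volume).toReal := by
  have h3 : Integrable (fun p => ‖G p‖ ^ 3) := by
    have hL' : MemLp G ((3 : ℕ) : ℝ≥0∞) volume := by exact_mod_cast hL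
    exact hL'.integrable_norm_pow (by norm_num)
  rw [MemLp.eLpNorm_eq_integral_rpow_norm (by norm_num) (by norm_num) hL]
  rw [ENNReal.toReal_ofReal (Real.rpow_nonneg (integral_nonneg fun p => by positivity) _)]
  unfold L3
  have e : (3 : ℝ≥0∞).toReal = 3 := by norm_num
  rw [e, one_div]
  have e2 : ∫ p, ‖G p‖ ^ (3 : ℝ) = ∫ p, ‖G p‖ ^ 3 := by
    refine integral_congr_ae (Filter.Eventually.of_forall fun p => ?_)
    show ‖G p‖ ^ (3 : ℝ) = ‖G p‖ ^ 3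
    exact_mod_cast Real.rpow_natCast ‖G p‖ 3
  rw [e2]
  refine Real.rpow_le_rpow (integral_nonneg fun p => by positivity) ?_ (by norm_num)
  exact integral_mono (ZFpart_int b hG hL) h3
    (fun p => pow_le_pow_left₀ (abs_nonneg _) (ZFpart_le b G p) 3)

theorem ZFinal_expand (ε R : ℝ) (G₀ G₁ G₂ : ℝ × ℝ → ℂ) (p : ℝ × ℝ × ℝ) :
    triInt ε R G₀ G₁ G₂ p = ∑ b₀ : Bool, ∑ b₁ : Bool, ∑ b₂ : Bool,
      (ZFcoef b₀ * ZFcoef b₁ * ZFcoef b₂) * ((KR ε R (p.1 + p.2.1 + p.2.2) *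
        ZFpart b₀ G₀ (p.1, p.2.1) * ZFpart b₁ G₁ (p.2.1, p.2.2) *
        ZFpart b₂ G₂ (p.2.2, p.1) : ℝ) : ℂ) := by
  have e1 : triInt ε R G₀ G₁ G₂ p = ((KR ε R (p.1 + p.2.1 + p.2.2) : ℝ) : ℂ) *
      (G₀ (p.1, p.2.1) * G₁ (p.2.1, p.2.2) * G₂ (p.2.2, p.1)) := by
    unfold triInt KR
    split_ifs with h
    · rw [Complex.ofReal_div, Complex.ofReal_one]; ring
    · simp
  rw [e1, ZFpart_sum G₀ (p.1, p.2.1), ZFpart_sum G₁ (p.2.1, p.2.2), ZFpart_sum G₂ (p.2.2, p.1)]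
  simp only [Fintype.sum_bool]
  push_cast
  ring

theorem ZFinal_meas {C : ℝ} (hC0 : 0 < C)
    (hC : ∀ ε R : ℝ, 0 < ε → ε < R → ∀ F₀ F₁ F₂ : ℝ × ℝ → ℝ,
    Measurable F₀ → Measurable F₁ → Measurable F₂ →
    Integrable (fun p => |F₀ p| ^ 3) → Integrable (fun p => |F₁ p| ^ 3) →
    Integrable (fun p => |F₂ p| ^ 3) →
    |LamC (KR ε R) F₀ F₁ F₂| ≤
      C * (1 + Real.log (1 + Real.log (R / ε))) ^ 6 * (L3 F₀ * L3 F₁ * L3 F₂))
    {ε R : ℝ} (hε : 0 < ε) (hR : ε < R) {G₀ G₁ G₂ : ℝ × ℝ → ℂ}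
    (m₀ : Measurable G₀) (m₁ : Measurable G₁) (m₂ : Measurable G₂)
    (h₀ : MemLp G₀ 3 volume) (h₁ : MemLp G₁ 3 volume) (h₂ : MemLp G₂ 3 volume) :
    Integrable (triInt ε R G₀ G₁ G₂) ∧
    ‖∫ p : ℝ × ℝ × ℝ, triInt ε R G₀ G₁ G₂ p‖ ≤
      8 * C * (1 + Real.log (1 + Real.log (R / ε))) ^ 6 *
        ((eLpNorm G₀ 3 volume).toReal * (eLpNorm G₁ 3 volume).toReal *
          (eLpNorm G₂ 3 volume).toReal) := by
  have hfun : triInt ε R G₀ G₁ G₂ = fun p => ∑ b₀ : Bool, ∑ b₁ : Bool, ∑ b₂ : Bool,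
      (ZFcoef b₀ * ZFcoef b₁ * ZFcoef b₂) * ((KR ε R (p.1 + p.2.1 + p.2.2) *
        ZFpart b₀ G₀ (p.1, p.2.1) * ZFpart b₁ G₁ (p.2.1, p.2.2) *
        ZFpart b₂ G₂ (p.2.2, p.1) : ℝ) : ℂ) := funext fun p => ZFinal_expand ε R G₀ G₁ G₂ p
  have hI : ∀ b₀ b₁ b₂ : Bool, Integrable (fun p : ℝ × ℝ × ℝ =>
      (ZFcoef b₀ * ZFcoef b₁ * ZFcoef b₂) * ((KR ε R (p.1 + p.2.1 + p.2.2) *
        ZFpart b₀ G₀ (p.1, p.2.1) * ZFpart b₁ G₁ (p.2.1, p.2.2) *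
        ZFpart b₂ G₂ (p.2.2, p.1) : ℝ) : ℂ)) := fun b₀ b₁ b₂ =>
    (holder_LamC _ (KR_integrable ε R hε hR) (KR_meas ε R) _ _ _ (ZFpart_meas b₀ m₀)
      (ZFpart_meas b₁ m₁) (ZFpart_meas b₂ m₂) (ZFpart_int b₀ m₀ h₀) (ZFpart_int b₁ m₁ h₁)
      (ZFpart_int b₂ m₂ h₂)).1.ofReal.const_mul _
  set D : ℝ := C * (1 + Real.log (1 + Real.log (R / ε))) ^ 6 *
        ((eLpNorm G₀ 3 volume).toReal * (eLpNorm G₁ 3 volume).toReal *
          (eLpNorm G₂ 3 volume).toReal) with hD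
  have hlog : 0 < Real.log (R / ε) := Real.log_pos (by rw [one_lt_div hε]; exact hR)
  have hW0 : 0 ≤ 1 + Real.log (1 + Real.log (R / ε)) := by
    have := Real.log_nonneg (by linarith : (1 : ℝ) ≤ 1 + Real.log (R / ε))
    linarith
  have hB : ∀ b₀ b₁ b₂ : Bool, ‖∫ p : ℝ × ℝ × ℝ,
      (ZFcoef b₀ * ZFcoef b₁ * ZFcoef b₂) * ((KR ε R (p.1 + p.2.1 + p.2.2) *
        ZFpart b₀ G₀ (p.1, p.2.1) * ZFpart b₁ G₁ (p.2.1, p.2.2) *
        ZFpart b₂ G₂ (p.2.2, p.1) : ℝ) : ℂ)‖ ≤ D := by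
    intro b₀ b₁ b₂
    rw [integral_const_mul, norm_mul, norm_mul, norm_mul, ZFcoef_norm, ZFcoef_norm, ZFcoef_norm,
      one_mul, one_mul, one_mul, integral_complex_ofReal, Complex.norm_real, Real.norm_eq_abs]
    refine (hC ε R hε hR _ _ _ (ZFpart_meas b₀ m₀)
      (ZFpart_meas b₁ m₁) (ZFpart_meas b₂ m₂) (ZFpart_int b₀ m₀ h₀) (ZFpart_int b₁ m₁ h₁)
      (ZFpart_int b₂ m₂ h₂)).trans ?_
    rw [hD]
    refine mul_le_mul_of_nonneg_left ?_ (by positivity)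
    have l0 := ZFpart_L3 b₀ m₀ h₀
    have l1 := ZFpart_L3 b₁ m₁ h₁
    have l2 := ZFpart_L3 b₂ m₂ h₂
    exact mul_le_mul (mul_le_mul l0 l1 (L3_nonneg _) ENNReal.toReal_nonneg) l2 (L3_nonneg _)
      (mul_nonneg ENNReal.toReal_nonneg ENNReal.toReal_nonneg)
  constructor
  · rw [hfun]
    exact integrable_finsetSum _ fun b₀ _ => integrable_finsetSum _ fun b₁ _ =>
      integrable_finsetSum _ fun b₂ _ => hI b₀ b₁ b₂
  · rw [hfun]
    rw [integral_finsetSum _ fun b₀ _ => integrable_finsetSum _ fun b₁ _ =>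
      integrable_finsetSum _ fun b₂ _ => hI b₀ b₁ b₂]
    have h8 : 8 * C * (1 + Real.log (1 + Real.log (R / ε))) ^ 6 *
        ((eLpNorm G₀ 3 volume).toReal * (eLpNorm G₁ 3 volume).toReal *
          (eLpNorm G₂ 3 volume).toReal) = ∑ _b₀ : Bool, ∑ _b₁ : Bool, ∑ _b₂ : Bool, D := by
      simp only [Fintype.sum_bool]
      rw [hD]; ring
    rw [h8]
    refine (norm_sum_le _ _).trans (Finset.sum_le_sum fun b₀ _ => ?_)
    rw [integral_finsetSum _ fun b₁ _ => integrable_finsetSum _ fun b₂ _ => hI b₀ b₁ b₂]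
    refine (norm_sum_le _ _).trans (Finset.sum_le_sum fun b₁ _ => ?_)
    rw [integral_finsetSum _ fun b₂ _ => hI b₀ b₁ b₂]
    exact (norm_sum_le _ _).trans (Finset.sum_le_sum fun b₂ _ => hB b₀ b₁ b₂)

theorem finalComplex : ∃ C : ℝ, 0 < C ∧ ∀ ε R : ℝ, 0 < ε → ε < R → ∀ G₀ G₁ G₂ : ℝ × ℝ → ℂ,
    MemLp G₀ 3 volume → MemLp G₁ 3 volume → MemLp G₂ 3 volume →
    Integrable (triInt ε R G₀ G₁ G₂) ∧
    ‖∫ p : ℝ × ℝ × ℝ, triInt ε R G₀ G₁ G₂ p‖ ≤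
      C * (1 + Real.log (1 + Real.log (R / ε))) ^ 6 *
        ((eLpNorm G₀ 3 volume).toReal * (eLpNorm G₁ 3 volume).toReal *
          (eLpNorm G₂ 3 volume).toReal) := by
  obtain ⟨C, hC0, hC⟩ := finalReal
  refine ⟨8 * C, by positivity, fun ε R hε hR G₀ G₁ G₂ h₀ h₁ h₂ => ?_⟩
  have a₀ := h₀.1.ae_eq_mk
  have a₁ := h₁.1.ae_eq_mk
  have a₂ := h₂.1.ae_eq_mk
  have key := ZFinal_meas hC0 hC hε hR (h₀.1.stronglyMeasurable_mk.measurable)
    (h₁.1.stronglyMeasurable_mk.measurable) (h₂.1.stronglyMeasurable_mk.measurable)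
    (h₀.ae_eq a₀) (h₁.ae_eq a₁) (h₂.ae_eq a₂)
  rw [← eLpNorm_congr_ae a₀, ← eLpNorm_congr_ae a₁, ← eLpNorm_congr_ae a₂] at key
  have hae : triInt ε R (h₀.1.mk G₀) (h₁.1.mk G₁) (h₂.1.mk G₂) =ᵐ[volume]
      triInt ε R G₀ G₁ G₂ := by
    filter_upwards [ZFinal_qmp0.ae_eq_comp a₀, ZFinal_qmp1.ae_eq_comp a₁,
      ZFinal_qmp2.ae_eq_comp a₂] with p e0 e1 e2
    simp only [Function.comp] at e0 e1 e2
    unfold triInt
    rw [e0, e1, e2]
  exact ⟨key.1.congr hae, by rw [← integral_congr_ae hae]; exact key.2⟩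

end Vale.Agent.P075
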