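import Vale.Agent.P075.ZPack
import Vale.Agent.P075.ZCellDefs
import Vale.Agent.P075.HeavyAux

namespace Vale.Agent.P075

open Finset

/-- the point (x, y) lies in a maximal heavy cell of scale k -/
private def zmP (S : Finset ℕ) (H : ℕ → ℤ → ℤ → Prop) (k : ℕ) (x y : ℤ) : Prop :=
  H k (x / 2 ^ k) (y / 2 ^ k) ∧ ∀ k' ∈ S, k < k' → ¬ H k' (x / 2 ^ k') (y / 2 ^ k')

/-- no heavy cell of scale at least k contains the point (x, y) -/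
private def zmL (S : Finset ℕ) (H : ℕ → ℤ → ℤ → Prop) (k : ℕ) (x y : ℤ) : Prop :=
  ∀ k' ∈ S, k ≤ k' → ¬ H k' (x / 2 ^ k') (y / 2 ^ k')

private theorem zm_ediv {k k' : ℕ} (h : k ≤ k') (p : ℤ) :
    p / 2 ^ k' = p / 2 ^ k / 2 ^ (k' - k) := by
  rw [Int.ediv_ediv_of_nonneg (by positivity), ← pow_add, Nat.add_sub_cancel' h]

private theorem zm_ediv_congr {k k' : ℕ} (h : k ≤ k') {p p' : ℤ} (hp : p / 2 ^ k = p' / 2 ^ k) :
    p / 2 ^ k' = p' / 2 ^ k' := by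
  rw [zm_ediv h, hp, ← zm_ediv h]

private theorem zmP_cell {S : Finset ℕ} {H : ℕ → ℤ → ℤ → Prop} {k : ℕ} {x y x' y' : ℤ}
    (hx : x / 2 ^ k = x' / 2 ^ k) (hy : y / 2 ^ k = y' / 2 ^ k) (h : zmP S H k x y) :
    zmP S H k x' y' := by
  refine ⟨?_, fun k' hk' hkk' => ?_⟩
  · rw [← hx, ← hy]; exact h.1
  · rw [← zm_ediv_congr hkk'.le hx, ← zm_ediv_congr hkk'.le hy]
    exact h.2 k' hk' hkk'

private theorem zmL_cell {S : Finset ℕ} {H : ℕ → ℤ → ℤ → Prop} {k : ℕ} {x y x' y' : ℤ}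
    (hx : x / 2 ^ k = x' / 2 ^ k) (hy : y / 2 ^ k = y' / 2 ^ k) (h : zmL S H k x y) :
    zmL S H k x' y' := by
  intro k' hk' hkk'
  rw [← zm_ediv_congr hkk' hx, ← zm_ediv_congr hkk' hy]
  exact h k' hk' hkk'

private theorem zmP_unique {S : Finset ℕ} {H : ℕ → ℤ → ℤ → Prop} {k k' : ℕ} {x y : ℤ}
    (hk : k ∈ S) (hk' : k' ∈ S) (h : zmP S H k x y) (h' : zmP S H k' x y) : k = k' := by
  rcases lt_trichotomy k k' with h1 | h1 | h1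
  · exact absurd h'.1 (h.2 k' hk' h1)
  · exact h1
  · exact absurd h.1 (h'.2 k hk h1)

open Classical in
/-- cells of scale k containing a point of B × B with property P -/
private noncomputable def zmC (B : Finset ℤ) (k : ℕ) (P : ℤ → ℤ → Prop) : Finset (ℤ × ℤ) :=
  ((B ×ˢ B).filter (fun p => P p.1 p.2)).image (fun p => (p.1 / 2 ^ k, p.2 / 2 ^ k))

private theorem mem_zmC {B : Finset ℤ} {k : ℕ} {P : ℤ → ℤ → Prop} {c : ℤ × ℤ} :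
    c ∈ zmC B k P ↔ ∃ x ∈ B, ∃ y ∈ B, P x y ∧ x / 2 ^ k = c.1 ∧ y / 2 ^ k = c.2 := by
  classical
  unfold zmC
  rw [Finset.mem_image]
  constructor
  · rintro ⟨p, hp, rfl⟩
    rw [Finset.mem_filter, Finset.mem_product] at hp
    exact ⟨p.1, hp.1.1, p.2, hp.1.2, hp.2, rfl, rfl⟩
  · rintro ⟨x, hx, y, hy, h, h1, h2⟩
    refine ⟨(x, y), ?_, Prod.ext h1 h2⟩
    rw [Finset.mem_filter, Finset.mem_product]
    exact ⟨⟨hx, hy⟩, h⟩

open Classical in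
private theorem zm_cut_sum {B : Finset ℤ} {k : ℕ} {P : ℤ → ℤ → Prop}
    (hP : ∀ x y x' y' : ℤ, x / 2 ^ k = x' / 2 ^ k → y / 2 ^ k = y' / 2 ^ k → P x y → P x' y')
    (F : ℤ → ℤ → ℝ) {x y : ℤ} (hx : x ∈ B) (hy : y ∈ B) :
    ∑ c ∈ zmC B k P, cutI k c.1 c.2 F x y = if P x y then F x y else 0 := by
  have h1 : ∀ c ∈ zmC B k P, cutI k c.1 c.2 F x y =
      if (x / 2 ^ k, y / 2 ^ k) = c then F x y else 0 := by
    intro c _
    unfold cutI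
    refine if_congr ?_ rfl rfl
    rw [Prod.ext_iff]
  rw [Finset.sum_congr rfl h1, Finset.sum_ite_eq]
  refine if_congr ?_ rfl rfl
  rw [mem_zmC]
  constructor
  · rintro ⟨x', _, y', _, h, h1, h2⟩
    exact hP _ _ _ _ h1 h2 h
  · intro h
    exact ⟨x, hx, y, hy, h, rfl, rfl⟩

private theorem zm_LamI (B : Finset ℤ) (s : ℤ) (k : ℕ) (F₀ F₁ F₂ : ℤ → ℤ → ℝ) :
    LamI B s k F₀ F₁ F₂ = ∑ p ∈ B ×ˢ B, F₀ p.1 p.2 *
      ∑ z ∈ B, rhoZ k (p.1 + p.2 + z - s) * F₁ p.2 z * F₂ z p.1 := by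
  unfold LamI
  rw [Finset.sum_product]
  refine Finset.sum_congr rfl fun x _ => Finset.sum_congr rfl fun y _ => ?_
  rw [Finset.mul_sum]
  refine Finset.sum_congr rfl fun z _ => ?_
  ring

open Classical in
private theorem zm_point (S : Finset ℕ) (H : ℕ → ℤ → ℤ → Prop) (k : ℕ) (x y : ℤ) (a : ℝ) :
    a = ∑ k' ∈ S.filter (fun k' => k ≤ k'), (if zmP S H k' x y then a else 0) +
      (if zmL S H k x y then a else 0) := by
  by_cases hL : zmL S H k x y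
  · rw [if_pos hL, Finset.sum_eq_zero, zero_add]
    intro k' hk'
    rw [Finset.mem_filter] at hk'
    rw [if_neg]
    intro h
    exact hL k' hk'.1 hk'.2 h.1
  · rw [if_neg hL, add_zero]
    set T := S.filter (fun k' => k ≤ k' ∧ H k' (x / 2 ^ k') (y / 2 ^ k')) with hT
    have hne : T.Nonempty := by
      unfold zmL at hL
      push Not at hL
      obtain ⟨k', hk', hkk', hH⟩ := hL
      exact ⟨k', by rw [hT, Finset.mem_filter]; exact ⟨hk', hkk', hH⟩⟩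
    have hmem := Finset.mem_filter.1 (T.max'_mem hne)
    have hmax : zmP S H (T.max' hne) x y := by
      refine ⟨hmem.2.2, fun k' hk' hkk' hH => ?_⟩
      have : k' ∈ T := by
        rw [hT, Finset.mem_filter]; exact ⟨hk', hmem.2.1.trans hkk'.le, hH⟩
      exact absurd (T.le_max' k' this) (not_le.2 hkk')
    rw [Finset.sum_eq_single (T.max' hne)]
    · rw [if_pos hmax]
    · intro k' hk' hne'
      rw [Finset.mem_filter] at hk'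
      rw [if_neg]
      intro h
      exact hne' (zmP_unique hk'.1 hmem.1 h hmax)
    · intro h
      exact absurd (Finset.mem_filter.2 ⟨hmem.1, hmem.2.1⟩) h

private theorem zm_lam (B : Finset ℤ) (s : ℤ) (S : Finset ℕ) (H : ℕ → ℤ → ℤ → Prop) (k : ℕ)
    (F₀ F₁ F₂ : ℤ → ℤ → ℝ) :
    |LamI B s k F₀ F₁ F₂| ≤ ∑ k' ∈ S.filter (fun k' => k ≤ k'),
      ∑ c ∈ zmC B k' (zmP S H k'), |LamI B s k (cutI k' c.1 c.2 F₀) F₁ F₂| +
      ∑ c ∈ zmC B k (zmL S H k), |LamI B s k (cutI k c.1 c.2 F₀) F₁ F₂| := by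
  classical
  have h1 : LamI B s k F₀ F₁ F₂ = ∑ k' ∈ S.filter (fun k' => k ≤ k'),
      ∑ c ∈ zmC B k' (zmP S H k'), LamI B s k (cutI k' c.1 c.2 F₀) F₁ F₂ +
      ∑ c ∈ zmC B k (zmL S H k), LamI B s k (cutI k c.1 c.2 F₀) F₁ F₂ := by
    simp only [zm_LamI]
    have h2 : ∀ k' ∈ S.filter (fun k' => k ≤ k'), ∑ c ∈ zmC B k' (zmP S H k'),
        ∑ p ∈ B ×ˢ B, cutI k' c.1 c.2 F₀ p.1 p.2 *
          ∑ z ∈ B, rhoZ k (p.1 + p.2 + z - s) * F₁ p.2 z * F₂ z p.1 =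
        ∑ p ∈ B ×ˢ B, (if zmP S H k' p.1 p.2 then F₀ p.1 p.2 else 0) *
          ∑ z ∈ B, rhoZ k (p.1 + p.2 + z - s) * F₁ p.2 z * F₂ z p.1 := by
      intro k' _
      rw [Finset.sum_comm]
      refine Finset.sum_congr rfl fun p hp => ?_
      rw [Finset.mem_product] at hp
      rw [← Finset.sum_mul, zm_cut_sum (fun _ _ _ _ h h' => zmP_cell h h') F₀ hp.1 hp.2]
    have h3 : ∑ c ∈ zmC B k (zmL S H k),
        ∑ p ∈ B ×ˢ B, cutI k c.1 c.2 F₀ p.1 p.2 *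
          ∑ z ∈ B, rhoZ k (p.1 + p.2 + z - s) * F₁ p.2 z * F₂ z p.1 =
        ∑ p ∈ B ×ˢ B, (if zmL S H k p.1 p.2 then F₀ p.1 p.2 else 0) *
          ∑ z ∈ B, rhoZ k (p.1 + p.2 + z - s) * F₁ p.2 z * F₂ z p.1 := by
      rw [Finset.sum_comm]
      refine Finset.sum_congr rfl fun p hp => ?_
      rw [Finset.mem_product] at hp
      rw [← Finset.sum_mul, zm_cut_sum (fun _ _ _ _ h h' => zmL_cell h h') F₀ hp.1 hp.2]
    rw [Finset.sum_congr rfl h2, h3, Finset.sum_comm, ← Finset.sum_add_distrib]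
    refine Finset.sum_congr rfl fun p _ => ?_
    rw [← Finset.sum_mul, ← add_mul, ← zm_point]
  rw [h1]
  refine (abs_add_le _ _).trans (add_le_add ?_ (Finset.abs_sum_le_sum_abs _ _))
  refine (Finset.abs_sum_le_sum_abs _ _).trans (Finset.sum_le_sum fun k' _ => ?_)
  exact Finset.abs_sum_le_sum_abs _ _

private theorem nzI_nonneg' (B : Finset ℤ) (F : ℤ → ℤ → ℝ) : 0 ≤ nzI B F := by
  unfold nzI
  refine Finset.sum_nonneg fun x _ => Finset.sum_nonneg fun y _ => ?_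
  split_ifs <;> norm_num

private theorem n0_nonneg' (B : Finset ℤ) (F : ℤ → ℤ → ℝ) (k : ℕ) (q r : ℤ) :
    0 ≤ n0 B F k q r := by
  unfold n0
  refine Finset.sum_nonneg fun x _ => Finset.sum_nonneg fun y _ => ?_
  split_ifs <;> norm_num

private theorem n1_nonneg' (B : Finset ℤ) (s : ℤ) (F : ℤ → ℤ → ℝ) (k : ℕ) (q r : ℤ) :
    0 ≤ n1 B s F k q r := by
  unfold n1
  refine Finset.sum_nonneg fun x _ => Finset.sum_nonneg fun y _ => ?_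
  split_ifs <;> norm_num

private theorem n2_nonneg' (B : Finset ℤ) (s : ℤ) (F : ℤ → ℤ → ℝ) (k : ℕ) (q r : ℤ) :
    0 ≤ n2 B s F k q r := by
  unfold n2
  refine Finset.sum_nonneg fun x _ => Finset.sum_nonneg fun y _ => ?_
  split_ifs <;> norm_num

private theorem n2_eq (B : Finset ℤ) (s : ℤ) (F : ℤ → ℤ → ℝ) (k : ℕ) (q r : ℤ) :
    n2 B s F k q r = n1 B s (fun y z => F z y) k r q := by
  unfold n1 n2
  rw [Finset.sum_comm]
  refine Finset.sum_congr rfl fun x _ => Finset.sum_congr rfl fun z _ => ?_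
  rw [show s - z - x = s - x - z by ring]

private theorem nzI_swap (B : Finset ℤ) (F : ℤ → ℤ → ℝ) :
    nzI B (fun y z => F z y) = nzI B F := by
  unfold nzI
  rw [Finset.sum_comm]

private theorem zm_n0 (B : Finset ℤ) (S : Finset ℕ) (M : ℕ → Finset (ℤ × ℤ))
    (hM : ∀ k ∈ S, ∀ k' ∈ S, ∀ p y : ℤ, (p / 2 ^ k, y / 2 ^ k) ∈ M k →
      (p / 2 ^ k', y / 2 ^ k') ∈ M k' → k = k') (F : ℤ → ℤ → ℝ) :
    ∑ k ∈ S, ∑ c ∈ M k, n0 B F k c.1 c.2 ≤ nzI B F := by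
  classical
  have h1 : ∑ k ∈ S, ∑ c ∈ M k, n0 B F k c.1 c.2 = ∑ x ∈ B, ∑ y ∈ B, ∑ k ∈ S, ∑ c ∈ M k,
      (if F x y ≠ 0 ∧ x / 2 ^ k = c.1 ∧ y / 2 ^ k = c.2 then (1 : ℝ) else 0) := by
    unfold n0
    have h2 : ∀ k ∈ S, ∑ c ∈ M k, ∑ x ∈ B, ∑ y ∈ B,
        (if F x y ≠ 0 ∧ x / 2 ^ k = c.1 ∧ y / 2 ^ k = c.2 then (1 : ℝ) else 0) =
        ∑ x ∈ B, ∑ y ∈ B, ∑ c ∈ M k,
        (if F x y ≠ 0 ∧ x / 2 ^ k = c.1 ∧ y / 2 ^ k = c.2 then (1 : ℝ) else 0) := by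
      intro k _
      rw [Finset.sum_comm]
      exact Finset.sum_congr rfl fun x _ => Finset.sum_comm
    rw [Finset.sum_congr rfl h2, Finset.sum_comm]
    exact Finset.sum_congr rfl fun x _ => Finset.sum_comm
  rw [h1]
  unfold nzI
  refine Finset.sum_le_sum fun x _ => Finset.sum_le_sum fun y _ => ?_
  by_cases hF : F x y ≠ 0
  · rw [if_pos hF]
    have h3 : ∀ k ∈ S, ∑ c ∈ M k,
        (if F x y ≠ 0 ∧ x / 2 ^ k = c.1 ∧ y / 2 ^ k = c.2 then (1 : ℝ) else 0) =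
        if (x / 2 ^ k, y / 2 ^ k) ∈ M k then 1 else 0 := by
      intro k _
      rw [← Finset.sum_ite_eq (M k) (x / 2 ^ k, y / 2 ^ k) (fun _ => (1 : ℝ))]
      refine Finset.sum_congr rfl fun c _ => if_congr ?_ rfl rfl
      rw [Prod.ext_iff]
      exact ⟨fun h => h.2, fun h => ⟨hF, h⟩⟩
    rw [Finset.sum_congr rfl h3, Finset.sum_boole]
    have h4 : (S.filter (fun k => (x / 2 ^ k, y / 2 ^ k) ∈ M k)).card ≤ 1 := by
      rw [Finset.card_le_one]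
      intro a ha b hb
      rw [Finset.mem_filter] at ha hb
      exact hM a ha.1 b hb.1 x y ha.2 hb.2
    exact_mod_cast h4
  · rw [if_neg hF]
    refine le_of_eq (Finset.sum_eq_zero fun k _ => Finset.sum_eq_zero fun c _ => ?_)
    rw [if_neg (fun h => hF h.1)]

private theorem zm_card_block (B : Finset ℤ) (k : ℕ) (r : ℤ) :
    (B.filter (fun y => y / 2 ^ k = r)).card ≤ 2 ^ k := by
  have hpos : (0 : ℤ) < 2 ^ k := by positivity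
  have h1 : B.filter (fun y => y / 2 ^ k = r) ⊆ Finset.Ico (r * 2 ^ k) ((r + 1) * 2 ^ k) := by
    intro y hy
    rw [Finset.mem_filter] at hy
    rw [Finset.mem_Ico, ← Int.le_ediv_iff_mul_le hpos, ← Int.ediv_lt_iff_lt_mul hpos]
    omega
  refine (Finset.card_le_card h1).trans ?_
  rw [Int.card_Ico]
  have : (r + 1) * 2 ^ k - r * 2 ^ k = ((2 ^ k : ℕ) : ℤ) := by push_cast; ring
  rw [this, Int.toNat_natCast]

private theorem zm_n1 (B : Finset ℤ) (s : ℤ) (m : ℕ) (S : Finset ℕ) (hS : S.card ≤ m)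
    (M : ℕ → Finset (ℤ × ℤ))
    (hM : ∀ k ∈ S, ∀ k' ∈ S, ∀ p y : ℤ, (p / 2 ^ k, y / 2 ^ k) ∈ M k →
      (p / 2 ^ k', y / 2 ^ k') ∈ M k' → k = k') (F : ℤ → ℤ → ℝ) (l : ℕ) :
    ∑ k ∈ S, ∑ c ∈ M k, n1 B s F k c.1 c.2 ≤
      (1 + 2 * l) * nzI B F + 2 * m ^ 2 / 2 ^ l * ∑ k ∈ S, ((M k).card : ℝ) * 4 ^ k := by
  classical
  let I : ℤ → ℕ → Finset ℤ := fun y k => ((M k).filter (fun c => c.2 = y / 2 ^ k)).image Prod.fst
  let E : ℤ → Finset ℤ := fun y => (B.filter (fun z => F y z ≠ 0)).image (fun z => s - y - z)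
  have hI : ∀ y k q, q ∈ I y k ↔ (q, y / 2 ^ k) ∈ M k := by
    intro y k q
    simp only [I, Finset.mem_image, Finset.mem_filter]
    constructor
    · rintro ⟨c, ⟨h1, h2⟩, h3⟩
      rw [← h2, ← h3]
      exact h1
    · intro h
      exact ⟨_, ⟨h, rfl⟩, rfl⟩
  have hinj : ∀ y k, Set.InjOn Prod.fst
      (((M k).filter (fun c => c.2 = y / 2 ^ k) : Finset (ℤ × ℤ)) : Set (ℤ × ℤ)) := by
    intro y k a ha b hb hab
    rw [Finset.mem_coe, Finset.mem_filter] at ha hb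
    exact Prod.ext hab (ha.2.trans hb.2.symm)
  have hinjE : ∀ y, Set.InjOn (fun z => s - y - z)
      ((B.filter (fun z => F y z ≠ 0) : Finset ℤ) : Set ℤ) := by
    intro y a _ b _ hab
    simp only at hab
    omega
  -- rewrite the sum
  have h1 : ∑ k ∈ S, ∑ c ∈ M k, n1 B s F k c.1 c.2 = ∑ y ∈ B, ∑ k ∈ S, ∑ q ∈ I y k, ∑ p ∈ E y,
      (if |p / 2 ^ k - q| ≤ 1 then (1 : ℝ) else 0) := by
    have h2 : ∀ k ∈ S, ∑ c ∈ M k, n1 B s F k c.1 c.2 = ∑ y ∈ B, ∑ q ∈ I y k, ∑ p ∈ E y,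
        (if |p / 2 ^ k - q| ≤ 1 then (1 : ℝ) else 0) := by
      intro k _
      unfold n1
      rw [Finset.sum_comm]
      refine Finset.sum_congr rfl fun y _ => ?_
      rw [Finset.sum_image (hinj y k), Finset.sum_filter]
      refine Finset.sum_congr rfl fun c _ => ?_
      by_cases hc : c.2 = y / 2 ^ k
      · rw [if_pos hc, Finset.sum_image (hinjE y), Finset.sum_filter]
        refine Finset.sum_congr rfl fun z _ => ?_
        by_cases hF : F y z ≠ 0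
        · rw [if_pos hF]
          refine if_congr ?_ rfl rfl
          exact ⟨fun h => h.2.2, fun h => ⟨hF, hc.symm, h⟩⟩
        · rw [if_neg hF, if_neg (fun h => hF h.1)]
      · rw [if_neg hc]
        refine Finset.sum_eq_zero fun z _ => ?_
        rw [if_neg (fun h => hc h.2.1.symm)]
    rw [Finset.sum_congr rfl h2, Finset.sum_comm]
  rw [h1]
  have h3 : ∀ y ∈ B, ∑ k ∈ S, ∑ q ∈ I y k, ∑ p ∈ E y,
      (if |p / 2 ^ k - q| ≤ 1 then (1 : ℝ) else 0) ≤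
      (1 + 2 * l) * (E y).card + 2 * m ^ 2 / 2 ^ l * ∑ k ∈ S, ((I y k).card : ℝ) * 2 ^ k := by
    intro y _
    have h := pack1D m S hS (I y) (by
      intro k hk k' hk' p hp hp'
      rw [hI] at hp hp'
      exact hM k hk k' hk' p y hp hp') (E y) l
    push_cast at h
    exact h
  refine (Finset.sum_le_sum h3).trans ?_
  rw [Finset.sum_add_distrib, ← Finset.mul_sum, ← Finset.mul_sum]
  refine add_le_add ?_ ?_
  · refine mul_le_mul_of_nonneg_left (le_of_eq ?_) (by positivity)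
    unfold nzI
    refine Finset.sum_congr rfl fun y _ => ?_
    rw [Finset.card_image_of_injOn (hinjE y), Finset.sum_boole]
  · refine mul_le_mul_of_nonneg_left ?_ (by positivity)
    rw [Finset.sum_comm]
    refine Finset.sum_le_sum fun k _ => ?_
    rw [← Finset.sum_mul]
    have h4 : ∑ y ∈ B, ((I y k).card : ℝ) = ∑ c ∈ M k,
        ((B.filter (fun y => y / 2 ^ k = c.2)).card : ℝ) := by
      have h5 : ∀ y ∈ B, ((I y k).card : ℝ) = ∑ c ∈ M k,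
          (if y / 2 ^ k = c.2 then (1 : ℝ) else 0) := by
        intro y _
        rw [Finset.card_image_of_injOn (hinj y k), ← Finset.sum_boole]
        refine Finset.sum_congr rfl fun c _ => if_congr ?_ rfl rfl
        exact eq_comm
      rw [Finset.sum_congr rfl h5, Finset.sum_comm]
      refine Finset.sum_congr rfl fun c _ => ?_
      rw [Finset.sum_boole]
    rw [h4]
    have h6 : ∑ c ∈ M k, ((B.filter (fun y => y / 2 ^ k = c.2)).card : ℝ) ≤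
        ∑ c ∈ M k, (2 : ℝ) ^ k := by
      refine Finset.sum_le_sum fun c _ => ?_
      exact_mod_cast zm_card_block B k c.2
    refine (mul_le_mul_of_nonneg_right h6 (by positivity)).trans (le_of_eq ?_)
    rw [Finset.sum_const, nsmul_eq_mul, mul_assoc, ← mul_pow]
    norm_num

private theorem zm_n2 (B : Finset ℤ) (s : ℤ) (m : ℕ) (S : Finset ℕ) (hS : S.card ≤ m)
    (M : ℕ → Finset (ℤ × ℤ))
    (hM : ∀ k ∈ S, ∀ k' ∈ S, ∀ p y : ℤ, (p / 2 ^ k, y / 2 ^ k) ∈ M k →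
      (p / 2 ^ k', y / 2 ^ k') ∈ M k' → k = k') (F : ℤ → ℤ → ℝ) (l : ℕ) :
    ∑ k ∈ S, ∑ c ∈ M k, n2 B s F k c.1 c.2 ≤
      (1 + 2 * l) * nzI B F + 2 * m ^ 2 / 2 ^ l * ∑ k ∈ S, ((M k).card : ℝ) * 4 ^ k := by
  classical
  have h1 := zm_n1 B s m S hS (fun k => (M k).image Prod.swap) (by
    intro k hk k' hk' p y hp hp'
    simp only [Finset.mem_image, Prod.exists, Prod.swap_prod_mk, Prod.mk.injEq] at hp hp'
    obtain ⟨a, b, hab, h1, h2⟩ := hp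
    obtain ⟨a', b', hab', h1', h2'⟩ := hp'
    rw [h1, h2] at hab
    rw [h1', h2'] at hab'
    exact hM k hk k' hk' y p hab hab') (fun y z => F z y) l
  rw [nzI_swap] at h1
  have h2 : ∀ k, Set.InjOn (Prod.swap : ℤ × ℤ → ℤ × ℤ) (M k : Set (ℤ × ℤ)) :=
    fun k => Prod.swap_injective.injOn
  have h3 : ∑ k ∈ S, ∑ c ∈ M k, n2 B s F k c.1 c.2 = ∑ k ∈ S, ∑ c ∈ (M k).image Prod.swap,
      n1 B s (fun y z => F z y) k c.1 c.2 := by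
    refine Finset.sum_congr rfl fun k _ => ?_
    rw [Finset.sum_image (h2 k)]
    refine Finset.sum_congr rfl fun c _ => ?_
    rw [n2_eq]
    rfl
  have h4 : ∑ k ∈ S, ((M k).card : ℝ) * 4 ^ k =
      ∑ k ∈ S, (((M k).image Prod.swap).card : ℝ) * 4 ^ k := by
    refine Finset.sum_congr rfl fun k _ => ?_
    rw [Finset.card_image_of_injOn (h2 k)]
  rw [h3, h4]
  exact h1

private theorem zm_light1 (B : Finset ℤ) (s : ℤ) (k : ℕ) (C : Finset (ℤ × ℤ)) (F : ℤ → ℤ → ℝ) :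
    ∑ c ∈ C, n1 B s F k c.1 c.2 ≤ 3 * nzI B F := by
  classical
  unfold n1 nzI
  rw [Finset.sum_comm, Finset.mul_sum]
  refine Finset.sum_le_sum fun y _ => ?_
  rw [Finset.sum_comm, Finset.mul_sum]
  refine Finset.sum_le_sum fun z _ => ?_
  by_cases hF : F y z ≠ 0
  · rw [if_pos hF, Finset.sum_boole]
    set t := (s - y - z) / 2 ^ k with ht
    set r := y / 2 ^ k with hr
    have h1 : C.filter (fun c => F y z ≠ 0 ∧ r = c.2 ∧ |t - c.1| ≤ 1) ⊆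
        ({(t - 1, r), (t, r), (t + 1, r)} : Finset (ℤ × ℤ)) := by
      intro c hc
      rw [Finset.mem_filter] at hc
      obtain ⟨_, _, h2, h3⟩ := hc
      rw [abs_le] at h3
      simp only [Finset.mem_insert, Finset.mem_singleton]
      have h4 : c.1 = t - 1 ∨ c.1 = t ∨ c.1 = t + 1 := by omega
      rcases h4 with h4 | h4 | h4
      · exact Or.inl (Prod.ext h4 h2.symm)
      · exact Or.inr (Or.inl (Prod.ext h4 h2.symm))
      · exact Or.inr (Or.inr (Prod.ext h4 h2.symm))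
    have h2 := (Finset.card_le_card h1).trans Finset.card_le_three
    rw [mul_one]
    exact_mod_cast h2
  · rw [if_neg hF, mul_zero]
    refine le_of_eq (Finset.sum_eq_zero fun c _ => ?_)
    rw [if_neg (fun h => hF h.1)]

private theorem zm_light2 (B : Finset ℤ) (s : ℤ) (k : ℕ) (C : Finset (ℤ × ℤ)) (F : ℤ → ℤ → ℝ) :
    ∑ c ∈ C, n2 B s F k c.1 c.2 ≤ 3 * nzI B F := by
  classical
  have h1 := zm_light1 B s k (C.image Prod.swap) (fun y z => F z y)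
  rw [nzI_swap, Finset.sum_image Prod.swap_injective.injOn] at h1
  refine le_trans (le_of_eq ?_) h1
  refine Finset.sum_congr rfl fun c _ => ?_
  rw [n2_eq]
  rfl

private theorem zm_light0 (B : Finset ℤ) (k : ℕ) (C : Finset (ℤ × ℤ)) (F : ℤ → ℤ → ℝ) :
    ∑ c ∈ C, n0 B F k c.1 c.2 ≤ nzI B F := by
  have h := zm_n0 B {k} (fun _ => C) (by
    intro a ha b hb _ _ _ _
    rw [Finset.mem_singleton] at ha hb
    rw [ha, hb]) F
  simpa using h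

/-- decomposition into maximal heavy cells and light cells. H k q r : the cell is heavy. -/
theorem maxDecomp (B : Finset ℤ) (s : ℤ) (m : ℕ) (S : Finset ℕ) (hm : 2 ≤ m) (hS : S.card ≤ m)
    (F₀ F₁ F₂ : ℤ → ℤ → ℝ) (θ₀ θ₁ θ₂ : ℝ) (h0 : 0 < θ₀) (h1 : 0 < θ₁) (h2 : 0 < θ₂)
    (hsum : θ₀ + θ₁ + θ₂ = 1) (τ A : ℝ) (hτ : 0 < τ) (hA : 0 ≤ A)
    (H : ℕ → ℤ → ℤ → Prop)
    (hheavy : ∀ k ∈ S, ∀ q r, H k q r → τ * 4 ^ k ≤ n0 B F₀ k q r ∧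
      ∑ k' ∈ S.filter (fun k' => k' ≤ k), |LamI B s k' (cutI k q r F₀) F₁ F₂| ≤
        A * (n0 B F₀ k q r ^ θ₀ * n1 B s F₁ k q r ^ θ₁ * n2 B s F₂ k q r ^ θ₂))
    (hlight : ∀ k ∈ S, ∀ q r, ¬ H k q r → |LamI B s k (cutI k q r F₀) F₁ F₂| ≤
      1 / m * (n0 B F₀ k q r ^ θ₀ * n1 B s F₁ k q r ^ θ₁ * n2 B s F₂ k q r ^ θ₂))
    (hN1 : nzI B F₀ ≤ nzI B F₁) (hN2 : nzI B F₀ ≤ nzI B F₂)
    (l : ℕ) (hl : 2 * (m : ℝ) ^ 2 ≤ τ * 2 ^ l) :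
    ∑ k ∈ S, |LamI B s k F₀ F₁ F₂| ≤
      (3 + A * (2 + 2 * l)) * (nzI B F₀ ^ θ₀ * nzI B F₁ ^ θ₁ * nzI B F₂ ^ θ₂) := by
  classical
  set N₀ := nzI B F₀ with hN₀
  set N₁ := nzI B F₁ with hN₁
  set N₂ := nzI B F₂ with hN₂
  have p0 : 0 ≤ N₀ := nzI_nonneg' B F₀
  have p1 : 0 ≤ N₁ := nzI_nonneg' B F₁
  have p2 : 0 ≤ N₂ := nzI_nonneg' B F₂
  have hm0 : (0 : ℝ) < m := by
    have : 0 < m := by omega
    exact_mod_cast this
  let M : ℕ → Finset (ℤ × ℤ) := fun k => zmC B k (zmP S H k)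
  let L : ℕ → Finset (ℤ × ℤ) := fun k => zmC B k (zmL S H k)
  have hMP : ∀ k x y, (x / 2 ^ k, y / 2 ^ k) ∈ M k → zmP S H k x y := by
    intro k x y h
    obtain ⟨x', _, y', _, h3, h4, h5⟩ := mem_zmC.1 h
    exact zmP_cell h4 h5 h3
  have hMdisj : ∀ k ∈ S, ∀ k' ∈ S, ∀ p y : ℤ, (p / 2 ^ k, y / 2 ^ k) ∈ M k →
      (p / 2 ^ k', y / 2 ^ k') ∈ M k' → k = k' := by
    intro k hk k' hk' p y h h'
    exact zmP_unique hk hk' (hMP k p y h) (hMP k' p y h')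
  have hMH : ∀ k, ∀ c ∈ M k, H k c.1 c.2 := by
    intro k c hc
    obtain ⟨x', _, y', _, h3, h4, h5⟩ := mem_zmC.1 hc
    rw [← h4, ← h5]
    exact h3.1
  have hLH : ∀ k ∈ S, ∀ c ∈ L k, ¬ H k c.1 c.2 := by
    intro k hk c hc
    obtain ⟨x', _, y', _, h3, h4, h5⟩ := mem_zmC.1 hc
    rw [← h4, ← h5]
    exact h3 k hk le_rfl
  -- heavy part: sums of the three counts
  have hn0 : ∑ k ∈ S, ∑ c ∈ M k, n0 B F₀ k c.1 c.2 ≤ N₀ := zm_n0 B S M hMdisj F₀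
  have hcard : τ * ∑ k ∈ S, ((M k).card : ℝ) * 4 ^ k ≤ N₀ := by
    refine le_trans ?_ hn0
    rw [Finset.mul_sum]
    refine Finset.sum_le_sum fun k hk => ?_
    have : ∑ c ∈ M k, τ * (4 : ℝ) ^ k ≤ ∑ c ∈ M k, n0 B F₀ k c.1 c.2 :=
      Finset.sum_le_sum fun c hc => (hheavy k hk c.1 c.2 (hMH k c hc)).1
    refine le_trans (le_of_eq ?_) this
    rw [Finset.sum_const, nsmul_eq_mul]
    ring
  have hl' : 2 * (m : ℝ) ^ 2 / 2 ^ l * ∑ k ∈ S, ((M k).card : ℝ) * 4 ^ k ≤ N₀ := by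
    refine le_trans ?_ hcard
    refine mul_le_mul_of_nonneg_right ?_ (Finset.sum_nonneg fun k _ => by positivity)
    rw [div_le_iff₀ (by positivity)]
    exact hl
  have hn1 : ∑ k ∈ S, ∑ c ∈ M k, n1 B s F₁ k c.1 c.2 ≤ (2 + 2 * l) * N₁ := by
    refine (zm_n1 B s m S hS M hMdisj F₁ l).trans ?_
    have : (1 + 2 * (l : ℝ)) * N₁ + N₀ ≤ (2 + 2 * l) * N₁ := by nlinarith
    exact (add_le_add le_rfl hl').trans this
  have hn2 : ∑ k ∈ S, ∑ c ∈ M k, n2 B s F₂ k c.1 c.2 ≤ (2 + 2 * l) * N₂ := by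
    refine (zm_n2 B s m S hS M hMdisj F₂ l).trans ?_
    have : (1 + 2 * (l : ℝ)) * N₂ + N₀ ≤ (2 + 2 * l) * N₂ := by nlinarith
    exact (add_le_add le_rfl hl').trans this
  -- heavy part
  have hheavyS : ∑ k' ∈ S, ∑ c ∈ M k', ∑ k ∈ S.filter (fun k => k ≤ k'),
      |LamI B s k (cutI k' c.1 c.2 F₀) F₁ F₂| ≤
      A * (2 + 2 * l) * (N₀ ^ θ₀ * N₁ ^ θ₁ * N₂ ^ θ₂) := by
    have e1 : ∑ k' ∈ S, ∑ c ∈ M k', ∑ k ∈ S.filter (fun k => k ≤ k'),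
        |LamI B s k (cutI k' c.1 c.2 F₀) F₁ F₂| ≤ ∑ k' ∈ S, ∑ c ∈ M k',
        A * (n0 B F₀ k' c.1 c.2 ^ θ₀ * n1 B s F₁ k' c.1 c.2 ^ θ₁ * n2 B s F₂ k' c.1 c.2 ^ θ₂) :=
      Finset.sum_le_sum fun k' hk' => Finset.sum_le_sum fun c hc =>
        (hheavy k' hk' c.1 c.2 (hMH k' c hc)).2
    refine e1.trans ?_
    have e2 := holder3 (S.sigma M) (fun i => n0 B F₀ i.1 i.2.1 i.2.2)
      (fun i => n1 B s F₁ i.1 i.2.1 i.2.2) (fun i => n2 B s F₂ i.1 i.2.1 i.2.2)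
      (fun i _ => n0_nonneg' _ _ _ _ _) (fun i _ => n1_nonneg' _ _ _ _ _ _)
      (fun i _ => n2_nonneg' _ _ _ _ _ _) θ₀ θ₁ θ₂ h0 h1 h2 hsum
    simp only [Finset.sum_sigma] at e2
    have e3 : ∑ k' ∈ S, ∑ c ∈ M k',
        A * (n0 B F₀ k' c.1 c.2 ^ θ₀ * n1 B s F₁ k' c.1 c.2 ^ θ₁ * n2 B s F₂ k' c.1 c.2 ^ θ₂) =
        A * ∑ k' ∈ S, ∑ c ∈ M k',
        (n0 B F₀ k' c.1 c.2 ^ θ₀ * n1 B s F₁ k' c.1 c.2 ^ θ₁ * n2 B s F₂ k' c.1 c.2 ^ θ₂) := by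
      rw [Finset.mul_sum]
      refine Finset.sum_congr rfl fun k' _ => ?_
      rw [Finset.mul_sum]
    rw [e3, mul_assoc]
    refine mul_le_mul_of_nonneg_left (e2.trans ?_) hA
    have hb : (0 : ℝ) ≤ 2 + 2 * l := by positivity
    have hb1 : (1 : ℝ) ≤ 2 + 2 * l := by
      have : (0 : ℝ) ≤ l := Nat.cast_nonneg l
      linarith
    have f0 : (∑ k ∈ S, ∑ c ∈ M k, n0 B F₀ k c.1 c.2) ^ θ₀ ≤ N₀ ^ θ₀ :=
      Real.rpow_le_rpow (Finset.sum_nonneg fun k _ => Finset.sum_nonneg fun c _ =>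
        n0_nonneg' _ _ _ _ _) hn0 h0.le
    have f1 : (∑ k ∈ S, ∑ c ∈ M k, n1 B s F₁ k c.1 c.2) ^ θ₁ ≤
        (2 + 2 * (l : ℝ)) ^ θ₁ * N₁ ^ θ₁ := by
      rw [← Real.mul_rpow hb p1]
      exact Real.rpow_le_rpow (Finset.sum_nonneg fun k _ => Finset.sum_nonneg fun c _ =>
        n1_nonneg' _ _ _ _ _ _) hn1 h1.le
    have f2 : (∑ k ∈ S, ∑ c ∈ M k, n2 B s F₂ k c.1 c.2) ^ θ₂ ≤
        (2 + 2 * (l : ℝ)) ^ θ₂ * N₂ ^ θ₂ := by
      rw [← Real.mul_rpow hb p2]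
      exact Real.rpow_le_rpow (Finset.sum_nonneg fun k _ => Finset.sum_nonneg fun c _ =>
        n2_nonneg' _ _ _ _ _ _) hn2 h2.le
    have f3 : (2 + 2 * (l : ℝ)) ^ θ₁ * (2 + 2 * (l : ℝ)) ^ θ₂ ≤ 2 + 2 * l := by
      rw [← Real.rpow_add (by linarith)]
      calc (2 + 2 * (l : ℝ)) ^ (θ₁ + θ₂) ≤ (2 + 2 * (l : ℝ)) ^ (1 : ℝ) :=
            Real.rpow_le_rpow_of_exponent_le hb1 (by linarith)
        _ = 2 + 2 * l := Real.rpow_one _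
    have g0 : 0 ≤ N₀ ^ θ₀ := Real.rpow_nonneg p0 _
    have g1 : 0 ≤ N₁ ^ θ₁ := Real.rpow_nonneg p1 _
    have g2 : 0 ≤ N₂ ^ θ₂ := Real.rpow_nonneg p2 _
    have k1 : 0 ≤ (2 + 2 * (l : ℝ)) ^ θ₁ := Real.rpow_nonneg hb _
    have k2 : 0 ≤ (2 + 2 * (l : ℝ)) ^ θ₂ := Real.rpow_nonneg hb _
    have s1 : 0 ≤ (∑ k ∈ S, ∑ c ∈ M k, n1 B s F₁ k c.1 c.2) ^ θ₁ :=
      Real.rpow_nonneg (Finset.sum_nonneg fun k _ => Finset.sum_nonneg fun c _ =>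
        n1_nonneg' _ _ _ _ _ _) _
    have s2 : 0 ≤ (∑ k ∈ S, ∑ c ∈ M k, n2 B s F₂ k c.1 c.2) ^ θ₂ :=
      Real.rpow_nonneg (Finset.sum_nonneg fun k _ => Finset.sum_nonneg fun c _ =>
        n2_nonneg' _ _ _ _ _ _) _
    calc _ ≤ N₀ ^ θ₀ * ((2 + 2 * (l : ℝ)) ^ θ₁ * N₁ ^ θ₁) * ((2 + 2 * (l : ℝ)) ^ θ₂ * N₂ ^ θ₂) := by
            refine mul_le_mul (mul_le_mul f0 f1 s1 g0) f2 s2 (by positivity)
      _ = ((2 + 2 * (l : ℝ)) ^ θ₁ * (2 + 2 * (l : ℝ)) ^ θ₂) * (N₀ ^ θ₀ * N₁ ^ θ₁ * N₂ ^ θ₂) := by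
            ring
      _ ≤ (2 + 2 * l) * (N₀ ^ θ₀ * N₁ ^ θ₁ * N₂ ^ θ₂) :=
            mul_le_mul_of_nonneg_right f3 (by positivity)
  -- light part
  have hlightS : ∑ k ∈ S, ∑ c ∈ L k, |LamI B s k (cutI k c.1 c.2 F₀) F₁ F₂| ≤
      3 * (N₀ ^ θ₀ * N₁ ^ θ₁ * N₂ ^ θ₂) := by
    have e1 : ∀ k ∈ S, ∑ c ∈ L k, |LamI B s k (cutI k c.1 c.2 F₀) F₁ F₂| ≤
        1 / m * (3 * (N₀ ^ θ₀ * N₁ ^ θ₁ * N₂ ^ θ₂)) := by
      intro k hk
      have e2 : ∑ c ∈ L k, |LamI B s k (cutI k c.1 c.2 F₀) F₁ F₂| ≤ ∑ c ∈ L k,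
          1 / m * (n0 B F₀ k c.1 c.2 ^ θ₀ * n1 B s F₁ k c.1 c.2 ^ θ₁ * n2 B s F₂ k c.1 c.2 ^ θ₂) :=
        Finset.sum_le_sum fun c hc => hlight k hk c.1 c.2 (hLH k hk c hc)
      refine e2.trans ?_
      rw [← Finset.mul_sum]
      refine mul_le_mul_of_nonneg_left ?_ (by positivity)
      have e3 := holder3 (L k) (fun i => n0 B F₀ k i.1 i.2)
        (fun i => n1 B s F₁ k i.1 i.2) (fun i => n2 B s F₂ k i.1 i.2)
        (fun i _ => n0_nonneg' _ _ _ _ _) (fun i _ => n1_nonneg' _ _ _ _ _ _)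
        (fun i _ => n2_nonneg' _ _ _ _ _ _) θ₀ θ₁ θ₂ h0 h1 h2 hsum
      refine e3.trans ?_
      have g0 : 0 ≤ N₀ ^ θ₀ := Real.rpow_nonneg p0 _
      have g1 : 0 ≤ N₁ ^ θ₁ := Real.rpow_nonneg p1 _
      have g2 : 0 ≤ N₂ ^ θ₂ := Real.rpow_nonneg p2 _
      have f0 : (∑ c ∈ L k, n0 B F₀ k c.1 c.2) ^ θ₀ ≤ N₀ ^ θ₀ :=
        Real.rpow_le_rpow (Finset.sum_nonneg fun c _ => n0_nonneg' _ _ _ _ _)
          (zm_light0 B k (L k) F₀) h0.le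
      have f1 : (∑ c ∈ L k, n1 B s F₁ k c.1 c.2) ^ θ₁ ≤ 3 ^ θ₁ * N₁ ^ θ₁ := by
        rw [← Real.mul_rpow (by norm_num) p1]
        exact Real.rpow_le_rpow (Finset.sum_nonneg fun c _ => n1_nonneg' _ _ _ _ _ _)
          (zm_light1 B s k (L k) F₁) h1.le
      have f2 : (∑ c ∈ L k, n2 B s F₂ k c.1 c.2) ^ θ₂ ≤ 3 ^ θ₂ * N₂ ^ θ₂ := by
        rw [← Real.mul_rpow (by norm_num) p2]
        exact Real.rpow_le_rpow (Finset.sum_nonneg fun c _ => n2_nonneg' _ _ _ _ _ _)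
          (zm_light2 B s k (L k) F₂) h2.le
      have f3 : (3 : ℝ) ^ θ₁ * (3 : ℝ) ^ θ₂ ≤ 3 := by
        rw [← Real.rpow_add (by norm_num)]
        calc (3 : ℝ) ^ (θ₁ + θ₂) ≤ (3 : ℝ) ^ (1 : ℝ) :=
              Real.rpow_le_rpow_of_exponent_le (by norm_num) (by linarith)
          _ = 3 := Real.rpow_one _
      have k1 : (0 : ℝ) ≤ 3 ^ θ₁ := Real.rpow_nonneg (by norm_num) _
      have k2 : (0 : ℝ) ≤ 3 ^ θ₂ := Real.rpow_nonneg (by norm_num) _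
      have s1 : 0 ≤ (∑ c ∈ L k, n1 B s F₁ k c.1 c.2) ^ θ₁ :=
        Real.rpow_nonneg (Finset.sum_nonneg fun c _ => n1_nonneg' _ _ _ _ _ _) _
      have s2 : 0 ≤ (∑ c ∈ L k, n2 B s F₂ k c.1 c.2) ^ θ₂ :=
        Real.rpow_nonneg (Finset.sum_nonneg fun c _ => n2_nonneg' _ _ _ _ _ _) _
      calc _ ≤ N₀ ^ θ₀ * (3 ^ θ₁ * N₁ ^ θ₁) * (3 ^ θ₂ * N₂ ^ θ₂) := by
              refine mul_le_mul (mul_le_mul f0 f1 s1 g0) f2 s2 (by positivity)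
        _ = (3 ^ θ₁ * 3 ^ θ₂) * (N₀ ^ θ₀ * N₁ ^ θ₁ * N₂ ^ θ₂) := by ring
        _ ≤ 3 * (N₀ ^ θ₀ * N₁ ^ θ₁ * N₂ ^ θ₂) := mul_le_mul_of_nonneg_right f3 (by positivity)
    refine (Finset.sum_le_sum e1).trans ?_
    rw [Finset.sum_const, nsmul_eq_mul, ← mul_assoc]
    have g0 : 0 ≤ N₀ ^ θ₀ := Real.rpow_nonneg p0 _
    have g1 : 0 ≤ N₁ ^ θ₁ := Real.rpow_nonneg p1 _
    have g2 : 0 ≤ N₂ ^ θ₂ := Real.rpow_nonneg p2 _
    have e4 : (S.card : ℝ) * (1 / m) ≤ 1 := by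
      rw [mul_one_div, div_le_one hm0]
      exact_mod_cast hS
    have e5 : 0 ≤ 3 * (N₀ ^ θ₀ * N₁ ^ θ₁ * N₂ ^ θ₂) := by positivity
    calc _ ≤ 1 * (3 * (N₀ ^ θ₀ * N₁ ^ θ₁ * N₂ ^ θ₂)) := mul_le_mul_of_nonneg_right e4 e5
      _ = _ := one_mul _
  -- assemble
  have e1 : ∑ k ∈ S, |LamI B s k F₀ F₁ F₂| ≤ ∑ k ∈ S, (∑ k' ∈ S.filter (fun k' => k ≤ k'),
      ∑ c ∈ M k', |LamI B s k (cutI k' c.1 c.2 F₀) F₁ F₂| +
      ∑ c ∈ L k, |LamI B s k (cutI k c.1 c.2 F₀) F₁ F₂|) :=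
    Finset.sum_le_sum fun k _ => zm_lam B s S H k F₀ F₁ F₂
  refine e1.trans ?_
  rw [Finset.sum_add_distrib]
  have e2 : ∑ k ∈ S, ∑ k' ∈ S.filter (fun k' => k ≤ k'),
      ∑ c ∈ M k', |LamI B s k (cutI k' c.1 c.2 F₀) F₁ F₂| =
      ∑ k' ∈ S, ∑ c ∈ M k', ∑ k ∈ S.filter (fun k => k ≤ k'),
      |LamI B s k (cutI k' c.1 c.2 F₀) F₁ F₂| := by
    rw [Finset.sum_comm' (t' := S) (s' := fun k' => S.filter (fun k => k ≤ k'))]
    · exact Finset.sum_congr rfl fun k' _ => Finset.sum_comm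
    · intro x y
      simp only [Finset.mem_filter]
      tauto
  rw [e2, add_mul]
  linarith

end Vale.Agent.P075
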