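import Vale.Agent.P075.ZLoc
import Vale.Agent.P075.ZMax
import Vale.Agent.P075.ZCells

namespace Vale.Agent.P075

open Finset

private theorem nzI_nonneg' (B : Finset ℤ) (F : ℤ → ℤ → ℝ) : 0 ≤ nzI B F := by
  unfold nzI
  exact Finset.sum_nonneg fun x _ => Finset.sum_nonneg fun y _ => by split_ifs <;> norm_num

private theorem n0_nonneg' (B : Finset ℤ) (F : ℤ → ℤ → ℝ) (k : ℕ) (q r : ℤ) :
    0 ≤ n0 B F k q r := by
  unfold n0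
  exact Finset.sum_nonneg fun x _ => Finset.sum_nonneg fun y _ => by split_ifs <;> norm_num

private theorem n1_nonneg' (B : Finset ℤ) (s : ℤ) (F : ℤ → ℤ → ℝ) (k : ℕ) (q r : ℤ) :
    0 ≤ n1 B s F k q r := by
  unfold n1
  exact Finset.sum_nonneg fun x _ => Finset.sum_nonneg fun y _ => by split_ifs <;> norm_num

private theorem n2_nonneg' (B : Finset ℤ) (s : ℤ) (F : ℤ → ℤ → ℝ) (k : ℕ) (q r : ℤ) :
    0 ≤ n2 B s F k q r := by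
  unfold n2
  exact Finset.sum_nonneg fun x _ => Finset.sum_nonneg fun y _ => by split_ifs <;> norm_num

/-- the choice of the number of doublings -/
private theorem zh_l (m : ℕ) (hm : 2 ≤ m) : ∃ l : ℕ, 2 * (m : ℝ) ^ 2 ≤ (1 / (m : ℝ) ^ 24) * 2 ^ l ∧
    (l : ℝ) ≤ 66 * (1 + Real.log m) := by
  refine ⟨1 + 26 * Nat.clog 2 m, ?_, ?_⟩
  · have hm0 : (0 : ℝ) < m := by exact_mod_cast (by omega : 0 < m)
    have h1 : m ≤ 2 ^ Nat.clog 2 m := Nat.le_pow_clog (by norm_num) m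
    have h2 : (m : ℝ) ≤ 2 ^ Nat.clog 2 m := by exact_mod_cast h1
    rw [div_mul_eq_mul_div, one_mul, le_div_iff₀ (by positivity)]
    calc 2 * (m : ℝ) ^ 2 * (m : ℝ) ^ 24 = 2 * (m : ℝ) ^ 26 := by ring
      _ ≤ 2 * (2 ^ Nat.clog 2 m) ^ 26 := by gcongr
      _ = 2 ^ (1 + 26 * Nat.clog 2 m) := by
          rw [pow_add, pow_one, mul_comm 26, pow_mul]
  · have h1 : Nat.clog 2 m ≤ 1 + Nat.log 2 m := by
      have hlt : m < 2 ^ (Nat.log 2 m + 1) := Nat.lt_pow_succ_log_self (by norm_num) m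
      have := Nat.clog_le_of_le_pow (b := 2) hlt.le
      omega
    have h2 : (Nat.log 2 m : ℝ) ≤ Real.log m / Real.log 2 := by
      have := Real.natLog_le_logb m 2
      rwa [Real.logb] at this
    have h3 : (1 : ℝ) / 2 < Real.log 2 := by
      have := Real.log_two_gt_d9
      linarith
    have hlog : 0 ≤ Real.log m := Real.log_natCast_nonneg m
    have h4 : Real.log m / Real.log 2 ≤ 2 * Real.log m := by
      rw [div_le_iff₀ (by linarith)]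
      nlinarith
    have h5 : (Nat.clog 2 m : ℝ) ≤ 1 + Nat.log 2 m := by exact_mod_cast h1
    push_cast
    nlinarith

private theorem zh_light (m k : ℕ) (hm : 2 ≤ m) {a b c θ₀ θ₁ θ₂ : ℝ} (ha : 0 ≤ a) (hb : 0 ≤ b)
    (hc : 0 ≤ c) (ha' : a ≤ 3 * 4 ^ k) (hb' : b ≤ 3 * 4 ^ k) (hc' : c ≤ 3 * 4 ^ k)
    (h0 : 0 ≤ θ₀) (h1 : 0 ≤ θ₁) (h2 : 0 ≤ θ₂) (h0' : θ₀ ≤ 5 / 12) (h1' : θ₁ ≤ 5 / 12)
    (h2' : θ₂ ≤ 5 / 12) (hsum : θ₀ + θ₁ + θ₂ = 1)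
    (hl : a ≤ 1 / (m : ℝ) ^ 24 * 4 ^ k ∨ b ≤ 1 / (m : ℝ) ^ 24 * 4 ^ k ∨
      c ≤ 1 / (m : ℝ) ^ 24 * 4 ^ k) :
    1 / 2 ^ k * Real.sqrt (a * b * c) ≤ 1 / m * (a ^ θ₀ * b ^ θ₁ * c ^ θ₂) := by
  have hm0 : (0 : ℝ) < m := by exact_mod_cast (by omega : 0 < m)
  have hm2 : (2 : ℝ) ≤ m := by exact_mod_cast hm
  have hτ : (0 : ℝ) < 1 / (m : ℝ) ^ 24 := by positivity
  have hτ1 : 1 / (m : ℝ) ^ 24 ≤ 1 := by
    rw [div_le_one (by positivity)]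
    exact one_le_pow₀ (by linarith)
  have key := light_numI k ha hb hc ha' hb' hc' h0 h1 h2 h0' h1' h2' hsum hτ hτ1 hl
  refine key.trans (mul_le_mul_of_nonneg_right ?_ (by positivity))
  have e : (1 / (m : ℝ) ^ 24) ^ ((1 : ℝ) / 12) = 1 / (m : ℝ) ^ 2 := by
    have e1 : 1 / (m : ℝ) ^ 24 = (1 / (m : ℝ) ^ 2) ^ (12 : ℕ) := by
      rw [one_div_pow, ← pow_mul]
    rw [e1, ← Real.rpow_natCast, ← Real.rpow_mul (by positivity)]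
    norm_num
  rw [e, mul_one_div, div_le_div_iff₀ (by positivity) hm0, one_mul, pow_two]
  exact mul_le_mul_of_nonneg_right hm2 hm0.le

private theorem zh_core (θ₀ θ₁ θ₂ : ℝ) (h0 : 0 < θ₀) (h1 : 0 < θ₁) (h2 : 0 < θ₂)
    (h0' : θ₀ ≤ 5 / 12) (h1' : θ₁ ≤ 5 / 12) (h2' : θ₂ ≤ 5 / 12) (hsum : θ₀ + θ₁ + θ₂ = 1) :
    ∃ C : ℝ, 0 < C ∧ ∀ (B : Finset ℤ) (s : ℤ) (m : ℕ) (S : Finset ℕ), 2 ≤ m →
    S.card ≤ m → (∀ k ∈ S, 2 ≤ k) → ∀ F₀ F₁ F₂ : ℤ → ℤ → ℝ,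
    (∀ x y, |F₀ x y| ≤ 1) → (∀ x y, |F₁ x y| ≤ 1) → (∀ x y, |F₂ x y| ≤ 1) →
    nzI B F₀ ≤ nzI B F₁ → nzI B F₀ ≤ nzI B F₂ →
    ∑ k ∈ S, |LamI B s k F₀ F₁ F₂| ≤
      C * (1 + Real.log m) ^ 6 * (nzI B F₀ ^ θ₀ * nzI B F₁ ^ θ₁ * nzI B F₂ ^ θ₂) := by
  obtain ⟨C, hC, hloc⟩ := local_cell 24
  refine ⟨3 + 268 * C, by positivity, ?_⟩
  intro B s m S hm hcard hS F₀ F₁ F₂ b₀ b₁ b₂ hN1 hN2
  have hm0 : (0 : ℝ) < m := by exact_mod_cast (by omega : 0 < m)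
  have hlog : 0 ≤ Real.log m := Real.log_natCast_nonneg m
  set L : ℝ := 1 + Real.log m with hL
  have hL1 : 1 ≤ L := by linarith
  obtain ⟨l, hl1, hl2⟩ := zh_l m hm
  have hτ : (0 : ℝ) < 1 / (m : ℝ) ^ 24 := by positivity
  have hA : 0 ≤ 2 * (C * L ^ 5) := by positivity
  have key := maxDecomp B s m S hm hcard F₀ F₁ F₂ θ₀ θ₁ θ₂ h0 h1 h2 hsum
    (1 / (m : ℝ) ^ 24) (2 * (C * L ^ 5)) hτ hA
    (fun k q r => 1 / (m : ℝ) ^ 24 * 4 ^ k < n0 B F₀ k q r ∧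
      1 / (m : ℝ) ^ 24 * 4 ^ k < n1 B s F₁ k q r ∧
      1 / (m : ℝ) ^ 24 * 4 ^ k < n2 B s F₂ k q r)
    ?_ ?_ hN1 hN2 l hl1
  · refine key.trans (mul_le_mul_of_nonneg_right ?_ ?_)
    · have hL6 : 1 ≤ L ^ 6 := one_le_pow₀ hL1
      have hL5 : 0 ≤ L ^ 5 := by positivity
      have h3 : 2 + 2 * (l : ℝ) ≤ 134 * L := by
        have : (l : ℝ) ≤ 66 * L := hl2
        linarith
      calc 3 + 2 * (C * L ^ 5) * (2 + 2 * (l : ℝ))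
          ≤ 3 * L ^ 6 + 2 * (C * L ^ 5) * (134 * L) := by
            have := mul_le_mul_of_nonneg_left h3 hA
            linarith
        _ = (3 + 268 * C) * L ^ 6 := by ring
    · have := nzI_nonneg' B F₀
      have := nzI_nonneg' B F₁
      have := nzI_nonneg' B F₂
      positivity
  · intro k hk q r hH
    obtain ⟨g0, g1, g2⟩ := hH
    refine ⟨g0.le, ?_⟩
    have hl := hloc B s m S hm hcard hS F₀ F₁ F₂ b₀ b₁ b₂ k q r (hS k hk)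
    refine hl.trans ?_
    have hnum := heavy_numI (a := n0 B F₀ k q r) (b := n1 B s F₁ k q r) (c := n2 B s F₂ k q r)
      (τ := 1 / (m : ℝ) ^ 24 * 4 ^ k) g0.le g1.le g2.le (by positivity) h0.le h1.le h2.le
      h0' h1' h2' hsum
    have e : 4 ^ k / (m : ℝ) ^ 24 = 1 / (m : ℝ) ^ 24 * 4 ^ k := by ring
    rw [e]
    calc C * L ^ 5 * (min (Real.sqrt (n0 B F₀ k q r * n1 B s F₁ k q r))
          (min (Real.sqrt (n1 B s F₁ k q r * n2 B s F₂ k q r))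
            (Real.sqrt (n0 B F₀ k q r * n2 B s F₂ k q r))) + 1 / (m : ℝ) ^ 24 * 4 ^ k)
        ≤ C * L ^ 5 * (2 * (n0 B F₀ k q r ^ θ₀ * n1 B s F₁ k q r ^ θ₁ *
            n2 B s F₂ k q r ^ θ₂)) := mul_le_mul_of_nonneg_left hnum (by positivity)
      _ = _ := by ring
  · intro k hk q r hH
    have hl : n0 B F₀ k q r ≤ 1 / (m : ℝ) ^ 24 * 4 ^ k ∨
        n1 B s F₁ k q r ≤ 1 / (m : ℝ) ^ 24 * 4 ^ k ∨
        n2 B s F₂ k q r ≤ 1 / (m : ℝ) ^ 24 * 4 ^ k := by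
      by_contra hcon
      rw [not_or, not_or, not_le, not_le, not_le] at hcon
      exact hH hcon
    refine (single_cell B s k q r F₀ F₁ F₂ b₀ b₁ b₂).trans ?_
    have hn0 : n0 B F₀ k q r ≤ 3 * 4 ^ k := by
      have := n0_le B F₀ k q r
      have h4 : (0 : ℝ) ≤ 4 ^ k := by positivity
      linarith
    exact zh_light m k hm (n0_nonneg' B F₀ k q r) (n1_nonneg' B s F₁ k q r)
      (n2_nonneg' B s F₂ k q r) hn0 (n1_le B s F₁ k q r) (n2_le B s F₂ k q r)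
      h0.le h1.le h2.le h0' h1' h2' hsum hl

theorem restrictedI : ∃ C : ℝ, 0 < C ∧ ∀ (B : Finset ℤ) (s : ℤ) (m : ℕ) (S : Finset ℕ), 2 ≤ m →
    S.card ≤ m → (∀ k ∈ S, 2 ≤ k) → ∀ F₀ F₁ F₂ : ℤ → ℤ → ℝ,
    (∀ x y, |F₀ x y| ≤ 1) → (∀ x y, |F₁ x y| ≤ 1) → (∀ x y, |F₂ x y| ≤ 1) →
    ∑ k ∈ S, |LamI B s k F₀ F₁ F₂| ≤
      C * (1 + Real.log m) ^ 6 *
        ((nzI B F₀ * nzI B F₂) ^ ((5 : ℝ) / 12) * (nzI B F₁) ^ ((1 : ℝ) / 6)) := by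
  obtain ⟨C₀, hC₀, H₀⟩ := zh_core (5 / 12) (1 / 6) (5 / 12) (by norm_num) (by norm_num)
    (by norm_num) (by norm_num) (by norm_num) (by norm_num) (by norm_num)
  obtain ⟨C₁, hC₁, H₁⟩ := zh_core (1 / 6) (5 / 12) (5 / 12) (by norm_num) (by norm_num)
    (by norm_num) (by norm_num) (by norm_num) (by norm_num) (by norm_num)
  obtain ⟨C₂, hC₂, H₂⟩ := zh_core (5 / 12) (5 / 12) (1 / 6) (by norm_num) (by norm_num)
    (by norm_num) (by norm_num) (by norm_num) (by norm_num) (by norm_num)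
  refine ⟨C₀ + C₁ + C₂, by positivity, ?_⟩
  intro B s m S hm hcard hS F₀ F₁ F₂ b₀ b₁ b₂
  have n0' := nzI_nonneg' B F₀
  have n1' := nzI_nonneg' B F₁
  have n2' := nzI_nonneg' B F₂
  have hlog : 0 ≤ Real.log m := Real.log_natCast_nonneg m
  rw [Real.mul_rpow n0' n2']
  set L : ℝ := 1 + Real.log m with hL
  set R : ℝ := nzI B F₀ ^ ((5 : ℝ) / 12) * nzI B F₂ ^ ((5 : ℝ) / 12) *
    nzI B F₁ ^ ((1 : ℝ) / 6) with hR
  have hR0 : 0 ≤ R := by positivity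
  have hL6 : 0 ≤ L ^ 6 * R := by positivity
  by_cases c0 : nzI B F₀ ≤ nzI B F₁ ∧ nzI B F₀ ≤ nzI B F₂
  · refine (H₀ B s m S hm hcard hS F₀ F₁ F₂ b₀ b₁ b₂ c0.1 c0.2).trans ?_
    calc C₀ * L ^ 6 * (nzI B F₀ ^ ((5 : ℝ) / 12) * nzI B F₁ ^ ((1 : ℝ) / 6) *
          nzI B F₂ ^ ((5 : ℝ) / 12)) = C₀ * (L ^ 6 * R) := by rw [hR]; ring
      _ ≤ (C₀ + C₁ + C₂) * (L ^ 6 * R) := mul_le_mul_of_nonneg_right (by linarith) hL6
      _ = _ := by ring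
  by_cases c1 : nzI B F₁ ≤ nzI B F₂ ∧ nzI B F₁ ≤ nzI B F₀
  · have e : ∑ k ∈ S, |LamI B s k F₀ F₁ F₂| = ∑ k ∈ S, |LamI B s k F₁ F₂ F₀| :=
      Finset.sum_congr rfl fun k _ => by rw [LamI_cyc]
    rw [e]
    refine (H₁ B s m S hm hcard hS F₁ F₂ F₀ b₁ b₂ b₀ c1.1 c1.2).trans ?_
    calc C₁ * L ^ 6 * (nzI B F₁ ^ ((1 : ℝ) / 6) * nzI B F₂ ^ ((5 : ℝ) / 12) *
          nzI B F₀ ^ ((5 : ℝ) / 12)) = C₁ * (L ^ 6 * R) := by rw [hR]; ring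
      _ ≤ (C₀ + C₁ + C₂) * (L ^ 6 * R) := mul_le_mul_of_nonneg_right (by linarith) hL6
      _ = _ := by ring
  · have c2 : nzI B F₂ ≤ nzI B F₀ ∧ nzI B F₂ ≤ nzI B F₁ := by
      rcases le_total (nzI B F₀) (nzI B F₁) with h | h
      · have h3 : ¬ nzI B F₀ ≤ nzI B F₂ := fun h' => c0 ⟨h, h'⟩
        have h4 : nzI B F₂ ≤ nzI B F₀ := (not_le.1 h3).le
        exact ⟨h4, h4.trans h⟩
      · have h3 : ¬ nzI B F₁ ≤ nzI B F₂ := fun h' => c1 ⟨h', h⟩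
        have h4 : nzI B F₂ ≤ nzI B F₁ := (not_le.1 h3).le
        exact ⟨h4.trans h, h4⟩
    have e : ∑ k ∈ S, |LamI B s k F₀ F₁ F₂| = ∑ k ∈ S, |LamI B s k F₂ F₀ F₁| :=
      Finset.sum_congr rfl fun k _ => by rw [LamI_cyc, LamI_cyc]
    rw [e]
    refine (H₂ B s m S hm hcard hS F₂ F₀ F₁ b₂ b₀ b₁ c2.1 c2.2).trans ?_
    calc C₂ * L ^ 6 * (nzI B F₂ ^ ((5 : ℝ) / 12) * nzI B F₀ ^ ((5 : ℝ) / 12) *
          nzI B F₁ ^ ((1 : ℝ) / 6)) = C₂ * (L ^ 6 * R) := by rw [hR]; ring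
      _ ≤ (C₀ + C₁ + C₂) * (L ^ 6 * R) := mul_le_mul_of_nonneg_right (by linarith) hL6
      _ = _ := by ring

end Vale.Agent.P075
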