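import Vale.Agent.P075.ZLemmaUAux

namespace Vale.Agent.P075

open Finset Matrix

theorem ZLemmaU_exists_und {n c : ℕ} (hc : c < 2 ^ n) : ∃ u : G n, und u = c := by
  by_contra hne
  push Not at hne
  have h := sum_und (N := n) (fun a => if a = c then (1 : ℝ) else 0)
  rw [Finset.sum_ite_eq' (Finset.range (2 ^ n)) c, if_pos (Finset.mem_range.2 hc)] at h
  rw [Finset.sum_eq_zero (fun x _ => if_neg (hne x))] at h
  exact zero_ne_one h

noncomputable def ZLemmaU_unr (n : ℕ) (c : ℤ) : G n := Function.invFun und c.toNat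

theorem ZLemmaU_und_unr {n : ℕ} {c : ℤ} (h0 : 0 ≤ c) (hc : c < 2 ^ n) :
    (und (ZLemmaU_unr n c) : ℤ) = c := by
  have h1 : c.toNat < 2 ^ n := by
    rw [Int.toNat_lt h0]
    exact_mod_cast hc
  have h2 : und (ZLemmaU_unr n c) = c.toNat := Function.invFun_eq (ZLemmaU_exists_und h1)
  rw [h2]
  omega

noncomputable def ZLemmaU_D {N : ℕ} (s : ℤ) (F : G N → G N → ℝ) (v : ℤ) :
    Matrix (G N) (G N) ℝ :=
  Matrix.of fun y z => if v = s - und y - und z then F y z else 0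

theorem ZLemmaU_D_trace {N : ℕ} (s : ℤ) (k : ℕ) (F : G N → G N → ℝ) (hF : ∀ y z, |F y z| ≤ 1)
    {Φ : Matrix (G N) (G N) ℝ} (hΦ : Φ.PosSemidef) (hΦ1 : (1 - Φ).PosSemidef) (v : ℤ) :
    trace (((ZLemmaU_D s F v)ᵀ * Φ * ZLemmaU_D s F v) ^ (2 ^ k)) ≤ trace Φ := by
  have hne : ∀ y z, ZLemmaU_D s F v y z ≠ 0 → v = s - und y - und z := by
    intro y z h
    by_contra h2
    exact h (by rw [ZLemmaU_D, of_apply, if_neg h2])
  refine ZLemmaU_pp_trace k ?_ ?_ ?_ hΦ hΦ1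
  · intro y y' z h h'
    have h1 := hne _ _ h
    have h2 := hne _ _ h'
    apply und_injective
    omega
  · intro y z z' h h'
    have h1 := hne _ _ h
    have h2 := hne _ _ h'
    apply und_injective
    omega
  · intro y z
    rw [ZLemmaU_D, of_apply]
    split_ifs
    · exact hF y z
    · simp

noncomputable def ZLemmaU_c (n : ℕ) (σ' : ℕ → ℝ) (p v a : ℤ) : ℝ :=
  ∑ i ∈ range (n - 1), σ' i * ((∑ m ∈ range (2 ^ i), gZ (n - i) (p - (a + m * 2 ^ (n - i))) *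
    hZ (n - i) (v - (a + m * 2 ^ (n - i)))) / 2 ^ (n - i))

theorem ZLemmaU_c_out {n : ℕ} {σ' : ℕ → ℝ} {p v a : ℤ} (h : ¬ (a ≤ v ∧ v < a + 2 ^ n)) :
    ZLemmaU_c n σ' p v a = 0 := by
  refine Finset.sum_eq_zero fun i hi => ?_
  rw [Finset.mem_range] at hi
  rw [Finset.sum_eq_zero, zero_div, mul_zero]
  intro m hm
  rw [Finset.mem_range] at hm
  rw [hZ_support, mul_zero]
  rintro ⟨h1, h2⟩
  apply h
  have h3 : (2 : ℤ) ^ n = 2 ^ i * 2 ^ (n - i) := by
    rw [← pow_add]; congr 1; omega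
  have h4 : (m : ℤ) + 1 ≤ 2 ^ i := by exact_mod_cast hm
  have h5 : (0 : ℤ) < 2 ^ (n - i) := by positivity
  have h6 : 0 ≤ (m : ℤ) * 2 ^ (n - i) := by positivity
  have h7 := mul_le_mul_of_nonneg_right h4 h5.le
  constructor
  · linarith
  · rw [h3]; linarith

theorem ZLemmaU_Sha {N n : ℕ} (s : ℤ) (σ' : ℕ → ℝ) (F : G N → G N → ℝ)
    (Θ : Matrix (G N) (G N) ℝ) (a : ℤ) (u : G n) :
    Sha σ' (fun w : G n => Θ * ZLemmaU_D s F (a + und w)) u =
      Θ * Matrix.of fun y z => F y z * ZLemmaU_c n σ' (a + und u) (s - und y - und z) a := by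
  have hcoef : ∀ w : G n, ∑ i ∈ range (n - 1), σ' i * sg (i + 1) u * kj i (u + w) =
      ZLemmaU_c n σ' (a + und u) (a + und w) a := by
    intro w
    refine Finset.sum_congr rfl fun i hi => ?_
    rw [Finset.mem_range] at hi
    rw [mul_assoc, ZLemmaU_pattern (by omega) u w]
    have e1 : ∀ (c : ℤ) (m : ℕ), a + c - (a + m * 2 ^ (n - i)) = c - m * 2 ^ (n - i) := by
      intro c m; ring
    simp only [e1]
  unfold Sha
  simp only [hcoef]
  rw [Finset.sum_congr rfl fun w _ => (Matrix.mul_smul Θ (ZLemmaU_c n σ' (a + und u) (a + und w) a)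
    (ZLemmaU_D s F (a + und w))).symm, ← Matrix.mul_sum]
  congr 1
  ext y z
  rw [Matrix.sum_apply, of_apply]
  by_cases h : a ≤ s - und y - und z ∧ s - und y - und z < a + 2 ^ n
  · have h1 : (und (ZLemmaU_unr n (s - und y - und z - a)) : ℤ) = s - und y - und z - a :=
      ZLemmaU_und_unr (by linarith [h.1]) (by linarith [h.2])
    rw [Finset.sum_eq_single (ZLemmaU_unr n (s - und y - und z - a))]
    · rw [Matrix.smul_apply, ZLemmaU_D, of_apply, h1, if_pos (by ring), smul_eq_mul, mul_comm]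
      congr 2
      ring
    · intro w _ hw
      rw [Matrix.smul_apply, ZLemmaU_D, of_apply, if_neg, smul_zero]
      intro h2
      apply hw
      apply und_injective
      omega
    · intro h2
      exact absurd (Finset.mem_univ _) h2
  · rw [ZLemmaU_c_out h, mul_zero]
    refine Finset.sum_eq_zero fun w _ => ?_
    rw [Matrix.smul_apply, ZLemmaU_D, of_apply, if_neg, smul_zero]
    intro h2
    apply h
    have h3 : (und w : ℤ) < 2 ^ n := by exact_mod_cast und_lt w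
    have h4 : (0 : ℤ) ≤ und w := by positivity
    constructor <;> linarith

theorem ZLemmaU_avg {J : ℕ} (τ : ℕ → ℝ) (p v A : ℤ) (h1 : A + 2 ^ J ≤ p)
    (h2 : p < A + 2 * 2 ^ J) :
    ∑ ω ∈ range (2 ^ J), ZLemmaU_c (J + 2) (fun i => if 2 ≤ i then τ (i - 2) else 0) p v (A - ω) =
      2 ^ J * ∑ t ∈ range (J - 1), τ t * rhoZ (J - t) (p - v) := by
  unfold ZLemmaU_c
  rw [Finset.sum_comm]
  have key : ∀ i ∈ range (J + 2 - 1), ∑ ω ∈ range (2 ^ J),
      (if 2 ≤ i then τ (i - 2) else 0) * ((∑ m ∈ range (2 ^ i),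
        gZ (J + 2 - i) (p - (A - ω + m * 2 ^ (J + 2 - i))) *
        hZ (J + 2 - i) (v - (A - ω + m * 2 ^ (J + 2 - i)))) / 2 ^ (J + 2 - i)) =
      2 ^ J * ((if 2 ≤ i then τ (i - 2) else 0) * rhoZ (J + 2 - i) (p - v)) := by
    intro i hi
    rw [Finset.mem_range] at hi
    by_cases h : 2 ≤ i
    · simp only [if_pos h]
      rw [← Finset.mul_sum, ← Finset.sum_div]
      have h3 := ZLemmaU_star' (J := J) (K := J + 2 - i) (by omega) p v A h1 h2
      have h4 : J + 2 - (J + 2 - i) = i := by omega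
      rw [h4] at h3
      rw [h3]
      have h5 : (2 : ℝ) ^ J = 2 ^ (J - (J + 2 - i)) * 2 ^ (J + 2 - i) := by
        rw [← pow_add]; congr 1; omega
      have h6 : (4 : ℝ) ^ (J + 2 - i) = 2 ^ (J + 2 - i) * 2 ^ (J + 2 - i) := by
        rw [← mul_pow]; norm_num
      rw [h5, h6]
      field_simp
    · simp only [if_neg h, zero_mul, Finset.sum_const_zero, mul_zero]
  rw [Finset.sum_congr rfl key, ← Finset.mul_sum]
  congr 1
  rcases Nat.eq_zero_or_pos J with h | h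
  · subst h
    simp
  · have e1 : J + 2 - 1 = 2 + (J - 1) := by omega
    rw [e1, Finset.sum_range_add]
    rw [Finset.sum_eq_zero (s := range 2), zero_add]
    · refine Finset.sum_congr rfl fun t ht => ?_
      rw [if_pos (by omega)]
      congr 2
      · congr 1; omega
      · omega
    · intro i hi
      rw [Finset.mem_range] at hi
      rw [if_neg (by omega), zero_mul]

theorem ZLemmaU_levels {N j : ℕ} (hj : j ≤ N) {σ : ℕ → ℝ} (hσj : ∀ i < j, σ i = 0) (q : ℤ) :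
    ∑ i ∈ range (N - 1), σ i * rhoZ (N - i) q =
      ∑ t ∈ range (N - j - 1), σ (j + t) * rhoZ (N - j - t) q := by
  rcases Nat.eq_zero_or_pos (N - j) with h | h
  · rw [h]
    simp only [zero_tsub, range_zero, sum_empty]
    refine Finset.sum_eq_zero fun i hi => ?_
    rw [Finset.mem_range] at hi
    rw [hσj i (by omega), zero_mul]
  · have e1 : N - 1 = j + (N - j - 1) := by omega
    rw [e1, Finset.sum_range_add, Finset.sum_eq_zero (s := range j), zero_add]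
    · refine Finset.sum_congr rfl fun t ht => ?_
      congr 2
      omega
    · intro i hi
      rw [Finset.mem_range] at hi
      rw [hσj i hi, zero_mul]

theorem ZLemmaU_W {N : ℕ} (s : ℤ) {j : ℕ} (hj : j ≤ N) {σ : ℕ → ℝ} (hσj : ∀ i < j, σ i = 0)
    (F : G N → G N → ℝ) (x : G N) (A : ℤ) (h1 : A + 2 ^ (N - j) ≤ und x)
    (h2 : (und x : ℤ) < A + 2 * 2 ^ (N - j)) :
    WmR s σ F x = ((1 : ℝ) / 2 ^ (N - j)) • ∑ ω ∈ range (2 ^ (N - j)),
      (Matrix.of fun y z => F y z * ZLemmaU_c (N - j + 2)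
        (fun i => if 2 ≤ i then σ (j + (i - 2)) else 0) (und x) (s - und y - und z) (A - ω) :
        Matrix (G N) (G N) ℝ) := by
  ext y z
  rw [Matrix.smul_apply, Matrix.sum_apply, WmR, of_apply]
  simp only [of_apply]
  rw [← Finset.mul_sum, ZLemmaU_avg (fun t => σ (j + t)) (und x) (s - und y - und z) A h1 h2,
    ZLemmaU_levels hj hσj, smul_eq_mul]
  have e1 : (und x : ℤ) - (s - und y - und z) = und x + und y + und z - s := by ring
  rw [e1]
  have h3 : (2 : ℝ) ^ (N - j) ≠ 0 := by positivity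
  field_simp

theorem lemmaUR {N : ℕ} (s : ℤ) (k j : ℕ) (hj : j ≤ N) (σ : ℕ → ℝ)
    (hσ : ∀ i, σ i = 0 ∨ σ i = 1 ∨ σ i = -1) (hσj : ∀ i < j, σ i = 0)
    (F : G N → G N → ℝ) (hF : ∀ y z, |F y z| ≤ 1)
    (Φ : Matrix (G N) (G N) ℝ) (hΦ : Φ.PosSemidef) (hΦ1 : (1 - Φ).PosSemidef) (x₀ : G N) :
    ∑ x ∈ univ.filter (fun x => Low j (x + x₀)),
        Matrix.trace (((WmR s σ F x)ᵀ * Φ * (WmR s σ F x)) ^ (2 ^ k)) ≤
      (Ck k ^ 2) ^ (2 ^ (k + 1)) * (4 * 2 ^ (N - j)) * Matrix.trace Φ := by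
  classical
  obtain ⟨Θ, hΘ⟩ := psdU_factor hΦ
  obtain ⟨A, hA⟩ : ∃ A : ℤ, A = ((und x₀ / 2 ^ (N - j) : ℕ) : ℤ) * 2 ^ (N - j) - 2 ^ (N - j) :=
    ⟨_, rfl⟩
  obtain ⟨σ', hσ'⟩ : ∃ σ' : ℕ → ℝ, σ' = fun i => if 2 ≤ i then σ (j + (i - 2)) else 0 := ⟨_, rfl⟩
  have hσ'1 : ∀ i, σ' i = 0 ∨ σ' i = 1 ∨ σ' i = -1 := by
    intro i
    rw [hσ']
    dsimp only
    split_ifs
    · exact hσ _
    · left; rfl
  have h2J : (0 : ℝ) < 2 ^ (N - j) := by positivity
  have h2Jz : (0 : ℤ) < 2 ^ (N - j) := by positivity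
  have hx : ∀ x : G N, Low j (x + x₀) → A + 2 ^ (N - j) ≤ und x ∧
      (und x : ℤ) < A + 2 * 2 ^ (N - j) := by
    intro x hx
    rw [Low_und hj] at hx
    rw [hA, ← hx]
    have hp : 0 < 2 ^ (N - j) := by positivity
    have h3 : und x / 2 ^ (N - j) * 2 ^ (N - j) ≤ und x := Nat.div_mul_le_self _ _
    have h4 : und x < (und x / 2 ^ (N - j) + 1) * 2 ^ (N - j) := by
      have := Nat.lt_mul_div_succ (und x) hp
      linarith
    have h3' : ((und x / 2 ^ (N - j) : ℕ) : ℤ) * 2 ^ (N - j) ≤ und x := by exact_mod_cast h3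
    have h4' : (und x : ℤ) < (((und x / 2 ^ (N - j) : ℕ) : ℤ) + 1) * 2 ^ (N - j) := by
      exact_mod_cast h4
    constructor <;> linarith
  obtain ⟨AA, hAA⟩ : ∃ AA : ℕ → G (N - j + 2) → Matrix (G N) (G N) ℝ,
    AA = fun (ω : ℕ) w => Θ * ZLemmaU_D s F (A - (ω : ℤ) + und w) := ⟨_, rfl⟩
  obtain ⟨U, hU⟩ : ∃ U : ℕ → G N → G (N - j + 2),
    U = fun (ω : ℕ) x => ZLemmaU_unr (N - j + 2) (und x - (A - (ω : ℤ))) := ⟨_, rfl⟩
  have h4J : (2 : ℤ) ^ (N - j + 2) = 4 * 2 ^ (N - j) := by rw [pow_add]; ring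
  have hund : ∀ ω ∈ range (2 ^ (N - j)), ∀ x : G N, Low j (x + x₀) →
      (und (U ω x) : ℤ) = und x - (A - ω) := by
    intro ω hω x hlow
    rw [Finset.mem_range] at hω
    have hω' : (ω : ℤ) < 2 ^ (N - j) := by exact_mod_cast hω
    obtain ⟨h3, h4⟩ := hx x hlow
    rw [hU]
    refine ZLemmaU_und_unr ?_ ?_
    · have : (0 : ℤ) ≤ ω := by positivity
      linarith
    · rw [h4J]; linarith
  -- pointwise bound
  have hpt : ∀ x, Low j (x + x₀) →
      trace (((WmR s σ F x)ᵀ * Φ * (WmR s σ F x)) ^ (2 ^ k)) ≤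
        ∑ ω ∈ range (2 ^ (N - j)), (1 / 2 ^ (N - j)) *
          trace (((Sha σ' (AA ω) (U ω x))ᵀ * Sha σ' (AA ω) (U ω x)) ^ (2 ^ k)) := by
    intro x hlow
    obtain ⟨h3, h4⟩ := hx x hlow
    have e1 : (WmR s σ F x)ᵀ * Φ * (WmR s σ F x) = (Θ * WmR s σ F x)ᵀ * (Θ * WmR s σ F x) := by
      rw [transpose_mul, hΘ]
      simp only [Matrix.mul_assoc]
    have e2 : Θ * WmR s σ F x = ∑ ω ∈ range (2 ^ (N - j)), ((1 : ℝ) / 2 ^ (N - j)) •
        Sha σ' (AA ω) (U ω x) := by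
      rw [ZLemmaU_W s hj hσj F x A h3 h4, Matrix.mul_smul, Matrix.mul_sum, Finset.smul_sum]
      refine Finset.sum_congr rfl fun ω hω => ?_
      rw [hAA, ZLemmaU_Sha, hund ω hω x hlow, hσ']
      congr 3
      have e3 : A - (ω : ℤ) + (und x - (A - ω)) = und x := by ring
      rw [e3]
    rw [e1, ← Nk_pow, e2]
    have h5 : Nk k (∑ ω ∈ range (2 ^ (N - j)), ((1 : ℝ) / 2 ^ (N - j)) •
        Sha σ' (AA ω) (U ω x)) ≤ ∑ ω ∈ range (2 ^ (N - j)), (1 / 2 ^ (N - j)) *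
          Nk k (Sha σ' (AA ω) (U ω x)) := by
      refine (Nk_sum_le _ _ _).trans (le_of_eq ?_)
      refine Finset.sum_congr rfl fun ω _ => ?_
      rw [Nk_smul, abs_of_pos (by positivity)]
    refine (pow_le_pow_left₀ (Nk_nonneg _ _) h5 _).trans ?_
    refine (Real.pow_arith_mean_le_arith_mean_pow _ _ _ (fun _ _ => by positivity) ?_
      (fun _ _ => Nk_nonneg _ _) _).trans (le_of_eq ?_)
    · rw [Finset.sum_const, card_range, nsmul_eq_mul]
      push_cast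
      field_simp
    · refine Finset.sum_congr rfl fun ω _ => ?_
      rw [Nk_pow]
  -- the bound for a single grid
  have hgrid : ∀ ω ∈ range (2 ^ (N - j)), ∑ x ∈ univ.filter (fun x => Low j (x + x₀)),
      trace (((Sha σ' (AA ω) (U ω x))ᵀ * Sha σ' (AA ω) (U ω x)) ^ (2 ^ k)) ≤
        (Ck k ^ 2) ^ (2 ^ (k + 1)) * (4 * 2 ^ (N - j) * trace Φ) := by
    intro ω hω
    have hinj : Set.InjOn (U ω) (univ.filter (fun x => Low j (x + x₀)) : Finset (G N)) := by
      intro x hx1 y hy1 hxy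
      simp only [coe_filter, mem_univ, true_and, Set.mem_setOf_eq] at hx1 hy1
      have h5 := hund ω hω x hx1
      have h6 := hund ω hω y hy1
      rw [hxy, h6] at h5
      apply und_injective
      omega
    have h5 : ∑ x ∈ univ.filter (fun x => Low j (x + x₀)),
        trace (((Sha σ' (AA ω) (U ω x))ᵀ * Sha σ' (AA ω) (U ω x)) ^ (2 ^ k)) =
        ∑ u ∈ (univ.filter (fun x => Low j (x + x₀))).image (U ω),
          trace (((Sha σ' (AA ω) u)ᵀ * Sha σ' (AA ω) u) ^ (2 ^ k)) :=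
      (Finset.sum_image (f := fun u =>
        trace (((Sha σ' (AA ω) u)ᵀ * Sha σ' (AA ω) u) ^ (2 ^ k))) hinj).symm
    rw [h5]
    refine (Finset.sum_le_sum_of_subset_of_nonneg (Finset.subset_univ _)
      (fun u _ _ => trace_pow_nonneg k _)).trans ?_
    refine (shaBound k σ' hσ'1 (AA ω)).trans ?_
    refine mul_le_mul_of_nonneg_left ?_ (by positivity)
    have h6 : ∀ w : G (N - j + 2), trace (((AA ω w)ᵀ * AA ω w) ^ (2 ^ k)) ≤ trace Φ := by
      intro w
      have e1 : (AA ω w)ᵀ * AA ω w = (ZLemmaU_D s F (A - ω + und w))ᵀ * Φ *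
          ZLemmaU_D s F (A - ω + und w) := by
        rw [hAA, hΘ]
        dsimp only
        rw [transpose_mul]
        simp only [Matrix.mul_assoc]
      rw [e1]
      exact ZLemmaU_D_trace s k F hF hΦ hΦ1 _
    refine (Finset.sum_le_sum fun w _ => h6 w).trans (le_of_eq ?_)
    rw [Finset.sum_const, nsmul_eq_mul]
    have h7 : ((univ : Finset (G (N - j + 2))).card : ℝ) = 4 * 2 ^ (N - j) := by
      rw [Finset.card_univ, Fintype.card_fun, ZMod.card, Fintype.card_fin]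
      push_cast
      rw [pow_add]
      ring
    rw [h7]
  calc ∑ x ∈ univ.filter (fun x => Low j (x + x₀)),
        trace (((WmR s σ F x)ᵀ * Φ * (WmR s σ F x)) ^ (2 ^ k))
      ≤ ∑ x ∈ univ.filter (fun x => Low j (x + x₀)), ∑ ω ∈ range (2 ^ (N - j)),
          (1 / 2 ^ (N - j)) *
          trace (((Sha σ' (AA ω) (U ω x))ᵀ * Sha σ' (AA ω) (U ω x)) ^ (2 ^ k)) := by
        refine Finset.sum_le_sum fun x hx1 => hpt x ?_
        simpa using hx1
    _ = ∑ ω ∈ range (2 ^ (N - j)), (1 / 2 ^ (N - j)) *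
          ∑ x ∈ univ.filter (fun x => Low j (x + x₀)),
          trace (((Sha σ' (AA ω) (U ω x))ᵀ * Sha σ' (AA ω) (U ω x)) ^ (2 ^ k)) := by
        rw [Finset.sum_comm]
        refine Finset.sum_congr rfl fun ω _ => ?_
        rw [Finset.mul_sum]
    _ ≤ ∑ ω ∈ range (2 ^ (N - j)), ((1 : ℝ) / 2 ^ (N - j)) *
          ((Ck k ^ 2) ^ (2 ^ (k + 1)) * (4 * 2 ^ (N - j) * trace Φ)) := by
        refine Finset.sum_le_sum fun ω hω => ?_
        exact mul_le_mul_of_nonneg_left (hgrid ω hω) (by positivity)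
    _ = (Ck k ^ 2) ^ (2 ^ (k + 1)) * (4 * 2 ^ (N - j)) * trace Φ := by
        rw [Finset.sum_const, card_range, nsmul_eq_mul]
        push_cast
        field_simp

end Vale.Agent.P075
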