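import Vale.Agent.P075.ZDefs

namespace Vale.Agent.P075

open Finset Matrix

section ker

variable {n : ℕ}

theorem ZSha_sg_flip (m : Fin n) (t : G n) : sg (m : ℕ) (t + Pi.single m 1) = - sg (m : ℕ) t := by
  rw [sg_add]
  have : sg (m : ℕ) (Pi.single m 1 : G n) = -1 := by
    rw [sg, dif_pos m.2]
    simp
  rw [this]; ring

theorem ZSha_sg_ne {j : ℕ} (m : Fin n) (hj : j ≠ m) (t : G n) :
    sg j (t + Pi.single m 1) = sg j t := by
  rw [sg_add]
  have : sg j (Pi.single m 1 : G n) = 1 := by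
    unfold sg
    split_ifs with h1 h2
    · rfl
    · exfalso
      apply h2
      rw [Pi.single_eq_of_ne]
      intro h
      apply hj
      rw [← h]
    · rfl
  rw [this, mul_one]

theorem ZSha_Low_flip {j : ℕ} (m : Fin n) (hj : j ≤ m) (t : G n) :
    Low j (t + Pi.single m 1) ↔ Low j t := by
  rw [add_comm]
  refine Low_add_iff ?_
  intro i hi
  rw [Pi.single_eq_of_ne]
  intro h
  rw [h] at hi
  omega

theorem ZSha_kj_flip (m : Fin n) (t : G n) : kj (m : ℕ) (t + Pi.single m 1) = - kj (m : ℕ) t := by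
  unfold kj
  rw [ZSha_sg_flip]
  simp only [ZSha_Low_flip m le_rfl]
  split_ifs
  · ring
  · simp

theorem ZSha_kj_ne {j : ℕ} (m : Fin n) (hj : j < m) (t : G n) :
    kj j (t + Pi.single m 1) = kj j t := by
  unfold kj
  rw [ZSha_sg_ne m (by omega)]
  simp only [ZSha_Low_flip m hj.le]

theorem ZSha_sum_flip (m : Fin n) {f : G n → ℝ} (h : ∀ t, f (t + Pi.single m 1) = - f t) :
    ∑ t, f t = 0 := by
  have h1 := sum_translate f (Pi.single m 1)
  simp only [h, Finset.sum_neg_distrib] at h1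
  linarith

theorem ZSha_ker {l i : ℕ} (hl : l < n) (hi : i + 1 < n) (x x'' : G n) :
    ∑ x', kj l (x + x') * (sg (i + 1) x' * kj i (x' + x'')) =
      if l = i + 1 then sg (i + 1) x * kj i (x + x'') else 0 := by
  have swp : ∀ a b c : G n, a + (b + c) = a + b + c := fun a b c => (add_assoc a b c).symm
  have swp2 : ∀ a b c : G n, a + b + c = a + c + b := fun a b c => add_right_comm a b c
  rcases lt_trichotomy l (i + 1) with h | h | h
  · rw [if_neg (by omega)]
    refine ZSha_sum_flip ⟨i + 1, hi⟩ fun t => ?_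
    have e1 : kj l (x + (t + Pi.single ⟨i + 1, hi⟩ 1)) = kj l (x + t) := by
      rw [swp]; exact ZSha_kj_ne ⟨i + 1, hi⟩ h _
    have e2 : kj i (t + Pi.single ⟨i + 1, hi⟩ 1 + x'') = kj i (t + x'') := by
      rw [swp2]; exact ZSha_kj_ne ⟨i + 1, hi⟩ (Nat.lt_succ_self i) _
    have e3 : sg (i + 1) (t + Pi.single ⟨i + 1, hi⟩ 1) = - sg (i + 1) t :=
      ZSha_sg_flip ⟨i + 1, hi⟩ t
    rw [e1, e2, e3]
    ring
  · subst h
    rw [if_pos rfl]
    have e1 : ∀ x' : G n, kj (i + 1) (x + x') * (sg (i + 1) x' * kj i (x' + x'')) =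
        sg (i + 1) x * kj i (x + x'') * |kj (i + 1) (x' + x)| := by
      intro x'
      rw [abs_kj, add_comm x' x]
      by_cases h : Low (i + 1) (x + x')
      · have e2 : kj i (x' + x'') = kj i (x + x'') := by
          have e3 : x' + x'' = (x + x') + (x + x'') := by
            have : x + x' + (x + x'') = x' + x'' + (x + x) := by abel
            rw [this, add_self_G, add_zero]
          have e4 : ∀ t : G n, kj i (x + x' + t) = kj i t := by
            intro t
            unfold kj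
            rw [sg_add]
            have e5 : sg i (x + x') = 1 := by
              unfold sg
              rw [dif_pos (by omega : i < n), if_pos]
              exact h _ (Nat.lt_succ_self i)
            rw [e5, one_mul]
            simp only [Low_add_iff (Low_mono (Nat.le_succ i) h)]
          rw [e3, e4]
        rw [if_pos h, e2, kj, if_pos h, sg_add]
        have := sg_sq (i + 1) x'
        calc sg (i + 1) x * sg (i + 1) x' / 2 ^ (n - (i + 1)) * (sg (i + 1) x' * kj i (x + x''))
            = sg (i + 1) x * (sg (i + 1) x' * sg (i + 1) x') / 2 ^ (n - (i + 1)) *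
              kj i (x + x'') := by ring
          _ = _ := by rw [this]; ring
      · rw [if_neg h, kj, if_neg h]
        ring
    simp only [e1]
    rw [← Finset.mul_sum, sum_abs_kj hi.le, mul_one]
  · rw [if_neg (by omega)]
    refine ZSha_sum_flip ⟨l, hl⟩ fun t => ?_
    have e1 : kj l (x + (t + Pi.single ⟨l, hl⟩ 1)) = - kj l (x + t) := by
      rw [swp]; exact ZSha_kj_flip ⟨l, hl⟩ _
    have e2 : kj i (t + Pi.single ⟨l, hl⟩ 1 + x'') = kj i (t + x'') := by
      rw [swp2]; exact ZSha_kj_ne ⟨l, hl⟩ (show i < l by omega) _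
    have e3 : sg (i + 1) (t + Pi.single ⟨l, hl⟩ 1) = sg (i + 1) t :=
      ZSha_sg_ne ⟨l, hl⟩ (show i + 1 ≠ l by omega) t
    rw [e1, e2, e3]
    ring

end ker

variable {n : ℕ} {d : Type*} [Fintype d] [DecidableEq d]

omit [Fintype d] [DecidableEq d] in
theorem ZSha_Tr (σ τ : ℕ → ℝ) (hτ : ∀ i, τ i * τ i = 1) (A : G n → Matrix d d ℝ) (x : G n) :
    Tr (fun l => τ (l - 1)) (Sha (fun i => τ i * σ i) A) x = Sha σ A x := by
  unfold Tr Sha
  simp only [Finset.smul_sum, smul_smul]
  rw [Finset.sum_comm]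
  refine Finset.sum_congr rfl fun x'' _ => ?_
  rw [← Finset.sum_smul]
  congr 1
  have e1 : ∀ x' : G n, (∑ l ∈ range n, τ (l - 1) * kj l (x + x')) *
      (∑ i ∈ range (n - 1), τ i * σ i * sg (i + 1) x' * kj i (x' + x'')) =
      ∑ i ∈ range (n - 1), ∑ l ∈ range n, (τ (l - 1) * (τ i * σ i)) *
        (kj l (x + x') * (sg (i + 1) x' * kj i (x' + x''))) := by
    intro x'
    rw [Finset.sum_mul_sum, Finset.sum_comm]
    refine Finset.sum_congr rfl fun i _ => Finset.sum_congr rfl fun l _ => ?_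
    ring
  simp only [e1]
  rw [Finset.sum_comm]
  refine Finset.sum_congr rfl fun i hi => ?_
  rw [Finset.mem_range] at hi
  rw [Finset.sum_comm]
  have e2 : ∀ l ∈ range n, ∑ x', (τ (l - 1) * (τ i * σ i)) *
      (kj l (x + x') * (sg (i + 1) x' * kj i (x' + x''))) =
      if l = i + 1 then (τ (l - 1) * (τ i * σ i)) * (sg (i + 1) x * kj i (x + x'')) else 0 := by
    intro l hl
    rw [Finset.mem_range] at hl
    rw [← Finset.mul_sum, ZSha_ker hl (by omega)]
    split_ifs <;> ring
  rw [Finset.sum_congr rfl e2, Finset.sum_ite_eq', if_pos (Finset.mem_range.2 (by omega)),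
    Nat.add_sub_cancel]
  calc τ i * (τ i * σ i) * (sg (i + 1) x * kj i (x + x''))
      = (τ i * τ i) * (σ i * sg (i + 1) x * kj i (x + x'')) := by ring
    _ = _ := by rw [hτ, one_mul]

def ZSha_shift (x : G n) : G n := fun i => if h : (i : ℕ) + 1 < n then x ⟨i + 1, h⟩ else 0

theorem ZSha_shift_sg {i : ℕ} (hi : i + 1 < n) (x : G n) :
    sg i (ZSha_shift x) = sg (i + 1) x := by
  unfold sg
  rw [dif_pos (by omega : i < n), dif_pos hi]
  unfold ZSha_shift
  simp only [hi, dif_pos]

omit [Fintype d] [DecidableEq d] in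
theorem ZSha_Sha_Tr (σ : ℕ → ℝ) (A : G n → Matrix d d ℝ) (t x : G n) :
    Sha (fun i => sg i t * σ i) A x =
      Tr (fun i => if i + 1 < n then sg i (t + ZSha_shift x) * σ i else 0) A x := by
  unfold Sha Tr
  refine Finset.sum_congr rfl fun x' _ => ?_
  congr 1
  have e1 : range (n - 1) = (range n).filter (fun i => i + 1 < n) := by
    ext i
    simp only [mem_range, mem_filter]
    omega
  rw [e1, Finset.sum_filter]
  refine Finset.sum_congr rfl fun i hi => ?_
  dsimp only
  split_ifs with h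
  · rw [sg_add, ZSha_shift_sg h]; ring
  · rw [zero_mul]

/-- operator valued Haar shift bound -/
theorem shaBound (k : ℕ) (σ : ℕ → ℝ)
    (hσ : ∀ i, σ i = 0 ∨ σ i = 1 ∨ σ i = -1) (A : G n → Matrix d d ℝ) :
    ∑ x, Matrix.trace (((Sha σ A x)ᵀ * Sha σ A x) ^ (2 ^ k)) ≤
      (Ck k ^ 2) ^ (2 ^ (k + 1)) * ∑ x, Matrix.trace (((A x)ᵀ * A x) ^ (2 ^ k)) := by
  have hCk : 0 < Ck k := by unfold Ck; positivity
  have hsg : ∀ (i : ℕ) (t : G n), sg i t = 1 ∨ sg i t = -1 := by
    intro i t
    unfold sg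
    split_ifs
    · left; rfl
    · right; rfl
    · left; rfl
  have h1 : ∀ t : G n, ∑ x, Matrix.trace (((Sha σ A x)ᵀ * Sha σ A x) ^ (2 ^ k)) ≤
      Ck k ^ (2 ^ (k + 1)) * ∑ x, Matrix.trace (((Sha (fun i => sg i t * σ i) A x)ᵀ *
        Sha (fun i => sg i t * σ i) A x) ^ (2 ^ k)) := by
    intro t
    have := umd k (fun l => sg (l - 1) t) (fun l => Or.inr (hsg _ t))
      (Sha (fun i => sg i t * σ i) A)
    simp only [ZSha_Tr σ (fun i => sg i t) (fun i => sg_sq i t) A] at this
    exact this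
  have h2 : ∀ t : G n, ∑ x, Matrix.trace (((Tr (fun i => if i + 1 < n then sg i t * σ i else 0) A x)ᵀ *
      Tr (fun i => if i + 1 < n then sg i t * σ i else 0) A x) ^ (2 ^ k)) ≤
      Ck k ^ (2 ^ (k + 1)) * ∑ x, Matrix.trace (((A x)ᵀ * A x) ^ (2 ^ k)) := by
    intro t
    refine umd k _ (fun i => ?_) A
    split_ifs
    · rcases hσ i with h | h | h <;> rcases hsg i t with h' | h' <;> rw [h, h'] <;> simp
    · left; rfl
  have h3 : ∑ t : G n, ∑ x, Matrix.trace (((Sha (fun i => sg i t * σ i) A x)ᵀ *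
        Sha (fun i => sg i t * σ i) A x) ^ (2 ^ k)) =
      ∑ t : G n, ∑ x, Matrix.trace (((Tr (fun i => if i + 1 < n then sg i t * σ i else 0) A x)ᵀ *
      Tr (fun i => if i + 1 < n then sg i t * σ i else 0) A x) ^ (2 ^ k)) := by
    rw [Finset.sum_comm, Finset.sum_comm (f := fun (t x : G n) =>
      Matrix.trace (((Tr (fun i => if i + 1 < n then sg i t * σ i else 0) A x)ᵀ *
      Tr (fun i => if i + 1 < n then sg i t * σ i else 0) A x) ^ (2 ^ k)))]
    refine Finset.sum_congr rfl fun x _ => ?_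
    simp only [ZSha_Sha_Tr]
    exact sum_translate (fun t => Matrix.trace
      (((Tr (fun i => if i + 1 < n then sg i t * σ i else 0) A x)ᵀ *
      Tr (fun i => if i + 1 < n then sg i t * σ i else 0) A x) ^ (2 ^ k))) (ZSha_shift x)
  have h4 : ((univ : Finset (G n)).card : ℝ) *
      ∑ x, Matrix.trace (((Sha σ A x)ᵀ * Sha σ A x) ^ (2 ^ k)) ≤
      ((univ : Finset (G n)).card : ℝ) * ((Ck k ^ 2) ^ (2 ^ (k + 1)) *
        ∑ x, Matrix.trace (((A x)ᵀ * A x) ^ (2 ^ k))) := by
    have h5 := Finset.sum_le_sum (s := univ) fun t _ => h1 t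
    rw [Finset.sum_const, nsmul_eq_mul, ← Finset.mul_sum, h3] at h5
    have h6 := Finset.sum_le_sum (s := univ) fun t _ => h2 t
    rw [Finset.sum_const, nsmul_eq_mul] at h6
    refine h5.trans ((mul_le_mul_of_nonneg_left h6 (by positivity)).trans (le_of_eq ?_))
    rw [sq, mul_pow]
    ring
  have hcard : (0 : ℝ) < ((univ : Finset (G n)).card : ℝ) := by
    rw [Finset.card_univ, Fintype.card_fun, ZMod.card, Fintype.card_fin]
    positivity
  exact le_of_mul_le_mul_left h4 hcard

end Vale.Agent.P075
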