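import Vale.Agent.P075.ZBasic
import Vale.Agent.P075.ZSha

namespace Vale.Agent.P075

open Finset Matrix

section pp

variable {ι : Type*} [Fintype ι] [DecidableEq ι]

theorem ZLemmaU_sum_sq_le {f : ι → ℝ} (h : ∀ a b, f a ≠ 0 → f b ≠ 0 → a = b)
    (h1 : ∀ a, |f a| ≤ 1) : ∑ a, f a ^ 2 ≤ 1 := by
  by_cases h0 : ∃ a, f a ≠ 0
  · obtain ⟨a, ha⟩ := h0
    rw [Finset.sum_eq_single a]
    · exact (sq_le_one_iff_abs_le_one _).2 (h1 a)
    · intro b _ hb
      by_contra hne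
      exact hb (h b a (fun e => hne (by rw [e]; simp)) ha)
    · intro h'; exact absurd (mem_univ _) h'
  · push Not at h0
    simp [h0]

theorem ZLemmaU_mul_tr {D : Matrix ι ι ℝ} (h : ∀ y y' z, D y z ≠ 0 → D y' z ≠ 0 → y = y') :
    D * Dᵀ = diagonal (fun y => ∑ z, D y z ^ 2) := by
  ext y y'
  rw [mul_apply, diagonal_apply]
  split_ifs with e
  · subst e
    refine Finset.sum_congr rfl fun z _ => ?_
    rw [transpose_apply, sq]
  · refine Finset.sum_eq_zero fun z _ => ?_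
    rw [transpose_apply]
    by_contra hne
    exact e (h y y' z (left_ne_zero_of_mul hne) (right_ne_zero_of_mul hne))

theorem ZLemmaU_pp_trace (k : ℕ) {D : Matrix ι ι ℝ}
    (h1 : ∀ y y' z, D y z ≠ 0 → D y' z ≠ 0 → y = y')
    (h2 : ∀ y z z', D y z ≠ 0 → D y z' ≠ 0 → z = z') (hD : ∀ y z, |D y z| ≤ 1)
    {Φ : Matrix ι ι ℝ} (hΦ : Φ.PosSemidef) (hΦ1 : (1 - Φ).PosSemidef) :
    trace ((Dᵀ * Φ * D) ^ (2 ^ k)) ≤ trace Φ := by
  have hDt : Dᵀ * D = diagonal (fun z => ∑ y, D y z ^ 2) := by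
    have := ZLemmaU_mul_tr (D := Dᵀ) (fun z z' y hz hz' => h2 y z z' hz hz')
    rwa [transpose_transpose] at this
  have hDD := ZLemmaU_mul_tr h1
  have p1 : (Dᵀ * Φ * D).PosSemidef := by
    have := hΦ.conjTranspose_mul_mul_same D
    rwa [conjTranspose_eq_transpose_of_trivial] at this
  have p2 : (1 - Dᵀ * Φ * D).PosSemidef := by
    have e1 : (Dᵀ * (1 - Φ) * D).PosSemidef := by
      have := hΦ1.conjTranspose_mul_mul_same D
      rwa [conjTranspose_eq_transpose_of_trivial] at this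
    have e2 : (1 - Dᵀ * D).PosSemidef := by
      rw [hDt, ← diagonal_one, diagonal_sub]
      refine PosSemidef.diagonal fun z => ?_
      simp only [Pi.zero_apply]
      have := ZLemmaU_sum_sq_le (f := fun y => D y z) (fun a b ha hb => h1 a b z ha hb)
        (fun a => hD a z)
      linarith
    have e3 := e1.add e2
    have e4 : Dᵀ * (1 - Φ) * D + (1 - Dᵀ * D) = 1 - Dᵀ * Φ * D := by
      rw [Matrix.mul_sub, Matrix.sub_mul, Matrix.mul_one]
      abel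
    rwa [e4] at e3
  refine (psdU_trace_pow k p1 p2).trans ?_
  rw [Matrix.mul_assoc, trace_mul_comm, Matrix.mul_assoc, hDD, trace, trace]
  refine Finset.sum_le_sum fun y _ => ?_
  rw [diag_apply, diag_apply, mul_diagonal]
  exact mul_le_of_le_one_right hΦ.diag_nonneg
    (ZLemmaU_sum_sq_le (f := fun z => D y z) (fun a b ha hb => h2 y a b ha hb) (fun a => hD y a))

end pp

/-! ### blocks -/

theorem ZLemmaU_block (F : ℕ → ℝ) (B : ℕ) (M : ℕ) :
    ∑ t ∈ range (M * B), F t = ∑ m ∈ range M, ∑ r ∈ range B, F (m * B + r) := by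
  induction M with
  | zero => simp
  | succ M ih => rw [add_mul, one_mul, Finset.sum_range_add, ih, Finset.sum_range_succ]

theorem ZLemmaU_Ico (f : ℤ → ℝ) (lo : ℤ) (n : ℕ) :
    ∑ a ∈ Finset.Ico lo (lo + n), f a = ∑ t ∈ range n, f (lo + t) := by
  refine Finset.sum_nbij' (fun a => (a - lo).toNat) (fun t => lo + t) ?_ ?_ ?_ ?_ ?_
  · intro a ha
    rw [Finset.mem_Ico] at ha
    rw [Finset.mem_range]
    omega
  · intro t ht
    rw [Finset.mem_range] at ht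
    rw [Finset.mem_Ico]
    omega
  · intro a ha
    rw [Finset.mem_Ico] at ha
    omega
  · intro t ht
    omega
  · intro a ha
    rw [Finset.mem_Ico] at ha
    congr 1
    omega

theorem ZLemmaU_star {J K : ℕ} (hK : K ≤ J) (p v A : ℤ) (h1 : A ≤ v) (h2 : v ≤ A + 3 * 2 ^ J) :
    ∑ ω ∈ range (2 ^ J), ∑ m ∈ range (2 ^ (J + 2 - K)),
      gZ K (p - (A - ω + m * 2 ^ K)) * hZ K (v - (A - ω + m * 2 ^ K)) =
      2 ^ (J - K) * 4 ^ K * rhoZ K (p - v) := by
  obtain ⟨d, rfl⟩ : ∃ d, J = K + d := ⟨J - K, by omega⟩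
  have e0 : K + d + 2 - K = d + 2 := by omega
  have e0' : K + d - K = d := by omega
  rw [e0, e0']
  have e1 : (2 : ℕ) ^ (K + d) = 2 ^ d * 2 ^ K := by rw [← pow_add, add_comm]
  rw [e1, ZLemmaU_block]
  have key : ∀ q ∈ range (2 ^ d), ∑ r ∈ range (2 ^ K), ∑ m ∈ range (2 ^ (d + 2)),
      gZ K (p - (A - ((q * 2 ^ K + r : ℕ) : ℤ) + m * 2 ^ K)) *
        hZ K (v - (A - ((q * 2 ^ K + r : ℕ) : ℤ) + m * 2 ^ K)) = 4 ^ K * rhoZ K (p - v) := by
    intro q hq
    rw [Finset.mem_range] at hq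
    obtain ⟨B, hB⟩ : ∃ B, B = 2 ^ K := ⟨_, rfl⟩
    have hB0 : 0 < B := by rw [hB]; positivity
    have hBz : (2 : ℤ) ^ K = B := by rw [hB]; push_cast; rfl
    have hqB : (q : ℤ) * B + B ≤ 2 ^ (K + d) := by
      have : q * B + B ≤ 2 ^ (K + d) := by
        rw [e1, ← hB]
        nlinarith
      exact_mod_cast this
    rw [Finset.sum_comm]
    obtain ⟨lo, hlo⟩ : ∃ lo : ℤ, lo = A - q * B - (B - 1) := ⟨_, rfl⟩
    have e2 : ∀ m : ℕ, ∑ r ∈ range (2 ^ K),
        gZ K (p - (A - ((q * 2 ^ K + r : ℕ) : ℤ) + m * 2 ^ K)) *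
        hZ K (v - (A - ((q * 2 ^ K + r : ℕ) : ℤ) + m * 2 ^ K)) =
        ∑ r ∈ range B, gZ K (p - (lo + ((m * B + r : ℕ) : ℤ))) *
          hZ K (v - (lo + ((m * B + r : ℕ) : ℤ))) := by
      intro m
      rw [← hB, ← Finset.sum_range_reflect]
      refine Finset.sum_congr rfl fun r hr => ?_
      rw [Finset.mem_range] at hr
      have e3 : A - ((q * B + (B - 1 - r) : ℕ) : ℤ) + m * 2 ^ K = lo + ((m * B + r : ℕ) : ℤ) := by
        rw [hBz, hlo]
        have : ((B - 1 - r : ℕ) : ℤ) = (B : ℤ) - 1 - r := by omega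
        push_cast [this]
        ring
      rw [e3]
    rw [Finset.sum_congr rfl fun m _ => e2 m]
    rw [← ZLemmaU_block (fun t => gZ K (p - (lo + (t : ℤ))) * hZ K (v - (lo + (t : ℤ)))) B
      (2 ^ (d + 2)), ← ZLemmaU_Ico (fun a => gZ K (p - a) * hZ K (v - a)) lo]
    have h4 : (4 : ℝ) ^ K ≠ 0 := by positivity
    rw [rhoZ_conv K p v lo (lo + ((2 ^ (d + 2) * B : ℕ) : ℤ)), mul_div_cancel₀ _ h4]
    · rw [hBz, hlo]
      have : 0 ≤ (q : ℤ) * B := by positivity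
      linarith
    · have e4 : (((2 ^ (d + 2) * B : ℕ) : ℤ)) = 4 * 2 ^ (K + d) := by
        rw [hB]
        push_cast
        ring
      rw [e4, hlo]
      linarith
  rw [Finset.sum_congr rfl key, Finset.sum_const, card_range, nsmul_eq_mul]
  push_cast
  ring

theorem ZLemmaU_prod_zero {K : ℕ} {p v a : ℤ} (h : 2 ^ K ≤ |p - v|) :
    gZ K (p - a) * hZ K (v - a) = 0 := by
  by_cases h1 : 0 ≤ p - a ∧ p - a < 2 ^ K
  · by_cases h2 : 0 ≤ v - a ∧ v - a < 2 ^ K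
    · exfalso
      rw [le_abs'] at h
      rcases h with h | h <;> linarith [h1.1, h1.2, h2.1, h2.2]
    · rw [hZ_support h2, mul_zero]
  · rw [gZ_support h1, zero_mul]

theorem ZLemmaU_star' {J K : ℕ} (hK : K ≤ J) (p v A : ℤ) (h1 : A + 2 ^ J ≤ p)
    (h2 : p < A + 2 * 2 ^ J) :
    ∑ ω ∈ range (2 ^ J), ∑ m ∈ range (2 ^ (J + 2 - K)),
      gZ K (p - (A - ω + m * 2 ^ K)) * hZ K (v - (A - ω + m * 2 ^ K)) =
      2 ^ (J - K) * 4 ^ K * rhoZ K (p - v) := by
  by_cases hv : A ≤ v ∧ v ≤ A + 3 * 2 ^ J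
  · exact ZLemmaU_star hK p v A hv.1 hv.2
  · have hJ : (2 : ℤ) ^ K ≤ 2 ^ J := pow_le_pow_right₀ (by norm_num) hK
    have h3 : 2 ^ K ≤ |p - v| := by
      rw [le_abs']
      by_cases h4 : A ≤ v
      · have h5 : A + 3 * 2 ^ J < v := by
          by_contra h6
          exact hv ⟨h4, by linarith⟩
        left; linarith
      · right; linarith
    rw [rhoZ_support h3, mul_zero]
    exact Finset.sum_eq_zero fun ω _ => Finset.sum_eq_zero fun m _ => ZLemmaU_prod_zero h3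

/-! ### the pattern -/

theorem ZLemmaU_sg {n i : ℕ} (hi : i < n) (u : G n) : sg i u = sgb (n - i) (und u) := by
  rw [sgb_und hi rfl, sg, dif_pos hi]

theorem ZLemmaU_h (K c : ℕ) (hK : 1 ≤ K) :
    hZ K ((c : ℤ) - ((c / 2 ^ K : ℕ) : ℤ) * 2 ^ K) = sgb K c := by
  obtain ⟨k, rfl⟩ : ∃ k, K = k + 1 := ⟨K - 1, by omega⟩
  obtain ⟨q, hq⟩ : ∃ q, q = 2 ^ k := ⟨_, rfl⟩
  have hq0 : 0 < q := by rw [hq]; positivity
  have e1 : 2 ^ (k + 1) = 2 * q := by rw [hq]; ring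
  have e1z : (2 : ℤ) ^ (k + 1) = 2 * q := by exact_mod_cast congrArg (fun t : ℕ => (t : ℤ)) e1
  unfold hZ sgb
  rw [e1z, e1, Nat.add_sub_cancel, ← hq]
  obtain ⟨d, hd⟩ : ∃ d, d = c / q := ⟨_, rfl⟩
  have e2 : c / (2 * q) = d / 2 := by
    rw [hd, mul_comm, Nat.div_div_eq_div_mul]
  rw [e2, ← hd]
  have h3 : q * d ≤ c := by rw [hd]; exact Nat.mul_div_le c q
  have h4 : c < q * (d + 1) := by rw [hd]; exact Nat.lt_mul_div_succ c hq0
  obtain ⟨m, hm⟩ : ∃ m, m = d / 2 := ⟨_, rfl⟩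
  rw [← hm]
  rcases Nat.mod_two_eq_zero_or_one d with h0 | h0
  · have hd2 : d = 2 * m := by omega
    have h5 : (q : ℤ) * (2 * m) ≤ c := by rw [hd2] at h3; exact_mod_cast h3
    have h6 : (c : ℤ) < q * (2 * m + 1) := by rw [hd2] at h4; exact_mod_cast h4
    have h7 : (0 : ℤ) < q := by exact_mod_cast hq0
    rw [if_pos h0, if_pos ⟨by linarith, by linarith⟩, if_pos (by linarith)]
  · have hd2 : d = 2 * m + 1 := by omega
    have h5 : (q : ℤ) * (2 * m + 1) ≤ c := by rw [hd2] at h3; exact_mod_cast h3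
    have h6 : (c : ℤ) < q * (2 * m + 1 + 1) := by rw [hd2] at h4; exact_mod_cast h4
    have h7 : (0 : ℤ) < q := by exact_mod_cast hq0
    rw [if_neg (by omega : ¬ d % 2 = 0), if_pos ⟨by linarith, by linarith⟩,
      if_neg (by linarith)]

theorem ZLemmaU_g (K c : ℕ) (hK : 2 ≤ K) :
    gZ K ((c : ℤ) - ((c / 2 ^ K : ℕ) : ℤ) * 2 ^ K) = sgb K c * sgb (K - 1) c := by
  obtain ⟨k, rfl⟩ : ∃ k, K = k + 2 := ⟨K - 2, by omega⟩
  obtain ⟨q, hq⟩ : ∃ q, q = 2 ^ k := ⟨_, rfl⟩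
  have hq0 : 0 < q := by rw [hq]; positivity
  have e1 : 2 ^ (k + 2) = 4 * q := by rw [hq]; ring
  have e1' : 2 ^ (k + 1) = 2 * q := by rw [hq]; ring
  have e1z : (2 : ℤ) ^ (k + 2) = 4 * q := by exact_mod_cast congrArg (fun t : ℕ => (t : ℤ)) e1
  have e5 : k + 2 - 1 = k + 1 := by omega
  unfold gZ sgb
  rw [e1z, e1, e5, Nat.add_sub_cancel, ← hq, e1']
  obtain ⟨d, hd⟩ : ∃ d, d = c / q := ⟨_, rfl⟩
  have e2 : c / (2 * q) = d / 2 := by
    rw [hd, mul_comm, Nat.div_div_eq_div_mul]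
  have e3 : c / (4 * q) = d / 4 := by
    rw [hd, mul_comm, Nat.div_div_eq_div_mul]
  rw [e2, e3, ← hd]
  have h3 : q * d ≤ c := by rw [hd]; exact Nat.mul_div_le c q
  have h4 : c < q * (d + 1) := by rw [hd]; exact Nat.lt_mul_div_succ c hq0
  obtain ⟨m, hm⟩ : ∃ m, m = d / 4 := ⟨_, rfl⟩
  rw [← hm]
  have h7 : (0 : ℤ) < q := by exact_mod_cast hq0
  have hcase : d = 4 * m ∨ d = 4 * m + 1 ∨ d = 4 * m + 2 ∨ d = 4 * m + 3 := by omega
  rcases hcase with hd2 | hd2 | hd2 | hd2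
  · have h5 : (q : ℤ) * (4 * m) ≤ c := by rw [hd2] at h3; exact_mod_cast h3
    have h6 : (c : ℤ) < q * (4 * m + 1) := by rw [hd2] at h4; exact_mod_cast h4
    rw [if_pos (by omega : d / 2 % 2 = 0), if_pos (by omega : d % 2 = 0),
      if_pos ⟨by linarith, by linarith⟩, if_neg]
    · norm_num
    · rintro ⟨h8, h9⟩
      linarith
  · have h5 : (q : ℤ) * (4 * m + 1) ≤ c := by rw [hd2] at h3; exact_mod_cast h3
    have h6 : (c : ℤ) < q * (4 * m + 1 + 1) := by rw [hd2] at h4; exact_mod_cast h4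
    rw [if_pos (by omega : d / 2 % 2 = 0), if_neg (by omega : ¬ d % 2 = 0),
      if_pos ⟨by linarith, by linarith⟩, if_pos ⟨by linarith, by linarith⟩]
    norm_num
  · have h5 : (q : ℤ) * (4 * m + 2) ≤ c := by rw [hd2] at h3; exact_mod_cast h3
    have h6 : (c : ℤ) < q * (4 * m + 2 + 1) := by rw [hd2] at h4; exact_mod_cast h4
    rw [if_neg (by omega : ¬ d / 2 % 2 = 0), if_pos (by omega : d % 2 = 0),
      if_pos ⟨by linarith, by linarith⟩, if_pos ⟨by linarith, by linarith⟩]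
    norm_num
  · have h5 : (q : ℤ) * (4 * m + 3) ≤ c := by rw [hd2] at h3; exact_mod_cast h3
    have h6 : (c : ℤ) < q * (4 * m + 3 + 1) := by rw [hd2] at h4; exact_mod_cast h4
    rw [if_neg (by omega : ¬ d / 2 % 2 = 0), if_neg (by omega : ¬ d % 2 = 0),
      if_pos ⟨by linarith, by linarith⟩, if_neg]
    · norm_num
    · rintro ⟨h8, h9⟩
      linarith

theorem ZLemmaU_pattern {n i : ℕ} (hi : i + 1 < n) (u w : G n) :
    sg (i + 1) u * kj i (u + w) =
      (∑ m ∈ range (2 ^ i), gZ (n - i) ((und u : ℤ) - m * 2 ^ (n - i)) *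
        hZ (n - i) ((und w : ℤ) - m * 2 ^ (n - i))) / 2 ^ (n - i) := by
  have hlow := Low_und (j := i) (by omega : i ≤ n) u w
  have hcell : ∀ (c m : ℕ), (0 ≤ (c : ℤ) - m * 2 ^ (n - i) ∧
      (c : ℤ) - m * 2 ^ (n - i) < 2 ^ (n - i)) → m = c / 2 ^ (n - i) := by
    intro c m hcm
    have hp : (0 : ℕ) < 2 ^ (n - i) := by positivity
    symm
    rw [Nat.div_eq_iff hp]
    have h1 : (m : ℤ) * 2 ^ (n - i) ≤ c := by linarith [hcm.1]
    have h2 : (c : ℤ) < m * 2 ^ (n - i) + 2 ^ (n - i) := by linarith [hcm.2]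
    have h1' : m * 2 ^ (n - i) ≤ c := by exact_mod_cast h1
    have h2' : c < m * 2 ^ (n - i) + 2 ^ (n - i) := by exact_mod_cast h2
    constructor
    · exact h1'
    · omega
  by_cases h : Low i (u + w)
  · have hd := hlow.1 h
    rw [Finset.sum_eq_single (und u / 2 ^ (n - i))]
    · rw [ZLemmaU_g _ _ (by omega), hd, ZLemmaU_h _ _ (by omega), kj, if_pos h, sg_add,
        ZLemmaU_sg (by omega : i + 1 < n), ZLemmaU_sg (by omega : i < n),
        ZLemmaU_sg (by omega : i < n)]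
      have : n - (i + 1) = n - i - 1 := by omega
      rw [this]
      ring
    · intro m _ hm
      rw [gZ_support, zero_mul]
      intro h2
      exact hm (hcell _ _ h2)
    · intro h2
      exfalso
      apply h2
      rw [Finset.mem_range]
      refine Nat.div_lt_of_lt_mul ?_
      rw [← pow_add, (by omega : n - i + i = n)]
      exact und_lt u
  · rw [kj, if_neg h, mul_zero, Finset.sum_eq_zero, zero_div]
    intro m _
    by_cases h1 : 0 ≤ (und u : ℤ) - m * 2 ^ (n - i) ∧ (und u : ℤ) - m * 2 ^ (n - i) < 2 ^ (n - i)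
    · by_cases h2 : 0 ≤ (und w : ℤ) - m * 2 ^ (n - i) ∧
          (und w : ℤ) - m * 2 ^ (n - i) < 2 ^ (n - i)
      · exact absurd (hlow.2 ((hcell _ _ h1).symm.trans (hcell _ _ h2))) h
      · rw [hZ_support h2, mul_zero]
    · rw [gZ_support h1, zero_mul]

end Vale.Agent.P075
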