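import Vale.Agent.P075.ZHeavy
import Vale.Agent.P075.Levels

namespace Vale.Agent.P075

open Finset

private noncomputable def lvI (F : ℤ → ℤ → ℝ) (k : ℤ) : ℤ → ℤ → ℝ :=
  fun x y => if Int.log 2 |F x y| = k then F x y else 0

private theorem zl_smul (B : Finset ℤ) (s : ℤ) (j : ℕ) (a b c : ℝ) (F₀ F₁ F₂ : ℤ → ℤ → ℝ) :
    LamI B s j (fun x y => a * F₀ x y) (fun x y => b * F₁ x y) (fun x y => c * F₂ x y)
      = a * b * c * LamI B s j F₀ F₁ F₂ := by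
  unfold LamI
  simp only [Finset.mul_sum]
  refine Finset.sum_congr rfl fun x _ => Finset.sum_congr rfl fun y _ =>
    Finset.sum_congr rfl fun z _ => by ring

private theorem zl_congr (B : Finset ℤ) (s : ℤ) (j : ℕ) {F₀ F₁ F₂ F₀' F₁' F₂' : ℤ → ℤ → ℝ}
    (h0 : ∀ x ∈ B, ∀ y ∈ B, F₀ x y = F₀' x y) (h1 : ∀ x ∈ B, ∀ y ∈ B, F₁ x y = F₁' x y)
    (h2 : ∀ x ∈ B, ∀ y ∈ B, F₂ x y = F₂' x y) :
    LamI B s j F₀ F₁ F₂ = LamI B s j F₀' F₁' F₂' := by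
  unfold LamI
  refine Finset.sum_congr rfl fun x hx => Finset.sum_congr rfl fun y hy =>
    Finset.sum_congr rfl fun z hz => by rw [h0 x hx y hy, h1 y hy z hz, h2 z hz x hx]

private theorem zl_sum (B : Finset ℤ) (s : ℤ) (j : ℕ) (K : Finset ℤ)
    (F₀ F₁ F₂ : ℤ → ℤ → ℤ → ℝ) :
    LamI B s j (fun x y => ∑ k ∈ K, F₀ k x y) (fun x y => ∑ k ∈ K, F₁ k x y)
      (fun x y => ∑ k ∈ K, F₂ k x y) =
    ∑ q ∈ K, ∑ p ∈ K, ∑ r ∈ K, LamI B s j (F₀ p) (F₁ q) (F₂ r) := by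
  unfold LamI
  have e : ∀ x y z : ℤ, rhoZ j (x + y + z - s) * (∑ k ∈ K, F₀ k x y) * (∑ k ∈ K, F₁ k y z) *
      (∑ k ∈ K, F₂ k z x) = ∑ q ∈ K, ∑ p ∈ K, ∑ r ∈ K,
        rhoZ j (x + y + z - s) * F₀ p x y * F₁ q y z * F₂ r z x := by
    intro x y z
    rw [mul_assoc, mul_assoc, Finset.sum_mul_sum, mul_comm (∑ k ∈ K, F₀ k x y),
      Finset.sum_mul]
    rw [Finset.mul_sum]
    refine Finset.sum_congr rfl fun q _ => ?_
    rw [Finset.sum_mul_sum, Finset.mul_sum, Finset.sum_comm' (t' := K) (s' := fun _ => K)]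
    · refine Finset.sum_congr rfl fun p _ => ?_
      rw [Finset.mul_sum]
      exact Finset.sum_congr rfl fun r _ => by ring
    · intro a b
      exact Iff.rfl
  simp only [e]
  calc ∑ x ∈ B, ∑ y ∈ B, ∑ z ∈ B, ∑ q ∈ K, ∑ p ∈ K, ∑ r ∈ K,
        rhoZ j (x + y + z - s) * F₀ p x y * F₁ q y z * F₂ r z x
      = ∑ t ∈ B ×ˢ B ×ˢ B, ∑ u ∈ K ×ˢ K ×ˢ K, rhoZ j (t.1 + t.2.1 + t.2.2 - s) *
          F₀ u.2.1 t.1 t.2.1 * F₁ u.1 t.2.1 t.2.2 * F₂ u.2.2 t.2.2 t.1 := by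
        simp only [Finset.sum_product]
    _ = ∑ u ∈ K ×ˢ K ×ˢ K, ∑ t ∈ B ×ˢ B ×ˢ B, rhoZ j (t.1 + t.2.1 + t.2.2 - s) *
          F₀ u.2.1 t.1 t.2.1 * F₁ u.1 t.2.1 t.2.2 * F₂ u.2.2 t.2.2 t.1 := Finset.sum_comm
    _ = _ := by simp only [Finset.sum_product]

private theorem zl_lv_sum {B : Finset ℤ} (F : ℤ → ℤ → ℝ) {K : Finset ℤ}
    (hK : ∀ x ∈ B, ∀ y ∈ B, Int.log 2 |F x y| ∈ K) :
    ∀ x ∈ B, ∀ y ∈ B, F x y = ∑ k ∈ K, lvI F k x y := by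
  intro x hx y hy
  unfold lvI
  rw [Finset.sum_ite_eq, if_pos (hK x hx y hy)]

private theorem zl_abs_lv_le (F : ℤ → ℤ → ℝ) (k : ℤ) (x y : ℤ) :
    |lvI F k x y| ≤ (2 : ℝ) ^ ((k : ℝ) + 1) := by
  unfold lvI
  split_ifs with h
  · have h1 := Int.lt_zpow_succ_log_self (b := 2) (by norm_num) |F x y|
    rw [h] at h1
    have h2 : (2 : ℝ) ^ ((k : ℝ) + 1) = (2 : ℝ) ^ (k + 1) := by
      rw [← Real.rpow_intCast]
      push_cast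
      rfl
    rw [h2]
    exact_mod_cast h1.le
  · simp only [abs_zero]
    positivity

private theorem zl_sum_nz_le (B : Finset ℤ) (F : ℤ → ℤ → ℝ) (K : Finset ℤ) :
    ∑ k ∈ K, (2 : ℝ) ^ (3 * (k : ℝ)) * nzI B (lvI F k) ≤ ∑ x ∈ B, ∑ y ∈ B, |F x y| ^ 3 := by
  unfold nzI
  simp only [Finset.mul_sum]
  rw [Finset.sum_comm]
  refine Finset.sum_le_sum fun x _ => ?_
  rw [Finset.sum_comm]
  refine Finset.sum_le_sum fun y _ => ?_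
  by_cases hF : F x y = 0
  · simp [lvI, hF]
  · have h1 : ∀ k ∈ K, (2 : ℝ) ^ (3 * (k : ℝ)) * (if lvI F k x y ≠ 0 then 1 else 0)
        = if Int.log 2 |F x y| = k then (2 : ℝ) ^ (3 * (k : ℝ)) else 0 := by
      intro k _
      unfold lvI
      by_cases h : Int.log 2 |F x y| = k
      · simp [h, hF]
      · simp [h]
    rw [Finset.sum_congr rfl h1, Finset.sum_ite_eq]
    split_ifs
    · have h2 := Int.zpow_log_le_self (b := 2) (by norm_num) (abs_pos.2 hF)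
      have h3 : (2 : ℝ) ^ (3 * ((Int.log 2 |F x y| : ℤ) : ℝ))
          = ((2 : ℝ) ^ (Int.log 2 |F x y|)) ^ 3 := by
        rw [mul_comm, Real.rpow_mul (by norm_num), Real.rpow_intCast]
        norm_num
      rw [h3]
      have h4 : (2 : ℝ) ^ (Int.log 2 |F x y|) ≤ |F x y| := by exact_mod_cast h2
      exact pow_le_pow_left₀ (by positivity) h4 3
    · positivity

private theorem zl_nz_nonneg (B : Finset ℤ) (F : ℤ → ℤ → ℝ) : 0 ≤ nzI B F := by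
  unfold nzI
  exact Finset.sum_nonneg fun x _ => Finset.sum_nonneg fun y _ => by split_ifs <;> norm_num

private theorem zl_nz_smul {a : ℝ} (ha : a ≠ 0) (B : Finset ℤ) (F : ℤ → ℤ → ℝ) :
    nzI B (fun x y => a * F x y) = nzI B F := by
  unfold nzI
  simp [ha]

private theorem zl_trip {B : Finset ℤ} {s : ℤ} {S : Finset ℕ} {K0 : ℝ} (hK0 : 0 ≤ K0)
    (hres : ∀ F₀ F₁ F₂ : ℤ → ℤ → ℝ,
      (∀ x y, |F₀ x y| ≤ 1) → (∀ x y, |F₁ x y| ≤ 1) → (∀ x y, |F₂ x y| ≤ 1) →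
      ∑ j ∈ S, |LamI B s j F₀ F₁ F₂| ≤
        K0 * ((nzI B F₀ * nzI B F₂) ^ ((5 : ℝ) / 12) * (nzI B F₁) ^ ((1 : ℝ) / 6)))
    (F₀ F₁ F₂ : ℤ → ℤ → ℝ) {p q r : ℤ} (hp : q ≤ p) (hr : q ≤ r) :
    ∑ j ∈ S, |LamI B s j (lvI F₀ p) (lvI F₁ q) (lvI F₂ r)| ≤
      8 * K0 * (wt p q * wt r q * ((2 : ℝ) ^ (3 * (p : ℝ)) * nzI B (lvI F₀ p)
        + (2 : ℝ) ^ (3 * (q : ℝ)) * nzI B (lvI F₁ q)
        + (2 : ℝ) ^ (3 * (r : ℝ)) * nzI B (lvI F₂ r))) := by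
  have h2 : (0 : ℝ) < 2 := by norm_num
  set a : ℝ := (2 : ℝ) ^ (-((p : ℝ) + 1)) with ha
  set b : ℝ := (2 : ℝ) ^ (-((q : ℝ) + 1)) with hb
  set c : ℝ := (2 : ℝ) ^ (-((r : ℝ) + 1)) with hc
  have ha0 : 0 < a := by positivity
  have hb0 : 0 < b := by positivity
  have hc0 : 0 < c := by positivity
  have hsc : ∀ (F : ℤ → ℤ → ℝ) (k : ℤ) (x y : ℤ),
      |(2 : ℝ) ^ (-((k : ℝ) + 1)) * lvI F k x y| ≤ 1 := by
    intro F k x y
    rw [abs_mul, abs_of_pos (Real.rpow_pos_of_pos h2 _)]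
    calc (2 : ℝ) ^ (-((k : ℝ) + 1)) * |lvI F k x y|
        ≤ (2 : ℝ) ^ (-((k : ℝ) + 1)) * (2 : ℝ) ^ ((k : ℝ) + 1) :=
          mul_le_mul_of_nonneg_left (zl_abs_lv_le F k x y) (by positivity)
      _ = 1 := by rw [← Real.rpow_add h2]; simp
  have h3 := hres (fun x y => a * lvI F₀ p x y) (fun x y => b * lvI F₁ q x y)
    (fun x y => c * lvI F₂ r x y) (hsc F₀ p) (hsc F₁ q) (hsc F₂ r)
  rw [zl_nz_smul ha0.ne', zl_nz_smul hb0.ne', zl_nz_smul hc0.ne'] at h3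
  have h4 : ∀ j ∈ S, |LamI B s j (lvI F₀ p) (lvI F₁ q) (lvI F₂ r)| =
      (8 * (2 : ℝ) ^ ((p : ℝ) + q + r)) *
      |LamI B s j (fun x y => a * lvI F₀ p x y) (fun x y => b * lvI F₁ q x y)
        (fun x y => c * lvI F₂ r x y)| := by
    intro j _
    rw [zl_smul, abs_mul, abs_of_pos (mul_pos (mul_pos ha0 hb0) hc0), ← mul_assoc]
    have e1 : 8 * (2 : ℝ) ^ ((p : ℝ) + q + r) * (a * b * c) = 1 := by
      have e2 : (8 : ℝ) = (2 : ℝ) ^ (3 : ℝ) := by norm_num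
      rw [ha, hb, hc, e2, ← Real.rpow_add h2, ← Real.rpow_add h2, ← Real.rpow_add h2,
        ← Real.rpow_add h2]
      have e3 : (3 : ℝ) + ((p : ℝ) + q + r) + (-((p : ℝ) + 1) + -((q : ℝ) + 1) + -((r : ℝ) + 1))
          = 0 := by ring
      rw [e3, Real.rpow_zero]
    rw [e1, one_mul]
  rw [Finset.sum_congr rfl h4, ← Finset.mul_sum]
  calc 8 * (2 : ℝ) ^ ((p : ℝ) + q + r) * ∑ j ∈ S, |LamI B s j (fun x y => a * lvI F₀ p x y)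
        (fun x y => b * lvI F₁ q x y) (fun x y => c * lvI F₂ r x y)|
      ≤ 8 * (2 : ℝ) ^ ((p : ℝ) + q + r) * (K0 * ((nzI B (lvI F₀ p) *
          nzI B (lvI F₂ r)) ^ ((5 : ℝ) / 12)
          * (nzI B (lvI F₁ q)) ^ ((1 : ℝ) / 6))) := mul_le_mul_of_nonneg_left h3 (by positivity)
    _ = 8 * K0 * ((2 : ℝ) ^ ((p : ℝ) + q + r) * ((nzI B (lvI F₀ p) *
          nzI B (lvI F₂ r)) ^ ((5 : ℝ) / 12)
          * (nzI B (lvI F₁ q)) ^ ((1 : ℝ) / 6))) := by ring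
    _ ≤ _ := mul_le_mul_of_nonneg_left (tri_bound hp hr (zl_nz_nonneg B _) (zl_nz_nonneg B _)
          (zl_nz_nonneg B _)) (by positivity)

private theorem zl_unnormalized {B : Finset ℤ} {s : ℤ} {S : Finset ℕ} {K0 : ℝ} (hK0 : 0 ≤ K0)
    (hres : ∀ F₀ F₁ F₂ : ℤ → ℤ → ℝ,
      (∀ x y, |F₀ x y| ≤ 1) → (∀ x y, |F₁ x y| ≤ 1) → (∀ x y, |F₂ x y| ≤ 1) →
      ∑ j ∈ S, |LamI B s j F₀ F₁ F₂| ≤
        K0 * ((nzI B F₀ * nzI B F₂) ^ ((5 : ℝ) / 12) * (nzI B F₁) ^ ((1 : ℝ) / 6)))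
    (F₀ F₁ F₂ : ℤ → ℤ → ℝ) :
    ∑ j ∈ S, |LamI B s j F₀ F₁ F₂| ≤ 24 * K0 * Gc ^ 2 *
      (∑ x ∈ B, ∑ y ∈ B, |F₀ x y| ^ 3 + ∑ x ∈ B, ∑ y ∈ B, |F₁ x y| ^ 3 +
        ∑ x ∈ B, ∑ y ∈ B, |F₂ x y| ^ 3) := by
  classical
  let lg : (ℤ → ℤ → ℝ) → Finset ℤ := fun F =>
    (B ×ˢ B).image fun z => Int.log 2 |F z.1 z.2|
  have hlg : ∀ (F : ℤ → ℤ → ℝ), ∀ x ∈ B, ∀ y ∈ B, Int.log 2 |F x y| ∈ lg F := by
    intro F x hx y hy
    exact Finset.mem_image.2 ⟨(x, y), Finset.mem_product.2 ⟨hx, hy⟩, rfl⟩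
  set K : Finset ℤ := lg F₀ ∪ lg F₁ ∪ lg F₂ with hK
  have hK₀ : ∀ x ∈ B, ∀ y ∈ B, Int.log 2 |F₀ x y| ∈ K := fun x hx y hy =>
    Finset.mem_union_left _ (Finset.mem_union_left _ (hlg F₀ x hx y hy))
  have hK₁ : ∀ x ∈ B, ∀ y ∈ B, Int.log 2 |F₁ x y| ∈ K := fun x hx y hy =>
    Finset.mem_union_left _ (Finset.mem_union_right _ (hlg F₁ x hx y hy))
  have hK₂ : ∀ x ∈ B, ∀ y ∈ B, Int.log 2 |F₂ x y| ∈ K := fun x hx y hy =>
    Finset.mem_union_right _ (hlg F₂ x hx y hy)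
  have hdec : ∀ j, LamI B s j F₀ F₁ F₂ = ∑ q ∈ K, ∑ p ∈ K, ∑ r ∈ K,
      LamI B s j (lvI F₀ p) (lvI F₁ q) (lvI F₂ r) := by
    intro j
    rw [← zl_sum]
    exact zl_congr B s j (zl_lv_sum F₀ hK₀) (zl_lv_sum F₁ hK₁) (zl_lv_sum F₂ hK₂)
  set A0 : ℤ → ℝ := fun p => (2 : ℝ) ^ (3 * (p : ℝ)) * nzI B (lvI F₀ p) with hA0
  set A1 : ℤ → ℝ := fun p => (2 : ℝ) ^ (3 * (p : ℝ)) * nzI B (lvI F₁ p) with hA1
  set A2 : ℤ → ℝ := fun p => (2 : ℝ) ^ (3 * (p : ℝ)) * nzI B (lvI F₂ p) with hA2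
  have nA0 : ∀ k, 0 ≤ A0 k := fun k => mul_nonneg (by positivity) (zl_nz_nonneg B _)
  have nA1 : ∀ k, 0 ≤ A1 k := fun k => mul_nonneg (by positivity) (zl_nz_nonneg B _)
  have nA2 : ∀ k, 0 ≤ A2 k := fun k => mul_nonneg (by positivity) (zl_nz_nonneg B _)
  have hT : ∀ p q r : ℤ, ∑ j ∈ S, |LamI B s j (lvI F₀ p) (lvI F₁ q) (lvI F₂ r)| ≤
      8 * K0 * (wt p q * wt r q * (A0 p + A1 q + A2 r) + wt q r * wt p r * (A1 q + A2 r + A0 p)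
        + wt r p * wt q p * (A2 r + A0 p + A1 q)) := by
    intro p q r
    have w1 : 0 ≤ wt p q * wt r q * (A0 p + A1 q + A2 r) :=
      mul_nonneg (mul_nonneg (wt_nonneg _ _) (wt_nonneg _ _))
        (add_nonneg (add_nonneg (nA0 _) (nA1 _)) (nA2 _))
    have w2 : 0 ≤ wt q r * wt p r * (A1 q + A2 r + A0 p) :=
      mul_nonneg (mul_nonneg (wt_nonneg _ _) (wt_nonneg _ _))
        (add_nonneg (add_nonneg (nA1 _) (nA2 _)) (nA0 _))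
    have w3 : 0 ≤ wt r p * wt q p * (A2 r + A0 p + A1 q) :=
      mul_nonneg (mul_nonneg (wt_nonneg _ _) (wt_nonneg _ _))
        (add_nonneg (add_nonneg (nA2 _) (nA0 _)) (nA1 _))
    have h8 : 0 ≤ 8 * K0 := by positivity
    by_cases c1 : q ≤ p ∧ q ≤ r
    · refine (zl_trip hK0 hres F₀ F₁ F₂ c1.1 c1.2).trans (mul_le_mul_of_nonneg_left ?_ h8)
      linarith
    · by_cases c2 : r ≤ q ∧ r ≤ p
      · have h5 := zl_trip hK0 hres F₁ F₂ F₀ c2.1 c2.2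
        have h6 : ∑ j ∈ S, |LamI B s j (lvI F₀ p) (lvI F₁ q) (lvI F₂ r)|
            = ∑ j ∈ S, |LamI B s j (lvI F₁ q) (lvI F₂ r) (lvI F₀ p)| :=
          Finset.sum_congr rfl fun j _ => by rw [LamI_cyc]
        rw [h6]
        refine h5.trans (mul_le_mul_of_nonneg_left ?_ h8)
        linarith
      · have c3 : p ≤ r ∧ p ≤ q := by omega
        have h5 := zl_trip hK0 hres F₂ F₀ F₁ c3.1 c3.2
        have h6 : ∑ j ∈ S, |LamI B s j (lvI F₀ p) (lvI F₁ q) (lvI F₂ r)|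
            = ∑ j ∈ S, |LamI B s j (lvI F₂ r) (lvI F₀ p) (lvI F₁ q)| :=
          Finset.sum_congr rfl fun j _ => by rw [LamI_cyc, LamI_cyc]
        rw [h6]
        refine h5.trans (mul_le_mul_of_nonneg_left ?_ h8)
        linarith
  have hsum : ∑ j ∈ S, |LamI B s j F₀ F₁ F₂| ≤ ∑ q ∈ K, ∑ p ∈ K, ∑ r ∈ K,
      ∑ j ∈ S, |LamI B s j (lvI F₀ p) (lvI F₁ q) (lvI F₂ r)| := by
    calc ∑ j ∈ S, |LamI B s j F₀ F₁ F₂|
        ≤ ∑ j ∈ S, ∑ q ∈ K, ∑ p ∈ K, ∑ r ∈ K,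
            |LamI B s j (lvI F₀ p) (lvI F₁ q) (lvI F₂ r)| := by
          refine Finset.sum_le_sum fun j _ => ?_
          rw [hdec j]
          refine (Finset.abs_sum_le_sum_abs _ _).trans (Finset.sum_le_sum fun q _ => ?_)
          refine (Finset.abs_sum_le_sum_abs _ _).trans (Finset.sum_le_sum fun p _ => ?_)
          exact Finset.abs_sum_le_sum_abs _ _
      _ = _ := by
          rw [Finset.sum_comm]
          refine Finset.sum_congr rfl fun q _ => ?_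
          rw [Finset.sum_comm]
          refine Finset.sum_congr rfl fun p _ => ?_
          rw [Finset.sum_comm]
  have s1 := sum_center K A0 A1 A2 nA0 nA1 nA2
  have s2 := sum_center K A1 A2 A0 nA1 nA2 nA0
  have s3 := sum_center K A2 A0 A1 nA2 nA0 nA1
  have s2' : ∑ q ∈ K, ∑ p ∈ K, ∑ r ∈ K, wt q r * wt p r * (A1 q + A2 r + A0 p)
      = ∑ r ∈ K, ∑ q ∈ K, ∑ p ∈ K, wt q r * wt p r * (A1 q + A2 r + A0 p) := by
    rw [Finset.sum_comm]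
    have : ∀ p ∈ K, ∑ q ∈ K, ∑ r ∈ K, wt q r * wt p r * (A1 q + A2 r + A0 p)
        = ∑ r ∈ K, ∑ q ∈ K, wt q r * wt p r * (A1 q + A2 r + A0 p) := fun p _ => Finset.sum_comm
    rw [Finset.sum_congr rfl this, Finset.sum_comm]
    exact Finset.sum_congr rfl fun r _ => Finset.sum_comm
  have s3' : ∑ q ∈ K, ∑ p ∈ K, ∑ r ∈ K, wt r p * wt q p * (A2 r + A0 p + A1 q)
      = ∑ p ∈ K, ∑ r ∈ K, ∑ q ∈ K, wt r p * wt q p * (A2 r + A0 p + A1 q) := by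
    rw [Finset.sum_comm]
    exact Finset.sum_congr rfl fun p _ => Finset.sum_comm
  have hbig : ∑ q ∈ K, ∑ p ∈ K, ∑ r ∈ K,
      ∑ j ∈ S, |LamI B s j (lvI F₀ p) (lvI F₁ q) (lvI F₂ r)| ≤ 8 * K0 * (3 * (Gc ^ 2 *
        (∑ p ∈ K, A0 p + ∑ p ∈ K, A1 p + ∑ p ∈ K, A2 p))) := by
    calc _ ≤ ∑ q ∈ K, ∑ p ∈ K, ∑ r ∈ K, 8 * K0 * (wt p q * wt r q * (A0 p + A1 q + A2 r)
              + wt q r * wt p r * (A1 q + A2 r + A0 p)
              + wt r p * wt q p * (A2 r + A0 p + A1 q)) :=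
          Finset.sum_le_sum fun q _ => Finset.sum_le_sum fun p _ =>
            Finset.sum_le_sum fun r _ => hT p q r
      _ = 8 * K0 * (∑ q ∈ K, ∑ p ∈ K, ∑ r ∈ K, wt p q * wt r q * (A0 p + A1 q + A2 r)
              + ∑ q ∈ K, ∑ p ∈ K, ∑ r ∈ K, wt q r * wt p r * (A1 q + A2 r + A0 p)
              + ∑ q ∈ K, ∑ p ∈ K, ∑ r ∈ K, wt r p * wt q p * (A2 r + A0 p + A1 q)) := by
          simp only [← Finset.sum_add_distrib, Finset.mul_sum]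
      _ ≤ _ := by
          refine mul_le_mul_of_nonneg_left ?_ (by positivity)
          rw [s2', s3']
          nlinarith [s1, s2, s3]
  have n0 := zl_sum_nz_le B F₀ K
  have n1 := zl_sum_nz_le B F₁ K
  have n2 := zl_sum_nz_le B F₂ K
  have hG2 : 0 ≤ Gc ^ 2 := sq_nonneg _
  calc ∑ j ∈ S, |LamI B s j F₀ F₁ F₂| ≤ _ := hsum
    _ ≤ _ := hbig
    _ = 24 * K0 * Gc ^ 2 * (∑ p ∈ K, A0 p + ∑ p ∈ K, A1 p + ∑ p ∈ K, A2 p) := by ring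
    _ ≤ _ := mul_le_mul_of_nonneg_left (by linarith) (by positivity)

private theorem zl_l3_nonneg (B : Finset ℤ) (F : ℤ → ℤ → ℝ) : 0 ≤ l3I B F := by
  unfold l3I; positivity

private theorem zl_l3_cube (B : Finset ℤ) (F : ℤ → ℤ → ℝ) :
    l3I B F ^ 3 = ∑ x ∈ B, ∑ y ∈ B, |F x y| ^ 3 := by
  unfold l3I
  rw [← Real.rpow_natCast, ← Real.rpow_mul (by positivity)]
  norm_num

private theorem zl_l3_zero {B : Finset ℤ} {F : ℤ → ℤ → ℝ} (h : l3I B F = 0) :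
    ∀ x ∈ B, ∀ y ∈ B, F x y = 0 := by
  have h1 := zl_l3_cube B F
  rw [h] at h1
  intro x hx y hy
  have h2 : ∑ x ∈ B, ∑ y ∈ B, |F x y| ^ 3 = 0 := by rw [← h1]; norm_num
  have h3 := (Finset.sum_eq_zero_iff_of_nonneg (fun x _ => by positivity)).1 h2 x hx
  have h4 := (Finset.sum_eq_zero_iff_of_nonneg (fun y _ => by positivity)).1 h3 y hy
  simpa using h4

theorem finiteThmI : ∃ C : ℝ, 0 < C ∧ ∀ (B : Finset ℤ) (s : ℤ) (m : ℕ) (S : Finset ℕ), 2 ≤ m →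
    S.card ≤ m → (∀ k ∈ S, 2 ≤ k) → ∀ F₀ F₁ F₂ : ℤ → ℤ → ℝ,
    ∑ k ∈ S, |LamI B s k F₀ F₁ F₂| ≤
      C * (1 + Real.log m) ^ 6 * (l3I B F₀ * l3I B F₁ * l3I B F₂) := by
  obtain ⟨C, hC, hres⟩ := restrictedI
  refine ⟨72 * C * Gc ^ 2 + 1, by positivity, ?_⟩
  intro B s m S hm hS hSN F₀ F₁ F₂
  have hlog : 0 ≤ Real.log m := Real.log_natCast_nonneg m
  have hK0 : 0 ≤ C * (1 + Real.log m) ^ 6 := by positivity
  have hun := zl_unnormalized hK0 (hres B s m S hm hS hSN)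
  have l0 := zl_l3_nonneg B F₀
  have l1 := zl_l3_nonneg B F₁
  have l2' := zl_l3_nonneg B F₂
  have hR : 0 ≤ (72 * C * Gc ^ 2 + 1) * (1 + Real.log m) ^ 6 *
      (l3I B F₀ * l3I B F₁ * l3I B F₂) := by positivity
  rcases l0.eq_or_lt with h0 | h0
  · have : ∀ k ∈ S, |LamI B s k F₀ F₁ F₂| = 0 := by
      intro k _
      rw [abs_eq_zero]
      unfold LamI
      refine Finset.sum_eq_zero fun x hx => Finset.sum_eq_zero fun y hy =>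
        Finset.sum_eq_zero fun z hz => ?_
      rw [zl_l3_zero h0.symm x hx y hy]; ring
    rw [Finset.sum_eq_zero this]
    exact hR
  rcases l1.eq_or_lt with h1 | h1
  · have : ∀ k ∈ S, |LamI B s k F₀ F₁ F₂| = 0 := by
      intro k _
      rw [abs_eq_zero]
      unfold LamI
      refine Finset.sum_eq_zero fun x hx => Finset.sum_eq_zero fun y hy =>
        Finset.sum_eq_zero fun z hz => ?_
      rw [zl_l3_zero h1.symm y hy z hz]; ring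
    rw [Finset.sum_eq_zero this]
    exact hR
  rcases l2'.eq_or_lt with h2 | h2
  · have : ∀ k ∈ S, |LamI B s k F₀ F₁ F₂| = 0 := by
      intro k _
      rw [abs_eq_zero]
      unfold LamI
      refine Finset.sum_eq_zero fun x hx => Finset.sum_eq_zero fun y hy =>
        Finset.sum_eq_zero fun z hz => ?_
      rw [zl_l3_zero h2.symm z hz x hx]; ring
    rw [Finset.sum_eq_zero this]
    exact hR
  have hnorm : ∀ F : ℤ → ℤ → ℝ, 0 < l3I B F →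
      ∑ x ∈ B, ∑ y ∈ B, |(l3I B F)⁻¹ * F x y| ^ 3 = 1 := by
    intro F hF
    simp only [abs_mul, mul_pow, ← Finset.mul_sum]
    rw [← zl_l3_cube B F, abs_of_pos (inv_pos.2 hF), ← mul_pow, inv_mul_cancel₀ hF.ne', one_pow]
  have h3 := hun (fun x y => (l3I B F₀)⁻¹ * F₀ x y) (fun x y => (l3I B F₁)⁻¹ * F₁ x y)
    (fun x y => (l3I B F₂)⁻¹ * F₂ x y)
  rw [hnorm F₀ h0, hnorm F₁ h1, hnorm F₂ h2] at h3
  have h4 : ∀ j ∈ S, |LamI B s j F₀ F₁ F₂| = (l3I B F₀ * l3I B F₁ * l3I B F₂) *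
      |LamI B s j (fun x y => (l3I B F₀)⁻¹ * F₀ x y) (fun x y => (l3I B F₁)⁻¹ * F₁ x y)
        (fun x y => (l3I B F₂)⁻¹ * F₂ x y)| := by
    intro j _
    rw [zl_smul, abs_mul,
      abs_of_pos (show 0 < (l3I B F₀)⁻¹ * (l3I B F₁)⁻¹ * (l3I B F₂)⁻¹ by positivity)]
    field_simp
  rw [Finset.sum_congr rfl h4, ← Finset.mul_sum]
  have hp : 0 < l3I B F₀ * l3I B F₁ * l3I B F₂ := by positivity
  calc l3I B F₀ * l3I B F₁ * l3I B F₂ * ∑ j ∈ S, |LamI B s j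
        (fun x y => (l3I B F₀)⁻¹ * F₀ x y)
        (fun x y => (l3I B F₁)⁻¹ * F₁ x y) (fun x y => (l3I B F₂)⁻¹ * F₂ x y)|
      ≤ l3I B F₀ * l3I B F₁ * l3I B F₂ *
          (24 * (C * (1 + Real.log m) ^ 6) * Gc ^ 2 * (1 + 1 + 1)) :=
        mul_le_mul_of_nonneg_left h3 hp.le
    _ = (72 * C * Gc ^ 2) * (1 + Real.log m) ^ 6 * (l3I B F₀ * l3I B F₁ * l3I B F₂) := by ring
    _ ≤ (72 * C * Gc ^ 2 + 1) * (1 + Real.log m) ^ 6 * (l3I B F₀ * l3I B F₁ * l3I B F₂) := by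
        have : 0 ≤ (1 + Real.log m) ^ 6 * (l3I B F₀ * l3I B F₁ * l3I B F₂) := by positivity
        nlinarith

end Vale.Agent.P075
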