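import Vale.Agent.P075.ZLocal
import Vale.Agent.P075.ZCellDefs

namespace Vale.Agent.P075

open Finset

theorem ZLoc_div (k : ℕ) (x q : ℤ) : x / 2 ^ k = q ↔ q * 2 ^ k ≤ x ∧ x < q * 2 ^ k + 2 ^ k := by
  have hP : (0 : ℤ) < 2 ^ k := by positivity
  have h1 : x / 2 ^ k = q ↔ q ≤ x / 2 ^ k ∧ x / 2 ^ k < q + 1 := by omega
  rw [h1, Int.le_ediv_iff_mul_le hP, Int.ediv_lt_iff_lt_mul hP, add_mul, one_mul]

theorem ZLoc_sum_cell (B : Finset ℤ) (k : ℕ) (q : ℤ) (g : ℤ → ℝ) :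
    ∑ x ∈ B, (if x / 2 ^ k = q then g x else 0) =
      ∑ a : G k, (if q * 2 ^ k + (und a : ℤ) ∈ B then g (q * 2 ^ k + (und a : ℤ)) else 0) := by
  rw [sum_und (N := k) (fun n : ℕ => if q * 2 ^ k + (n : ℤ) ∈ B then g (q * 2 ^ k + (n : ℤ)) else 0)]
  rw [← Finset.sum_filter, ← Finset.sum_filter]
  have hP : ((2 ^ k : ℕ) : ℤ) = 2 ^ k := by push_cast; ring
  refine Finset.sum_nbij' (fun x => (x - q * 2 ^ k).toNat) (fun n => q * 2 ^ k + (n : ℤ))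
    ?_ ?_ ?_ ?_ ?_
  · intro x hx
    rw [Finset.mem_filter, ZLoc_div] at hx
    obtain ⟨hB, h1, h2⟩ := hx
    have h3 : ((x - q * 2 ^ k).toNat : ℤ) = x - q * 2 ^ k := Int.toNat_of_nonneg (by linarith)
    simp only [Finset.mem_filter, Finset.mem_range]
    refine ⟨?_, ?_⟩
    · zify
      rw [h3]
      linarith
    · rw [h3, show q * 2 ^ k + (x - q * 2 ^ k) = x by ring]
      exact hB
  · intro n hn
    rw [Finset.mem_filter, Finset.mem_range] at hn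
    rw [Finset.mem_filter, ZLoc_div]
    obtain ⟨h1, h2⟩ := hn
    have h1' : (n : ℤ) < 2 ^ k := by rw [← hP]; exact_mod_cast h1
    exact ⟨h2, by linarith [Int.natCast_nonneg n], by linarith⟩
  · intro x hx
    rw [Finset.mem_filter, ZLoc_div] at hx
    obtain ⟨hB, h1, h2⟩ := hx
    have h3 : ((x - q * 2 ^ k).toNat : ℤ) = x - q * 2 ^ k := Int.toNat_of_nonneg (by linarith)
    rw [h3]
    ring
  · intro n hn
    rw [show q * 2 ^ k + (n : ℤ) - q * 2 ^ k = n by ring]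
    simp
  · intro x hx
    rw [Finset.mem_filter, ZLoc_div] at hx
    obtain ⟨hB, h1, h2⟩ := hx
    have h3 : ((x - q * 2 ^ k).toNat : ℤ) = x - q * 2 ^ k := Int.toNat_of_nonneg (by linarith)
    rw [h3]
    congr 1
    ring

theorem ZLoc_sum_cell2 (B : Finset ℤ) (k : ℕ) (q r : ℤ) (g : ℤ → ℤ → ℝ) :
    ∑ x ∈ B, ∑ y ∈ B, (if x / 2 ^ k = q ∧ y / 2 ^ k = r then g x y else 0) =
      ∑ a : G k, ∑ b : G k, (if q * 2 ^ k + (und a : ℤ) ∈ B ∧ r * 2 ^ k + (und b : ℤ) ∈ B then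
        g (q * 2 ^ k + (und a : ℤ)) (r * 2 ^ k + (und b : ℤ)) else 0) := by
  have h1 : ∀ x ∈ B, ∑ y ∈ B, (if x / 2 ^ k = q ∧ y / 2 ^ k = r then g x y else 0) =
      if x / 2 ^ k = q then ∑ y ∈ B, (if y / 2 ^ k = r then g x y else 0) else 0 := by
    intro x _
    split_ifs with h
    · simp [h]
    · simp [h]
  rw [Finset.sum_congr rfl h1, ZLoc_sum_cell]
  refine Finset.sum_congr rfl fun a _ => ?_
  rw [ZLoc_sum_cell]
  by_cases h : q * 2 ^ k + (und a : ℤ) ∈ B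
  · simp [h]
  · simp [h]

/-- F₀ on the cell (q, r) -/
noncomputable def zf0 (B : Finset ℤ) (k : ℕ) (q r : ℤ) (F : ℤ → ℤ → ℝ) : G k → G k → ℝ :=
  fun a b => if q * 2 ^ k + (und a : ℤ) ∈ B ∧ r * 2 ^ k + (und b : ℤ) ∈ B then
    F (q * 2 ^ k + (und a : ℤ)) (r * 2 ^ k + (und b : ℤ)) else 0

/-- a function on the cell (r, c) with a constraint -/
noncomputable def zf1 (B : Finset ℤ) (s : ℤ) (k : ℕ) (q r c : ℤ) (F : ℤ → ℤ → ℝ) :
    G k → G k → ℝ :=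
  fun b d => if r * 2 ^ k + (und b : ℤ) ∈ B ∧ c * 2 ^ k + (und d : ℤ) ∈ B then
    (if |(s - (r * 2 ^ k + (und b : ℤ)) - (c * 2 ^ k + (und d : ℤ))) / 2 ^ k - q| ≤ 1 then
      F (r * 2 ^ k + (und b : ℤ)) (c * 2 ^ k + (und d : ℤ)) else 0) else 0

theorem ZLoc_near {k : ℕ} {x t q : ℤ} (hx : x / 2 ^ k = q) (ht : |t| < 2 ^ k) :
    |(x - t) / 2 ^ k - q| ≤ 1 := by
  have hP : (0 : ℤ) < 2 ^ k := by positivity
  rw [ZLoc_div] at hx
  rw [abs_lt] at ht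
  rw [abs_le]
  have h1 : q - 1 ≤ (x - t) / 2 ^ k := by
    rw [Int.le_ediv_iff_mul_le hP]; linarith [hx.1, ht.2]
  have h2 : (x - t) / 2 ^ k < q + 2 := by
    rw [Int.ediv_lt_iff_lt_mul hP]; linarith [hx.2, ht.1]
  constructor <;> omega

theorem ZLoc_window {k : ℕ} {x y z s q r : ℤ} (hx : x / 2 ^ k = q) (hy : y / 2 ^ k = r)
    (ht : |x + y + z - s| < 2 ^ k) :
    z / 2 ^ k ∈ Finset.Icc (s / 2 ^ k - q - r - 3) (s / 2 ^ k - q - r + 1) := by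
  have hP : (0 : ℤ) < 2 ^ k := by positivity
  rw [ZLoc_div] at hx hy
  rw [abs_lt] at ht
  have hs := (ZLoc_div k s (s / 2 ^ k)).1 rfl
  rw [Finset.mem_Icc]
  have h1 : s / 2 ^ k - q - r - 3 ≤ z / 2 ^ k := by
    rw [Int.le_ediv_iff_mul_le hP]; linarith [hx.2, hy.2, ht.1, hs.1]
  have h2 : z / 2 ^ k < s / 2 ^ k - q - r + 2 := by
    rw [Int.ediv_lt_iff_lt_mul hP]; linarith [hx.1, hy.1, ht.2, hs.2]
  constructor <;> omega

theorem ZLoc_zeq (B : Finset ℤ) (W : Finset ℤ) (k : ℕ) (g : ℤ → ℝ)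
    (hg : ∀ z ∈ B, g z ≠ 0 → z / 2 ^ k ∈ W) :
    ∑ z ∈ B, g z = ∑ c ∈ W, ∑ d : G k,
      (if c * 2 ^ k + (und d : ℤ) ∈ B then g (c * 2 ^ k + (und d : ℤ)) else 0) := by
  have h1 : ∀ z ∈ B, g z = ∑ c ∈ W, if z / 2 ^ k = c then g z else 0 := by
    intro z hz
    rw [Finset.sum_ite_eq W (z / 2 ^ k)]
    split_ifs with h
    · rfl
    · by_contra hne
      exact h (hg z hz hne)
  rw [Finset.sum_congr rfl h1, Finset.sum_comm]
  refine Finset.sum_congr rfl fun c _ => ?_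
  exact ZLoc_sum_cell B k c g

theorem ZLoc_expand (B : Finset ℤ) (s : ℤ) (k k' : ℕ) (hk : k' ≤ k) (q r : ℤ)
    (F₀ F₁ F₂ : ℤ → ℤ → ℝ) :
    LamI B s k' (cutI k q r F₀) F₁ F₂ =
      ∑ c ∈ Finset.Icc (s / 2 ^ k - q - r - 3) (s / 2 ^ k - q - r + 1),
        LamR (s - (q + r + c) * 2 ^ k) (k - k') (zf0 B k q r F₀) (zf1 B s k q r c F₁)
          (fun d a => zf1 B s k r q c (fun x z => F₂ z x) a d) := by
  have hPk : (2 : ℤ) ^ k' ≤ 2 ^ k := pow_le_pow_right₀ (by norm_num) hk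
  unfold LamI LamR
  -- left side
  have h1 : ∀ x ∈ B, ∀ y ∈ B,
      ∑ z ∈ B, rhoZ k' (x + y + z - s) * cutI k q r F₀ x y * F₁ y z * F₂ z x =
      if x / 2 ^ k = q ∧ y / 2 ^ k = r then
        ∑ c ∈ Finset.Icc (s / 2 ^ k - q - r - 3) (s / 2 ^ k - q - r + 1), ∑ d : G k,
          (if c * 2 ^ k + (und d : ℤ) ∈ B then
            rhoZ k' (x + y + (c * 2 ^ k + (und d : ℤ)) - s) * F₀ x y *
              F₁ y (c * 2 ^ k + (und d : ℤ)) * F₂ (c * 2 ^ k + (und d : ℤ)) x else 0) else 0 := by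
    intro x _ y _
    split_ifs with h
    · rw [← ZLoc_zeq B _ k (fun z => rhoZ k' (x + y + z - s) * F₀ x y * F₁ y z * F₂ z x)]
      · refine Finset.sum_congr rfl fun z _ => ?_
        unfold cutI
        rw [if_pos h]
      · intro z _ hne
        refine ZLoc_window h.1 h.2 ?_
        by_contra hcon
        rw [not_lt] at hcon
        refine hne ?_
        rw [rhoZ_support (hPk.trans hcon)]
        ring
    · refine Finset.sum_eq_zero fun z _ => ?_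
      unfold cutI
      rw [if_neg h]
      ring
  rw [Finset.sum_congr rfl fun x hx => Finset.sum_congr rfl fun y hy => h1 x hx y hy]
  rw [ZLoc_sum_cell2 B k q r (fun x y => ∑ c ∈ Finset.Icc (s / 2 ^ k - q - r - 3)
    (s / 2 ^ k - q - r + 1), ∑ d : G k,
          (if c * 2 ^ k + (und d : ℤ) ∈ B then
            rhoZ k' (x + y + (c * 2 ^ k + (und d : ℤ)) - s) * F₀ x y *
              F₁ y (c * 2 ^ k + (und d : ℤ)) * F₂ (c * 2 ^ k + (und d : ℤ)) x else 0))]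
  conv_rhs => rw [Finset.sum_comm]
  refine Finset.sum_congr rfl fun a _ => ?_
  conv_rhs => rw [Finset.sum_comm]
  refine Finset.sum_congr rfl fun b _ => ?_
  by_cases hab : q * 2 ^ k + (und a : ℤ) ∈ B ∧ r * 2 ^ k + (und b : ℤ) ∈ B
  swap
  · rw [if_neg hab]
    symm
    refine Finset.sum_eq_zero fun c _ => Finset.sum_eq_zero fun d _ => ?_
    unfold zf0
    rw [if_neg hab]
    ring
  rw [if_pos hab]
  refine Finset.sum_congr rfl fun c _ => Finset.sum_congr rfl fun d _ => ?_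
  simp only [zf0, zf1]
  rw [if_pos hab, show k - (k - k') = k' by omega]
  have e1 : (und a : ℤ) + und b + und d - (s - (q + r + c) * 2 ^ k) =
      q * 2 ^ k + (und a : ℤ) + (r * 2 ^ k + (und b : ℤ)) + (c * 2 ^ k + (und d : ℤ)) - s := by ring
  rw [e1]
  by_cases hd : c * 2 ^ k + (und d : ℤ) ∈ B
  swap
  · rw [if_neg hd, if_neg (fun h => hd h.2)]
    ring
  rw [if_pos hd, if_pos (⟨hab.2, hd⟩ : r * 2 ^ k + (und b : ℤ) ∈ B ∧ c * 2 ^ k + (und d : ℤ) ∈ B),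
    if_pos (⟨hab.1, hd⟩ : q * 2 ^ k + (und a : ℤ) ∈ B ∧ c * 2 ^ k + (und d : ℤ) ∈ B)]
  by_cases hrho : |q * 2 ^ k + (und a : ℤ) + (r * 2 ^ k + (und b : ℤ)) +
      (c * 2 ^ k + (und d : ℤ)) - s| < 2 ^ k
  swap
  · rw [not_lt] at hrho
    rw [rhoZ_support (hPk.trans hrho)]
    ring
  have hua : ((und a : ℕ) : ℤ) < 2 ^ k := by exact_mod_cast und_lt a
  have hub : ((und b : ℕ) : ℤ) < 2 ^ k := by exact_mod_cast und_lt b
  have ha : (q * 2 ^ k + (und a : ℤ)) / 2 ^ k = q := by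
    rw [ZLoc_div]
    constructor <;> linarith [Int.natCast_nonneg (und a)]
  have hb : (r * 2 ^ k + (und b : ℤ)) / 2 ^ k = r := by
    rw [ZLoc_div]
    constructor <;> linarith [Int.natCast_nonneg (und b)]
  have n1 := ZLoc_near ha hrho
  have n2 := ZLoc_near hb hrho
  rw [if_pos, if_pos]
  · convert n2 using 3
    ring_nf
  · convert n1 using 3
    ring_nf

theorem ZLoc_l2_zf0 (B : Finset ℤ) (k : ℕ) (q r : ℤ) (F : ℤ → ℤ → ℝ)
    (hF : ∀ x y, |F x y| ≤ 1) : l2 (zf0 B k q r F) ≤ Real.sqrt (n0 B F k q r) := by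
  unfold l2 n0
  refine Real.sqrt_le_sqrt ?_
  have h1 : ∑ x ∈ B, ∑ y ∈ B, (if F x y ≠ 0 ∧ x / 2 ^ k = q ∧ y / 2 ^ k = r then (1 : ℝ) else 0) =
      ∑ x ∈ B, ∑ y ∈ B, (if x / 2 ^ k = q ∧ y / 2 ^ k = r then
        (if F x y ≠ 0 then (1 : ℝ) else 0) else 0) := by
    refine Finset.sum_congr rfl fun x _ => Finset.sum_congr rfl fun y _ => ?_
    split_ifs <;> tauto
  rw [h1, ZLoc_sum_cell2]
  refine Finset.sum_le_sum fun a _ => Finset.sum_le_sum fun b _ => ?_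
  unfold zf0
  split_ifs with h2 h3
  · have := hF (q * 2 ^ k + (und a : ℤ)) (r * 2 ^ k + (und b : ℤ))
    rw [← sq_abs]
    nlinarith [abs_nonneg (F (q * 2 ^ k + (und a : ℤ)) (r * 2 ^ k + (und b : ℤ)))]
  · rw [not_not] at h3
    rw [h3]; norm_num
  · norm_num

theorem ZLoc_l2_zf1 (B : Finset ℤ) (s : ℤ) (k : ℕ) (q r c : ℤ) (F : ℤ → ℤ → ℝ)
    (hF : ∀ x y, |F x y| ≤ 1) : l2 (zf1 B s k q r c F) ≤ Real.sqrt (n1 B s F k q r) := by
  unfold l2 n1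
  refine Real.sqrt_le_sqrt ?_
  have h1 : ∑ y ∈ B, ∑ z ∈ B, (if y / 2 ^ k = r ∧ z / 2 ^ k = c then
        (if F y z ≠ 0 ∧ |(s - y - z) / 2 ^ k - q| ≤ 1 then (1 : ℝ) else 0) else 0) ≤
      ∑ y ∈ B, ∑ z ∈ B, (if F y z ≠ 0 ∧ y / 2 ^ k = r ∧ |(s - y - z) / 2 ^ k - q| ≤ 1 then
        (1 : ℝ) else 0) := by
    refine Finset.sum_le_sum fun x _ => Finset.sum_le_sum fun y _ => ?_
    split_ifs <;> first | tauto | norm_num
  refine le_trans ?_ h1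
  rw [ZLoc_sum_cell2]
  refine Finset.sum_le_sum fun b _ => Finset.sum_le_sum fun d _ => ?_
  unfold zf1
  by_cases h2 : r * 2 ^ k + (und b : ℤ) ∈ B ∧ c * 2 ^ k + (und d : ℤ) ∈ B
  swap
  · rw [if_neg h2, if_neg h2]; norm_num
  rw [if_pos h2, if_pos h2]
  by_cases h3 : |(s - (r * 2 ^ k + (und b : ℤ)) - (c * 2 ^ k + (und d : ℤ))) / 2 ^ k - q| ≤ 1
  swap
  · rw [if_neg h3, if_neg (fun h => h3 h.2)]; norm_num
  rw [if_pos h3]
  by_cases h4 : F (r * 2 ^ k + (und b : ℤ)) (c * 2 ^ k + (und d : ℤ)) = 0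
  · rw [h4, if_neg (fun h => h.1 rfl)]; norm_num
  · rw [if_pos ⟨h4, h3⟩]
    have := hF (r * 2 ^ k + (und b : ℤ)) (c * 2 ^ k + (und d : ℤ))
    rw [← sq_abs]
    nlinarith [abs_nonneg (F (r * 2 ^ k + (und b : ℤ)) (c * 2 ^ k + (und d : ℤ)))]

theorem ZLoc_n0_nonneg (B : Finset ℤ) (F : ℤ → ℤ → ℝ) (k : ℕ) (q r : ℤ) : 0 ≤ n0 B F k q r := by
  unfold n0
  exact Finset.sum_nonneg fun x _ => Finset.sum_nonneg fun y _ => by split_ifs <;> norm_num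

theorem ZLoc_n1_nonneg (B : Finset ℤ) (s : ℤ) (F : ℤ → ℤ → ℝ) (k : ℕ) (q r : ℤ) :
    0 ≤ n1 B s F k q r := by
  unfold n1
  exact Finset.sum_nonneg fun x _ => Finset.sum_nonneg fun y _ => by split_ifs <;> norm_num

theorem ZLoc_n2 (B : Finset ℤ) (s : ℤ) (F : ℤ → ℤ → ℝ) (k : ℕ) (q r : ℤ) :
    n1 B s (fun x z => F z x) k r q = n2 B s F k q r := by
  unfold n1 n2
  rw [Finset.sum_comm]
  refine Finset.sum_congr rfl fun z _ => Finset.sum_congr rfl fun x _ => ?_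
  rw [show s - x - z = s - z - x by ring]

theorem ZLoc_zf0_le (B : Finset ℤ) (k : ℕ) (q r : ℤ) (F : ℤ → ℤ → ℝ)
    (hF : ∀ x y, |F x y| ≤ 1) (a b : G k) : |zf0 B k q r F a b| ≤ 1 := by
  unfold zf0
  split_ifs
  · exact hF _ _
  · simp

theorem ZLoc_zf1_le (B : Finset ℤ) (s : ℤ) (k : ℕ) (q r c : ℤ) (F : ℤ → ℤ → ℝ)
    (hF : ∀ x y, |F x y| ≤ 1) (a b : G k) : |zf1 B s k q r c F a b| ≤ 1 := by
  unfold zf1
  split_ifs
  · exact hF _ _
  · simp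
  · simp

/-- the local theorem on a cell (q, r) of scale k of ℤ × ℤ: scales k' ≤ k. -/
theorem local_cell (K : ℕ) : ∃ C : ℝ, 0 < C ∧ ∀ (B : Finset ℤ) (s : ℤ) (m : ℕ) (S : Finset ℕ),
    2 ≤ m → S.card ≤ m → (∀ k ∈ S, 2 ≤ k) → ∀ F₀ F₁ F₂ : ℤ → ℤ → ℝ,
    (∀ x y, |F₀ x y| ≤ 1) → (∀ x y, |F₁ x y| ≤ 1) → (∀ x y, |F₂ x y| ≤ 1) →
    ∀ (k : ℕ) (q r : ℤ), 2 ≤ k →
    ∑ k' ∈ S.filter (fun k' => k' ≤ k), |LamI B s k' (cutI k q r F₀) F₁ F₂| ≤
      C * (1 + Real.log m) ^ 5 *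
        (min (Real.sqrt (n0 B F₀ k q r * n1 B s F₁ k q r))
          (min (Real.sqrt (n1 B s F₁ k q r * n2 B s F₂ k q r))
            (Real.sqrt (n0 B F₀ k q r * n2 B s F₂ k q r))) + 4 ^ k / (m : ℝ) ^ K) := by
  obtain ⟨C, hC, hloc⟩ := localThmR K
  refine ⟨5 * C, by positivity, ?_⟩
  intro B s m S hm hcard hS F₀ F₁ F₂ h₀ h₁ h₂ k q r hk
  set W := Finset.Icc (s / 2 ^ k - q - r - 3) (s / 2 ^ k - q - r + 1) with hW
  have hWc : W.card = 5 := by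
    rw [hW, Int.card_Icc]
    omega
  set f0 := zf0 B k q r F₀ with hf0
  set f1 := fun c => zf1 B s k q r c F₁ with hf1
  set f2 := fun (c : ℤ) (d a : G k) => zf1 B s k r q c (fun x z => F₂ z x) a d with hf2
  set T := (S.filter (fun k' => k' ≤ k)).image (fun k' => k - k') with hT
  have hTc : T.card ≤ m := (Finset.card_image_le.trans (Finset.card_filter_le _ _)).trans hcard
  have hTl : ∀ i ∈ T, i + 2 ≤ k := by
    intro i hi
    rw [hT, Finset.mem_image] at hi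
    obtain ⟨k', hk', rfl⟩ := hi
    rw [Finset.mem_filter] at hk'
    have := hS k' hk'.1
    omega
  have hlog : 0 ≤ Real.log m := Real.log_natCast_nonneg m
  -- single window estimate
  have hwin : ∀ c ∈ W, ∑ j ∈ T, |LamR (s - (q + r + c) * 2 ^ k) j f0 (f1 c) (f2 c)| ≤
      C * (1 + Real.log m) ^ 5 *
        (min (Real.sqrt (n0 B F₀ k q r * n1 B s F₁ k q r))
          (min (Real.sqrt (n1 B s F₁ k q r * n2 B s F₂ k q r))
            (Real.sqrt (n0 B F₀ k q r * n2 B s F₂ k q r))) + 4 ^ k / (m : ℝ) ^ K) := by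
    intro c _
    have b0 : ∀ a b, |f0 a b| ≤ 1 := ZLoc_zf0_le B k q r F₀ h₀
    have b1 : ∀ a b, |f1 c a b| ≤ 1 := ZLoc_zf1_le B s k q r c F₁ h₁
    have b2 : ∀ a b, |f2 c a b| ≤ 1 := fun a b =>
      ZLoc_zf1_le B s k r q c (fun x z => F₂ z x) (fun x y => h₂ y x) b a
    have l0 : l2 f0 ≤ Real.sqrt (n0 B F₀ k q r) := ZLoc_l2_zf0 B k q r F₀ h₀
    have l1 : l2 (f1 c) ≤ Real.sqrt (n1 B s F₁ k q r) := ZLoc_l2_zf1 B s k q r c F₁ h₁
    have l2' : l2 (f2 c) ≤ Real.sqrt (n2 B s F₂ k q r) := by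
      rw [hf2]
      rw [l2_swap (zf1 B s k r q c (fun x z => F₂ z x)), ← ZLoc_n2]
      exact ZLoc_l2_zf1 B s k r q c (fun x z => F₂ z x) (fun x y => h₂ y x)
    have p0 := l2_nonneg f0
    have p1 := l2_nonneg (f1 c)
    have p2 := l2_nonneg (f2 c)
    have g1 := hloc k m (s - (q + r + c) * 2 ^ k) T hm hTc hTl f0 (f1 c) (f2 c) b0 b1 b2
    have g2 := hloc k m (s - (q + r + c) * 2 ^ k) T hm hTc hTl (f1 c) (f2 c) f0 b1 b2 b0
    have g3 := hloc k m (s - (q + r + c) * 2 ^ k) T hm hTc hTl (f2 c) f0 (f1 c) b2 b0 b1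
    have e2 : ∀ j, LamR (s - (q + r + c) * 2 ^ k) j (f1 c) (f2 c) f0 =
        LamR (s - (q + r + c) * 2 ^ k) j f0 (f1 c) (f2 c) := fun j => (LamR_cyc _ _ _ _ _).symm
    have e3 : ∀ j, LamR (s - (q + r + c) * 2 ^ k) j (f2 c) f0 (f1 c) =
        LamR (s - (q + r + c) * 2 ^ k) j f0 (f1 c) (f2 c) := fun j => LamR_cyc _ _ _ _ _
    simp only [e2] at g2
    simp only [e3] at g3
    have hCl : 0 ≤ C * (1 + Real.log m) ^ 5 := by positivity
    have k1 : l2 f0 * l2 (f2 c) ≤ Real.sqrt (n0 B F₀ k q r * n2 B s F₂ k q r) := by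
      rw [Real.sqrt_mul (ZLoc_n0_nonneg _ _ _ _ _)]
      exact mul_le_mul l0 l2' p2 (Real.sqrt_nonneg _)
    have k2 : l2 (f1 c) * l2 f0 ≤ Real.sqrt (n0 B F₀ k q r * n1 B s F₁ k q r) := by
      rw [Real.sqrt_mul (ZLoc_n0_nonneg _ _ _ _ _), mul_comm]
      exact mul_le_mul l0 l1 p1 (Real.sqrt_nonneg _)
    have k3 : l2 (f2 c) * l2 (f1 c) ≤ Real.sqrt (n1 B s F₁ k q r * n2 B s F₂ k q r) := by
      rw [Real.sqrt_mul (ZLoc_n1_nonneg _ _ _ _ _ _), mul_comm]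
      exact mul_le_mul l1 l2' p2 (Real.sqrt_nonneg _)
    rcases le_total (Real.sqrt (n1 B s F₁ k q r * n2 B s F₂ k q r))
      (Real.sqrt (n0 B F₀ k q r * n2 B s F₂ k q r)) with hA | hA
    · rw [min_eq_left hA]
      rcases le_total (Real.sqrt (n0 B F₀ k q r * n1 B s F₁ k q r))
        (Real.sqrt (n1 B s F₁ k q r * n2 B s F₂ k q r)) with hB | hB
      · rw [min_eq_left hB]
        exact g2.trans (mul_le_mul_of_nonneg_left (by linarith) hCl)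
      · rw [min_eq_right hB]
        exact g3.trans (mul_le_mul_of_nonneg_left (by linarith) hCl)
    · rw [min_eq_right hA]
      rcases le_total (Real.sqrt (n0 B F₀ k q r * n1 B s F₁ k q r))
        (Real.sqrt (n0 B F₀ k q r * n2 B s F₂ k q r)) with hB | hB
      · rw [min_eq_left hB]
        exact g2.trans (mul_le_mul_of_nonneg_left (by linarith) hCl)
      · rw [min_eq_right hB]
        exact g1.trans (mul_le_mul_of_nonneg_left (by linarith) hCl)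
  have hinj : Set.InjOn (fun k' : ℕ => k - k') (S.filter (fun k' => k' ≤ k) : Set ℕ) := by
    intro a ha b hb hab
    simp only [Finset.coe_filter, Set.mem_ofPred_eq] at ha hb
    simp only at hab
    omega
  calc ∑ k' ∈ S.filter (fun k' => k' ≤ k), |LamI B s k' (cutI k q r F₀) F₁ F₂|
      ≤ ∑ k' ∈ S.filter (fun k' => k' ≤ k), ∑ c ∈ W,
          |LamR (s - (q + r + c) * 2 ^ k) (k - k') f0 (f1 c) (f2 c)| := by
        refine Finset.sum_le_sum fun k' hk' => ?_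
        rw [ZLoc_expand B s k k' (Finset.mem_filter.1 hk').2 q r F₀ F₁ F₂]
        exact Finset.abs_sum_le_sum_abs _ _
    _ = ∑ c ∈ W, ∑ j ∈ T, |LamR (s - (q + r + c) * 2 ^ k) j f0 (f1 c) (f2 c)| := by
        rw [Finset.sum_comm]
        refine Finset.sum_congr rfl fun c _ => ?_
        rw [hT, Finset.sum_image hinj]
    _ ≤ ∑ c ∈ W, C * (1 + Real.log m) ^ 5 *
        (min (Real.sqrt (n0 B F₀ k q r * n1 B s F₁ k q r))
          (min (Real.sqrt (n1 B s F₁ k q r * n2 B s F₂ k q r))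
            (Real.sqrt (n0 B F₀ k q r * n2 B s F₂ k q r))) + 4 ^ k / (m : ℝ) ^ K) :=
        Finset.sum_le_sum hwin
    _ = _ := by
        rw [Finset.sum_const, hWc]
        simp only [nsmul_eq_mul]
        push_cast
        ring

end Vale.Agent.P075
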