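import Vale.Agent.P075.ZBasic

namespace Vale.Agent.P075

open Finset Matrix

variable {N : ℕ} {lam : ℝ} {f : G N → G N → ℝ} {j : ℕ → ℕ}

private theorem zs_Low_iff {i : ℕ} (hi : i ≤ N) (x x₀ : G N) :
    Low i (x + x₀) ↔ (und x : ℤ) / 2 ^ (N - i) = (und x₀ : ℤ) / 2 ^ (N - i) := by
  rw [Low_und hi]
  have h : ∀ n : ℕ, (n : ℤ) / 2 ^ (N - i) = ((n / 2 ^ (N - i) : ℕ) : ℤ) := by
    intro n
    push_cast
    rfl
  rw [h, h, Nat.cast_inj]

private theorem zs_cell (hlam : 0 < lam) (hj : Monotone j) (hjN : ∀ a, j a ≤ N) {a b : ℕ}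
    (hab : a ≤ b) (c c' : ℤ) (α β : G N → ℝ)
    (hα : ∀ x, (und x : ℤ) / 2 ^ (N - j a) ≠ c → α x = 0)
    (hβ : ∀ y, (und y : ℤ) / 2 ^ (N - j a) ≠ c' → β y = 0) :
    |∑ x, ∑ y, (Rm lam f j b x *ᵥ f x) y * α x * β y| ≤
      2 ^ (N - j a) * (Real.sqrt lam / 2) *
        (Real.sqrt (∑ x, α x ^ 2) * Real.sqrt (∑ y, β y ^ 2)) := by
  classical
  have hnn : 0 ≤ 2 ^ (N - j a) * (Real.sqrt lam / 2) *
        (Real.sqrt (∑ x, α x ^ 2) * Real.sqrt (∑ y, β y ^ 2)) := by positivity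
  by_cases hx : ∃ x₀ : G N, (und x₀ : ℤ) / 2 ^ (N - j a) = c
  swap
  · have h0 : ∀ x, α x = 0 := fun x => hα x (fun h => hx ⟨x, h⟩)
    have : ∑ x, ∑ y, (Rm lam f j b x *ᵥ f x) y * α x * β y = 0 :=
      Finset.sum_eq_zero fun x _ => Finset.sum_eq_zero fun y _ => by rw [h0 x]; ring
    rw [this, abs_zero]
    exact hnn
  by_cases hy : ∃ y₀ : G N, (und y₀ : ℤ) / 2 ^ (N - j a) = c'
  swap
  · have h0 : ∀ y, β y = 0 := fun y => hβ y (fun h => hy ⟨y, h⟩)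
    have : ∑ x, ∑ y, (Rm lam f j b x *ᵥ f x) y * α x * β y = 0 :=
      Finset.sum_eq_zero fun x _ => Finset.sum_eq_zero fun y _ => by rw [h0 y]; ring
    rw [this, abs_zero]
    exact hnn
  obtain ⟨x₀, hx₀⟩ := hx
  obtain ⟨y₀, hy₀⟩ := hy
  have h1 : ∑ x, ∑ y, (Rm lam f j b x *ᵥ f x) y * α x * β y =
      ∑ x ∈ univ.filter (fun x => Low (j a) (x + x₀)),
        α x * ∑ y, (Rm lam f j b x *ᵥ f x) y * β y := by
    rw [Finset.sum_filter]
    refine Finset.sum_congr rfl fun x _ => ?_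
    split_ifs with h
    · rw [Finset.mul_sum]
      exact Finset.sum_congr rfl fun y _ => by ring
    · have : α x = 0 := by
        apply hα
        intro hc
        apply h
        rw [zs_Low_iff (hjN a), hc, hx₀]
      exact Finset.sum_eq_zero fun y _ => by rw [this]; ring
  have h2 := Finset.sum_mul_sq_le_sq_mul_sq (univ.filter (fun x => Low (j a) (x + x₀)))
      α (fun x => ∑ y, (Rm lam f j b x *ᵥ f x) y * β y)
  have h3 : ∑ x ∈ univ.filter (fun x => Low (j a) (x + x₀)), α x ^ 2 ≤ ∑ x, α x ^ 2 :=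
    Finset.sum_le_sum_of_subset_of_nonneg (Finset.filter_subset _ _) fun _ _ _ => sq_nonneg _
  have h4 := cell_coarse (f := f) hlam hj hjN hab x₀ y₀ β
    (fun y hy => hβ y (fun hc => hy (by rw [zs_Low_iff (hjN a), hc, hy₀])))
  have hA : 0 ≤ ∑ x, α x ^ 2 := Finset.sum_nonneg fun _ _ => sq_nonneg _
  have hB : 0 ≤ ∑ y, β y ^ 2 := Finset.sum_nonneg fun _ _ => sq_nonneg _
  have hbb : β ⬝ᵥ β = ∑ y, β y ^ 2 := by
    simp only [dotProduct]
    exact Finset.sum_congr rfl fun y _ => by ring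
  rw [hbb] at h4
  have h5 : (∑ x, ∑ y, (Rm lam f j b x *ᵥ f x) y * α x * β y) ^ 2 ≤
      (∑ x, α x ^ 2) * (4 ^ (N - j a) * (lam / 4 * ∑ y, β y ^ 2)) := by
    rw [h1]
    refine h2.trans (mul_le_mul h3 h4 ?_ hA)
    exact Finset.sum_nonneg fun _ _ => sq_nonneg _
  rw [← Real.sqrt_sq_eq_abs]
  refine le_trans (Real.sqrt_le_sqrt h5) (le_of_eq ?_)
  have e4 : (4 : ℝ) ^ (N - j a) = (2 ^ (N - j a)) ^ 2 := by
    rw [← pow_mul, mul_comm, pow_mul]; norm_num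
  have e1 := Real.sq_sqrt hA
  have e2 := Real.sq_sqrt hB
  have e3 := Real.sq_sqrt hlam.le
  have h6 : (∑ x, α x ^ 2) * (4 ^ (N - j a) * (lam / 4 * ∑ y, β y ^ 2)) =
      (2 ^ (N - j a) * (Real.sqrt lam / 2) *
        (Real.sqrt (∑ x, α x ^ 2) * Real.sqrt (∑ y, β y ^ 2))) ^ 2 := by
    rw [e4]
    calc (∑ x, α x ^ 2) * ((2 ^ (N - j a)) ^ 2 * (lam / 4 * ∑ y, β y ^ 2)) =
        (2 ^ (N - j a)) ^ 2 * (lam / 4) * ((∑ x, α x ^ 2) * (∑ y, β y ^ 2)) := by ring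
      _ = (2 ^ (N - j a)) ^ 2 * (Real.sqrt lam ^ 2 / 4) *
          (Real.sqrt (∑ x, α x ^ 2) ^ 2 * Real.sqrt (∑ y, β y ^ 2) ^ 2) := by rw [e1, e2, e3]
      _ = _ := by ring
  rw [h6, Real.sqrt_sq hnn]

private theorem zs_split (k : ℕ) (q : ℤ) (α : G N → ℝ)
    (hα : ∀ x, (und x : ℤ) / 2 ^ k ≠ q → (und x : ℤ) / 2 ^ k ≠ q + 1 → α x = 0) :
    ∃ α₀ α₁ : G N → ℝ, (∀ x, α x = α₀ x + α₁ x) ∧
      (∀ x, (und x : ℤ) / 2 ^ k ≠ q → α₀ x = 0) ∧
      (∀ x, (und x : ℤ) / 2 ^ k ≠ q + 1 → α₁ x = 0) ∧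
      Real.sqrt (∑ x, α₀ x ^ 2) + Real.sqrt (∑ x, α₁ x ^ 2) ≤
        Real.sqrt 2 * Real.sqrt (∑ x, α x ^ 2) := by
  classical
  refine ⟨fun x => if (und x : ℤ) / 2 ^ k = q then α x else 0,
    fun x => if (und x : ℤ) / 2 ^ k = q + 1 then α x else 0, ?_, ?_, ?_, ?_⟩
  · intro x
    dsimp only
    by_cases h1 : (und x : ℤ) / 2 ^ k = q
    · rw [if_pos h1, if_neg (by rw [h1]; omega), add_zero]
    · by_cases h2 : (und x : ℤ) / 2 ^ k = q + 1
      · rw [if_neg h1, if_pos h2, zero_add]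
      · rw [if_neg h1, if_neg h2, hα x h1 h2, add_zero]
  · intro x hx
    exact if_neg hx
  · intro x hx
    exact if_neg hx
  · set A := ∑ x : G N, (if (und x : ℤ) / 2 ^ k = q then α x else 0) ^ 2 with hA
    set B := ∑ x : G N, (if (und x : ℤ) / 2 ^ k = q + 1 then α x else 0) ^ 2 with hB
    have hA0 : 0 ≤ A := Finset.sum_nonneg fun _ _ => sq_nonneg _
    have hB0 : 0 ≤ B := Finset.sum_nonneg fun _ _ => sq_nonneg _
    have hAB : A + B = ∑ x, α x ^ 2 := by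
      rw [hA, hB, ← Finset.sum_add_distrib]
      refine Finset.sum_congr rfl fun x _ => ?_
      by_cases h1 : (und x : ℤ) / 2 ^ k = q
      · rw [if_pos h1, if_neg (by rw [h1]; omega)]; ring
      · by_cases h2 : (und x : ℤ) / 2 ^ k = q + 1
        · rw [if_neg h1, if_pos h2]; ring
        · rw [if_neg h1, if_neg h2, hα x h1 h2]; ring
    rw [← Real.sqrt_mul (by norm_num), ← hAB]
    apply Real.le_sqrt_of_sq_le
    have e1 := Real.sq_sqrt hA0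
    have e2 := Real.sq_sqrt hB0
    nlinarith [sq_nonneg (Real.sqrt A - Real.sqrt B)]

private theorem zs_bil (hlam : 0 < lam) (hj : Monotone j) (hjN : ∀ a, j a ≤ N) {a b : ℕ}
    (hab : a ≤ b) (q q' : ℤ) (α β : G N → ℝ)
    (hα : ∀ x, (und x : ℤ) / 2 ^ (N - j a) ≠ q → (und x : ℤ) / 2 ^ (N - j a) ≠ q + 1 → α x = 0)
    (hβ : ∀ y, (und y : ℤ) / 2 ^ (N - j a) ≠ q' →
      (und y : ℤ) / 2 ^ (N - j a) ≠ q' + 1 → β y = 0) :
    |∑ x, ∑ y, (Rm lam f j b x *ᵥ f x) y * α x * β y| ≤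
      2 ^ (N - j a) * Real.sqrt lam *
        (Real.sqrt (∑ x, α x ^ 2) * Real.sqrt (∑ y, β y ^ 2)) := by
  obtain ⟨α₀, α₁, ha, ha0, ha1, hna⟩ := zs_split (N - j a) q α hα
  obtain ⟨β₀, β₁, hb, hb0, hb1, hnb⟩ := zs_split (N - j a) q' β hβ
  have h00 := zs_cell (f := f) hlam hj hjN hab q q' α₀ β₀ ha0 hb0
  have h01 := zs_cell (f := f) hlam hj hjN hab q (q' + 1) α₀ β₁ ha0 hb1
  have h10 := zs_cell (f := f) hlam hj hjN hab (q + 1) q' α₁ β₀ ha1 hb0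
  have h11 := zs_cell (f := f) hlam hj hjN hab (q + 1) (q' + 1) α₁ β₁ ha1 hb1
  have hsum : ∑ x, ∑ y, (Rm lam f j b x *ᵥ f x) y * α x * β y =
      ∑ x, ∑ y, (Rm lam f j b x *ᵥ f x) y * α₀ x * β₀ y +
      ∑ x, ∑ y, (Rm lam f j b x *ᵥ f x) y * α₀ x * β₁ y +
      ∑ x, ∑ y, (Rm lam f j b x *ᵥ f x) y * α₁ x * β₀ y +
      ∑ x, ∑ y, (Rm lam f j b x *ᵥ f x) y * α₁ x * β₁ y := by
    simp only [← Finset.sum_add_distrib]
    refine Finset.sum_congr rfl fun x _ => Finset.sum_congr rfl fun y _ => ?_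
    rw [ha x, hb y]
    ring
  rw [hsum]
  set s00 := ∑ x, ∑ y, (Rm lam f j b x *ᵥ f x) y * α₀ x * β₀ y
  set s01 := ∑ x, ∑ y, (Rm lam f j b x *ᵥ f x) y * α₀ x * β₁ y
  set s10 := ∑ x, ∑ y, (Rm lam f j b x *ᵥ f x) y * α₁ x * β₀ y
  set s11 := ∑ x, ∑ y, (Rm lam f j b x *ᵥ f x) y * α₁ x * β₁ y
  set A0 := Real.sqrt (∑ x, α₀ x ^ 2)
  set A1 := Real.sqrt (∑ x, α₁ x ^ 2)
  set B0 := Real.sqrt (∑ x, β₀ x ^ 2)
  set B1 := Real.sqrt (∑ x, β₁ x ^ 2)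
  set A := Real.sqrt (∑ x, α x ^ 2)
  set B := Real.sqrt (∑ x, β x ^ 2)
  have hA0 : 0 ≤ A0 := Real.sqrt_nonneg _
  have hA1 : 0 ≤ A1 := Real.sqrt_nonneg _
  have hB0 : 0 ≤ B0 := Real.sqrt_nonneg _
  have hB1 : 0 ≤ B1 := Real.sqrt_nonneg _
  have hA : 0 ≤ A := Real.sqrt_nonneg _
  have hB : 0 ≤ B := Real.sqrt_nonneg _
  have htri : |s00 + s01 + s10 + s11| ≤ |s00| + |s01| + |s10| + |s11| := by
    have t1 := abs_add_le (s00 + s01 + s10) s11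
    have t2 := abs_add_le (s00 + s01) s10
    have t3 := abs_add_le s00 s01
    linarith
  have hprod : (A0 + A1) * (B0 + B1) ≤ 2 * (A * B) := by
    have h22 : Real.sqrt 2 * Real.sqrt 2 = 2 := Real.mul_self_sqrt (by norm_num)
    calc (A0 + A1) * (B0 + B1) ≤ (Real.sqrt 2 * A) * (Real.sqrt 2 * B) :=
          mul_le_mul hna hnb (by positivity) (by positivity)
      _ = (Real.sqrt 2 * Real.sqrt 2) * (A * B) := by ring
      _ = 2 * (A * B) := by rw [h22]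
  have hc : 0 ≤ 2 ^ (N - j a) * (Real.sqrt lam / 2) := by positivity
  calc |s00 + s01 + s10 + s11| ≤ |s00| + |s01| + |s10| + |s11| := htri
    _ ≤ 2 ^ (N - j a) * (Real.sqrt lam / 2) * (A0 * B0) +
        2 ^ (N - j a) * (Real.sqrt lam / 2) * (A0 * B1) +
        2 ^ (N - j a) * (Real.sqrt lam / 2) * (A1 * B0) +
        2 ^ (N - j a) * (Real.sqrt lam / 2) * (A1 * B1) :=
        add_le_add (add_le_add (add_le_add h00 h01) h10) h11
    _ = 2 ^ (N - j a) * (Real.sqrt lam / 2) * ((A0 + A1) * (B0 + B1)) := by ring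
    _ ≤ 2 ^ (N - j a) * (Real.sqrt lam / 2) * (2 * (A * B)) :=
        mul_le_mul_of_nonneg_left hprod hc
    _ = 2 ^ (N - j a) * Real.sqrt lam * (A * B) := by ring

private theorem zs_supp (k : ℕ) (c t : ℤ) (h : 0 ≤ t + c ∧ t + c < 2 ^ k) :
    t / 2 ^ k = (-c) / 2 ^ k ∨ t / 2 ^ k = (-c) / 2 ^ k + 1 := by
  have hL : (0 : ℤ) < 2 ^ k := by positivity
  have h1 : (-c) / 2 ^ k ≤ t / 2 ^ k := Int.ediv_le_ediv hL (by omega)
  have h2 : t / 2 ^ k ≤ (-c + 2 ^ k) / 2 ^ k := Int.ediv_le_ediv hL (by omega)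
  have h3 : (-c + 2 ^ k) / 2 ^ k = (-c) / 2 ^ k + 1 := by
    rw [Int.add_ediv_of_dvd_right (dvd_refl _), Int.ediv_self hL.ne']
  omega

private theorem zs_count (k : ℕ) (X : ℤ) (T : Finset ℤ) (w : ℤ → ℝ) (hw : ∀ t, |w t| ≤ 1)
    (hs : ∀ t, ¬ (0 ≤ t ∧ t < 2 ^ k) → w t = 0) :
    ∑ t ∈ T, w (X - t) ^ 2 ≤ 2 ^ k := by
  calc ∑ t ∈ T, w (X - t) ^ 2
      ≤ ∑ t ∈ T, (if t ∈ Finset.Ico (X - 2 ^ k + 1) (X + 1) then (1 : ℝ) else 0) := by
        refine Finset.sum_le_sum fun t _ => ?_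
        split_ifs with ht
        · have := hw (X - t)
          rw [← sq_abs]
          nlinarith [abs_nonneg (w (X - t))]
        · rw [hs, zero_pow (by norm_num)]
          rintro ⟨h1, h2⟩
          exact ht (Finset.mem_Ico.2 ⟨by omega, by omega⟩)
    _ ≤ ∑ t ∈ Finset.Ico (X - 2 ^ k + 1) (X + 1), (1 : ℝ) := by
        rw [← Finset.sum_filter]
        refine Finset.sum_le_sum_of_subset_of_nonneg ?_ (fun _ _ _ => by positivity)
        intro t ht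
        exact (Finset.mem_filter.1 ht).2
    _ = 2 ^ k := by
        rw [Finset.sum_const, Int.card_Ico]
        have : X + 1 - (X - 2 ^ k + 1) = ((2 ^ k : ℕ) : ℤ) := by push_cast; ring
        rw [this, Int.toNat_natCast]
        simp

/-- The remainder R_b f is small at level j a for every a ≤ b, real line kernel -/
theorem Rm_smallR (s : ℤ) (hlam : 0 < lam)
    (hj : Monotone j) (hjN : ∀ a, j a ≤ N) {a b : ℕ} (hab : a ≤ b)
    (F₁ F₂ : G N → G N → ℝ) :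
    |LamR s (j a) (fun x y => (Rm lam f j b x *ᵥ f x) y) F₁ F₂| ≤
      Real.sqrt lam * l2 F₁ * l2 F₂ := by
  classical
  set k := N - j a with hk
  set T : Finset ℤ := Finset.Ico (-(2 * 2 ^ N)) 1 with hT
  set α : G N → ℤ → G N → ℝ := fun z t x => gZ k ((und x + und z - s) - t) * F₂ z x with hα
  set β : G N → ℤ → G N → ℝ := fun z t y => hZ k ((-(und y : ℤ)) - t) * F₁ y z with hβ
  have hkN : (2 : ℤ) ^ k ≤ 2 ^ N := pow_le_pow_right₀ (by norm_num) (by omega)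
  have hLam : LamR s (j a) (fun x y => (Rm lam f j b x *ᵥ f x) y) F₁ F₂ =
      (∑ z, ∑ t ∈ T, ∑ x, ∑ y, (Rm lam f j b x *ᵥ f x) y * α z t x * β z t y) / 4 ^ k := by
    have e1 : LamR s (j a) (fun x y => (Rm lam f j b x *ᵥ f x) y) F₁ F₂ =
        (∑ x, ∑ y, ∑ z, ∑ t ∈ T,
          (Rm lam f j b x *ᵥ f x) y * α z t x * β z t y) / 4 ^ k := by
      unfold LamR
      rw [Finset.sum_div]
      refine Finset.sum_congr rfl fun x _ => ?_
      rw [Finset.sum_div]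
      refine Finset.sum_congr rfl fun y _ => ?_
      rw [Finset.sum_div]
      refine Finset.sum_congr rfl fun z _ => ?_
      have e2 : (und x : ℤ) + und y + und z - s = (und x + und z - s) - (-(und y : ℤ)) := by ring
      have hy : (und y : ℤ) < 2 ^ N := by exact_mod_cast und_lt y
      have hy0 : (0 : ℤ) ≤ und y := Int.natCast_nonneg _
      rw [← hk, e2, rhoZ_conv k _ _ (-(2 * 2 ^ N)) 1 (by linarith) (by linarith)]
      rw [← hT, div_mul_eq_mul_div, div_mul_eq_mul_div, div_mul_eq_mul_div, Finset.sum_mul,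
        Finset.sum_mul, Finset.sum_mul]
      congr 1
      refine Finset.sum_congr rfl fun t _ => ?_
      simp only [hα, hβ]
      ring
    rw [e1]
    congr 1
    calc ∑ x, ∑ y, ∑ z, ∑ t ∈ T, (Rm lam f j b x *ᵥ f x) y * α z t x * β z t y
        = ∑ x, ∑ z, ∑ y, ∑ t ∈ T, (Rm lam f j b x *ᵥ f x) y * α z t x * β z t y :=
          Finset.sum_congr rfl fun x _ => Finset.sum_comm
      _ = ∑ z, ∑ x, ∑ y, ∑ t ∈ T, (Rm lam f j b x *ᵥ f x) y * α z t x * β z t y :=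
          Finset.sum_comm
      _ = ∑ z, ∑ x, ∑ t ∈ T, ∑ y, (Rm lam f j b x *ᵥ f x) y * α z t x * β z t y :=
          Finset.sum_congr rfl fun z _ => Finset.sum_congr rfl fun x _ => Finset.sum_comm
      _ = ∑ z, ∑ t ∈ T, ∑ x, ∑ y, (Rm lam f j b x *ᵥ f x) y * α z t x * β z t y :=
          Finset.sum_congr rfl fun z _ => Finset.sum_comm
  have hbnd : ∀ z t, |∑ x, ∑ y, (Rm lam f j b x *ᵥ f x) y * α z t x * β z t y| ≤
      2 ^ k * Real.sqrt lam *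
        (Real.sqrt (∑ x, α z t x ^ 2) * Real.sqrt (∑ y, β z t y ^ 2)) := by
    intro z t
    refine zs_bil hlam hj hjN hab ((-(und z - s - t)) / 2 ^ k)
      ((-(t + 2 ^ k - 1)) / 2 ^ k) (α z t) (β z t) ?_ ?_
    · intro x h1 h2
      simp only [hα]
      rw [gZ_support, zero_mul]
      intro h3
      have h3' : 0 ≤ (und x : ℤ) + (und z - s - t) ∧ (und x : ℤ) + (und z - s - t) < 2 ^ k :=
        ⟨by linarith [h3.1], by linarith [h3.2]⟩
      rcases zs_supp k (und z - s - t) (und x) h3' with h4 | h4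
      · exact h1 h4
      · exact h2 h4
    · intro y h1 h2
      simp only [hβ]
      rw [hZ_support, zero_mul]
      intro h3
      have h3' : 0 ≤ (und y : ℤ) + (t + 2 ^ k - 1) ∧ (und y : ℤ) + (t + 2 ^ k - 1) < 2 ^ k := by
        obtain ⟨h3a, h3b⟩ := h3
        constructor <;> omega
      rcases zs_supp k (t + 2 ^ k - 1) (und y) h3' with h4 | h4
      · exact h1 h4
      · exact h2 h4
  have h4k : (0 : ℝ) < 4 ^ k := by positivity
  have hA : ∑ p ∈ (univ : Finset (G N)) ×ˢ T, ∑ x, α p.1 p.2 x ^ 2 ≤ 2 ^ k * l2 F₂ ^ 2 := by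
    rw [Finset.sum_product, l2_sq, Finset.mul_sum]
    refine Finset.sum_le_sum fun z _ => ?_
    rw [Finset.sum_comm, Finset.mul_sum]
    refine Finset.sum_le_sum fun x _ => ?_
    have e : ∑ t ∈ T, α z t x ^ 2 = (∑ t ∈ T, gZ k ((und x + und z - s) - t) ^ 2) * F₂ z x ^ 2 := by
      rw [Finset.sum_mul]
      exact Finset.sum_congr rfl fun t _ => by simp only [hα]; ring
    dsimp only
    rw [e]
    exact mul_le_mul_of_nonneg_right (zs_count k _ T (gZ k) (abs_gZ_le k)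
      (fun t ht => gZ_support ht)) (sq_nonneg _)
  have hB : ∑ p ∈ (univ : Finset (G N)) ×ˢ T, ∑ y, β p.1 p.2 y ^ 2 ≤ 2 ^ k * l2 F₁ ^ 2 := by
    rw [Finset.sum_product, l2_sq, Finset.sum_comm (f := fun x y => F₁ x y ^ 2), Finset.mul_sum]
    refine Finset.sum_le_sum fun z _ => ?_
    rw [Finset.sum_comm, Finset.mul_sum]
    refine Finset.sum_le_sum fun y _ => ?_
    have e : ∑ t ∈ T, β z t y ^ 2 = (∑ t ∈ T, hZ k ((-(und y : ℤ)) - t) ^ 2) * F₁ y z ^ 2 := by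
      rw [Finset.sum_mul]
      exact Finset.sum_congr rfl fun t _ => by simp only [hβ]; ring
    dsimp only
    rw [e]
    exact mul_le_mul_of_nonneg_right (zs_count k _ T (hZ k) (abs_hZ_le k)
      (fun t ht => hZ_support ht)) (sq_nonneg _)
  have hcs := Real.sum_sqrt_mul_sqrt_le ((univ : Finset (G N)) ×ˢ T)
    (f := fun p => ∑ x, α p.1 p.2 x ^ 2)
    (g := fun p => ∑ y, β p.1 p.2 y ^ 2)
    (fun p => Finset.sum_nonneg fun _ _ => sq_nonneg _)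
    (fun p => Finset.sum_nonneg fun _ _ => sq_nonneg _)
  have hl1 := l2_nonneg F₁
  have hl2 := l2_nonneg F₂
  have hcs2 : ∑ p ∈ (univ : Finset (G N)) ×ˢ T,
      Real.sqrt (∑ x, α p.1 p.2 x ^ 2) * Real.sqrt (∑ y, β p.1 p.2 y ^ 2) ≤
      2 ^ k * (l2 F₁ * l2 F₂) := by
    refine hcs.trans ?_
    calc Real.sqrt (∑ p ∈ (univ : Finset (G N)) ×ˢ T, ∑ x, α p.1 p.2 x ^ 2) *
          Real.sqrt (∑ p ∈ (univ : Finset (G N)) ×ˢ T, ∑ y, β p.1 p.2 y ^ 2)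
        ≤ Real.sqrt (2 ^ k * l2 F₂ ^ 2) * Real.sqrt (2 ^ k * l2 F₁ ^ 2) :=
          mul_le_mul (Real.sqrt_le_sqrt hA) (Real.sqrt_le_sqrt hB) (Real.sqrt_nonneg _)
            (Real.sqrt_nonneg _)
      _ = 2 ^ k * (l2 F₁ * l2 F₂) := by
          rw [← Real.sqrt_mul (by positivity)]
          have h6 : (2 : ℝ) ^ k * l2 F₂ ^ 2 * (2 ^ k * l2 F₁ ^ 2) =
              (2 ^ k * (l2 F₁ * l2 F₂)) ^ 2 := by ring
          rw [h6, Real.sqrt_sq (by positivity)]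
  rw [hLam, abs_div, abs_of_pos h4k, div_le_iff₀ h4k]
  have e4 : (4 : ℝ) ^ k = 2 ^ k * 2 ^ k := by rw [← mul_pow]; norm_num
  calc |∑ z, ∑ t ∈ T, ∑ x, ∑ y, (Rm lam f j b x *ᵥ f x) y * α z t x * β z t y|
      = |∑ p ∈ (univ : Finset (G N)) ×ˢ T,
          ∑ x, ∑ y, (Rm lam f j b x *ᵥ f x) y * α p.1 p.2 x * β p.1 p.2 y| := by
        rw [Finset.sum_product]
    _ ≤ ∑ p ∈ (univ : Finset (G N)) ×ˢ T,
          |∑ x, ∑ y, (Rm lam f j b x *ᵥ f x) y * α p.1 p.2 x * β p.1 p.2 y| :=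
        Finset.abs_sum_le_sum_abs _ _
    _ ≤ ∑ p ∈ (univ : Finset (G N)) ×ˢ T, 2 ^ k * Real.sqrt lam *
          (Real.sqrt (∑ x, α p.1 p.2 x ^ 2) * Real.sqrt (∑ y, β p.1 p.2 y ^ 2)) :=
        Finset.sum_le_sum fun p _ => hbnd p.1 p.2
    _ = 2 ^ k * Real.sqrt lam * ∑ p ∈ (univ : Finset (G N)) ×ˢ T,
          (Real.sqrt (∑ x, α p.1 p.2 x ^ 2) * Real.sqrt (∑ y, β p.1 p.2 y ^ 2)) := by
        rw [Finset.mul_sum]
    _ ≤ 2 ^ k * Real.sqrt lam * (2 ^ k * (l2 F₁ * l2 F₂)) :=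
        mul_le_mul_of_nonneg_left hcs2 (by positivity)
    _ = Real.sqrt lam * l2 F₁ * l2 F₂ * 4 ^ k := by rw [e4]; ring

end Vale.Agent.P075
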