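import Vale.Agent.P075.ZPropA
import Vale.Agent.P075.ZSmall

namespace Vale.Agent.P075

open Finset Matrix

section
variable {N : ℕ}

variable {lam : ℝ} {f : G N → G N → ℝ} {j : ℕ → ℕ}

/-- the remainder after index b + 1 is small at every scale j a with a ≤ b -/
theorem small_remR (s : ℤ) (hlam : 0 < lam) (hj : Monotone j) (hjN : ∀ a, j a ≤ N) {a b : ℕ}
    (hab : a ≤ b) (F₁ F₂ : G N → G N → ℝ) :
    |LamR s (j a) (fun x y => f x y - Af lam f j (b + 1) x y) F₁ F₂| ≤
      Real.sqrt lam * l2 F₁ * l2 F₂ := by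
  have := Rm_smallR (f := f) s hlam hj hjN hab F₁ F₂
  simpa only [← sub_Af] using this

theorem small_diffR (s : ℤ) (hlam : 0 < lam) (hj : Monotone j) (hjN : ∀ a, j a ≤ N) {a b : ℕ}
    (hab : a ≤ b) (F₁ F₂ : G N → G N → ℝ) :
    |LamR s (j a) (fun x y => Af lam f j (b + 1) x y - Af lam f j (a + 1) x y) F₁ F₂| ≤
      2 * Real.sqrt lam * l2 F₁ * l2 F₂ := by
  have h1 := small_remR (f := f) s hlam hj hjN hab F₁ F₂
  have h2 := small_remR (f := f) s hlam hj hjN (le_refl a) F₁ F₂
  have e : LamR s (j a) (fun x y => Af lam f j (b + 1) x y - Af lam f j (a + 1) x y) F₁ F₂ =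
      LamR s (j a) (fun x y => f x y - Af lam f j (a + 1) x y) F₁ F₂ -
      LamR s (j a) (fun x y => f x y - Af lam f j (b + 1) x y) F₁ F₂ := by
    rw [← LamR_sub₀]
    congr 1
    funext x y
    ring
  rw [e]
  have h5 := abs_sub (LamR s (j a) (fun x y => f x y - Af lam f j (a + 1) x y) F₁ F₂)
    (LamR s (j a) (fun x y => f x y - Af lam f j (b + 1) x y) F₁ F₂)
  linarith

/-- application of Prop A -/
theorem propA_appR (s : ℤ) (hlam : 0 < lam) (hj : Monotone j) (hjN : ∀ a, j a ≤ N) (k m₀ : ℕ)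
    (hinj : Set.InjOn j (Set.Iio m₀)) (hlt : ∀ a < m₀, j a + 2 ≤ N)
    (e : ℕ → ℝ) (he : ∀ i, e i = 1 ∨ e i = -1)
    (hf : ∀ x y, |f x y| ≤ 1) (F₁ : G N → G N → ℝ) (hF₁ : ∀ x y, |F₁ x y| ≤ 1)
    {p q c M : ℕ} (hpq : p ≤ q) (hqc : q ≤ c + 1) (hqM : q ≤ M) (hcM : c ≤ M)
    (h : G N → G N → ℝ) (hh : ∀ x y, |h x y| ≤ 2 * M / lam) :
    |∑ a ∈ range m₀, if c ≤ a then e (j a) * LamR s (j a)
        (fun x y => Af lam f j q x y - Af lam f j p x y) F₁ h else 0| ≤
      4 * Ck k ^ 2 * Real.sqrt (en lam f j q - en lam f j p) * l2 h +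
        8 * (m₀ * (2 * M / lam) ^ 2 * ((M + 1) / lam) * 4 ^ N / 4 ^ (2 ^ k)) := by
  classical
  set T : Finset ℕ := ((range m₀).filter (fun a => c ≤ a)).image j with hT
  have hTcard : (T.card : ℝ) ≤ m₀ := by
    have h1 : T.card ≤ m₀ := by
      refine le_trans Finset.card_image_le ?_
      refine le_trans (Finset.card_filter_le _ _) ?_
      simp
    exact_mod_cast h1
  have hsum : (∑ a ∈ range m₀, if c ≤ a then e (j a) * LamR s (j a)
        (fun x y => Af lam f j q x y - Af lam f j p x y) F₁ h else 0) =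
      ∑ i ∈ T, e i * LamR s i (fun x y => ((Qm lam f j q x - Qm lam f j p x) *ᵥ f x) y) F₁ h := by
    rw [← Finset.sum_filter, hT, Finset.sum_image]
    · refine Finset.sum_congr rfl fun a _ => ?_
      congr 2
      funext x y
      simp [Af, sub_mulVec]
    · intro a ha b hb hab
      simp only [coe_filter, mem_range, Set.mem_setOf_eq] at ha hb
      exact hinj ha.1 hb.1 hab
  have hTmem : ∀ i ∈ T, j c ≤ i ∧ i + 2 ≤ N := by
    intro i hi
    rw [hT, Finset.mem_image] at hi
    obtain ⟨a, ha, rfl⟩ := hi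
    simp only [mem_filter, mem_range] at ha
    exact ⟨hj ha.2, hlt a ha.1⟩
  have hM0 : (0 : ℝ) ≤ 2 * M / lam := by positivity
  have hmain := propAR s k (j c) (hjN c) T hTmem e he F₁ hF₁ (fun x => Phi lam f j c x)
    (fun x => Qm lam f j q x - Qm lam f j p x)
    (fun x => Phi_posSemidef hlam hj hjN c x)
    (fun x => by simpa [Qm] using Qm_one_sub (f := f) hlam hj hjN (c + 1) x)
    (fun x y y' hy => Phi_block hlam hj hjN c x y y' hy)
    (fun x x' hx => Phi_coset hj c x x' hx)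
    ((M + 1) / lam)
    (fun x y₀ => le_trans (Phi_trace_block hlam hj hjN hf c x y₀) (by gcongr))
    (fun x => Qm_mono hlam hj hjN hpq x)
    (fun x => by
      have h1 := Qm_mono (f := f) hlam hj hjN hqc x
      have h2 := Qm_psd (f := f) hlam hj hjN p x
      have h3 := h1.add h2
      have e1 : Phi lam f j c x - (Qm lam f j q x - Qm lam f j p x) =
          Qm lam f j (c + 1) x - Qm lam f j q x + Qm lam f j p x := by
        simp only [Qm]; abel
      rw [e1]; exact h3)
    f h (2 * M / lam) hM0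
    (fun x y => by
      have := Af_sub_bound (f := f) hlam hj hjN hf hqM (le_trans hpq hqM) x y
      simpa [Af, sub_mulVec] using this)
    hh
  rw [hsum, en_sub]
  refine le_trans hmain ?_
  gcongr

end

end Vale.Agent.P075
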