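import Mathlib

namespace Vale.Agent.P075

open Finset

/-- the interval [q 2^k, (q+1) 2^k) -/
private noncomputable def zblk (k : ℕ) (q : ℤ) : Finset ℤ := Finset.Ico (q * 2 ^ k) ((q + 1) * 2 ^ k)

private theorem zpos (k : ℕ) : (0 : ℤ) < 2 ^ k := by positivity

private theorem mem_zblk {k : ℕ} {q p : ℤ} : p ∈ zblk k q ↔ p / 2 ^ k = q := by
  unfold zblk
  rw [Finset.mem_Ico, ← Int.le_ediv_iff_mul_le (zpos k), ← Int.ediv_lt_iff_lt_mul (zpos k)]
  omega

private theorem card_zblk (k : ℕ) (q : ℤ) : (zblk k q).card = 2 ^ k := by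
  unfold zblk
  rw [Int.card_Ico]
  have : (q + 1) * 2 ^ k - q * 2 ^ k = ((2 ^ k : ℕ) : ℤ) := by push_cast; ring
  rw [this, Int.toNat_natCast]

private theorem ediv_pow {k k' : ℕ} (h : k' ≤ k) (p : ℤ) :
    p / 2 ^ k = p / 2 ^ k' / 2 ^ (k - k') := by
  rw [Int.ediv_ediv_of_nonneg (zpos k').le, ← pow_add, Nat.add_sub_cancel' h]

private theorem sum_zblk {k k' : ℕ} (h : k' ≤ k) (q : ℤ) (f : ℤ → ℕ) :
    ∑ p ∈ zblk k q, f p = ∑ q' ∈ zblk (k - k') q, ∑ p ∈ zblk k' q', f p := by
  rw [← Finset.sum_fiberwise_of_maps_to (s := zblk k q) (t := zblk (k - k') q)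
    (g := fun p => p / 2 ^ k')]
  · refine Finset.sum_congr rfl (fun q' hq' => Finset.sum_congr ?_ (fun _ _ => rfl))
    ext p
    rw [Finset.mem_filter, mem_zblk, mem_zblk]
    rw [mem_zblk] at hq'
    constructor
    · exact fun hp => hp.2
    · intro hp
      refine ⟨?_, hp⟩
      rw [ediv_pow h, hp, hq']
  · intro p hp
    rw [mem_zblk] at hp ⊢
    rw [← ediv_pow h, hp]

private theorem two_pow_card (T : Finset ℕ) :
    2 ^ T.card = 1 + ∑ k ∈ T, 2 ^ (T.filter (fun x => x < k)).card := by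
  induction T using Finset.induction_on_max with
  | empty => simp
  | insert a s ha ih =>
    have hna : a ∉ s := fun h => lt_irrefl _ (ha a h)
    rw [Finset.card_insert_of_notMem hna, Finset.sum_insert hna, pow_succ]
    have h1 : (insert a s).filter (fun x => x < a) = s := by
      ext x
      rw [Finset.mem_filter, Finset.mem_insert]
      constructor
      · rintro ⟨h | h, h'⟩
        · omega
        · exact h
      · exact fun h => ⟨Or.inr h, ha x h⟩
    have h2 : ∀ k ∈ s, 2 ^ ((insert a s).filter (fun x => x < k)).card =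
        2 ^ (s.filter (fun x => x < k)).card := by
      intro k hk
      congr 2
      ext x
      rw [Finset.mem_filter, Finset.mem_filter, Finset.mem_insert]
      have := ha k hk
      constructor
      · rintro ⟨h | h, h'⟩
        · omega
        · exact ⟨h, h'⟩
      · exact fun h => ⟨Or.inr h.1, h.2⟩
    rw [h1, Finset.sum_congr rfl h2]
    omega

/-- weight: number of k' in S, k' < k, whose shifted interval contains p -/
private noncomputable def zW (S : Finset ℕ) (I : ℕ → Finset ℤ) (δ : ℤ) (k : ℕ) (p : ℤ) : ℕ :=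
  (S.filter (fun k' => k' < k ∧ p / 2 ^ k' - δ ∈ I k')).card

private theorem zW_expand (S : Finset ℕ) (I : ℕ → Finset ℤ) (δ : ℤ) (k : ℕ) (p : ℤ) :
    2 ^ zW S I δ k p = 1 + ∑ k' ∈ S.filter (fun x => x < k),
      if p / 2 ^ k' - δ ∈ I k' then 2 ^ zW S I δ k' p else 0 := by
  have h0 : 2 ^ zW S I δ k p = 1 + ∑ k' ∈ S.filter (fun k' => k' < k ∧ p / 2 ^ k' - δ ∈ I k'),
      2 ^ zW S I δ k' p := by
    unfold zW
    rw [two_pow_card]
    congr 1
    refine Finset.sum_congr rfl (fun k' hk' => ?_)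
    rw [Finset.mem_filter] at hk'
    congr 2
    ext x
    simp only [Finset.mem_filter]
    constructor
    · rintro ⟨⟨h1, h2, h3⟩, h4⟩
      exact ⟨h1, h4, h3⟩
    · rintro ⟨h1, h2, h3⟩
      exact ⟨⟨h1, by omega, h3⟩, h2⟩
  rw [h0, ← Finset.sum_filter, Finset.filter_filter]

private theorem main_claim (S : Finset ℕ) (I : ℕ → Finset ℤ)
    (hdisj : ∀ k ∈ S, ∀ k' ∈ S, ∀ p : ℤ, p / 2 ^ k ∈ I k → p / 2 ^ k' ∈ I k' → k = k')
    (δ : ℤ) (hδ : |δ| ≤ 1) (k : ℕ) :
    k ∈ S → ∀ q : ℤ, q - δ ∈ I k →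
      ∑ p ∈ zblk k q, 2 ^ zW S I δ k p ≤ (1 + (S.filter (fun x => x < k)).card) * 2 ^ k := by
  induction k using Nat.strong_induction_on with
  | _ k ih =>
    intro hk q hq
    have h1 : ∀ k' ∈ S.filter (fun x => x < k),
        (∑ p ∈ zblk k q, if p / 2 ^ k' - δ ∈ I k' then 2 ^ zW S I δ k' p else 0) ≤
        (S.filter (fun x => x < k)).card *
          ∑ p ∈ zblk k q, (if p / 2 ^ k' ∈ I k' then 1 else 0) := by
      intro k' hk'
      rw [Finset.mem_filter] at hk'
      obtain ⟨hk'S, hk'k⟩ := hk'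
      have hcard : 1 + (S.filter (fun x => x < k')).card ≤ (S.filter (fun x => x < k)).card := by
        have hss : insert k' (S.filter (fun x => x < k')) ⊆ S.filter (fun x => x < k) := by
          intro x hx
          rw [Finset.mem_insert, Finset.mem_filter] at hx
          rw [Finset.mem_filter]
          rcases hx with h | h
          · exact ⟨h ▸ hk'S, h ▸ hk'k⟩
          · exact ⟨h.1, by omega⟩
        have := Finset.card_le_card hss
        rw [Finset.card_insert_of_notMem (by simp)] at this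
        omega
      rw [sum_zblk hk'k.le, sum_zblk hk'k.le]
      have h2 : ∀ q' ∈ zblk (k - k') q,
          (∑ p ∈ zblk k' q', if p / 2 ^ k' - δ ∈ I k' then 2 ^ zW S I δ k' p else 0) ≤
          (if q' - δ ∈ I k' then (S.filter (fun x => x < k)).card * 2 ^ k' else 0) := by
        intro q' _
        split_ifs with hq'
        · calc (∑ p ∈ zblk k' q', if p / 2 ^ k' - δ ∈ I k' then 2 ^ zW S I δ k' p else 0)
              ≤ ∑ p ∈ zblk k' q', 2 ^ zW S I δ k' p :=
                Finset.sum_le_sum (fun p _ => by split_ifs <;> simp)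
            _ ≤ _ := ih k' hk'k hk'S q' hq'
            _ ≤ _ := Nat.mul_le_mul_right _ hcard
        · refine le_of_eq (Finset.sum_eq_zero (fun p hp => ?_))
          rw [mem_zblk] at hp
          rw [if_neg (by rw [hp]; exact hq')]
      refine (Finset.sum_le_sum h2).trans ?_
      have h3 : ∀ q' ∈ zblk (k - k') q,
          (∑ p ∈ zblk k' q', (if p / 2 ^ k' ∈ I k' then 1 else 0)) =
          (if q' ∈ I k' then 2 ^ k' else 0) := by
        intro q' _
        have : ∀ p ∈ zblk k' q', (if p / 2 ^ k' ∈ I k' then 1 else 0) =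
            (if q' ∈ I k' then 1 else 0) := by
          intro p hp
          rw [mem_zblk] at hp
          rw [hp]
        rw [Finset.sum_congr rfl this, Finset.sum_const, card_zblk]
        split_ifs <;> simp
      rw [Finset.sum_congr rfl h3]
      rw [← Finset.sum_filter, ← Finset.sum_filter, Finset.sum_const, Finset.sum_const,
        smul_eq_mul, smul_eq_mul, mul_left_comm]
      refine Nat.mul_le_mul_left _ (Nat.mul_le_mul_right _ ?_)
      refine Finset.card_le_card_of_injOn (fun q' => q' - δ) ?_ ?_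
      · intro q' hq'
        rw [Finset.mem_coe, Finset.mem_filter, mem_zblk] at hq' ⊢
        obtain ⟨hq1, hq2⟩ := hq'
        refine ⟨?_, hq2⟩
        by_contra hne
        have hL : (0 : ℤ) < 2 ^ (k - k') := zpos _
        have hstep : (q' - δ) / 2 ^ (k - k') = q - δ := by
          have e1 := Int.emod_add_mul_ediv q' (2 ^ (k - k'))
          have e2 := Int.emod_nonneg q' hL.ne'
          have e3 := Int.emod_lt_of_pos q' hL
          rw [hq1] at e1
          have hd : δ = -1 ∨ δ = 0 ∨ δ = 1 := by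
            rw [abs_le] at hδ; omega
          have f1 : ∀ r : ℤ, r * 2 ^ (k - k') ≤ q' - δ → q' - δ < (r + 1) * 2 ^ (k - k') →
              (q' - δ) / 2 ^ (k - k') = r := by
            intro r hr1 hr2
            rw [← mem_zblk, zblk, Finset.mem_Ico]
            exact ⟨hr1, hr2⟩
          have f2 : ¬ (q * 2 ^ (k - k') ≤ q' - δ ∧ q' - δ < (q + 1) * 2 ^ (k - k')) := by
            rintro ⟨g1, g2⟩
            exact hne (f1 q g1 g2)
          rcases hd with rfl | rfl | rfl
          · refine f1 _ ?_ ?_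
            · by_contra hc
              exact f2 ⟨by nlinarith, by nlinarith⟩
            · nlinarith
          · exact absurd (by simpa using hq1) hne
          · refine f1 _ ?_ ?_
            · nlinarith
            · by_contra hc
              exact f2 ⟨by nlinarith, by nlinarith⟩
        have hA : ((q' - δ) * 2 ^ k') / 2 ^ k' = q' - δ := Int.mul_ediv_cancel _ (zpos k').ne'
        have hB : ((q' - δ) * 2 ^ k') / 2 ^ k = q - δ := by
          rw [ediv_pow hk'k.le, hA, hstep]
        have := hdisj k hk k' hk'S ((q' - δ) * 2 ^ k') (by rw [hB]; exact hq)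
          (by rw [hA]; exact hq2)
        omega
      · intro a _ b _ hab
        simpa using hab
    calc ∑ p ∈ zblk k q, 2 ^ zW S I δ k p
        = ∑ p ∈ zblk k q, (1 + ∑ k' ∈ S.filter (fun x => x < k),
            if p / 2 ^ k' - δ ∈ I k' then 2 ^ zW S I δ k' p else 0) :=
          Finset.sum_congr rfl (fun p _ => zW_expand S I δ k p)
      _ = 2 ^ k + ∑ k' ∈ S.filter (fun x => x < k), ∑ p ∈ zblk k q,
            (if p / 2 ^ k' - δ ∈ I k' then 2 ^ zW S I δ k' p else 0) := by
          rw [Finset.sum_add_distrib, Finset.sum_comm, Finset.sum_const, card_zblk]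
          simp
      _ ≤ 2 ^ k + ∑ k' ∈ S.filter (fun x => x < k), ((S.filter (fun x => x < k)).card *
            ∑ p ∈ zblk k q, (if p / 2 ^ k' ∈ I k' then 1 else 0)) :=
          Nat.add_le_add_left (Finset.sum_le_sum h1) _
      _ = 2 ^ k + (S.filter (fun x => x < k)).card *
            ∑ p ∈ zblk k q, ∑ k' ∈ S.filter (fun x => x < k),
              (if p / 2 ^ k' ∈ I k' then 1 else 0) := by
          rw [← Finset.mul_sum, Finset.sum_comm]
      _ ≤ 2 ^ k + (S.filter (fun x => x < k)).card * ∑ p ∈ zblk k q, 1 := by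
          refine Nat.add_le_add_left (Nat.mul_le_mul_left _ (Finset.sum_le_sum (fun p _ => ?_))) _
          rw [← Finset.card_filter]
          rw [Finset.card_le_one]
          intro a ha b hb
          simp only [Finset.mem_filter] at ha hb
          exact hdisj a ha.1.1 b hb.1.1 p ha.2 hb.2
      _ = (1 + (S.filter (fun x => x < k)).card) * 2 ^ k := by
          rw [Finset.sum_const, card_zblk, smul_eq_mul, mul_one]
          ring

private theorem weight_bound (m : ℕ) (S : Finset ℕ) (hS : S.card ≤ m) (I : ℕ → Finset ℤ)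
    (hdisj : ∀ k ∈ S, ∀ k' ∈ S, ∀ p : ℤ, p / 2 ^ k ∈ I k → p / 2 ^ k' ∈ I k' → k = k')
    (δ : ℤ) (hδ : |δ| ≤ 1) (E : Finset ℤ) (l : ℕ) :
    ∑ p ∈ E, ((S.filter (fun k => p / 2 ^ k - δ ∈ I k)).card : ℝ) ≤
      l * E.card + m ^ 2 / 2 ^ l * ∑ k ∈ S, (I k).card * 2 ^ k := by
  -- total exponential sum
  have key : ∀ p : ℤ, 2 ^ (S.filter (fun k => p / 2 ^ k - δ ∈ I k)).card =
      1 + ∑ k ∈ S, (if p / 2 ^ k - δ ∈ I k then 2 ^ zW S I δ k p else 0) := by
    intro p
    rw [two_pow_card, ← Finset.sum_filter]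
    congr 1
    refine Finset.sum_congr rfl (fun k' hk' => ?_)
    unfold zW
    congr 2
    ext x
    simp only [Finset.mem_filter]
    tauto
  have hexp : ∑ p ∈ E, (2 ^ (S.filter (fun k => p / 2 ^ k - δ ∈ I k)).card - 1) ≤
      m * ∑ k ∈ S, (I k).card * 2 ^ k := by
    calc ∑ p ∈ E, (2 ^ (S.filter (fun k => p / 2 ^ k - δ ∈ I k)).card - 1)
        = ∑ p ∈ E, ∑ k ∈ S, (if p / 2 ^ k - δ ∈ I k then 2 ^ zW S I δ k p else 0) := by
          refine Finset.sum_congr rfl (fun p _ => ?_)
          rw [key p, Nat.add_sub_cancel_left]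
      _ = ∑ k ∈ S, ∑ p ∈ E, (if p / 2 ^ k - δ ∈ I k then 2 ^ zW S I δ k p else 0) :=
          Finset.sum_comm
      _ ≤ ∑ k ∈ S, m * ((I k).card * 2 ^ k) := by
          refine Finset.sum_le_sum (fun k hk => ?_)
          rw [← Finset.sum_filter]
          have hcard : 1 + (S.filter (fun x => x < k)).card ≤ m := by
            have hss : insert k (S.filter (fun x => x < k)) ⊆ S := by
              intro x hx
              rw [Finset.mem_insert, Finset.mem_filter] at hx
              rcases hx with h | h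
              · exact h ▸ hk
              · exact h.1
            have := Finset.card_le_card hss
            rw [Finset.card_insert_of_notMem (by simp)] at this
            omega
          calc ∑ p ∈ E.filter (fun p => p / 2 ^ k - δ ∈ I k), 2 ^ zW S I δ k p
              ≤ ∑ p ∈ (I k).biUnion (fun q => zblk k (q + δ)), 2 ^ zW S I δ k p := by
                refine Finset.sum_le_sum_of_subset ?_
                intro p hp
                rw [Finset.mem_filter] at hp
                rw [Finset.mem_biUnion]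
                exact ⟨_, hp.2, by rw [mem_zblk]; ring⟩
            _ = ∑ q ∈ I k, ∑ p ∈ zblk k (q + δ), 2 ^ zW S I δ k p := by
                refine Finset.sum_biUnion ?_
                intro a _ b _ hab
                rw [Function.onFun, Finset.disjoint_left]
                intro p hp hp'
                rw [mem_zblk] at hp hp'
                exact hab (by rw [hp] at hp'; linarith)
            _ ≤ ∑ q ∈ I k, m * 2 ^ k := by
                refine Finset.sum_le_sum (fun q hq => ?_)
                refine (main_claim S I hdisj δ hδ k hk (q + δ) ?_).trans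
                  (Nat.mul_le_mul_right _ hcard)
                rwa [add_sub_cancel_right]
            _ = m * ((I k).card * 2 ^ k) := by
                rw [Finset.sum_const, smul_eq_mul]; ring
      _ = m * ∑ k ∈ S, (I k).card * 2 ^ k := by rw [Finset.mul_sum]
  -- pointwise
  have hpt : ∀ p : ℤ, ((S.filter (fun k => p / 2 ^ k - δ ∈ I k)).card : ℝ) ≤
      l + m / 2 ^ l * ((2 ^ (S.filter (fun k => p / 2 ^ k - δ ∈ I k)).card - 1 : ℕ) : ℝ) := by
    intro p
    set w := (S.filter (fun k => p / 2 ^ k - δ ∈ I k)).card with hw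
    have hwm : w ≤ m := (Finset.card_le_card (Finset.filter_subset _ _)).trans hS
    rcases Nat.lt_or_ge l w with h | h
    · have h1 : 2 ^ l ≤ 2 ^ w - 1 := by
        have a1 : 2 ^ (l + 1) ≤ 2 ^ w := Nat.pow_le_pow_right (by norm_num) h
        have a2 : 0 < 2 ^ l := by positivity
        rw [pow_succ] at a1
        omega
      have h2 : (2 : ℝ) ^ l ≤ ((2 ^ w - 1 : ℕ) : ℝ) := by exact_mod_cast h1
      have h3 : (0 : ℝ) < 2 ^ l := by positivity
      have h4 : (m : ℝ) ≤ m / 2 ^ l * ((2 ^ w - 1 : ℕ) : ℝ) := by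
        rw [div_mul_eq_mul_div, le_div_iff₀ h3]
        exact mul_le_mul_of_nonneg_left h2 (Nat.cast_nonneg _)
      have h5 : (w : ℝ) ≤ m := by exact_mod_cast hwm
      have h6 : (0 : ℝ) ≤ l := Nat.cast_nonneg _
      linarith
    · have h5 : (w : ℝ) ≤ l := by exact_mod_cast h
      have h6 : 0 ≤ (m : ℝ) / 2 ^ l * ((2 ^ w - 1 : ℕ) : ℝ) := by positivity
      linarith
  calc ∑ p ∈ E, ((S.filter (fun k => p / 2 ^ k - δ ∈ I k)).card : ℝ)
      ≤ ∑ p ∈ E, (l + m / 2 ^ l *
          ((2 ^ (S.filter (fun k => p / 2 ^ k - δ ∈ I k)).card - 1 : ℕ) : ℝ)) :=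
        Finset.sum_le_sum (fun p _ => hpt p)
    _ = l * E.card + m / 2 ^ l *
          ((∑ p ∈ E, (2 ^ (S.filter (fun k => p / 2 ^ k - δ ∈ I k)).card - 1) : ℕ) : ℝ) := by
        rw [Finset.sum_add_distrib, ← Finset.mul_sum, Finset.sum_const, nsmul_eq_mul,
          Nat.cast_sum, mul_comm (E.card : ℝ)]
    _ ≤ l * E.card + m / 2 ^ l * ((m * ∑ k ∈ S, (I k).card * 2 ^ k : ℕ) : ℝ) := by
        have : ((∑ p ∈ E, (2 ^ (S.filter (fun k => p / 2 ^ k - δ ∈ I k)).card - 1) : ℕ) : ℝ) ≤
            ((m * ∑ k ∈ S, (I k).card * 2 ^ k : ℕ) : ℝ) := Nat.cast_le.mpr hexp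
        have h0 : (0 : ℝ) ≤ m / 2 ^ l := by positivity
        nlinarith [mul_le_mul_of_nonneg_left this h0]
    _ = l * E.card + m ^ 2 / 2 ^ l * ∑ k ∈ S, (I k).card * 2 ^ k := by
        push_cast
        ring

/-- One dimensional packing lemma. I k is the set of indices q of the intervals
[q 2^k, (q+1) 2^k) of scale k, k ∈ S; all these intervals are pairwise disjoint. Then the
tripled intervals cover a set E at most (1 + 2 l) |E| + (2 m^2 / 2^l) |union| times. -/
theorem pack1D (m : ℕ) (S : Finset ℕ) (hS : S.card ≤ m) (I : ℕ → Finset ℤ)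
    (hdisj : ∀ k ∈ S, ∀ k' ∈ S, ∀ p : ℤ, p / 2 ^ k ∈ I k → p / 2 ^ k' ∈ I k' → k = k')
    (E : Finset ℤ) (l : ℕ) :
    ∑ k ∈ S, ∑ q ∈ I k, ∑ p ∈ E, (if |p / 2 ^ k - q| ≤ 1 then (1 : ℝ) else 0) ≤
      (1 + 2 * l) * E.card + 2 * m ^ 2 / 2 ^ l * ∑ k ∈ S, (I k).card * 2 ^ k := by
  have h1 : ∑ k ∈ S, ∑ q ∈ I k, ∑ p ∈ E, (if |p / 2 ^ k - q| ≤ 1 then (1 : ℝ) else 0) =
      ∑ p ∈ E, ((S.filter (fun k => p / 2 ^ k - 0 ∈ I k)).card : ℝ) +
      ∑ p ∈ E, ((S.filter (fun k => p / 2 ^ k - 1 ∈ I k)).card : ℝ) +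
      ∑ p ∈ E, ((S.filter (fun k => p / 2 ^ k - (-1) ∈ I k)).card : ℝ) := by
    have hq : ∀ (k : ℕ) (p : ℤ), ∑ q ∈ I k, (if |p / 2 ^ k - q| ≤ 1 then (1 : ℝ) else 0) =
        (if p / 2 ^ k - 0 ∈ I k then (1 : ℝ) else 0) +
        (if p / 2 ^ k - 1 ∈ I k then (1 : ℝ) else 0) +
        (if p / 2 ^ k - (-1) ∈ I k then (1 : ℝ) else 0) := by
      intro k p
      have : ∀ q ∈ I k, (if |p / 2 ^ k - q| ≤ 1 then (1 : ℝ) else 0) =
          (if q = p / 2 ^ k - 0 then (1 : ℝ) else 0) +
          (if q = p / 2 ^ k - 1 then (1 : ℝ) else 0) +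
          (if q = p / 2 ^ k - (-1) then (1 : ℝ) else 0) := by
        intro q _
        by_cases h0 : q = p / 2 ^ k - 0
        · rw [if_pos (by rw [h0]; simp), if_pos h0, if_neg (by omega), if_neg (by omega)]
          norm_num
        by_cases h1 : q = p / 2 ^ k - 1
        · rw [if_pos (by rw [h1]; simp), if_neg h0, if_pos h1, if_neg (by omega)]
          norm_num
        by_cases h2 : q = p / 2 ^ k - (-1)
        · rw [if_pos (by rw [h2]; simp), if_neg h0, if_neg h1, if_pos h2]
          norm_num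
        rw [if_neg, if_neg h0, if_neg h1, if_neg h2]
        · norm_num
        · intro habs
          rw [abs_le] at habs
          omega
      rw [Finset.sum_congr rfl this, Finset.sum_add_distrib, Finset.sum_add_distrib,
        Finset.sum_ite_eq', Finset.sum_ite_eq', Finset.sum_ite_eq']
    have hc : ∀ (δ : ℤ), ∑ p ∈ E, ((S.filter (fun k => p / 2 ^ k - δ ∈ I k)).card : ℝ) =
        ∑ k ∈ S, ∑ p ∈ E, (if p / 2 ^ k - δ ∈ I k then (1 : ℝ) else 0) := by
      intro δ
      rw [Finset.sum_comm]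
      refine Finset.sum_congr rfl (fun p _ => ?_)
      rw [Finset.sum_boole]
    rw [hc, hc, hc, ← Finset.sum_add_distrib, ← Finset.sum_add_distrib]
    refine Finset.sum_congr rfl (fun k _ => ?_)
    rw [Finset.sum_comm, ← Finset.sum_add_distrib, ← Finset.sum_add_distrib]
    exact Finset.sum_congr rfl (fun p _ => hq k p)
  have h0 : ∑ p ∈ E, ((S.filter (fun k => p / 2 ^ k - 0 ∈ I k)).card : ℝ) ≤ E.card := by
    calc ∑ p ∈ E, ((S.filter (fun k => p / 2 ^ k - 0 ∈ I k)).card : ℝ)
        ≤ ∑ p ∈ E, (1 : ℝ) := by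
          refine Finset.sum_le_sum (fun p _ => ?_)
          have : (S.filter (fun k => p / 2 ^ k - 0 ∈ I k)).card ≤ 1 := by
            rw [Finset.card_le_one]
            intro a ha b hb
            rw [Finset.mem_filter, sub_zero] at ha hb
            exact hdisj a ha.1 b hb.1 p ha.2 hb.2
          exact_mod_cast this
      _ = E.card := by simp
  have hw1 := weight_bound m S hS I hdisj 1 (by norm_num) E l
  have hw2 := weight_bound m S hS I hdisj (-1) (by norm_num) E l
  rw [h1]
  have : (1 + 2 * (l : ℝ)) * E.card + 2 * m ^ 2 / 2 ^ l * ∑ k ∈ S, (I k).card * 2 ^ k =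
      E.card + (l * E.card + m ^ 2 / 2 ^ l * ∑ k ∈ S, (I k).card * 2 ^ k) +
      (l * E.card + m ^ 2 / 2 ^ l * ∑ k ∈ S, (I k).card * 2 ^ k) := by ring
  linarith

end Vale.Agent.P075
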