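import Vale.Agent.P075.ZLemmaU

namespace Vale.Agent.P075

open Finset Matrix

section

variable {N : ℕ}

def ZPropA_Win (J : ℕ) (s : ℤ) (x y₀ z : G N) : Prop :=
  s - und x - ((und y₀ / 2 ^ J : ℕ) : ℤ) * 2 ^ J - 2 * 2 ^ J < und z ∧
    (und z : ℤ) < s - und x - ((und y₀ / 2 ^ J : ℕ) : ℤ) * 2 ^ J + 2 ^ J

instance (J : ℕ) (s : ℤ) (x y₀ z : G N) : Decidable (ZPropA_Win J s x y₀ z) := by
  unfold ZPropA_Win; infer_instance

theorem ZPropA_zero {j : ℕ} (hj : j ≤ N) {s : ℤ} {σ : ℕ → ℝ} (hσj : ∀ i < j, σ i = 0)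
    (F : G N → G N → ℝ) {x y y₀ z : G N} (hy : Low j (y + y₀))
    (h : ¬ ZPropA_Win (N - j) s x y₀ z) : WmR s σ F x y z = 0 := by
  simp only [WmR, of_apply]
  rw [Finset.sum_eq_zero, mul_zero]
  intro i _
  by_cases hi : i < j
  · rw [hσj i hi, zero_mul]
  · rw [rhoZ_support, mul_zero]
    have hp : (2 : ℤ) ^ (N - i) ≤ 2 ^ (N - j) := pow_le_pow_right₀ (by norm_num) (by omega)
    refine hp.trans ?_
    rw [Low_und hj] at hy
    have hB : 0 < 2 ^ (N - j) := by positivity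
    have h3 : und y / 2 ^ (N - j) * 2 ^ (N - j) ≤ und y := Nat.div_mul_le_self _ _
    have h4 : und y < (und y / 2 ^ (N - j) + 1) * 2 ^ (N - j) := by
      have := Nat.lt_mul_div_succ (und y) hB
      linarith
    rw [hy] at h3 h4
    have h3' : ((und y₀ / 2 ^ (N - j) : ℕ) : ℤ) * 2 ^ (N - j) ≤ und y := by exact_mod_cast h3
    have h4' : (und y : ℤ) < (((und y₀ / 2 ^ (N - j) : ℕ) : ℤ) + 1) * 2 ^ (N - j) := by
      exact_mod_cast h4
    by_contra hlt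
    rw [not_le, abs_lt] at hlt
    apply h
    unfold ZPropA_Win
    constructor
    · linarith [hlt.1]
    · linarith [hlt.2]

theorem ZPropA_count {j : ℕ} (s : ℤ) (x z : G N) :
    ∑ y₀ : G N, (if ZPropA_Win (N - j) s x y₀ z then (1 : ℝ) else 0) ≤ 3 * 2 ^ (N - j) := by
  obtain ⟨B, hB⟩ : ∃ B : ℕ, B = 2 ^ (N - j) := ⟨_, rfl⟩
  have hB0 : 0 < B := by rw [hB]; positivity
  have hBz : (2 : ℤ) ^ (N - j) = B := by rw [hB]; push_cast; rfl
  obtain ⟨c, hc⟩ : ∃ c : ℤ, c = s - und x - und z := ⟨_, rfl⟩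
  obtain ⟨q, hq⟩ : ∃ q : ℤ, q = c / B := ⟨_, rfl⟩
  have hq1 : q * B ≤ c := by
    rw [hq]; exact Int.ediv_mul_le c (by omega)
  have hq2 : c < (q + 1) * B := by
    rw [hq]; exact Int.lt_ediv_add_one_mul_self c (by omega)
  rw [← Finset.sum_filter, Finset.sum_const, nsmul_eq_mul, mul_one]
  have hcard : (univ.filter (fun y₀ : G N => ZPropA_Win (N - j) s x y₀ z)).card ≤
      (Finset.Ico ((q - 1) * B) ((q - 1) * B + 3 * B)).card := by
    refine Finset.card_le_card_of_injOn (fun y₀ => (und y₀ : ℤ)) ?_ ?_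
    · intro y₀ hy₀
      have hy : ZPropA_Win (N - j) s x y₀ z := by simpa using hy₀
      obtain ⟨h1, h2⟩ := hy
      rw [hBz, ← hB] at h1 h2
      obtain ⟨p, hp⟩ : ∃ p : ℕ, p = und y₀ / B := ⟨_, rfl⟩
      rw [← hp] at h1 h2
      have h3 : p * B ≤ und y₀ := by rw [hp]; exact Nat.div_mul_le_self _ _
      have h4 : und y₀ < (p + 1) * B := by
        have := Nat.lt_mul_div_succ (und y₀) hB0
        rw [← hp] at this
        linarith
      have h3' : (p : ℤ) * B ≤ und y₀ := by exact_mod_cast h3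
      have h4' : (und y₀ : ℤ) < ((p : ℤ) + 1) * B := by exact_mod_cast h4
      have hBp : (0 : ℤ) < B := by exact_mod_cast hB0
      have h5 : (q - 2) * B < p * B := by linarith
      have h6 : (p : ℤ) * B < (q + 2) * B := by linarith
      have h7 : q - 2 < p := lt_of_mul_lt_mul_right h5 hBp.le
      have h8 : (p : ℤ) < q + 2 := lt_of_mul_lt_mul_right h6 hBp.le
      have h9 : (q - 1) * B ≤ p * B := mul_le_mul_of_nonneg_right (by omega) hBp.le
      have h10 : ((p : ℤ) + 1) * B ≤ (q + 2) * B := mul_le_mul_of_nonneg_right (by omega) hBp.le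
      simp only [coe_Ico, Set.mem_Ico]
      constructor <;> linarith
    · intro a _ b _ hab
      apply und_injective
      simpa using hab
  rw [Int.card_Ico] at hcard
  have h3 : ((q - 1) * B + 3 * B - (q - 1) * B : ℤ).toNat = 3 * B := by
    have : ((q - 1) * B + 3 * B - (q - 1) * B : ℤ) = ((3 * B : ℕ) : ℤ) := by push_cast; ring
    rw [this, Int.toNat_natCast]
  rw [h3, hB] at hcard
  exact_mod_cast hcard

theorem ZPropA_cell_quad {j : ℕ} (hj : j ≤ N) {s : ℤ} {σ : ℕ → ℝ} (hσj : ∀ i < j, σ i = 0)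
    (F : G N → G N → ℝ)
    (Φ : Matrix (G N) (G N) ℝ) (x y₀ : G N) (h : G N → ℝ) :
    (WmR s σ F x *ᵥ h) ⬝ᵥ (blk j Φ y₀ *ᵥ (WmR s σ F x *ᵥ h)) =
      (fun z => if ZPropA_Win (N - j) s x y₀ z then h z else 0) ⬝ᵥ
        (((WmR s σ F x)ᵀ * blk j Φ y₀ * (WmR s σ F x)) *ᵥ
          (fun z => if ZPropA_Win (N - j) s x y₀ z then h z else 0)) := by
  set h' : G N → ℝ := fun z => if ZPropA_Win (N - j) s x y₀ z then h z else 0 with hh'
  have e1 : (WmR s σ F x *ᵥ h) ⬝ᵥ (blk j Φ y₀ *ᵥ (WmR s σ F x *ᵥ h)) =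
      (WmR s σ F x *ᵥ h') ⬝ᵥ (blk j Φ y₀ *ᵥ (WmR s σ F x *ᵥ h')) := by
    refine blk_dot_congr Φ y₀ fun y hy => ?_
    simp only [mulVec, dotProduct]
    refine Finset.sum_congr rfl fun z _ => ?_
    by_cases hz : ZPropA_Win (N - j) s x y₀ z
    · rw [hh']
      simp only [hz, if_true]
    · rw [ZPropA_zero hj hσj F hy hz]; ring
  rw [e1, ← mulVec_mulVec, ← mulVec_mulVec, mulVec_transpose, dotProduct_comm h',
    ← dotProduct_mulVec, dotProduct_comm]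

theorem ZPropA_good_quad {j : ℕ} (hj : j ≤ N) (k : ℕ) {s : ℤ} {σ : ℕ → ℝ}
    (hσj : ∀ i < j, σ i = 0) (F : G N → G N → ℝ)
    {Φ : Matrix (G N) (G N) ℝ} (hΦ : Φ.PosSemidef) (x y₀ : G N) (h : G N → ℝ)
    (hW : trace (((WmR s σ F x)ᵀ * blk j Φ y₀ * (WmR s σ F x)) ^ (2 ^ k)) ≤
      (2 * Ck k ^ 2) ^ (2 ^ (k + 1))) :
    (WmR s σ F x *ᵥ h) ⬝ᵥ (blk j Φ y₀ *ᵥ (WmR s σ F x *ᵥ h)) ≤
      (2 * Ck k ^ 2) ^ 2 * ∑ z ∈ univ.filter (fun z => ZPropA_Win (N - j) s x y₀ z), h z ^ 2 := by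
  have hC := Ck_pos' k
  have hpsd : ((WmR s σ F x)ᵀ * blk j Φ y₀ * (WmR s σ F x)).PosSemidef := by
    have := (blk_psd j hΦ y₀).conjTranspose_mul_mul_same (WmR s σ F x)
    rwa [conjTranspose_eq_transpose_of_trivial] at this
  have hsum : (fun z => if ZPropA_Win (N - j) s x y₀ z then h z else 0) ⬝ᵥ
      (fun z => if ZPropA_Win (N - j) s x y₀ z then h z else 0) =
      ∑ z ∈ univ.filter (fun z => ZPropA_Win (N - j) s x y₀ z), h z ^ 2 := by
    rw [Finset.sum_filter]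
    simp only [dotProduct]
    refine Finset.sum_congr rfl fun z _ => ?_
    split_ifs <;> ring
  rw [ZPropA_cell_quad hj hσj]
  have h0 : 0 ≤ ∑ z ∈ univ.filter (fun z => ZPropA_Win (N - j) s x y₀ z), h z ^ 2 :=
    Finset.sum_nonneg fun _ _ => sq_nonneg _
  refine le_of_pow_le_pow_left₀ (n := 2 ^ k) (by positivity) (by positivity) ?_
  refine (quad_pow k _ hpsd).trans ?_
  rw [hsum]
  refine (mul_le_mul_of_nonneg_left hW (pow_nonneg h0 _)).trans (le_of_eq ?_)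
  rw [mul_pow ((2 * Ck k ^ 2) ^ 2), ← pow_mul (2 * Ck k ^ 2) 2, ← pow_succ', mul_comm]

theorem ZPropA_wg_bound {j : ℕ} (hj : j ≤ N) (s : ℤ) {Φ : Matrix (G N) (G N) ℝ}
    (hblock : ∀ y y', ¬ Low j (y + y') → Φ y y' = 0) (P : G N → Prop) [DecidablePred P]
    (hP : ∀ y y', Low j (y + y') → (P y ↔ P y')) (w h : G N → ℝ) (x : G N) (c : ℝ) (hc : 0 ≤ c)
    (hb : ∀ y₀, P y₀ → w ⬝ᵥ (blk j Φ y₀ *ᵥ w) ≤
      c * ∑ z ∈ univ.filter (fun z => ZPropA_Win (N - j) s x y₀ z), h z ^ 2) :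
    (fun y => if P y then w y else 0) ⬝ᵥ (Φ *ᵥ (fun y => if P y then w y else 0)) ≤
      c * (3 * ∑ z, h z ^ 2) := by
  set g : G N → ℝ := fun y => if P y then w y else 0 with hg
  have hpos : (0 : ℝ) < 2 ^ (N - j) := by positivity
  refine le_of_mul_le_mul_left ?_ hpos
  have e1 : 2 ^ (N - j) * (g ⬝ᵥ (Φ *ᵥ g)) = ∑ y₀, g ⬝ᵥ (blk j Φ y₀ *ᵥ g) := by
    simp only [dotProduct, mulVec]
    rw [Finset.sum_comm, Finset.mul_sum]
    refine Finset.sum_congr rfl fun y _ => ?_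
    rw [← Finset.mul_sum, Finset.sum_comm, mul_left_comm, Finset.mul_sum]
    congr 1
    refine Finset.sum_congr rfl fun y' _ => ?_
    rw [← Finset.sum_mul, sum_blk hj hblock]
    ring
  rw [e1]
  have e2 : ∀ y₀, g ⬝ᵥ (blk j Φ y₀ *ᵥ g) ≤
      c * ∑ z ∈ univ.filter (fun z => ZPropA_Win (N - j) s x y₀ z), h z ^ 2 := by
    intro y₀
    by_cases hy : P y₀
    · have : g ⬝ᵥ (blk j Φ y₀ *ᵥ g) = w ⬝ᵥ (blk j Φ y₀ *ᵥ w) := by
        refine blk_dot_congr Φ y₀ fun y hyy => ?_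
        rw [hg]
        simp only
        rw [if_pos ((hP y y₀ hyy).2 hy)]
      rw [this]
      exact hb y₀ hy
    · have : g ⬝ᵥ (blk j Φ y₀ *ᵥ g) = (fun _ => (0 : ℝ)) ⬝ᵥ (blk j Φ y₀ *ᵥ (fun _ => 0)) := by
        refine blk_dot_congr Φ y₀ fun y hyy => ?_
        rw [hg]
        simp only
        rw [if_neg (fun h' => hy ((hP y y₀ hyy).1 h'))]
      rw [this]
      have h0 : (fun _ : G N => (0 : ℝ)) ⬝ᵥ (blk j Φ y₀ *ᵥ (fun _ => 0)) = 0 := by
        simp [dotProduct]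
      rw [h0]
      exact mul_nonneg hc (Finset.sum_nonneg fun _ _ => sq_nonneg _)
  refine (Finset.sum_le_sum fun y₀ _ => e2 y₀).trans ?_
  rw [← Finset.mul_sum, mul_left_comm]
  refine mul_le_mul_of_nonneg_left ?_ hc
  have e3 : ∑ y₀, ∑ z ∈ univ.filter (fun z : G N => ZPropA_Win (N - j) s x y₀ z), h z ^ 2 =
      ∑ z, (∑ y₀ : G N, if ZPropA_Win (N - j) s x y₀ z then (1 : ℝ) else 0) * h z ^ 2 := by
    simp only [Finset.sum_filter]
    rw [Finset.sum_comm]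
    refine Finset.sum_congr rfl fun z _ => ?_
    rw [Finset.sum_mul]
    refine Finset.sum_congr rfl fun y₀ _ => ?_
    split_ifs <;> ring
  rw [e3]
  refine (Finset.sum_le_sum fun z _ => mul_le_mul_of_nonneg_right
    (ZPropA_count (j := j) s x z) (sq_nonneg _)).trans (le_of_eq ?_)
  rw [← Finset.mul_sum]
  ring

theorem ZPropA_LamR {T : Finset ℕ} (hT : ∀ i ∈ T, i < N - 1) (s : ℤ) (ε : ℕ → ℝ)
    (g F h : G N → G N → ℝ) :
    ∑ i ∈ T, ε i * LamR s i g F h =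
      ∑ x, (g x) ⬝ᵥ (WmR s (fun i => if i ∈ T then ε i else 0) F x *ᵥ (fun z => h z x)) := by
  have e : ∀ x y z : G N, WmR s (fun i => if i ∈ T then ε i else 0) F x y z =
      F y z * ∑ i ∈ T, ε i * rhoZ (N - i) ((und x : ℤ) + und y + und z - s) := by
    intro x y z
    simp only [WmR, of_apply]
    rw [sum_sigma hT ε (fun i => rhoZ (N - i) ((und x : ℤ) + und y + und z - s))]
  simp only [dotProduct, mulVec, e]
  unfold LamR
  simp only [Finset.mul_sum, Finset.sum_mul]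
  rw [Finset.sum_comm]
  refine Finset.sum_congr rfl fun x _ => ?_
  rw [Finset.sum_comm]
  refine Finset.sum_congr rfl fun y _ => ?_
  rw [Finset.sum_comm]
  refine Finset.sum_congr rfl fun z _ => ?_
  refine Finset.sum_congr rfl fun i _ => ?_
  ring

theorem ZPropA_w_bound {T : Finset ℕ} (hT : ∀ i ∈ T, i < N - 1) (s : ℤ) (ε : ℕ → ℝ)
    (hε : ∀ i, ε i = 1 ∨ ε i = -1)
    (F h : G N → G N → ℝ) (hF : ∀ y z, |F y z| ≤ 1) (B : ℝ) (hh : ∀ z x, |h z x| ≤ B)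
    (x y : G N) :
    |(WmR s (fun i => if i ∈ T then ε i else 0) F x *ᵥ (fun z => h z x)) y| ≤
      T.card * (2 * B) := by
  have hB : 0 ≤ B := (abs_nonneg _).trans (hh x x)
  have e : ∀ z : G N, WmR s (fun i => if i ∈ T then ε i else 0) F x y z =
      F y z * ∑ i ∈ T, ε i * rhoZ (N - i) ((und z : ℤ) + (und x + und y - s)) := by
    intro z
    simp only [WmR, of_apply]
    have e0 : (und x : ℤ) + und y + und z - s = und z + (und x + und y - s) := by ring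
    rw [sum_sigma hT ε (fun i => rhoZ (N - i) ((und x : ℤ) + und y + und z - s)), e0]
  simp only [mulVec, dotProduct, e]
  have e1 : ∀ z : G N, |F y z * (∑ i ∈ T, ε i * rhoZ (N - i) ((und z : ℤ) + (und x + und y - s))) *
      h z x| ≤ ∑ i ∈ T, |rhoZ (N - i) ((und z : ℤ) + (und x + und y - s))| * B := by
    intro z
    rw [abs_mul, abs_mul, ← Finset.sum_mul]
    have h2 : |∑ i ∈ T, ε i * rhoZ (N - i) ((und z : ℤ) + (und x + und y - s))| ≤
        ∑ i ∈ T, |rhoZ (N - i) ((und z : ℤ) + (und x + und y - s))| := by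
      refine (Finset.abs_sum_le_sum_abs _ _).trans (le_of_eq ?_)
      refine Finset.sum_congr rfl fun i _ => ?_
      have : |ε i| = 1 := by
        rcases hε i with h | h <;> rw [h] <;> simp
      rw [abs_mul, this, one_mul]
    have h3 : |F y z| * |∑ i ∈ T, ε i * rhoZ (N - i) ((und z : ℤ) + (und x + und y - s))| ≤
        ∑ i ∈ T, |rhoZ (N - i) ((und z : ℤ) + (und x + und y - s))| := by
      calc |F y z| * |∑ i ∈ T, ε i * rhoZ (N - i) ((und z : ℤ) + (und x + und y - s))| ≤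
          1 * ∑ i ∈ T, |rhoZ (N - i) ((und z : ℤ) + (und x + und y - s))| :=
            mul_le_mul (hF y z) h2 (abs_nonneg _) zero_le_one
        _ = _ := one_mul _
    exact mul_le_mul h3 (hh z x) (abs_nonneg _) (Finset.sum_nonneg fun _ _ => abs_nonneg _)
  refine (Finset.abs_sum_le_sum_abs _ _).trans ((Finset.sum_le_sum fun z _ => e1 z).trans ?_)
  rw [Finset.sum_comm]
  have e2 : ∀ i ∈ T, ∑ z : G N, |rhoZ (N - i) ((und z : ℤ) + (und x + und y - s))| * B ≤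
      2 * B := by
    intro i hi
    rw [← Finset.sum_mul]
    exact mul_le_mul_of_nonneg_right (sum_abs_rhoZ _ _) hB
  refine (Finset.sum_le_sum e2).trans (le_of_eq ?_)
  rw [Finset.sum_const, nsmul_eq_mul]

end

theorem propAR {N : ℕ} (s : ℤ) (k j : ℕ) (hj : j ≤ N) (T : Finset ℕ)
    (hT : ∀ i ∈ T, j ≤ i ∧ i + 2 ≤ N)
    (ε : ℕ → ℝ) (hε : ∀ i, ε i = 1 ∨ ε i = -1)
    (F : G N → G N → ℝ) (hF : ∀ y z, |F y z| ≤ 1)
    (Φ D : G N → Matrix (G N) (G N) ℝ)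
    (hΦ : ∀ x, (Φ x).PosSemidef) (hΦ1 : ∀ x, (1 - Φ x).PosSemidef)
    (hblock : ∀ x y y', ¬ Low j (y + y') → Φ x y y' = 0)
    (hcoset : ∀ x x', Low j (x + x') → Φ x = Φ x')
    (n : ℝ) (htr : ∀ x y₀, ∑ y ∈ univ.filter (fun y => Low j (y + y₀)), Φ x y y ≤ n)
    (hD : ∀ x, (D x).PosSemidef) (hDΦ : ∀ x, (Φ x - D x).PosSemidef)
    (f h : G N → G N → ℝ) (B : ℝ) (hB : 0 ≤ B) (hg : ∀ x y, |(D x *ᵥ f x) y| ≤ B)
    (hh : ∀ z x, |h z x| ≤ B) :
    |∑ i ∈ T, ε i * LamR s i (fun x y => (D x *ᵥ f x) y) F h| ≤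
      4 * Ck k ^ 2 * Real.sqrt (∑ x, (f x ⬝ᵥ (D x *ᵥ f x))) * l2 h +
        8 * (T.card * B ^ 2 * n * 4 ^ N / 4 ^ (2 ^ k)) := by
  classical
  have hT' : ∀ i ∈ T, i < N - 1 := fun i hi => by have := (hT i hi).2; omega
  set σ : ℕ → ℝ := fun i => if i ∈ T then ε i else 0 with hσ
  have hσj : ∀ i < j, σ i = 0 := by
    intro i hi
    rw [hσ]
    simp only
    rw [if_neg (fun h => absurd (hT i h).1 (not_le.2 hi))]
  have hσ1 : ∀ i, σ i = 0 ∨ σ i = 1 ∨ σ i = -1 := by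
    intro i
    rw [hσ]
    simp only
    by_cases hi : i ∈ T
    · rw [if_pos hi]; exact Or.inr (hε i)
    · rw [if_neg hi]; exact Or.inl rfl
  have hCk := Ck_pos' k
  set t : G N → G N → ℝ := fun x y =>
    trace (((WmR s σ F x)ᵀ * blk j (Φ x) y * (WmR s σ F x)) ^ (2 ^ k)) with ht
  set thr : ℝ := (2 * Ck k ^ 2) ^ (2 ^ (k + 1)) with hthr
  have hthr0 : 0 < thr := by positivity
  have ht0 : ∀ x y, 0 ≤ t x y := by
    intro x y
    have := (blk_psd j (hΦ x) y).conjTranspose_mul_mul_same (WmR s σ F x)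
    rw [conjTranspose_eq_transpose_of_trivial] at this
    exact (this.pow _).trace_nonneg
  have htsum : ∀ x₀ y, ∑ x ∈ univ.filter (fun x => Low j (x + x₀)), t x y ≤
      (4 * (Ck k ^ 2) ^ (2 ^ (k + 1))) * 2 ^ (N - j) * n := by
    intro x₀ y
    have h1 := lemmaUR s k j hj σ hσ1 hσj F hF (blk j (Φ x₀) y) (blk_psd j (hΦ x₀) y)
      (one_sub_blk_psd j (hΦ1 x₀) y) x₀
    have h2 : ∑ x ∈ univ.filter (fun x => Low j (x + x₀)), t x y =
        ∑ x ∈ univ.filter (fun x => Low j (x + x₀)),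
          trace (((WmR s σ F x)ᵀ * blk j (Φ x₀) y * (WmR s σ F x)) ^ (2 ^ k)) := by
      refine Finset.sum_congr rfl fun x hx => ?_
      rw [ht]
      simp only
      rw [hcoset x x₀ (Finset.mem_filter.1 hx).2]
    rw [h2]
    refine h1.trans ?_
    have e0 : 4 * (Ck k ^ 2) ^ (2 ^ (k + 1)) * 2 ^ (N - j) * n =
        (Ck k ^ 2) ^ (2 ^ (k + 1)) * (4 * 2 ^ (N - j)) * n := by ring
    rw [e0]
    refine mul_le_mul_of_nonneg_left ?_ (by positivity)
    rw [trace_blk]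
    exact htr x₀ y
  have hbad := bad_count hj t ht0 thr (4 * (Ck k ^ 2) ^ (2 ^ (k + 1))) n hthr0 htsum
  have hratio : (4 * (Ck k ^ 2) ^ (2 ^ (k + 1))) / thr = 4 / 4 ^ (2 ^ k) := by
    rw [hthr, mul_pow 2 (Ck k ^ 2), pow_succ' 2 k, pow_mul 2 2 (2 ^ k)]
    norm_num
    field_simp
  rw [hratio] at hbad
  set w : G N → G N → ℝ := fun x y => (WmR s σ F x *ᵥ (fun z => h z x)) y with hw
  have hwB : ∀ x y, |w x y| ≤ T.card * (2 * B) :=
    fun x y => ZPropA_w_bound hT' s ε hε F h hF B hh x y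
  set wg : G N → G N → ℝ := fun x y => if t x y ≤ thr then w x y else 0 with hwg
  have hmain : ∑ i ∈ T, ε i * LamR s i (fun x y => (D x *ᵥ f x) y) F h =
      ∑ x, (D x *ᵥ f x) ⬝ᵥ w x := ZPropA_LamR hT' s ε _ F h
  have hsplit : ∑ x, (D x *ᵥ f x) ⬝ᵥ w x =
      ∑ x, (D x *ᵥ f x) ⬝ᵥ wg x + ∑ x, ∑ y, (D x *ᵥ f x) y * (if thr < t x y then w x y else 0) := by
    rw [← Finset.sum_add_distrib]
    refine Finset.sum_congr rfl fun x _ => ?_
    simp only [dotProduct]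
    rw [← Finset.sum_add_distrib]
    refine Finset.sum_congr rfl fun y _ => ?_
    rw [hwg]
    simp only
    by_cases hxy : t x y ≤ thr
    · rw [if_pos hxy, if_neg (not_lt.2 hxy)]; ring
    · rw [if_neg hxy, if_pos (not_le.1 hxy)]; ring
  have hbadsum : |∑ x, ∑ y, (D x *ᵥ f x) y * (if thr < t x y then w x y else 0)| ≤
      8 * (T.card * B ^ 2 * n * 4 ^ N / 4 ^ (2 ^ k)) := by
    have e1 : |∑ x, ∑ y, (D x *ᵥ f x) y * (if thr < t x y then w x y else 0)| ≤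
        ∑ x, ∑ y, (2 * T.card * B ^ 2) * (if thr < t x y then (1 : ℝ) else 0) := by
      refine (Finset.abs_sum_le_sum_abs _ _).trans (Finset.sum_le_sum fun x _ => ?_)
      refine (Finset.abs_sum_le_sum_abs _ _).trans (Finset.sum_le_sum fun y _ => ?_)
      rw [abs_mul]
      split_ifs
      · calc |(D x *ᵥ f x) y| * |w x y| ≤ B * (T.card * (2 * B)) :=
              mul_le_mul (hg x y) (hwB x y) (abs_nonneg _) hB
          _ = 2 * T.card * B ^ 2 * 1 := by ring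
      · simp
    refine e1.trans ?_
    simp only [← Finset.mul_sum]
    refine (mul_le_mul_of_nonneg_left hbad (by positivity)).trans (le_of_eq ?_)
    ring
  have hgood : |∑ x, (D x *ᵥ f x) ⬝ᵥ wg x| ≤
      4 * Ck k ^ 2 * Real.sqrt (∑ x, (f x ⬝ᵥ (D x *ᵥ f x))) * l2 h := by
    have e1 : ∀ x, |(D x *ᵥ f x) ⬝ᵥ wg x| ≤
        Real.sqrt (f x ⬝ᵥ (D x *ᵥ f x)) *
          Real.sqrt ((4 * Ck k ^ 2) ^ 2 * ∑ z, h z x ^ 2) := by
      intro x
      rw [symm_dot (psdA_symm (hD x)), ← Real.sqrt_mul (psdA_nonneg (hD x) (f x))]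
      refine Real.abs_le_sqrt ?_
      refine (psdA_cs (hD x) (f x) (wg x)).trans ?_
      refine mul_le_mul_of_nonneg_left ?_ (psdA_nonneg (hD x) (f x))
      have e2 : wg x ⬝ᵥ (D x *ᵥ wg x) ≤ wg x ⬝ᵥ (Φ x *ᵥ wg x) := by
        have := psdA_nonneg (hDΦ x) (wg x)
        rw [sub_mulVec, dotProduct_sub] at this
        linarith
      refine e2.trans ?_
      have hP : ∀ y y', Low j (y + y') → (t x y ≤ thr ↔ t x y' ≤ thr) := by
        intro y y' hyy
        rw [ht]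
        simp only
        rw [blk_congr j (Φ x) hyy]
      refine (ZPropA_wg_bound hj s (hblock x) (fun y => t x y ≤ thr) hP (w x) (fun z => h z x) x
        ((2 * Ck k ^ 2) ^ 2) (by positivity)
        (fun y₀ hy₀ => ZPropA_good_quad hj k hσj F (hΦ x) x y₀ (fun z => h z x) hy₀)).trans ?_
      have h0 : 0 ≤ (Ck k ^ 2) ^ 2 * ∑ z, h z x ^ 2 := by positivity
      calc (2 * Ck k ^ 2) ^ 2 * (3 * ∑ z, h z x ^ 2)
          = 12 * ((Ck k ^ 2) ^ 2 * ∑ z, h z x ^ 2) := by ring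
        _ ≤ 16 * ((Ck k ^ 2) ^ 2 * ∑ z, h z x ^ 2) := by linarith
        _ = _ := by ring
    refine (Finset.abs_sum_le_sum_abs _ _).trans ((Finset.sum_le_sum fun x _ => e1 x).trans ?_)
    refine (Real.sum_sqrt_mul_sqrt_le _ (fun x => psdA_nonneg (hD x) (f x))
      (fun x => by positivity)).trans (le_of_eq ?_)
    rw [← Finset.mul_sum, Real.sqrt_mul (by positivity), Real.sqrt_sq (by positivity)]
    unfold l2
    rw [Finset.sum_comm (f := fun x z => h z x ^ 2)]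
    ring
  rw [hmain, hsplit]
  exact (abs_add_le _ _).trans (add_le_add hgood hbadsum)

end Vale.Agent.P075
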